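import Vale.Agent.P102.Defs

/-! Algebra lemma, second half: the finitely generated case. -/

open MeasureTheory ProbabilityTheory Filter Topology Set
open scoped ComplexConjugate

noncomputable section

namespace Vale.Agent.P102

theorem algb_ratio {ρ : ℝ} (h0 : 0 < ρ) (h1 : ρ ≠ 1) : ∃ r : ℝ, 0 ≤ r ∧ r < 1 ∧
    ∀ (k : ℤ) (G : ℕ), (G : ℤ) ≤ |k| → ρ ^ k ≤ 1 → ρ ^ k ≤ r ^ G := by
  rcases lt_or_gt_of_ne h1 with h | h
  · refine ⟨ρ, h0.le, h, fun k G hG hk => ?_⟩
    rw [abs_of_nonneg ((zpow_le_one_iff_right_of_lt_one₀ h0 h).1 hk)] at hG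
    rw [← zpow_natCast]
    exact zpow_le_zpow_right_of_le_one₀ h0 h.le hG
  · refine ⟨ρ⁻¹, (inv_pos.2 h0).le, inv_lt_one_of_one_lt₀ h, fun k G hG hk => ?_⟩
    rw [abs_of_nonpos ((zpow_le_one_iff_right₀ h).1 hk)] at hG
    rw [inv_pow, ← zpow_natCast, ← zpow_neg]
    exact zpow_le_zpow_right₀ h.le (by omega)

theorem algb_sep (ι : Type) (G : ℕ) :
    ∀ᶠ e in sepF ι, ∀ i j, i ≠ j → (G : ℤ) ≤ |e i - e j| :=
  mem_iInf_of_mem G (mem_principal_self _)

/-- Domination: if `‖lam‖ ≠ 1`, `lam ≠ 0`, and the exponential sum vanishes frequently along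
`sepF ι`, then all coefficients vanish (among the indices with `c l ≠ 0` take the one with the
largest, or smallest, exponent). -/
theorem alg_dom {ι : Type} [Fintype ι] {lam : ℂ} (h0 : lam ≠ 0) (h1 : ‖lam‖ ≠ 1) (c : ι → ℂ)
    (h : ∃ᶠ e in sepF ι, ∑ l, lam ^ e l * c l = 0) (l : ι) : c l = 0 := by
  classical
  by_contra hl
  have ρ0 : 0 < ‖lam‖ := norm_pos_iff.2 h0
  obtain ⟨r, r0, r1, hr⟩ := algb_ratio ρ0 h1
  have ev : ∀ᶠ G : ℕ in atTop, ∀ i, c i ≠ 0 → r ^ G * ∑ j, ‖c j‖ < ‖c i‖ := by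
    refine eventually_all.2 fun i => ?_
    by_cases hi : c i = 0
    · exact Eventually.of_forall fun _ h => (h hi).elim
    · have t := (tendsto_pow_atTop_nhds_zero_of_lt_one r0 r1).mul_const (∑ j, ‖c j‖)
      rw [zero_mul] at t
      exact (t.eventually (gt_mem_nhds (norm_pos_iff.2 hi))).mono fun _ h _ => h
  obtain ⟨G, hG⟩ := ev.exists
  obtain ⟨e, he, hs⟩ := (h.and_eventually (algb_sep ι G)).exists
  obtain ⟨i, hi, hmax⟩ := (Finset.univ.filter fun j => c j ≠ 0).exists_max_image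
    (fun j => ‖lam‖ ^ e j) ⟨l, by simpa using hl⟩
  have hi0 : c i ≠ 0 := (Finset.mem_filter.1 hi).2
  have p0 : 0 < ‖lam‖ ^ e i := zpow_pos ρ0 _
  have key : ∀ j ∈ Finset.univ.erase i, ‖lam ^ e j * c j‖ ≤ ‖lam‖ ^ e i * (r ^ G * ‖c j‖) := by
    intro j hj
    by_cases hc : c j = 0
    · simp [hc]
    · have h2 := hmax j (by simpa using hc)
      have e1 : ‖lam‖ ^ e j = ‖lam‖ ^ e i * ‖lam‖ ^ (e j - e i) := by
        rw [← zpow_add₀ ρ0.ne', add_sub_cancel]
      have h3 : ‖lam‖ ^ (e j - e i) ≤ 1 := by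
        rw [e1] at h2
        exact (mul_le_iff_le_one_right p0).1 h2
      rw [norm_mul, norm_zpow, e1, mul_assoc]
      exact mul_le_mul_of_nonneg_left (mul_le_mul_of_nonneg_right
        (hr _ G (hs j i (Finset.ne_of_mem_erase hj)) h3) (norm_nonneg _)) p0.le
  rw [← Finset.add_sum_erase _ _ (Finset.mem_univ i), add_eq_zero_iff_eq_neg] at he
  have b1 : ‖lam‖ ^ e i * ‖c i‖ ≤ ‖lam‖ ^ e i * (r ^ G * ∑ j, ‖c j‖) := by
    rw [← norm_zpow, ← norm_mul, he, norm_neg, norm_zpow, Finset.mul_sum, Finset.mul_sum]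
    exact ((norm_sum_le _ _).trans (Finset.sum_le_sum key)).trans
      (Finset.sum_le_sum_of_subset_of_nonneg (Finset.erase_subset _ _) fun j _ _ => by positivity)
  exact (hG i hi0).not_ge (le_of_mul_le_mul_left b1 p0)

open Polynomial

theorem algb_eigen {K W : Type} [Field K] [AddCommGroup W] [Module K W] (F : Module.End K W)
    (s : Multiset K) (w : W) (hw : w ≠ 0) (h : aeval F (s.map fun a => X - C a).prod w = 0) :
    ∃ x ∈ s, ∃ v : W, v ≠ 0 ∧ F v = x • v := by
  induction s using Multiset.induction_on with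
  | empty => exact (hw (by simpa using h)).elim
  | cons a s ih =>
    by_cases h0 : aeval F (s.map fun a => X - C a).prod w = 0
    · obtain ⟨x, hx, H⟩ := ih h0
      exact ⟨x, Multiset.mem_cons_of_mem hx, H⟩
    · refine ⟨a, Multiset.mem_cons_self _ _, _, h0, ?_⟩
      rw [Multiset.map_cons, Multiset.prod_cons, map_mul, map_sub, aeval_X, aeval_C,
        Module.End.mul_apply, LinearMap.sub_apply, Module.algebraMap_end_apply, sub_eq_zero] at h
      exact h

section
variable {M K : Type} [AddCommGroup M] [Field K]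

theorem algb_pow {τ : Module.End ℤ M} {ψ : M →ₗ[ℤ] K} {x : K} (h : ∀ m, ψ (τ m) = x * ψ m)
    (n : ℕ) (m : M) : ψ ((τ ^ n) m) = x ^ n * ψ m := by
  induction n with
  | zero => simp
  | succ n ih => rw [pow_succ', Module.End.mul_apply, h, ih, pow_succ', mul_assoc]

theorem algb_zpow {σ : (Module.End ℤ M)ˣ} {ψ : M →ₗ[ℤ] K} {x : K} (hx : x ≠ 0)
    (h : ∀ m, ψ ((σ : Module.End ℤ M) m) = x * ψ m) (n : ℤ) (m : M) :
    ψ (((σ ^ n : (Module.End ℤ M)ˣ) : Module.End ℤ M) m) = x ^ n * ψ m := by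
  have h' : ∀ m, ψ (((σ⁻¹ : (Module.End ℤ M)ˣ) : Module.End ℤ M) m) = x⁻¹ * ψ m := fun m => by
    rw [eq_inv_mul_iff_mul_eq₀ hx, ← h, ← Module.End.mul_apply, Units.mul_inv,
      Module.End.one_apply]
  obtain ⟨k, rfl | rfl⟩ := n.eq_nat_or_neg
  · rw [zpow_natCast, zpow_natCast, Units.val_pow_eq_pow_val, algb_pow h]
  · rw [zpow_neg, zpow_neg, zpow_natCast, zpow_natCast, ← inv_pow, ← inv_pow,
      Units.val_pow_eq_pow_val, algb_pow h']

theorem algb_aeval (τ : Module.End ℤ M) (q : ℤ[X]) (w : M →ₗ[ℤ] K) (m : M) :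
    aeval (LinearMap.lcomp K K τ : Module.End K (M →ₗ[ℤ] K)) (q.map (algebraMap ℤ K)) w m =
      w (aeval τ q m) := by
  have hp : ∀ (n : ℕ) (w : M →ₗ[ℤ] K),
      ((LinearMap.lcomp K K τ : Module.End K (M →ₗ[ℤ] K)) ^ n) w m = w ((τ ^ n) m) := fun n => by
    induction n with
    | zero => exact fun _ => rfl
    | succ n ih =>
      intro w
      rw [pow_succ, Module.End.mul_apply, ih, pow_succ', Module.End.mul_apply]
      rfl
  induction q using Polynomial.induction_on' with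
  | add p q hp hq => simp only [Polynomial.map_add, map_add, LinearMap.add_apply, hp, hq]
  | monomial n a =>
    rw [map_monomial, aeval_monomial, aeval_monomial, Module.End.mul_apply, Module.End.mul_apply,
      Module.algebraMap_end_apply, Module.algebraMap_end_apply, LinearMap.smul_apply, hp, map_smul,
      Algebra.smul_def, Algebra.smul_def]
    rfl

theorem algb_coker [Module.Finite ℤ M] [CharZero K] {τ : Module.End ℤ M}
    (hτ : Function.Injective τ) {ψ : M →ₗ[ℤ] K} (h : ∀ m, ψ (τ m) = 0) (m : M) : ψ m = 0 := by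
  obtain ⟨p, hp, h0⟩ := LinearMap.exists_monic_and_aeval_eq_zero ℤ τ
  obtain ⟨q, hq, hd⟩ := exists_eq_pow_rootMultiplicity_mul_and_not_dvd p hp.ne_zero 0
  rw [C_0, sub_zero] at hq hd
  rw [X_dvd_iff] at hd
  have h1 : aeval τ q m = 0 := by
    have := LinearMap.congr_fun h0 m
    rw [hq, map_mul, map_pow, aeval_X, Module.End.mul_apply, LinearMap.zero_apply] at this
    have inj : Function.Injective (τ ^ p.rootMultiplicity 0 : Module.End ℤ M) := by
      rw [Module.End.coe_pow]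
      exact hτ.iterate _
    exact (injective_iff_map_eq_zero _).1 inj _ this
  have h2 := congrArg ψ h1
  rw [← X_mul_divX_add q, map_add, map_mul, aeval_X, aeval_C, LinearMap.add_apply,
    Module.End.mul_apply, map_add, h, zero_add, Module.algebraMap_end_apply, map_smul, map_zero,
    zsmul_eq_mul, mul_eq_zero] at h2
  exact h2.resolve_left (Int.cast_ne_zero.2 hd)

theorem algb_tf [Module.Finite ℤ M] (σ : (Module.End ℤ M)ˣ)
    (hinj : ∀ q : ℕ, 1 ≤ q → Function.Injective ((σ : Module.End ℤ M) ^ q - 1 : Module.End ℤ M))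
    {m : M} (hm : m ∈ Submodule.torsion ℤ M) : m = 0 := by
  have : Finite (Submodule.torsion ℤ M) :=
    Module.finite_of_fg_torsion _ Submodule.torsion_isTorsion
  have mem : ∀ n : ℕ, ((σ : Module.End ℤ M) ^ n) m ∈ Submodule.torsion ℤ M := fun n => by
    obtain ⟨a, ha⟩ := (Submodule.mem_torsion_iff m).1 hm
    refine (Submodule.mem_torsion_iff _).2 ⟨a, ?_⟩
    rw [Submonoid.smul_def] at ha ⊢
    rw [← map_smul, ha, map_zero]
  obtain ⟨i, j, hij, e⟩ := Set.Finite.exists_lt_map_eq_of_forall_mem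
    (f := fun n : ℕ => ((σ : Module.End ℤ M) ^ n) m) mem
    (Set.toFinite (Submodule.torsion ℤ M : Set M))
  obtain ⟨q, rfl⟩ := Nat.exists_eq_add_of_lt hij
  have inj : Function.Injective ((σ : Module.End ℤ M) ^ i : Module.End ℤ M) :=
    ((Module.End.isUnit_iff _).1 (σ.isUnit.pow i)).1
  refine (injective_iff_map_eq_zero _).1 (hinj (q + 1) (Nat.le_add_left _ _)) m (inj ?_)
  rw [LinearMap.sub_apply, map_sub, ← Module.End.mul_apply, ← pow_add, ← add_assoc, map_zero]
  exact sub_eq_zero.2 e.symm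

end

/-- `M` is torsion free: the torsion subgroup is finite and `σ` permutes it, so some `σ ^ q - 1`
kills it. So `M` is free of finite rank. If `M ≠ 0`, every complex root `lam` of the
characteristic polynomial has a left eigenvector `ψ : M →ₗ[ℤ] ℂ`, `ψ ≠ 0`, `ψ (σ m) = lam * ψ m`;
`alg_dom` and `hgen` force `‖lam‖ = 1`. Kronecker (`pow_eq_one_of_mahlerMeasure_eq_one`, or
`NumberField.Embeddings.pow_eq_one_of_norm_eq_one`) gives `lam ^ q = 1`, so `σ ^ q - 1` has
determinant zero, contradicting injectivity. -/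
theorem alg_fg {M ι : Type} [AddCommGroup M] [Module.Finite ℤ M] [Fintype ι]
    (σ : (Module.End ℤ M)ˣ)
    (hinj : ∀ q : ℕ, 1 ≤ q → Function.Injective ((σ : Module.End ℤ M) ^ q - 1 : Module.End ℤ M))
    (γ : ι → M)
    (hgen : Submodule.span ℤ
      {m | ∃ (l : ι) (n : ℤ), m = ((σ ^ n : (Module.End ℤ M)ˣ) : Module.End ℤ M) (γ l)} = ⊤)
    (h : ∃ᶠ e in sepF ι, ∑ l, ((σ ^ e l : (Module.End ℤ M)ˣ) : Module.End ℤ M) (γ l) = 0)
    (m : M) : m = 0 := by
  by_contra hm
  have : Module.IsTorsionFree ℤ M := Submodule.isTorsionFree_iff_torsion_eq_bot.2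
    (eq_bot_iff.2 fun x hx => algb_tf σ hinj hx)
  obtain ⟨f, hf⟩ := not_forall.1 (mt (Module.forall_dual_apply_eq_zero_iff ℤ m).1 hm)
  obtain ⟨p, hp, h0⟩ := LinearMap.exists_monic_and_aeval_eq_zero ℤ (σ : Module.End ℤ M)
  obtain ⟨K, _, _, hs⟩ : ∃ (K : Type) (_ : Field K) (_ : NumberField K),
      (p.map (algebraMap ℤ K)).Splits := by
    refine ⟨(p.map (algebraMap ℤ ℚ)).SplittingField, inferInstance, ⟨⟩, ?_⟩
    have := SplittingField.splits (p.map (algebraMap ℤ ℚ))
    rwa [Polynomial.map_map, ← IsScalarTower.algebraMap_eq] at this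
  have hw : (Algebra.linearMap ℤ K ∘ₗ f : M →ₗ[ℤ] K) ≠ 0 := fun e =>
    hf (Int.cast_eq_zero (α := K) |>.1 (LinearMap.congr_fun e m))
  obtain ⟨x, hx, ψ, hψ, he⟩ := algb_eigen
    (LinearMap.lcomp K K (σ : Module.End ℤ M) : Module.End K (M →ₗ[ℤ] K))
    (p.map (algebraMap ℤ K)).roots _ hw (by
      rw [← hs.eq_prod_roots_of_monic (hp.map _)]
      ext y
      rw [algb_aeval, h0, LinearMap.zero_apply, map_zero, LinearMap.zero_apply])
  have he' : ∀ y, ψ ((σ : Module.End ℤ M) y) = x * ψ y := fun y => LinearMap.congr_fun he y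
  have hx0 : x ≠ 0 := fun e => hψ (LinearMap.ext fun y => by
    have := he' (((σ⁻¹ : (Module.End ℤ M)ˣ) : Module.End ℤ M) y)
    rwa [e, zero_mul, ← Module.End.mul_apply, Units.mul_inv, Module.End.one_apply] at this)
  have hi : IsIntegral ℤ x := ⟨p, hp, by
    rw [eval₂_eq_eval_map]
    exact isRoot_of_mem_roots hx⟩
  obtain ⟨q, hq, hxq⟩ := NumberField.Embeddings.pow_eq_one_of_norm_eq_one K ℂ hi fun φ => by
    by_contra h1
    have hc := alg_dom ((map_ne_zero φ).2 hx0) h1 (fun l => φ (ψ (γ l))) (h.mono fun e he => by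
      have := congrArg (fun y => φ (ψ y)) he
      simpa only [map_sum, algb_zpow hx0 he', map_mul, map_zpow₀, map_zero] using this)
    refine hψ (LinearMap.ext_on hgen ?_)
    rintro _ ⟨l, n, rfl⟩
    rw [algb_zpow hx0 he', (map_eq_zero φ).1 (hc l), mul_zero, LinearMap.zero_apply]
  refine hψ (LinearMap.ext (algb_coker (hinj q hq) fun y => ?_))
  rw [LinearMap.sub_apply, map_sub, algb_pow he', hxq, one_mul, Module.End.one_apply, sub_self]


end Vale.Agent.P102
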