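import Vale.Agent.P102.AlgA
import Vale.Agent.P102.AlgB

/-! The algebra lemma. -/

open MeasureTheory ProbabilityTheory Filter Topology Set
open scoped ComplexConjugate

noncomputable section

namespace Vale.Agent.P102

theorem alg_zpow {H H' X X' : Type} [Group H] [Group H'] [MulAction H X] [MulAction H' X']
    {σ : H} {τ : H'} {φ : X → X'} (h : ∀ x, φ (σ • x) = τ • φ x) (n : ℤ) (x : X) :
    φ (σ ^ n • x) = τ ^ n • φ x := by
  have h' : ∀ x, φ (σ⁻¹ • x) = τ⁻¹ • φ x := fun x => by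
    rw [eq_inv_smul_iff, ← h, smul_inv_smul]
  induction n using Int.induction_on generalizing x with
  | zero => simp
  | succ n ih => rw [zpow_add_one, zpow_add_one, mul_smul, mul_smul, ih, h]
  | pred n ih => rw [zpow_sub_one, zpow_sub_one, mul_smul, mul_smul, ih, h']

theorem alg_pow {M M' : Type} [AddCommGroup M] [AddCommGroup M'] {σ : Module.End ℤ M}
    {τ : Module.End ℤ M'} {φ : M →ₗ[ℤ] M'} (h : ∀ x, φ (σ x) = τ (φ x)) (q : ℕ) (x : M) :
    φ ((σ ^ q - 1 : Module.End ℤ M) x) = (τ ^ q - 1 : Module.End ℤ M') (φ x) := by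
  have h1 : φ ((σ ^ q) x) = (τ ^ q) (φ x) := by
    induction q generalizing x with
    | zero => rfl
    | succ q ih => rw [pow_succ, pow_succ, Module.End.mul_apply, Module.End.mul_apply, ih, h]
  simp only [LinearMap.sub_apply, Module.End.one_apply, map_sub, h1]

open Polynomial in
theorem alg_dvd {M : Type} [AddCommGroup M] (σ : Module.End ℤ M) {f g : ℤ[X]} (h : f ∣ g) {m : M}
    (hm : aeval σ f m = 0) : aeval σ g m = 0 := by
  obtain ⟨u, rfl⟩ := h
  rw [mul_comm, map_mul, Module.End.mul_apply, hm, map_zero]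

open Polynomial in
theorem alg_span_fg {M ι : Type} [AddCommGroup M] [Fintype ι] (σ : (Module.End ℤ M)ˣ) (γ : ι → M)
    (h : ∃ᶠ e in sepF ι, ∑ l, ((σ ^ e l : (Module.End ℤ M)ˣ) : Module.End ℤ M) (γ l) = 0) :
    (Submodule.span ℤ
      {m | ∃ (l : ι) (n : ℤ), m = ((σ ^ n : (Module.End ℤ M)ˣ) : Module.End ℤ M) (γ l)}).FG := by
  obtain ⟨g, hg0, hg⟩ := alg_ann σ Finset.univ γ h
  obtain ⟨f, hf0, hf⟩ := alg_ann_monic σ Finset.univ γ h
  have h1 : ∀ l (n : ℤ), ∃ p : ℤ[X], σ ^ n • γ l = aeval (σ : Module.End ℤ M) p (γ l) := by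
    intro l n
    induction n using Int.induction_on with
    | zero => exact ⟨1, by simp⟩
    | succ n ih =>
      obtain ⟨p, hp⟩ := ih
      refine ⟨X * p, ?_⟩
      rw [add_comm, zpow_one_add, mul_smul, hp, map_mul, aeval_X]
      rfl
    | pred n ih =>
      obtain ⟨p, hp⟩ := ih
      refine ⟨-(p * g.divX), ?_⟩
      rw [sub_eq_neg_add, zpow_add, zpow_neg_one, mul_smul, hp, inv_smul_eq_iff]
      have e : p = X * -(p * g.divX) + p * g := by
        have e2 := X_mul_divX_add g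
        rw [hg0, C_1] at e2
        linear_combination p * e2
      have e3 : aeval (σ : Module.End ℤ M) (p * g) (γ l) = 0 :=
        alg_dvd _ (dvd_mul_left g p) (hg l (Finset.mem_univ l))
      conv_lhs => rw [e, map_add, LinearMap.add_apply, e3, add_zero, map_mul, aeval_X]
      rfl
  refine Submodule.FG.of_le (Submodule.fg_span (Set.finite_range
    fun x : ι × Fin (f.natDegree + 1) => ((σ : Module.End ℤ M) ^ (x.2 : ℕ)) (γ x.1))) ?_
  refine Submodule.span_le.2 ?_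
  rintro _ ⟨l, n, rfl⟩
  obtain ⟨p, hp⟩ := h1 l n
  have e3 : aeval (σ : Module.End ℤ M) (f * (p /ₘ f)) (γ l) = 0 :=
    alg_dvd _ (dvd_mul_right f _) (hf l (Finset.mem_univ l))
  have e4 : aeval (σ : Module.End ℤ M) p (γ l) = aeval (σ : Module.End ℤ M) (p %ₘ f) (γ l) := by
    conv_lhs => rw [← modByMonic_add_div p f, map_add, LinearMap.add_apply, e3, add_zero]
  change σ ^ n • γ l ∈ _
  rw [hp, e4, aeval_eq_sum_range' (Nat.lt_succ_of_le (natDegree_modByMonic_le p hf0)),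
    LinearMap.sum_apply]
  exact Submodule.sum_mem _ fun j hj => Submodule.smul_mem _ _
    (Submodule.subset_span ⟨(l, ⟨j, Finset.mem_range.1 hj⟩), rfl⟩)

theorem alg_inj {M ι : Type} [AddCommGroup M] [Fintype ι] (σ : (Module.End ℤ M)ˣ)
    (hinj : ∀ q : ℕ, 1 ≤ q → Function.Injective ((σ : Module.End ℤ M) ^ q - 1 : Module.End ℤ M))
    (γ : ι → M)
    (h : ∃ᶠ e in sepF ι, ∑ l, ((σ ^ e l : (Module.End ℤ M)ˣ) : Module.End ℤ M) (γ l) = 0)
    (l : ι) : γ l = 0 := by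
  let A := Submodule.span ℤ
    {m | ∃ (l : ι) (n : ℤ), m = ((σ ^ n : (Module.End ℤ M)ˣ) : Module.End ℤ M) (γ l)}
  have : Module.Finite ℤ A := Module.Finite.iff_fg.2 (alg_span_fg σ γ h)
  have hA : ∀ k : ℤ, ∀ m ∈ A, ((σ ^ k : (Module.End ℤ M)ˣ) : Module.End ℤ M) m ∈ A := by
    intro k
    refine fun m hm => Submodule.span_le (p := A.comap
      ((σ ^ k : (Module.End ℤ M)ˣ) : Module.End ℤ M)) |>.2 ?_ hm
    rintro _ ⟨l, n, rfl⟩
    exact Submodule.subset_span ⟨l, k + n, by rw [zpow_add]; rfl⟩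
  have h1 : ∀ m ∈ A, (σ : Module.End ℤ M) m ∈ A := by simpa using hA 1
  have h2 : ∀ m ∈ A, ((σ⁻¹ : (Module.End ℤ M)ˣ) : Module.End ℤ M) m ∈ A := by
    simpa using hA (-1)
  let ρ : (Module.End ℤ A)ˣ := ⟨LinearMap.restrict _ h1, LinearMap.restrict _ h2,
    LinearMap.ext fun m => Subtype.ext (smul_inv_smul σ m.1),
    LinearMap.ext fun m => Subtype.ext (inv_smul_smul σ m.1)⟩
  have hz : ∀ (n : ℤ) (m : A), (((ρ ^ n : (Module.End ℤ A)ˣ) : Module.End ℤ A) m : M) =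
      ((σ ^ n : (Module.End ℤ M)ˣ) : Module.End ℤ M) m :=
    alg_zpow (σ := ρ) (τ := σ) (φ := Subtype.val) fun _ => rfl
  have hγ : ∀ l, γ l ∈ A := fun l => Submodule.subset_span ⟨l, 0, by simp⟩
  refine congrArg Subtype.val (alg_fg ρ (fun q hq x y hxy => ?_) (fun l => ⟨γ l, hγ l⟩) ?_
    (h.mono fun e he => Subtype.ext ?_) ⟨γ l, hγ l⟩)
  · have e := alg_pow (σ := (ρ : Module.End ℤ A)) (τ := (σ : Module.End ℤ M)) (φ := A.subtype)
      (fun _ => rfl) q
    exact Subtype.ext (hinj q hq ((e x).symm.trans ((congrArg _ hxy).trans (e y))))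
  · refine Submodule.map_injective_of_injective A.injective_subtype ?_
    rw [Submodule.map_span, Submodule.map_top, Submodule.range_subtype]
    congr 1
    ext m
    constructor
    · rintro ⟨_, ⟨l, n, rfl⟩, rfl⟩
      exact ⟨l, n, hz n _⟩
    · rintro ⟨l, n, rfl⟩
      exact ⟨_, ⟨l, n, rfl⟩, hz n _⟩
  · rw [Submodule.coe_sum]
    simp only [hz]
    exact he

/-- Let `A` be the span of all `σ ^ n (γ l)`; it is finitely generated by `alg_ann` and
`alg_ann_monic` (the span of `σ ^ j (γ l)`, `j < deg f`, is stable under `σ` and `σ⁻¹`). Let `N`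
be the set of `m` killed by some ` (σ ^ q - 1) ^ s`: a submodule stable under `σ`, `σ⁻¹` (note
that `σ ^ q - 1` divides `σ ^ (q * q') - 1`). Apply `alg_fg` to `A ⧸ (N ⊓ A)`. -/
theorem alg_nil {M ι : Type} [AddCommGroup M] [Fintype ι] (σ : (Module.End ℤ M)ˣ) (γ : ι → M)
    (h : ∃ᶠ e in sepF ι, ∑ l, ((σ ^ e l : (Module.End ℤ M)ˣ) : Module.End ℤ M) (γ l) = 0)
    (l : ι) : ∃ q s : ℕ, 1 ≤ q ∧ (((σ : Module.End ℤ M) ^ q - 1) ^ s) (γ l) = 0 := by
  have hd : ∀ q q' : ℕ, (Polynomial.X ^ q - 1 : Polynomial ℤ) ∣ Polynomial.X ^ (q * q') - 1 :=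
    fun q q' => by simpa only [one_pow, pow_mul] using
      sub_dvd_pow_sub_pow (Polynomial.X ^ q : Polynomial ℤ) 1 q'
  have hp : ∀ {q s q' s' : ℕ}, 1 ≤ q → 1 ≤ q' → 1 ≤ q * q' ∧
      ((Polynomial.X ^ q - 1) ^ s * (Polynomial.X ^ q' - 1) ^ s' : Polynomial ℤ) ∣
        (Polynomial.X ^ (q * q') - 1) ^ (s + s') := fun hq hq' => ⟨Nat.mul_pos hq hq', by
    rw [pow_add]
    exact mul_dvd_mul (pow_dvd_pow_of_dvd (hd _ _) _)
      (pow_dvd_pow_of_dvd (by rw [Nat.mul_comm]; exact hd _ _) _)⟩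
  let N : Submodule ℤ M :=
    { carrier := {m | ∃ q s : ℕ, 1 ≤ q ∧
        Polynomial.aeval (σ : Module.End ℤ M) ((Polynomial.X ^ q - 1) ^ s : Polynomial ℤ) m = 0}
      add_mem' := by
        rintro a b ⟨q, s, hq, ha⟩ ⟨q', s', hq', hb⟩
        obtain ⟨h1, h2⟩ := hp (s := s) (s' := s') hq hq'
        exact ⟨q * q', s + s', h1, by
          rw [map_add, alg_dvd _ ((dvd_mul_right _ _).trans h2) ha,
            alg_dvd _ ((dvd_mul_left _ _).trans h2) hb, add_zero]⟩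
      zero_mem' := ⟨1, 0, le_rfl, map_zero _⟩
      smul_mem' := by
        rintro c a ⟨q, s, hq, ha⟩
        exact ⟨q, s, hq, by rw [map_smul, ha, smul_zero]⟩ }
  have hc : ∀ (p : Polynomial ℤ) (m : M), Polynomial.aeval (σ : Module.End ℤ M) p (σ • m) =
      σ • Polynomial.aeval (σ : Module.End ℤ M) p m := fun p m => by
    have e := congrArg (fun r => Polynomial.aeval (σ : Module.End ℤ M) r m)
      (mul_comm p Polynomial.X)
    simp only [map_mul, Polynomial.aeval_X] at e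
    exact e
  have h1 : N ≤ N.comap (σ : Module.End ℤ M) := by
    rintro m ⟨q, s, hq, hm⟩
    exact ⟨q, s, hq, (hc _ m).trans (by rw [hm, smul_zero])⟩
  have h2 : N ≤ N.comap ((σ⁻¹ : (Module.End ℤ M)ˣ) : Module.End ℤ M) := by
    rintro m ⟨q, s, hq, hm⟩
    refine ⟨q, s, hq, (smul_eq_zero_iff_eq σ).1 ((hc _ _).symm.trans ?_)⟩
    exact (congrArg _ (smul_inv_smul σ m)).trans hm
  let τ : (Module.End ℤ (M ⧸ N))ˣ := ⟨N.mapQ N _ h1, N.mapQ N _ h2,
    Submodule.linearMap_qext _ (LinearMap.ext fun m => congrArg N.mkQ (smul_inv_smul σ m)),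
    Submodule.linearMap_qext _ (LinearMap.ext fun m => congrArg N.mkQ (inv_smul_smul σ m))⟩
  have hz : ∀ (n : ℤ) (m : M), N.mkQ (((σ ^ n : (Module.End ℤ M)ˣ) : Module.End ℤ M) m) =
      ((τ ^ n : (Module.End ℤ (M ⧸ N))ˣ) : Module.End ℤ (M ⧸ N)) (N.mkQ m) :=
    alg_zpow (σ := σ) (τ := τ) (φ := N.mkQ) fun _ => rfl
  have h3 := alg_inj τ (fun q hq => (injective_iff_map_eq_zero _).2 fun x hx => ?_)
    (fun l => N.mkQ (γ l)) (h.mono fun e he => by simp only [← hz, ← map_sum, he, map_zero]) l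
  · obtain ⟨q, s, hq, hm⟩ := (Submodule.Quotient.mk_eq_zero N).1 h3
    exact ⟨q, s, hq, by simpa using hm⟩
  · obtain ⟨m, rfl⟩ := N.mkQ_surjective x
    rw [← alg_pow (σ := (σ : Module.End ℤ M)) (τ := (τ : Module.End ℤ (M ⧸ N))) (φ := N.mkQ)
      (fun _ => rfl) q] at hx
    obtain ⟨q', s', hq', hm⟩ := (Submodule.Quotient.mk_eq_zero N).1 hx
    obtain ⟨h4, h5⟩ := hp (s := s') (s' := 1) hq' hq
    refine (Submodule.Quotient.mk_eq_zero N).2 ⟨_, _, h4, alg_dvd _ h5 ?_⟩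
    rw [map_mul, Module.End.mul_apply]
    simpa using hm

/-- Multiplicative form: apply `alg_nil` to `Additive (G ⧸ C)`. -/
theorem alg_nil_mul {G ι : Type} [CommGroup G] [Fintype ι] (σ : MulAut G) (C : Subgroup G)
    (hC : ∀ a, σ a ∈ C ↔ a ∈ C) (γ : ι → G)
    (h : ∃ᶠ e in sepF ι, ∏ l, (σ ^ e l) (γ l) ∈ C) (l : ι) :
    ∃ q s : ℕ, 1 ≤ q ∧ (fun a => (σ ^ q) a / a)^[s] (γ l) ∈ C := by
  have h1 : C ≤ C.comap σ.toMonoidHom := fun a ha => (hC a).2 ha
  have h2 : C ≤ C.comap σ.symm.toMonoidHom := fun a ha => (hC _).1 (by simpa using ha)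
  let φ : G → Additive (G ⧸ C) := fun a => Additive.ofMul (QuotientGroup.mk a)
  have hφ : ∀ a, φ a = 0 ↔ a ∈ C := fun a => QuotientGroup.eq_one_iff a
  have hs : Function.Surjective φ := QuotientGroup.mk_surjective
  let τ : (Module.End ℤ (Additive (G ⧸ C)))ˣ :=
    ⟨(MonoidHom.toAdditive (QuotientGroup.map C C _ h1)).toIntLinearMap,
      (MonoidHom.toAdditive (QuotientGroup.map C C _ h2)).toIntLinearMap,
      LinearMap.ext fun x => by
        obtain ⟨a, rfl⟩ := hs x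
        exact congrArg φ (σ.apply_symm_apply a),
      LinearMap.ext fun x => by
        obtain ⟨a, rfl⟩ := hs x
        exact congrArg φ (σ.symm_apply_apply a)⟩
  have hz : ∀ (n : ℤ) (a : G), φ ((σ ^ n) a) =
      ((τ ^ n : (Module.End ℤ (Additive (G ⧸ C)))ˣ) : Module.End ℤ (Additive (G ⧸ C))) (φ a) :=
    alg_zpow (σ := σ) (τ := τ) (φ := φ) fun _ => rfl
  obtain ⟨q, s, hq, hm⟩ := alg_nil τ (fun l => φ (γ l)) (h.mono fun e he => by
    simp only [← hz]
    rw [← (hφ _).2 he]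
    simp only [φ, QuotientGroup.mk_prod, ofMul_prod]) l
  refine ⟨q, s, hq, (hφ _).1 (Eq.trans ?_ hm)⟩
  have h3 : ∀ a, φ ((σ ^ q) a / a) =
      ((τ : Module.End ℤ (Additive (G ⧸ C))) ^ q - 1 : Module.End ℤ (Additive (G ⧸ C))) (φ a) := by
    intro a
    have e := hz q a
    rw [zpow_natCast, zpow_natCast, Units.val_pow_eq_pow_val] at e
    rw [LinearMap.sub_apply, ← e]
    rfl
  generalize γ l = a
  clear hm
  induction s generalizing a with
  | zero => rfl
  | succ s ih => rw [Function.iterate_succ_apply, ih, h3, pow_succ, Module.End.mul_apply]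


end Vale.Agent.P102
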