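import Vale.Agent.P102.Defs

/-! Algebra lemma, first half: annihilating polynomials. -/

open MeasureTheory ProbabilityTheory Filter Topology Set
open scoped ComplexConjugate

noncomputable section

namespace Vale.Agent.P102

/-- Elementary form of the hypothesis. -/
def alga_rel {M ι : Type} [AddCommGroup M] (σ : (Module.End ℤ M)ˣ) (T : Finset ι) (γ : ι → M) :
    Prop := ∀ G : ℕ, ∃ e : ι → ℤ, (∀ i j, i ≠ j → (G : ℤ) ≤ |e i - e j|) ∧
  ∑ l ∈ T, ((σ ^ e l : (Module.End ℤ M)ˣ) : Module.End ℤ M) (γ l) = 0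

theorem alga_of_freq {M ι : Type} [AddCommGroup M] {σ : (Module.End ℤ M)ˣ} {T : Finset ι}
    {γ : ι → M} (h : ∃ᶠ e in sepF ι, ∑ l ∈ T, ((σ ^ e l : (Module.End ℤ M)ˣ) : Module.End ℤ M)
      (γ l) = 0) : alga_rel σ T γ := fun G => by
  have : ∀ᶠ e in sepF ι, ∀ i j, i ≠ j → (G : ℤ) ≤ |e i - e j| :=
    mem_iInf_of_mem G (mem_principal_self _)
  exact (this.and_frequently h).exists

open Polynomial in
theorem alga_kill {M ι : Type} [AddCommGroup M] [DecidableEq ι] (σ : Module.End ℤ M)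
    (T : Finset ι) (γ : ι → M) {a : ι} (ha : a ∈ T) (h : ∀ G : ℕ, ∃ k : ι → ℕ,
      (∀ l ∈ T.erase a, G ≤ k l) ∧ γ a + ∑ l ∈ T.erase a, (σ ^ k l) (γ l) = 0) :
    ∃ g : ℤ[X], g.coeff 0 = 1 ∧ aeval σ g (γ a) = 0 := by
  let x : ι → Module.AEval' σ := fun l => Module.AEval'.of σ (γ l)
  let L : Submodule ℤ[X] (Module.AEval' σ) := Submodule.span ℤ[X] (x '' T)
  have : Module.Finite ℤ[X] L := Module.Finite.span_of_finite _ (T.finite_toSet.image x)
  have hm : ∀ l ∈ T, x l ∈ L := fun l hl => Submodule.subset_span ⟨l, hl, rfl⟩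
  obtain ⟨r, hr⟩ := (Ideal.mem_iInf_smul_pow_eq_bot_iff (Ideal.span {(X : ℤ[X])})
    (⟨x a, hm a ha⟩ : L)).1 ((Submodule.mem_iInf _).2 fun G => by
      rw [Submodule.mem_smul_top_iff]
      obtain ⟨k, hk, e⟩ := h G
      have e1 : x a = -∑ l ∈ T.erase a, (X ^ k l : ℤ[X]) • x l := by
        rw [eq_neg_iff_add_eq_zero]
        simp only [x, Module.AEval'.X_pow_smul_of, ← map_sum, ← map_add]
        exact (congrArg _ e).trans (map_zero _)
      change x a ∈ _
      rw [e1]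
      refine neg_mem (Submodule.sum_mem _ fun l hl =>
        Submodule.smul_mem_smul ?_ (hm l (Finset.mem_of_mem_erase hl)))
      rw [Ideal.span_singleton_pow, Ideal.mem_span_singleton]
      exact pow_dvd_pow _ (hk l hl))
  refine ⟨1 - r.1, ?_, ?_⟩
  · rw [coeff_sub, coeff_one_zero, X_dvd_iff.1 (Ideal.mem_span_singleton.1 r.2), sub_zero]
  · have h1 : aeval σ r.1 (γ a) = γ a := congrArg Subtype.val hr
    rw [map_sub, map_one, LinearMap.sub_apply, h1, Module.End.one_apply, sub_self]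

open Polynomial in
theorem alga_main {M ι : Type} [AddCommGroup M] (σ : (Module.End ℤ M)ˣ) (T : Finset ι) :
    ∀ γ : ι → M, alga_rel σ T γ →
      ∃ f : ℤ[X], f.coeff 0 = 1 ∧ ∀ l ∈ T, aeval (σ : Module.End ℤ M) f (γ l) = 0 := by
  classical
  induction T using Finset.eraseInduction with
  | H T ih =>
  intro γ h
  rcases T.eq_empty_or_nonempty with rfl | hT
  · exact ⟨1, coeff_one_zero, by simp⟩
  have h1 : ∃ a ∈ T, ∀ G : ℕ, ∃ e : ι → ℤ, (∀ i j, i ≠ j → (G : ℤ) ≤ |e i - e j|) ∧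
      ∑ l ∈ T, ((σ ^ e l : (Module.End ℤ M)ˣ) : Module.End ℤ M) (γ l) = 0 ∧
      ∀ l ∈ T, e a ≤ e l := by
    by_contra hc
    simp only [not_exists, not_and, not_forall] at hc
    choose! G hG using hc
    obtain ⟨e, e1, e2⟩ := h (T.sup G)
    obtain ⟨a, ha, hm⟩ := T.exists_min_image e hT
    obtain ⟨l, hl, hl'⟩ := hG a ha e (fun i j hij =>
      le_trans (by exact_mod_cast Finset.le_sup (f := G) ha) (e1 i j hij)) e2
    exact hl' (hm l hl)
  obtain ⟨a, ha, h1⟩ := h1
  obtain ⟨g, g0, g1⟩ := alga_kill (σ : Module.End ℤ M) T γ ha fun G => by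
    obtain ⟨e, e1, e2, e3⟩ := h1 G
    refine ⟨fun l => (e l - e a).toNat, fun l hl => ?_, ?_⟩
    · have := e1 l a (Finset.ne_of_mem_erase hl)
      rw [abs_of_nonneg (sub_nonneg.2 (e3 l (Finset.mem_of_mem_erase hl)))] at this
      beta_reduce
      omega
    · have e4 := congrArg ((σ ^ (-e a) : (Module.End ℤ M)ˣ) : Module.End ℤ M) e2
      rw [map_zero, ← Finset.add_sum_erase T _ ha, map_add, map_sum, ← Module.End.mul_apply,
        ← Units.val_mul, ← zpow_add, neg_add_cancel, zpow_zero] at e4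
      refine Eq.trans (congrArg₂ (· + ·) rfl (Finset.sum_congr rfl fun l hl => ?_)) e4
      rw [← Module.End.mul_apply, ← Units.val_mul, ← zpow_add, ← Units.val_pow_eq_pow_val,
        ← zpow_natCast, Int.toNat_of_nonneg (sub_nonneg.2 (e3 l (Finset.mem_of_mem_erase hl))),
        neg_add_eq_sub]
  have hc : ∀ (z : ℤ) (m : M), ((σ ^ z : (Module.End ℤ M)ˣ) : Module.End ℤ M)
      (aeval (σ : Module.End ℤ M) g m) =
      aeval (σ : Module.End ℤ M) g (((σ ^ z : (Module.End ℤ M)ˣ) : Module.End ℤ M) m) := by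
    intro z m
    have := Algebra.commute_of_mem_adjoin_singleton_of_commute
      (aeval_mem_adjoin_singleton ℤ (σ : Module.End ℤ M) (p := g))
      ((Commute.refl σ).zpow_left z).units_val
    exact congrArg (fun A : Module.End ℤ M => A m) this.eq
  obtain ⟨f, f0, f1⟩ := ih a ha (fun l => aeval (σ : Module.End ℤ M) g (γ l)) fun G => by
    obtain ⟨e, e1, e2⟩ := h G
    refine ⟨e, e1, ?_⟩
    have e4 := congrArg (aeval (σ : Module.End ℤ M) g) e2
    rw [map_zero, ← Finset.add_sum_erase T _ ha, map_add, map_sum, ← hc, g1, map_zero,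
      zero_add] at e4
    simpa only [hc] using e4
  refine ⟨f * g, by rw [mul_coeff_zero, f0, g0, mul_one], fun l hl => ?_⟩
  rw [map_mul, Module.End.mul_apply]
  by_cases hla : l = a
  · rw [hla, g1, map_zero]
  · exact f1 l (Finset.mem_erase.2 ⟨hla, hl⟩)

open Polynomial in
/-- Induction on the finite set `T` of indices (for all `γ`). Frequently the minimum of `e` on
`T` is attained at the same index `a`; then `γ a = - ∑_{l ≠ a} σ ^ (e l - e a) (γ l)` lies in
`X ^ G • L` for all `G`, where `L` is the `ℤ[X]`-submodule of `Module.AEval' σ` generated by the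
`γ l`. Krull (`Ideal.mem_iInf_smul_pow_eq_bot_iff`) gives `g = 1 - X * u` killing `γ a`. Apply
`g` to the relation: the family `g γ l`, `l ∈ T ∖ a`, satisfies a relation with fewer terms, so
by induction it is killed by some `f` with `f.coeff 0 = 1`; take `f * g`. -/
theorem alg_ann {M ι : Type} [AddCommGroup M] (σ : (Module.End ℤ M)ˣ) (T : Finset ι)
    (γ : ι → M) (h : ∃ᶠ e in sepF ι, ∑ l ∈ T, ((σ ^ e l : (Module.End ℤ M)ˣ) : Module.End ℤ M)
      (γ l) = 0) :
    ∃ f : ℤ[X], f.coeff 0 = 1 ∧ ∀ l ∈ T, aeval (σ : Module.End ℤ M) f (γ l) = 0 :=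
  alga_main σ T γ (alga_of_freq h)

open Polynomial in
/-- Apply `alg_ann` to `σ⁻¹` (the map `e ↦ -e` preserves `sepF ι`) and reverse the polynomial. -/
theorem alg_ann_monic {M ι : Type} [AddCommGroup M] (σ : (Module.End ℤ M)ˣ) (T : Finset ι)
    (γ : ι → M) (h : ∃ᶠ e in sepF ι, ∑ l ∈ T, ((σ ^ e l : (Module.End ℤ M)ˣ) : Module.End ℤ M)
      (γ l) = 0) :
    ∃ f : ℤ[X], f.Monic ∧ ∀ l ∈ T, aeval (σ : Module.End ℤ M) f (γ l) = 0 := by
  obtain ⟨f, f0, f1⟩ := alga_main σ⁻¹ T γ fun G => by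
    obtain ⟨e, e1, e2⟩ := alga_of_freq h G
    refine ⟨fun l => -e l, fun i j hij => ?_, by simpa only [zpow_neg, inv_zpow, inv_inv] using e2⟩
    rw [neg_sub_neg]
    exact e1 j i hij.symm
  refine ⟨f.reverse, ?_, fun l hl => ?_⟩
  · rw [Monic, reverse_leadingCoeff, trailingCoeff_eq_coeff_zero (by rw [f0]; exact one_ne_zero),
      f0]
  · have e : aeval (σ : Module.End ℤ M) f.reverse = (σ : Module.End ℤ M) ^ f.natDegree *
        aeval ((σ⁻¹ : (Module.End ℤ M)ˣ) : Module.End ℤ M) f := by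
      rw [aeval_eq_sum_range' (Nat.lt_succ_of_le f.reverse_natDegree_le), aeval_eq_sum_range,
        Finset.mul_sum, ← Finset.sum_range_reflect]
      refine Finset.sum_congr rfl fun i hi => ?_
      have hi' : i ≤ f.natDegree := Nat.lt_succ_iff.1 (Finset.mem_range.1 hi)
      rw [Nat.succ_sub_one, coeff_reverse, revAt_le (Nat.sub_le _ _), Nat.sub_sub_self hi',
        mul_smul_comm, ← Units.val_pow_eq_pow_val, ← Units.val_pow_eq_pow_val,
        ← Units.val_pow_eq_pow_val, ← Units.val_mul, inv_pow, pow_sub _ hi']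
    rw [e, Module.End.mul_apply, f1 l hl, map_zero]


end Vale.Agent.P102
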