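import Vale.Agent.P102.Push

/-! Barycenters and martingale pairs. -/

open MeasureTheory ProbabilityTheory Filter Topology Set
open scoped ComplexConjugate

noncomputable section

namespace Vale.Agent.P102

variable {K L N : Type}
  [TopologicalSpace K] [MeasurableSpace K] [Nice K]
  [TopologicalSpace L] [MeasurableSpace L] [Nice L]
  [TopologicalSpace N] [MeasurableSpace N] [Nice N]

/-- The tautological kernel. -/
def bary_ker (K : Type) [MeasurableSpace K] : Kernel (PM K) K :=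
  ⟨fun μ => (μ : Measure K), measurable_subtype_coe⟩

instance bary_ker_markov (K : Type) [MeasurableSpace K] : IsMarkovKernel (bary_ker K) :=
  ⟨fun μ => μ.2⟩

omit [TopologicalSpace K] [Nice K] in
theorem bary_iff {ξ : PM (PM K)} {μ : PM K} :
    IsBary ξ μ ↔ bary_ker K ∘ₘ (ξ : Measure (PM K)) = (μ : Measure K) := Iff.rfl

omit [TopologicalSpace K] [Nice K] in
theorem bary_meas_coe : Measurable fun ν : PM K => (ν : Measure K) := measurable_subtype_coe

theorem measurable_integral_pm {𝕜 : Type} [RCLike 𝕜] {h : K → 𝕜} (hm : Measurable h) :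
    Measurable fun μ : PM K => ∫ x, h x ∂(μ : Measure K) := by
  have : StronglyMeasurable fun μ => ∫ x, h x ∂(bary_ker K μ) :=
    hm.stronglyMeasurable.integral_kernel
  exact this.measurable

theorem IsBary.measure {ξ : PM (PM K)} {μ : PM K} (hb : IsBary ξ μ) {A : Set K}
    (hA : MeasurableSet A) :
    (μ : Measure K) A = ∫⁻ ν, (ν : Measure K) A ∂(ξ : Measure (PM K)) := by
  rw [← hb, Measure.bind_apply hA bary_meas_coe.aemeasurable]

theorem IsBary.integral {𝕜 : Type} [RCLike 𝕜] {ξ : PM (PM K)} {μ : PM K} (hb : IsBary ξ μ)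
    {h : K → 𝕜} (hi : Integrable h (μ : Measure K)) :
    ∫ x, h x ∂(μ : Measure K) = ∫ ν, ∫ x, h x ∂(ν : Measure K) ∂(ξ : Measure (PM K)) := by
  rw [bary_iff, Measure.comp_eq_comp_const_apply] at hb
  rw [← hb] at hi ⊢
  rw [Kernel.integral_comp hi]
  rfl

theorem IsBary.ae {ξ : PM (PM K)} {μ : PM K} (hb : IsBary ξ μ) {P : K → Prop}
    (h : ∀ᵐ x ∂(μ : Measure K), P x) :
    ∀ᵐ ν : PM K ∂(ξ : Measure (PM K)), ∀ᵐ x ∂(ν : Measure K), P x := by
  rw [← hb] at h
  exact Measure.ae_ae_of_ae_bind bary_meas_coe.aemeasurable h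

theorem IsBary.ae_of {ξ : PM (PM K)} {μ : PM K} (hb : IsBary ξ μ) {Z : Set K}
    (hZ : MeasurableSet Z)
    (h : ∀ᵐ ν : PM K ∂(ξ : Measure (PM K)), ∀ᵐ x ∂(ν : Measure K), x ∈ Z) :
    ∀ᵐ x ∂(μ : Measure K), x ∈ Z := by
  rw [← bary_iff.1 hb]
  exact Measure.ae_comp_of_ae_ae hZ h

/-- The conditional law of the second coordinate. -/
def bary_cond (ρ : PM (N × L)) (d : N) : PM L :=
  ⟨(ρ : Measure (N × L)).condKernel d, inferInstance⟩

/-- The barycenter. -/
def bary_of (ξ : PM (PM K)) : PM K := ⟨bary_ker K ∘ₘ (ξ : Measure (PM K)), inferInstance⟩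

omit [TopologicalSpace K] [Nice K] in
theorem bary_of_isBary (ξ : PM (PM K)) : IsBary ξ (bary_of ξ) := rfl

theorem bary_pfst (ρ : PM (N × L)) : (pfst ρ : Measure N) = (ρ : Measure (N × L)).fst := rfl

theorem bary_psnd (ρ : PM (N × L)) : (psnd ρ : Measure L) = (ρ : Measure (N × L)).snd := rfl

theorem bary_abs_ev_le (f : C(K, ℝ)) (μ : PM K) : |ev f μ| ≤ ‖f‖ := by
  have := abs_ev_sub_le f 0 μ
  simpa using this

/-- Integration of a bounded measurable function of the second coordinate. -/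
theorem bary_integral_snd {𝕜 : Type} [RCLike 𝕜] (ρ : PM (N × L)) {Φ : L → 𝕜}
    (hm : Measurable Φ) {C : ℝ} (hC : ∀ x, ‖Φ x‖ ≤ C) :
    ∫ y, Φ y ∂(psnd ρ : Measure L) =
      ∫ d, ∫ y, Φ y ∂(bary_cond ρ d : Measure L) ∂(pfst ρ : Measure N) := by
  have hi : Integrable (fun q : N × L => Φ q.2) (ρ : Measure (N × L)) :=
    Integrable.of_bound (hm.comp measurable_snd).aestronglyMeasurable C
      (ae_of_all _ fun q => hC q.2)
  rw [bary_psnd, Measure.snd, integral_map measurable_snd.aemeasurable hm.aestronglyMeasurable,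
    ← Measure.integral_condKernel hi]
  rfl

omit [TopologicalSpace N] [Nice N] in
theorem bary_meas_cond {𝕜 : Type} [RCLike 𝕜] (ρ : PM (N × L)) {Φ : L → 𝕜}
    (hm : Measurable Φ) : Measurable fun d => ∫ y, Φ y ∂(bary_cond ρ d : Measure L) := by
  have : StronglyMeasurable fun d => ∫ y, Φ y ∂((ρ : Measure (N × L)).condKernel d) :=
    hm.stronglyMeasurable.integral_kernel
  exact this.measurable

omit [TopologicalSpace L] [Nice L] in
theorem bary_norm_integral_le {𝕜 : Type} [RCLike 𝕜] (μ : PM L) {Φ : L → 𝕜}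
    {C : ℝ} (hC : ∀ x, ‖Φ x‖ ≤ C) : ‖∫ y, Φ y ∂(μ : Measure L)‖ ≤ C := by
  have := norm_integral_le_of_norm_le_const (μ := (μ : Measure L)) (f := Φ) (C := C)
    (ae_of_all _ hC)
  simpa using this

theorem bary_ae_cond (ρ : PM (N × L)) {Q : N × L → Prop}
    (hQ : ∀ᵐ q ∂(ρ : Measure (N × L)), Q q) :
    ∀ᵐ d ∂(pfst ρ : Measure N), ∀ᵐ y ∂(bary_cond ρ d : Measure L), Q (d, y) := by
  rw [← (ρ : Measure (N × L)).disintegrate (ρ : Measure (N × L)).condKernel] at hQ
  exact Measure.ae_ae_of_ae_compProd hQ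

theorem bary_ae {ρ : PM (N × PM K)} {s : N → PM K} (hs : Measurable s) (h : MartS ρ s) :
    ∀ᵐ d ∂(pfst ρ : Measure N), IsBary (bary_cond ρ d) (s d) := by
  obtain ⟨D, hDc, hD⟩ := TopologicalSpace.exists_countable_dense C(K, ℝ)
  have key : ∀ f : C(K, ℝ), ∀ᵐ d ∂(pfst ρ : Measure N),
      ∫ ν, ev f ν ∂(bary_cond ρ d : Measure (PM K)) = ev f (s d) := by
    intro f
    have hev : Measurable fun ν : PM K => ev f ν := (ev f).continuous.measurable
    have hb : ∀ ν : PM K, ‖ev f ν‖ ≤ ‖f‖ := fun ν => bary_abs_ev_le f ν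
    have i1 : Integrable (fun d => ∫ ν, ev f ν ∂(bary_cond ρ d : Measure (PM K)))
        (pfst ρ : Measure N) :=
      Integrable.of_bound (bary_meas_cond ρ hev).aestronglyMeasurable ‖f‖
        (ae_of_all _ fun d => bary_norm_integral_le _ hb)
    have i2 : Integrable (fun d => ev f (s d)) (pfst ρ : Measure N) :=
      Integrable.of_bound (hev.comp hs).aestronglyMeasurable ‖f‖ (ae_of_all _ fun d => hb _)
    have h0 := ae_eq_zero_of_cont (pfst ρ : Measure N) (i1.sub i2) (fun g => by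
      have gb : ∀ᵐ d ∂(pfst ρ : Measure N), ‖g d‖ ≤ ‖g‖ :=
        ae_of_all _ fun d => g.norm_coe_le_norm d
      have j1 := i1.bdd_mul g.continuous.aestronglyMeasurable gb
      have j2 := i2.bdd_mul g.continuous.aestronglyMeasurable gb
      simp only [Pi.sub_apply, mul_sub]
      rw [integral_sub j1 j2, sub_eq_zero]
      have hi : Integrable (fun q : N × PM K => g q.1 * ev f q.2) (ρ : Measure (N × PM K)) :=
        integrable_cont ⟨fun q : N × PM K => g q.1 * ev f q.2, by fun_prop⟩ _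
      have e1 : ∫ d, g d * ∫ ν, ev f ν ∂(bary_cond ρ d : Measure (PM K)) ∂(pfst ρ : Measure N) =
          ∫ q, g q.1 * ev f q.2 ∂(ρ : Measure (N × PM K)) := by
        rw [← Measure.integral_condKernel hi]
        refine integral_congr_ae (ae_of_all _ fun d => ?_)
        simp only
        rw [integral_const_mul]
        rfl
      have e2 : ∫ d, g d * ev f (s d) ∂(pfst ρ : Measure N) =
          ∫ q, g q.1 * ev f (s q.1) ∂(ρ : Measure (N × PM K)) := by
        have hm2 : Measurable fun d => g d * ev f (s d) :=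
          g.continuous.measurable.mul (hev.comp hs)
        rw [bary_pfst, Measure.fst, integral_map measurable_fst.aemeasurable
          hm2.aestronglyMeasurable]
      rw [e1, e2, h f g])
    filter_upwards [h0] with d hd
    simpa [sub_eq_zero] using hd
  have key2 : ∀ᵐ d ∂(pfst ρ : Measure N), ∀ f ∈ D,
      ∫ ν, ev f ν ∂(bary_cond ρ d : Measure (PM K)) = ev f (s d) :=
    (ae_ball_iff hDc).2 fun f _ => key f
  filter_upwards [key2] with d hd
  have : bary_of (bary_cond ρ d) = s d := by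
    refine pm_ext_dense hD fun f hf => ?_
    rw [← hd f hf, ev_apply, (bary_of_isBary (bary_cond ρ d)).integral (integrable_cont f _)]
    rfl
  rw [← this]
  exact bary_of_isBary _

/-- The averaging lemma. Take `ξ = condKernel ρ d`. For `f` in a countable dense set, the bounded
measurable function `d ↦ ∫ ev f ν ∂(condKernel ρ d) - ev f (s d)` is orthogonal to all continuous
`Ψ`, so vanishes a.e. (`ae_eq_zero_of_cont`); conclude with `pm_ext_dense` applied to the
probability measure `bind`. The second part is `Measure.ae_ae_of_ae_compProd`. -/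
theorem MartS.avg {ρ : PM (N × PM K)} {s : N → PM K} (hs : Measurable s) (h : MartS ρ s)
    {Q : N × PM K → Prop} (hQ : ∀ᵐ q ∂(ρ : Measure (N × PM K)), Q q) :
    ∀ᵐ d ∂(pfst ρ : Measure N), ∃ ξ : PM (PM K), IsBary ξ (s d) ∧
      ∀ᵐ ν ∂(ξ : Measure (PM K)), Q (d, ν) := by
  filter_upwards [bary_ae hs h, bary_ae_cond ρ hQ] with d h1 h2
  exact ⟨bary_cond ρ d, h1, h2⟩

/-- Jensen inequality for a martingale pair (disintegrate `ρ` by `condKernel`). -/
theorem Mart.jensen {ρ : PM (PM K × PM K)} (h : Mart ρ) {Φ : PM K → ℝ} (hm : Measurable Φ)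
    {C : ℝ} (hC : ∀ μ, |Φ μ| ≤ C)
    (hconv : ∀ (ξ : PM (PM K)) (μ : PM K), IsBary ξ μ → Φ μ ≤ ∫ ν, Φ ν ∂(ξ : Measure (PM K))) :
    ∫ μ, Φ μ ∂(pfst ρ : Measure (PM K)) ≤ ∫ ν, Φ ν ∂(psnd ρ : Measure (PM K)) := by
  rw [bary_integral_snd ρ hm hC]
  refine integral_mono_ae
    (Integrable.of_bound hm.aestronglyMeasurable C (ae_of_all _ hC))
    (Integrable.of_bound (bary_meas_cond ρ hm).aestronglyMeasurable C
      (ae_of_all _ fun d => bary_norm_integral_le _ hC)) ?_
  filter_upwards [bary_ae measurable_id h] with d hd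
  exact hconv _ _ hd

/-- The two mean measures agree. -/
theorem Mart.integral_snd {𝕜 : Type} [RCLike 𝕜] {ρ : PM (PM K × PM K)} (h : Mart ρ) {g : K → 𝕜}
    (hm : Measurable g) {C : ℝ} (hC : ∀ x, ‖g x‖ ≤ C) :
    ∫ ν : PM K, ∫ x, g x ∂(ν : Measure K) ∂(psnd ρ : Measure (PM K)) =
      ∫ μ : PM K, ∫ x, g x ∂(μ : Measure K) ∂(pfst ρ : Measure (PM K)) := by
  rw [bary_integral_snd ρ (measurable_integral_pm hm) (fun ν => bary_norm_integral_le ν hC)]
  refine integral_congr_ae ?_
  filter_upwards [bary_ae measurable_id h] with d hd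
  exact (hd.integral (Integrable.of_bound hm.aestronglyMeasurable C (ae_of_all _ hC))).symm

theorem Mart.ae_mem {ρ : PM (PM K × PM K)} (h : Mart ρ) {Z : Set K} (hZ : MeasurableSet Z)
    (h1 : ∀ᵐ μ : PM K ∂(pfst ρ : Measure (PM K)), ∀ᵐ x ∂(μ : Measure K), x ∈ Z) :
    ∀ᵐ ν : PM K ∂(psnd ρ : Measure (PM K)), ∀ᵐ x ∂(ν : Measure K), x ∈ Z := by
  have hmeas : MeasurableSet {ν : PM K | ∀ᵐ x ∂(ν : Measure K), x ∈ Z} := by
    have : {ν : PM K | ∀ᵐ x ∂(ν : Measure K), x ∈ Z} =
        (fun ν : PM K => (ν : Measure K) Zᶜ) ⁻¹' {0} := rfl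
    rw [this]
    exact ((Measure.measurable_coe hZ.compl).comp bary_meas_coe) (measurableSet_singleton 0)
  have e : (psnd ρ : Measure (PM K)) =
      (ρ : Measure (PM K × PM K)).condKernel ∘ₘ (pfst ρ : Measure (PM K)) := by
    rw [bary_psnd, bary_pfst, ← Measure.snd_compProd, Measure.disintegrate]
  rw [e]
  refine Measure.ae_comp_of_ae_ae hmeas ?_
  filter_upwards [bary_ae measurable_id h, h1] with d hd hd1
  exact hd.ae hd1

theorem Mart.map {ρ : PM (PM K × PM K)} (h : Mart ρ) (f : C(K, L)) :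
    Mart (pmap ((pmap f).prodMap (pmap f)) ρ) := by
  intro g Ψ
  have c1 : Continuous fun q : PM L × PM L => Ψ q.1 * ev g q.2 := by fun_prop
  have c2 : Continuous fun q : PM L × PM L => Ψ q.1 * ev g (id q.1) := by fun_prop
  have hF := ((pmap f).prodMap (pmap f)).continuous.measurable.aemeasurable
    (μ := (ρ : Measure (PM K × PM K)))
  rw [coe_pmap, integral_map hF c1.aestronglyMeasurable, integral_map hF c2.aestronglyMeasurable]
  have := h (g.comp f) (Ψ.comp (pmap f))
  simpa only [ContinuousMap.prodMap_apply, Prod.map_fst, Prod.map_snd, id, ev_pmap,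
    ContinuousMap.comp_apply] using this


end Vale.Agent.P102
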