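import Vale.Agent.P102.CIa
import Vale.Agent.P102.Bary

/-! Conditional independence of a barycenter. -/

open MeasureTheory ProbabilityTheory Filter Topology Set
open scoped ComplexConjugate

noncomputable section

namespace Vale.Agent.P102

variable {K : Type} {ℛ 𝒜 ℬ 𝒞 𝒟 : MeasurableSpace K} [TopologicalSpace K]
  [mK : MeasurableSpace K] [Nice K]

/-- Fix `A`, let `U = μ[1_A | ℬ]`. For a good `ν`, `U` is also a version of `ν[1_A | ℬ]` (the
measures agree on `ℛ`, compare trims), hence of `ν[1_A | 𝒞]`. For `C ∈ 𝒞`, `D ∈ 𝒟`: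
`ν (A ∩ C ∩ D) = ∫_{C ∩ D} U ∂ν` because `D` is null or conull. Integrate over `ξ`
(`IsBary.integral`), then `setIntegral_eq_of_sup` and `CI_of_integral`. -/
theorem CI_of_bary {ξ : PM (PM K)} {μ : PM K} (hb : IsBary ξ μ) (h𝒜 : 𝒜 ≤ ℛ) (hℬ : ℬ ≤ ℛ)
    (hℛ : ℛ ≤ mK) (hℬ𝒞 : ℬ ≤ 𝒞) (h𝒞 : 𝒞 ≤ mK) (h𝒟 : 𝒟 ≤ mK)
    (h : ∀ᵐ ν : PM K ∂(ξ : Measure (PM K)),
      (∀ A, MeasurableSet[ℛ] A → (ν : Measure K) A = (μ : Measure K) A) ∧
        Triv (ν : Measure K) 𝒟 ∧ CI (ν : Measure K) 𝒜 ℬ 𝒞) :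
    CI (μ : Measure K) 𝒜 ℬ (𝒞 ⊔ 𝒟) := by
  have h𝒜' : 𝒜 ≤ mK := h𝒜.trans hℛ
  have hℬ' : ℬ ≤ mK := hℬ.trans hℛ
  refine CI_of_integral h𝒜' (hℬ𝒞.trans le_sup_left) (sup_le h𝒞 h𝒟) fun A hA => ?_
  have hAm : MeasurableSet A := h𝒜' _ hA
  set U := (μ : Measure K)[A.indicator (fun _ => (1 : ℝ)) | ℬ] with hU
  have hUm : StronglyMeasurable[ℬ] U := stronglyMeasurable_condExp
  have hind : ∀ ν : Measure K, ∀ [IsFiniteMeasure ν],
      Integrable (A.indicator fun _ => (1 : ℝ)) ν := fun ν _ =>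
    (integrable_const _).indicator hAm
  refine ⟨U, integrable_condExp, hUm.aestronglyMeasurable, fun E hE => ?_⟩
  have hEm : MeasurableSet E := (sup_le h𝒞 h𝒟) _ hE
  have e0 : (μ : Measure K).real (A ∩ E) =
      ∫ ω in E, A.indicator (fun _ => (1 : ℝ)) ω ∂(μ : Measure K) := by
    rw [setIntegral_indicator hAm, setIntegral_const, inter_comm]; simp
  rw [e0]
  refine setIntegral_eq_of_sup h𝒞 h𝒟 (hind _) integrable_condExp (fun C D hC hD => ?_) hE
  have hCm : MeasurableSet C := h𝒞 _ hC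
  have hDm : MeasurableSet D := h𝒟 _ hD
  rw [← integral_indicator (hCm.inter hDm), ← integral_indicator (hCm.inter hDm),
    hb.integral ((hind _).indicator (hCm.inter hDm)),
    hb.integral (integrable_condExp.indicator (hCm.inter hDm))]
  refine integral_congr_ae ?_
  filter_upwards [h] with ν ⟨hR, hT, hCI⟩
  rw [integral_indicator (hCm.inter hDm), integral_indicator (hCm.inter hDm)]
  have htrim : (ν : Measure K).trim hℛ = (μ : Measure K).trim hℛ := by
    refine @Measure.ext K ℛ _ _ fun B hB => ?_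
    rw [trim_measurableSet_eq hℛ hB, trim_measurableSet_eq hℛ hB, hR B hB]
  have hUR : StronglyMeasurable[ℛ] U := hUm.mono hℬ
  have hUi : Integrable U (ν : Measure K) := by
    have h1 : Integrable U ((μ : Measure K).trim hℛ) := integrable_condExp.trim hℛ hUR
    rw [← htrim] at h1
    exact integrable_of_integrable_trim hℛ h1
  have hset : ∀ (f : K → ℝ), StronglyMeasurable[ℛ] f → ∀ B, MeasurableSet[ℛ] B →
      ∫ ω in B, f ω ∂(ν : Measure K) = ∫ ω in B, f ω ∂(μ : Measure K) := fun f hf B hB => by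
    rw [setIntegral_trim hℛ hf hB, setIntegral_trim hℛ hf hB, htrim]
  have hver : U =ᵐ[(ν : Measure K)] (ν : Measure K)[A.indicator (fun _ => (1 : ℝ)) | ℬ] := by
    refine ae_eq_condExp_of_forall_setIntegral_eq hℬ' (hind _)
      (fun B _ _ => hUi.integrableOn) (fun B hB _ => ?_) hUm.aestronglyMeasurable
    rw [hset U hUR B (hℬ _ hB), hset _ (stronglyMeasurable_const.indicator (h𝒜 _ hA)) B (hℬ _ hB),
      hU, setIntegral_condExp hℬ' (hind _) hB]
  have hC' : (ν : Measure K)[A.indicator (fun _ => (1 : ℝ)) | 𝒞] =ᵐ[(ν : Measure K)] U :=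
    (hCI.condExp_eq h𝒜' hℬ𝒞 h𝒞 (hind _)
      (stronglyMeasurable_const.indicator hA).aestronglyMeasurable).trans hver.symm
  rcases hT D hD with h0 | h0
  · have : (ν : Measure K) (C ∩ D) = 0 := measure_mono_null inter_subset_right h0
    rw [setIntegral_measure_zero _ this, setIntegral_measure_zero _ this]
  · have hCD : (C ∩ D : Set K) =ᵐ[(ν : Measure K)] C := by
      have : ∀ᵐ ω ∂(ν : Measure K), ω ∈ D := h0
      filter_upwards [this] with ω hω
      exact propext ⟨fun h => h.1, fun h => ⟨h, hω⟩⟩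
    rw [setIntegral_congr_set hCD, setIntegral_congr_set hCD,
      ← setIntegral_condExp h𝒞 (hind _) hC]
    exact setIntegral_congr_ae hCm (hC'.mono fun ω hω _ => hω)


end Vale.Agent.P102
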