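import Vale.Agent.P102.Push

/-! Independence of subfamilies. -/

open MeasureTheory ProbabilityTheory Filter Topology Set
open scoped ComplexConjugate

noncomputable section

namespace Vale.Agent.P102

variable {Ω ι : Type} {mΩ : MeasurableSpace Ω} {Θ : Measure Ω} [IsProbabilityMeasure Θ]
  {m m' : ι → MeasurableSpace Ω} {S : Set ι}

omit [IsProbabilityMeasure Θ] in
theorem indon_iff : IndOn Θ m S ↔ ∀ (T : Finset ι) (f : ι → Set Ω), (T : Set ι) ⊆ S →
    (∀ i ∈ T, MeasurableSet[m i] (f i)) → Θ (⋂ i ∈ T, f i) = ∏ i ∈ T, Θ (f i) := by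
  classical
  rw [IndOn, iIndep_iff]
  constructor
  · intro h T f hT hf
    have h1 := h (T.subtype (· ∈ S)) (f := fun i => f i)
      fun i hi => hf i (Finset.mem_subtype.1 hi)
    rw [Finset.prod_subtype_of_mem (fun i => Θ (f i)) fun i hi => hT hi] at h1
    rw [← h1]
    congr 1
    ext ω
    simp only [mem_iInter, Finset.mem_subtype, Subtype.forall]
    exact ⟨fun h2 i _ hi => h2 i hi, fun h2 i hi => h2 i (hT hi) hi⟩
  · intro h s f hf
    obtain ⟨g, hg⟩ : ∃ g : ι → Set Ω, ∀ j : S, g j = f j :=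
      ⟨fun i => if hi : i ∈ S then f ⟨i, hi⟩ else univ, fun j => dif_pos j.2⟩
    have h1 := h (s.map (Function.Embedding.subtype _)) g (fun i hi => ?_) (fun i hi => ?_)
    · rw [Finset.prod_map] at h1
      simp only [Function.Embedding.subtype_apply, hg] at h1
      rw [← h1]
      congr 1
      ext ω
      simp only [mem_iInter, Finset.mem_map, Function.Embedding.subtype_apply,
        forall_exists_index, and_imp, forall_apply_eq_imp_iff₂, hg]
    · obtain ⟨j, -, rfl⟩ := Finset.mem_map.1 (Finset.mem_coe.1 hi)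
      exact j.2
    · obtain ⟨j, hj, rfl⟩ := Finset.mem_map.1 hi
      simp only [Function.Embedding.subtype_apply, hg]
      exact hf j hj

omit [IsProbabilityMeasure Θ] in
theorem indon_meas (T : Finset ι) (f : ι → Set Ω) {J : Set ι} (hT : (T : Set ι) ⊆ J)
    (hf : ∀ i ∈ T, MeasurableSet[m i] (f i)) : MeasurableSet[⨆ j ∈ J, m j] (⋂ i ∈ T, f i) :=
  Finset.measurableSet_biInter T fun i hi =>
    (le_iSup₂ (f := fun j (_ : j ∈ J) => m j) i (hT hi)) _ (hf i hi)

theorem IndOn.indep_iSup (h : IndOn Θ m S) (hm : ∀ i, m i ≤ mΩ) {J J' : Set ι} (hJ : J ⊆ S)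
    (hJ' : J' ⊆ S) (hd : Disjoint J J') : Indep (⨆ i ∈ J, m i) (⨆ i ∈ J', m i) Θ := by
  have h1 := indep_iSup_of_disjoint (m := fun i : S => m i) (fun i => hm i) h
    (hd.preimage (Subtype.val : S → ι))
  refine indep_of_indep_of_le_right (indep_of_indep_of_le_left h1 ?_) ?_
  · exact iSup₂_le fun i hi => le_iSup₂_of_le (f := fun (j : S) (_ : j ∈ Subtype.val ⁻¹' J) => m j)
      ⟨i, hJ hi⟩ hi le_rfl
  · exact iSup₂_le fun i hi => le_iSup₂_of_le (f := fun (j : S) (_ : j ∈ Subtype.val ⁻¹' J') => m j)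
      ⟨i, hJ' hi⟩ hi le_rfl

theorem indOn_of_indep [Finite ι] (hm : ∀ i, m i ≤ mΩ)
    (h : ∀ i ∈ S, Indep (m i) (⨆ j ∈ S \ {i}, m j) Θ) : IndOn Θ m S := by
  classical
  refine indon_iff.2 fun T f => ?_
  induction T using Finset.induction_on with
  | empty => simp
  | insert i T hi ih =>
    intro hT hf
    have h1 : (T : Set ι) ⊆ S := fun j hj => hT (Finset.mem_insert_of_mem hj)
    have h2 : ∀ j ∈ T, MeasurableSet[m j] (f j) := fun j hj => hf j (Finset.mem_insert_of_mem hj)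
    rw [Finset.set_biInter_insert, Finset.prod_insert hi, ← ih h1 h2]
    exact (Indep_iff _ _ _).1 (h i (hT (Finset.mem_insert_self i T))) _ _
      (hf i (Finset.mem_insert_self i T))
      (indon_meas T f (fun j hj => ⟨h1 hj, fun h3 => hi (mem_singleton_iff.1 h3 ▸ hj)⟩) h2)

theorem IndOn.mono_set (h : IndOn Θ m S) {T : Set ι} (hT : T ⊆ S) : IndOn Θ m T :=
  indon_iff.2 fun U f hU hf => indon_iff.1 h U f (hU.trans hT) hf

theorem IndOn.mono_alg (h : IndOn Θ m S) (hm : ∀ i ∈ S, m' i ≤ m i) : IndOn Θ m' S :=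
  iIndep_of_iIndep_of_le h fun i => hm i i.2

theorem indOn_of_subsingleton (hS : S.Subsingleton) : IndOn Θ m S := by
  have := hS.coe_sort
  exact iIndep.of_subsingleton

theorem IndOn.update [Finite ι] [DecidableEq ι] (h : IndOn Θ m S) (hm : ∀ i, m i ≤ mΩ)
    (j : ι) (n : MeasurableSpace Ω) (hn : n ≤ mΩ) (hj : Indep n (⨆ i ∈ S \ {j}, m i) Θ) :
    IndOn Θ (Function.update m j n) S := by
  have key : ∀ (T : Finset ι) (f : ι → Set Ω), j ∉ T →
      (∀ i ∈ T, MeasurableSet[Function.update m j n i] (f i)) →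
      ∀ i ∈ T, MeasurableSet[m i] (f i) := by
    intro T f hT hf i hi
    have h1 := hf i hi
    rwa [Function.update_of_ne (fun h2 : i = j => hT (h2 ▸ hi))] at h1
  refine indon_iff.2 fun T f hT hf => ?_
  by_cases hjT : j ∈ T
  · have h1 : ((T.erase j : Finset ι) : Set ι) ⊆ S := fun i hi => hT (Finset.mem_of_mem_erase hi)
    have h2 := key (T.erase j) f (Finset.notMem_erase j T)
      fun i hi => hf i (Finset.mem_of_mem_erase hi)
    have h3 := hf j hjT
    rw [Function.update_self] at h3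
    rw [← Finset.insert_erase hjT, Finset.set_biInter_insert,
      Finset.prod_insert (Finset.notMem_erase j T), ← indon_iff.1 h _ f h1 h2]
    exact (Indep_iff _ _ _).1 hj _ _ h3 (indon_meas _ f
      (fun i hi => ⟨h1 hi, Finset.ne_of_mem_erase (Finset.mem_coe.1 hi)⟩) h2)
  · exact indon_iff.1 h T f hT (key T f hjT hf)

theorem IndOn.integral_prod {𝕜 : Type} [RCLike 𝕜] (h : IndOn Θ m S) (hm : ∀ i, m i ≤ mΩ)
    (T : Finset ι) (hT : (T : Set ι) ⊆ S) (g : ι → Ω → 𝕜) (hg : ∀ i ∈ T, Measurable[m i] (g i))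
    (hb : ∀ i ∈ T, ∃ C : ℝ, ∀ ω, ‖g i ω‖ ≤ C) :
    ∫ ω, ∏ i ∈ T, g i ω ∂Θ = ∏ i ∈ T, ∫ ω, g i ω ∂Θ := by
  have h1 : iIndepFun (fun i : T => g i) Θ :=
    (iIndepFun_iff_iIndep _ _ _).2 (iIndep_of_iIndep_of_le (m₂ := fun i : T => m i)
      (h.mono_set hT) fun i => (hg i i.2).comap_le)
  have h2 := h1.integral_fun_prod_eq_prod_integral
    fun i => ((hg i i.2).mono (hm i) le_rfl).aestronglyMeasurable
  rw [Finset.prod_coe_sort T fun i => ∫ ω, g i ω ∂Θ] at h2
  rw [← h2]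
  congr 1
  funext ω
  exact (Finset.prod_coe_sort T fun i => g i ω).symm

/-- Independence from the product formula for continuous functions (for instance
`indOn_of_indep` with `indepFun_pi_of_prod_bcf`, or `iIndepFun_iff_map_fun_eq_pi_map` with the
extensionality lemmas of `HasOuterApproxClosedProd`). -/
theorem indOn_of_cont [Finite ι] {K : Type} [TopologicalSpace K] [mK : MeasurableSpace K] [Nice K]
    (X : ι → Ω → K) (hX : ∀ i, Measurable[mΩ] (X i))
    (h : ∀ (T : Finset ι) (f : ι → C(K, ℝ)), (T : Set ι) ⊆ S →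
      ∫ ω, ∏ i ∈ T, f i (X i ω) ∂Θ = ∏ i ∈ T, ∫ ω, f i (X i ω) ∂Θ) :
    IndOn Θ (fun i => mK.comap (X i)) S := by
  classical
  refine indOn_of_indep (fun i => (hX i).comap_le) fun i hi => ?_
  obtain ⟨T, hT⟩ : ∃ T : Finset ι, (T : Set ι) = S \ {i} :=
    ⟨(Set.toFinite _).toFinset, Set.Finite.coe_toFinset _⟩
  have hiT : i ∉ T := fun h1 => (hT.subset h1).2 rfl
  have hTS : (T : Set ι) ⊆ S := fun j hj => (hT.subset hj).1
  have h1 : IndepFun (X i) (fun ω (t : T) => X t ω) Θ := by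
    refine indepFun_pi_of_prod_bcf (hX i).aemeasurable (fun t => (hX t).aemeasurable)
      fun f g => ?_
    obtain ⟨F, hF1, hF2⟩ : ∃ F : ι → C(K, ℝ), (∀ x, F i x = f x) ∧ ∀ (t : T) x, F t x = g t x :=
      ⟨fun j => if hj : j ∈ T then (g ⟨j, hj⟩).toContinuousMap else f.toContinuousMap,
        fun x => by simp only [hiT, dif_neg, not_false_eq_true]; rfl,
        fun t x => by simp only [t.2, dif_pos]; rfl⟩
    have h2 := h (insert i T) F (by
      rw [Finset.coe_insert]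
      exact insert_subset hi hTS)
    rw [Finset.prod_insert hiT, ← h T F hTS] at h2
    simp only [Finset.prod_insert hiT, hF1] at h2
    have h3 : ∀ ω, ∏ j ∈ T, F j (X j ω) = ∏ t : T, g t (X t ω) := by
      intro ω
      rw [← Finset.prod_coe_sort]
      simp only [hF2]
    simp only [h3] at h2
    simpa only [Pi.mul_apply, Finset.prod_apply, Function.comp_apply] using h2
  refine indep_of_indep_of_le_right h1 (iSup₂_le fun j hj => ?_)
  exact Measurable.comap_le (m₁ := MeasurableSpace.pi.comap fun ω (t : T) => X t ω)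
    ((measurable_pi_apply (X := fun _ : T => K) ⟨j, hT.symm.subset hj⟩).comp
      (comap_measurable fun ω (t : T) => X t ω))

theorem indOn_map_iff {Ω' : Type} {mΩ' : MeasurableSpace Ω'} (f : Ω → Ω')
    (hf : Measurable[mΩ, mΩ'] f) (n : ι → MeasurableSpace Ω') (hn : ∀ i, n i ≤ mΩ') :
    IndOn (mΩ := mΩ') (Θ.map f) n S ↔ IndOn Θ (fun i => (n i).comap f) S := by
  have key : ∀ (T : Finset ι) (g : ι → Set Ω'), (∀ i ∈ T, MeasurableSet[n i] (g i)) →
      ((Θ.map f) (⋂ i ∈ T, g i) = ∏ i ∈ T, (Θ.map f) (g i) ↔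
        Θ (⋂ i ∈ T, f ⁻¹' g i) = ∏ i ∈ T, Θ (f ⁻¹' g i)) := by
    intro T g hg
    rw [Measure.map_apply hf (Finset.measurableSet_biInter T fun i hi => hn i _ (hg i hi)),
      preimage_iInter₂, Finset.prod_congr rfl fun i hi => Measure.map_apply hf (hn i _ (hg i hi))]
  rw [indon_iff, indon_iff]
  constructor
  · intro h T A hT hA
    choose! g hg1 hg2 using hA
    have h1 := (key T g hg1).1 (h T g hT hg1)
    rwa [iInter₂_congr hg2, Finset.prod_congr rfl fun i hi => congrArg Θ (hg2 i hi)] at h1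
  · intro h T g hT hg
    exact (key T g hg).2 (h T _ hT fun i hi => ⟨g i, hg i hi, rfl⟩)

theorem indep_map_iff {Ω' : Type} {n n' : MeasurableSpace Ω'} {mΩ' : MeasurableSpace Ω'}
    (f : Ω → Ω') (hf : Measurable[mΩ, mΩ'] f) (hn : n ≤ mΩ') (hn' : n' ≤ mΩ') :
    Indep n n' (Θ.map f : @Measure Ω' mΩ') ↔ Indep (n.comap f) (n'.comap f) Θ := by
  have key : ∀ A B, MeasurableSet[n] A → MeasurableSet[n'] B →
      ((Θ.map f : @Measure Ω' mΩ') (A ∩ B) =
        (Θ.map f : @Measure Ω' mΩ') A * (Θ.map f : @Measure Ω' mΩ') B ↔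
        Θ (f ⁻¹' A ∩ f ⁻¹' B) = Θ (f ⁻¹' A) * Θ (f ⁻¹' B)) := by
    intro A B hA hB
    rw [Measure.map_apply hf ((hn _ hA).inter (hn' _ hB)), Measure.map_apply hf (hn _ hA),
      Measure.map_apply hf (hn' _ hB), preimage_inter]
  rw [Indep_iff, Indep_iff]
  constructor
  · rintro h _ _ ⟨A, hA, rfl⟩ ⟨B, hB, rfl⟩
    exact (key A B hA hB).1 (h A B hA hB)
  · intro h A B hA hB
    exact (key A B hA hB).2 (h _ _ ⟨A, hA, rfl⟩ ⟨B, hB, rfl⟩)


end Vale.Agent.P102
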