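import Vale.Agent.P102.CIa
import Vale.Agent.P102.IndOn

/-! Grouping columns and rows into three blocks. -/

open MeasureTheory ProbabilityTheory Filter Topology Set
open scoped ComplexConjugate

noncomputable section

namespace Vale.Agent.P102

theorem group3_third (t u : Fin 3) : ∃ v, v ≠ t ∧ v ≠ u := by
  revert t u
  decide

theorem group3_cases {t u v : Fin 3} (htu : t ≠ u) (htv : t ≠ v) (huv : u ≠ v) (w : Fin 3) :
    w = t ∨ w = u ∨ w = v := by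
  revert t u v w
  decide

theorem group3_ne_univ {ι : Type} {B : Fin 3 → Set ι} (hne : ∀ t, (B t).Nonempty)
    (hd : ∀ t u, t ≠ u → Disjoint (B t) (B u)) (t u : Fin 3) : B t ∪ B u ≠ univ := by
  obtain ⟨v, hvt, hvu⟩ := group3_third t u
  obtain ⟨r, hr⟩ := hne v
  intro h
  rcases (h.symm.subset (mem_univ r) : r ∈ B t ∪ B u) with h1 | h1
  · exact disjoint_left.1 (hd v t hvt) hr h1
  · exact disjoint_left.1 (hd v u hvu) hr h1

section
variable {Ω ι : Type} {mΩ : MeasurableSpace Ω} {Θ : Measure Ω} [IsProbabilityMeasure Θ]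

/-- For block `t` pick `r ∈ B t` and apply `CI.shift` with `𝒜 r`, `ℬ' = ⨆ over B t ∖ r`,
`ℬ = ⨆ over the two other blocks`; independence from `IndOn.indep_iSup` for `J = {l | l ≠ r}`. -/
theorem star_of_blocks (𝒜 𝒞 : ι → MeasurableSpace Ω) (hle : ∀ i, 𝒜 i ≤ 𝒞 i)
    (hle' : ∀ i, 𝒞 i ≤ mΩ) (hind : ∀ J : Set ι, J ≠ univ → IndOn Θ 𝒞 J)
    (hci : ∀ i, CI Θ (𝒜 i) (⨆ l ∈ {l | l ≠ i}, 𝒜 l) (⨆ l ∈ {l | l ≠ i}, 𝒞 l))
    (B : Fin 3 → Set ι) (hne : ∀ t, (B t).Nonempty) (hd : ∀ t u, t ≠ u → Disjoint (B t) (B u))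
    (hc : ∀ l, ∃ t, l ∈ B t) :
    Star Θ (fun t => ⨆ l ∈ B t, 𝒜 l) (fun t => ⨆ l ∈ B t, 𝒞 l) := by
  refine ⟨fun t => iSup₂_mono fun l _ => hle l, fun t => iSup₂_le fun l _ => hle' l,
    fun t u htu => (hind _ (group3_ne_univ hne hd t u)).indep_iSup hle' subset_union_left
      subset_union_right (hd t u htu), fun t u v htu htv huv => ?_⟩
  obtain ⟨r, hr⟩ := hne t
  have hru : r ∉ B u := disjoint_left.1 (hd t u htu) hr
  have hrv : r ∉ B v := disjoint_left.1 (hd t v htv) hr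
  have e : {l | l ≠ r} = (B t \ {r}) ∪ (B u ∪ B v) := by
    ext l
    constructor
    · intro hl
      obtain ⟨w, hw⟩ := hc l
      rcases group3_cases htu htv huv w with rfl | rfl | rfl
      · exact Or.inl ⟨hw, hl⟩
      · exact Or.inr (Or.inl hw)
      · exact Or.inr (Or.inr hw)
    · rintro (hl | hl | hl)
      · exact hl.2
      · exact fun h => hru (h ▸ hl)
      · exact fun h => hrv (h ▸ hl)
  have h1 := hci r
  rw [e, iSup_union, iSup_union (s := B t \ {r})] at h1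
  have h2 : Indep (⨆ l ∈ B t \ {r}, 𝒞 l) (⨆ l ∈ B u ∪ B v, 𝒞 l) Θ :=
    (hind {l | l ≠ r} fun h => (h.symm.subset (mem_univ r) : r ≠ r) rfl).indep_iSup hle'
      (subset_union_left.trans e.symm.subset) (subset_union_right.trans e.symm.subset)
      (disjoint_union_right.2 ⟨(hd t u htu).mono_left Set.sdiff_subset,
        (hd t v htv).mono_left Set.sdiff_subset⟩)
  have h3 := h1.shift h2 ((hle r).trans (hle' r)) (iSup₂_mono fun l _ => hle l)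
    (iSup₂_mono fun l _ => hle l) (iSup₂_le fun l _ => hle' l) (iSup₂_le fun l _ => hle' l)
  rw [iSup_union, iSup_union] at h3
  refine h3.mono_left (iSup₂_le fun l hl => ?_)
  by_cases hlr : l = r
  · exact hlr ▸ le_sup_left
  · exact le_sup_of_le_right (le_iSup₂ (f := fun l (_ : l ∈ B t \ {r}) => 𝒜 l) l ⟨hl, hlr⟩)

/-- `CI.shift`. -/
theorem Star.ci_rev {𝒜 𝒞 : Fin 3 → MeasurableSpace Ω} (h : Star Θ 𝒜 𝒞) {t u v : Fin 3}
    (htu : t ≠ u) (htv : t ≠ v) (huv : u ≠ v) : CI Θ (𝒜 u ⊔ 𝒜 v) (𝒜 t) (𝒞 t) := by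
  exact (h.ci u v t huv htu.symm htv.symm).shift (h.ind v t htv.symm) ((h.le u).trans (h.le' u))
    (h.le v) (h.le t) (h.le' v) (h.le' t)

/-- Iterate `CI.sup` over a finite set of rows. -/
theorem CI_biSup [Finite ι] (𝒜 ℬ ℛ : ι → MeasurableSpace Ω) (𝒞 : MeasurableSpace Ω)
    (S : Set ι) (h𝒞 : 𝒞 ≤ mΩ) (hℛ : ∀ s, ℛ s ≤ mΩ) (h𝒜 : ∀ s, 𝒜 s ≤ ℛ s) (hℬ : ∀ s, ℬ s ≤ 𝒞)
    (h : ∀ s ∈ S, CI (mΩ := mΩ) Θ (𝒜 s) (ℬ s) (𝒞 ⊔ ⨆ s' ∈ S \ {s}, ℛ s')) :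
    CI (mΩ := mΩ) Θ (⨆ s ∈ S, 𝒜 s) (⨆ s ∈ S, ℬ s) 𝒞 := by
  refine Set.Finite.induction_on_subset
    (motive := fun T _ => CI (mΩ := mΩ) Θ (⨆ s ∈ T, 𝒜 s) (⨆ s ∈ T, ℬ s) 𝒞) S (Set.toFinite S) ?_
    fun {s T} hs hT hsT ih => ?_
  · simpa using CI_bot_left (mΩ := mΩ) (Θ := Θ) (ℬ := ⊥) h𝒞
  · rw [iSup_insert, iSup_insert]
    refine CI.sup (mΩ := mΩ) ((h s hs).mono_right (sup_le h𝒞 (iSup₂_le fun l _ => hℛ l))
      (sup_le_sup_left (iSup₂_le fun l hl => ?_) _) (le_sup_of_le_left (hℬ s))) ih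
      ((h𝒜 s).trans (hℛ s)) (iSup₂_le fun l _ => (h𝒜 l).trans (hℛ l)) (hℬ s)
      (iSup₂_le fun l _ => hℬ l) h𝒞
    exact (h𝒜 l).trans (le_iSup₂ (f := fun l (_ : l ∈ S \ {s}) => ℛ l) l
      ⟨hT hl, fun h1 => hsT (mem_singleton_iff.1 h1 ▸ hl)⟩)

end

section
variable {K ι α : Type} [MeasurableSpace K]

theorem blk_nonempty {a b : ι} (h3 : ∃ c, c ≠ a ∧ c ≠ b) (t : Fin 3) : (blk a b t).Nonempty := by
  fin_cases t
  · exact ⟨a, rfl⟩
  · exact ⟨b, rfl⟩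
  · exact h3

theorem blk_disjoint {a b : ι} (hab : a ≠ b) (t u : Fin 3) (htu : t ≠ u) :
    Disjoint (blk a b t) (blk a b u) := by
  fin_cases t <;> fin_cases u <;> simp [hab, hab.symm] at htu ⊢

theorem blk_cover (a b l : ι) : ∃ t, l ∈ blk a b t := by
  by_cases h1 : l = a
  · exact ⟨0, h1⟩
  · by_cases h2 : l = b
    · exact ⟨1, h2⟩
    · exact ⟨2, h1, h2⟩

theorem GH.star {Θ : Measure (ι → α → K)} [IsProbabilityMeasure Θ] {𝒮 : Set (Set α)}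
    (h : GH Θ 𝒮) {S : Set α} (hS : S ∈ 𝒮) {t₀ t₁ : ι} (ht : t₀ ≠ t₁)
    (h3 : ∃ c, c ≠ t₀ ∧ c ≠ t₁) :
    Star Θ (fun t => gσ K (blk t₀ t₁ t) S) (fun t => gσ K (blk t₀ t₁ t) (univ : Set α)) := by
  have h1 := star_of_blocks (Θ := Θ) (fun i => gσ K {i} S) (fun i => gσ K {i} (univ : Set α))
    (fun i => gσ_mono subset_rfl (subset_univ S)) (fun i => gσ_le _ _) h.h2
    (fun i => by
      rw [← gσ_eq_iSup_left, ← gσ_eq_iSup_left]
      exact h.h1 S hS i)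
    (blk t₀ t₁) (blk_nonempty h3) (blk_disjoint ht) (blk_cover t₀ t₁)
  simpa only [← gσ_eq_iSup_left] using h1

theorem GH.g33 {Θ : Measure (ι → α → K)} [IsProbabilityMeasure Θ]
    (h : GH Θ {S | S ≠ univ}) {t₀ t₁ : ι} (ht : t₀ ≠ t₁) (h3 : ∃ c, c ≠ t₀ ∧ c ≠ t₁)
    {a b : α} (hab : a ≠ b) (h3' : ∃ c, c ≠ a ∧ c ≠ b) :
    G33 Θ (fun s t => gσ K (blk t₀ t₁ t) (blk a b s))
      (fun t => gσ K (blk t₀ t₁ t) (univ : Set α)) := by
  have hne := group3_ne_univ (blk_nonempty h3') (blk_disjoint hab)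
  refine ⟨fun s => h.star (S := blk a b s) (by simpa using hne s s) ht h3, fun s s' _ => ?_,
    fun s s' hs => ?_⟩
  · simp only [← gσ_union_right]
    exact h.star (hne s s') ht h3
  · have h1 := (h.h3 _ (hne s s')).indep_iSup (fun _ => gσ_le _ _) subset_union_left
      subset_union_right (blk_disjoint hab s s' hs)
    rw [← gσ_eq_iSup_right, ← gσ_eq_iSup_right] at h1
    exact indep_of_indep_of_le_right (indep_of_indep_of_le_left h1
      (iSup_le fun t => gσ_mono (subset_univ _) subset_rfl))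
      (iSup_le fun t => gσ_mono (subset_univ _) subset_rfl)

end


end Vale.Agent.P102
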