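import Vale.Agent.P102.HB2
import Vale.Agent.P102.Group3

/-! The two properties (beta) and (K) of the column maps. -/

open MeasureTheory ProbabilityTheory Filter Topology Set
open scoped ComplexConjugate

noncomputable section

namespace Vale.Agent.P102

section Aux
variable {Ω : Type} {𝒟 𝒟₀ 𝒟₁ 𝒟₂ : MeasurableSpace Ω} {mΩ : MeasurableSpace Ω} {Θ : Measure Ω}
  [IsProbabilityMeasure Θ]

/-- `φ` is the class of the indicator of `A`. -/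
def beta_Ind (φ : L2 Θ) (A : Set Ω) : Prop :=
  (φ : Ω → ℂ) =ᵐ[Θ] A.indicator fun _ => (1 : ℂ)

theorem beta_exists (h : 𝒟 ≤ mΩ) {A : Set Ω} (hA : MeasurableSet[𝒟] A) :
    ∃ φ ∈ XX Θ 𝒟, beta_Ind φ A := by
  have e : (indicatorConstLp 2 (h A hA) (measure_ne_top Θ A) (1 : ℂ) : Ω → ℂ) =ᵐ[Θ]
      A.indicator fun _ => (1 : ℂ) := indicatorConstLp_coeFn
  refine ⟨indicatorConstLp 2 (h A hA) (measure_ne_top Θ A) (1 : ℂ), mem_XX.2 ?_, e⟩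
  exact ⟨_, stronglyMeasurable_const.indicator hA, e⟩

theorem beta_Ind.mul {φ : L2 Θ} {A : Set Ω} (h : beta_Ind φ A) (f : L2 Θ) :
    (mulL φ f : Ω → ℂ) =ᵐ[Θ] fun ω => φ ω * f ω := by
  refine mulL_ae_of_memLp ((Lp.memLp f).of_le
    ((Lp.aestronglyMeasurable φ).mul (Lp.aestronglyMeasurable f)) ?_)
  filter_upwards [h] with ω hω
  rw [hω]
  by_cases h' : ω ∈ A <;> simp [h']

omit [IsProbabilityMeasure Θ] in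
theorem beta_int {φ₁ φ₀ φ₂ : L2 Θ} {A₁ A₀ A₂ : Set Ω} (h1 : beta_Ind φ₁ A₁) (h0 : beta_Ind φ₀ A₀)
    (h2 : beta_Ind φ₂ A₂) (_m1 : MeasurableSet A₁) (m0 : MeasurableSet A₀) (m2 : MeasurableSet A₂)
    (f : L2 Θ) :
    ∫ ω in A₀ ∩ A₂, A₁.indicator f ω ∂Θ = ∫ ω, φ₁ ω * φ₀ ω * φ₂ ω * f ω ∂Θ := by
  rw [← integral_indicator (m0.inter m2)]
  refine integral_congr_ae ?_
  filter_upwards [h1, h0, h2] with ω e1 e0 e2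
  rw [e1, e0, e2]
  by_cases k1 : ω ∈ A₁ <;> by_cases k0 : ω ∈ A₀ <;> by_cases k2 : ω ∈ A₂ <;> simp [k1, k0, k2]

theorem beta_ext (l1 : 𝒟₁ ≤ mΩ) (l0 : 𝒟₀ ≤ mΩ) (l2 : 𝒟₂ ≤ mΩ) {f g : L2 Θ}
    (hg : g ∈ XX Θ (𝒟₁ ⊔ (𝒟₀ ⊔ 𝒟₂)))
    (h : ∀ (φ₁ φ₀ φ₂ : L2 Θ) (A₁ A₀ A₂ : Set Ω), φ₁ ∈ XX Θ 𝒟₁ → φ₀ ∈ XX Θ 𝒟₀ → φ₂ ∈ XX Θ 𝒟₂ →
      beta_Ind φ₁ A₁ → beta_Ind φ₀ A₀ → beta_Ind φ₂ A₂ →
      ∫ ω, φ₁ ω * φ₀ ω * φ₂ ω * f ω ∂Θ = ∫ ω, φ₁ ω * φ₀ ω * φ₂ ω * g ω ∂Θ) :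
    PP Θ (𝒟₁ ⊔ (𝒟₀ ⊔ 𝒟₂)) f = g := by
  have l := sup_le l1 (sup_le l0 l2)
  have fi : Integrable f Θ := (Lp.memLp f).integrable one_le_two
  have gi : Integrable g Θ := (Lp.memLp g).integrable one_le_two
  refine Lp.ext ((PP_ae l f).trans (ae_eq_condExp_of_forall_setIntegral_eq l fi
    (fun s _ _ => gi.integrableOn) (fun s hs _ => ?_) (mem_XX.1 hg)).symm)
  refine setIntegral_eq_of_sup l1 (sup_le l0 l2) gi fi (fun A₁ D hA hD => ?_) hs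
  obtain ⟨φ₁, x1, i1⟩ := beta_exists (Θ := Θ) l1 hA
  have k := setIntegral_eq_of_sup l0 l2 (gi.indicator (l1 _ hA)) (fi.indicator (l1 _ hA))
    (fun A₀ A₂ h0 h2 => by
      obtain ⟨φ₀, x0, i0⟩ := beta_exists (Θ := Θ) l0 h0
      obtain ⟨φ₂, x2, i2⟩ := beta_exists (Θ := Θ) l2 h2
      rw [beta_int i1 i0 i2 (l1 _ hA) (l0 _ h0) (l2 _ h2),
        beta_int i1 i0 i2 (l1 _ hA) (l0 _ h0) (l2 _ h2)]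
      exact (h _ _ _ _ _ _ x1 x0 x2 i1 i0 i2).symm) hD
  rwa [setIntegral_indicator (l1 _ hA), setIntegral_indicator (l1 _ hA), inter_comm] at k

end Aux

variable {Ω : Type} {mΩ : MeasurableSpace Ω} {Θ : Measure Ω} [IsProbabilityMeasure Θ]
  {𝒜 : Fin 3 → Fin 3 → MeasurableSpace Ω} {𝒞 : Fin 3 → MeasurableSpace Ω}
  {x y z t u v : Fin 3}

omit [IsProbabilityMeasure Θ] in
theorem beta_row_le (hG : G33 Θ 𝒜 𝒞) (s : Fin 3) : ⨆ t, 𝒜 s t ≤ mΩ := iSup_le (hG.le s)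

theorem beta_row {s t : Fin 3} {a : L2 Θ} (ha : a ∈ XX Θ (𝒜 s t)) : a ∈ XX Θ (⨆ t, 𝒜 s t) :=
  XX_mono (le_iSup (𝒜 s) t) ha

theorem beta_row2 {s t u : Fin 3} {a : L2 Θ} (ha : a ∈ XX Θ (𝒜 s t ⊔ 𝒜 s u)) :
    a ∈ XX Θ (⨆ t, 𝒜 s t) := XX_mono (sup_le (le_iSup (𝒜 s) t) (le_iSup (𝒜 s) u)) ha

theorem beta_rows (hG : G33 Θ 𝒜 𝒞) {s s' : Fin 3} (hs : s ≠ s') {a b : L2 Θ}
    (ha : a ∈ XX Θ (⨆ t, 𝒜 s t)) (hb : b ∈ XX Θ (⨆ t, 𝒜 s' t)) :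
    (mulL a b : Ω → ℂ) =ᵐ[Θ] fun ω => a ω * b ω :=
  mulL_ae (hG.row s s' hs) (beta_row_le hG s) (beta_row_le hG s') ha hb

theorem beta_in (hG : G33 Θ 𝒜 𝒞) {s t u : Fin 3} (h : t ≠ u) {a b : L2 Θ}
    (ha : a ∈ XX Θ (𝒜 s t)) (hb : b ∈ XX Θ (𝒜 s u)) :
    (mulL a b : Ω → ℂ) =ᵐ[Θ] fun ω => a ω * b ω :=
  mulL_ae (hG.ind_row s h) (hG.le _ _) (hG.le _ _) ha hb

/-- The function `Ψ`. -/
theorem beta_psi (hG : G33 Θ 𝒜 𝒞) (hr : Dist x y z) (hc : Dist t u v) {φ₀ φ₂ g₀ g₂ : L2 Θ}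
    (x0 : φ₀ ∈ XX Θ (𝒜 x u)) (x2 : φ₂ ∈ XX Θ (𝒜 x v)) (h0 : g₀ ∈ XX Θ (𝒜 z u))
    (h2 : g₂ ∈ XX Θ (𝒜 z v)) :
    mulL (mulL φ₀ φ₂) (mulL g₀ g₂) ∈ XX Θ ((𝒜 x u ⊔ 𝒜 z u) ⊔ (𝒜 x v ⊔ 𝒜 z v)) ∧
      (mulL (mulL φ₀ φ₂) (mulL g₀ g₂) : Ω → ℂ) =ᵐ[Θ] fun ω => φ₀ ω * φ₂ ω * mulL g₀ g₂ ω := by
  refine ⟨XX_mono (sup_sup_sup_comm _ _ _ _).le (mulL_mem (mulL_mem x0 x2) (mulL_mem h0 h2)), ?_⟩
  filter_upwards [beta_rows hG hr.xz (beta_row2 (mulL_mem x0 x2)) (beta_row2 (mulL_mem h0 h2)),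
    beta_in hG hc.yz x0 x2] with ω e1 e2
  rw [e1, e2]

theorem beta_first (hG : G33 Θ 𝒜 𝒞) (hr : Dist x y z) (hc : Dist t u v)
    {φ₁ φ₀ φ₂ h g₀ g₂ : L2 Θ} (x1 : φ₁ ∈ XX Θ (𝒜 x t)) (x0 : φ₀ ∈ XX Θ (𝒜 x u))
    (x2 : φ₂ ∈ XX Θ (𝒜 x v)) (hh : h ∈ XX Θ (𝒜 y t)) (h0 : g₀ ∈ XX Θ (𝒜 z u))
    (h2 : g₂ ∈ XX Θ (𝒜 z v)) :
    ∫ ω, φ₁ ω * φ₀ ω * φ₂ ω * mulL h (mulL g₀ g₂) ω ∂Θ =
      pr (mulL h φ₁) (mulL (mulL φ₀ φ₂) (mulL g₀ g₂)) := by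
  refine integral_congr_ae ?_
  filter_upwards [(beta_psi hG hr hc x0 x2 h0 h2).2,
    beta_rows hG hr.yz (beta_row hh) (beta_row2 (mulL_mem h0 h2)),
    beta_rows hG hr.xy.symm (beta_row hh) (beta_row x1)] with ω e1 e2 e3
  rw [e1, e2, e3]
  ring

/-- Let `Φ = mulL h (mulL g₀ g₂)`, `n = BB (𝒜 x t) h (BB (𝒜 z t) g₀ g₂)`. For sets
`A₁ ∈ 𝒜 x t`, `A₀ ∈ 𝒜 x u`, `A₂ ∈ 𝒜 x v` with indicators `φ₁ φ₀ φ₂` and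
`Ψ = mulL (φ₀ g₀) (φ₂ g₂)`:
(1) `∫ φ₀ φ₁ φ₂ Φ = pr (mulL h φ₁) Ψ = pr (mulL h φ₁) (PP (𝒞 t) Ψ)` and by `Star.ci_rev` for the
rows `x, z` and `PP_mulL`, `PP (𝒞 t) Ψ = mulL (BB (𝒜 x t) φ₀ φ₂) (BB (𝒜 z t) g₀ g₂)`; this gives
`∫ φ₀ φ₁ φ₂ Φ = ∫ φ₀ φ₁ φ₂ n`. So `PP (row x) Φ = n`. -/
theorem PP_row_eq (hG : G33 Θ 𝒜 𝒞) (hr : Dist x y z) (hc : Dist t u v) {h g₀ g₂ : L2 Θ}
    (hh : h ∈ XX Θ (𝒜 y t)) (h0 : g₀ ∈ XX Θ (𝒜 z u)) (h2 : g₂ ∈ XX Θ (𝒜 z v)) :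
    PP Θ (𝒜 x t ⊔ (𝒜 x u ⊔ 𝒜 x v)) (mulL h (mulL g₀ g₂)) =
      BB (𝒜 x t) h (BB (𝒜 z t) g₀ g₂) := by
  refine beta_ext (hG.le _ _) (hG.le _ _) (hG.le _ _) (XX_mono le_sup_left (BB_mem _ _))
    fun φ₁ φ₀ φ₂ A₁ A₀ A₂ x1 x0 x2 i1 _ _ => ?_
  have c1 : mulL h φ₁ ∈ XX Θ (𝒞 t) :=
    XX_mono (sup_le ((hG.one y).le t) ((hG.one x).le t)) (mulL_mem hh x1)
  have e1 := ((hG.two x z hr.xz).ci_rev hc.xy hc.xz hc.yz).PP_eq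
    (sup_le (sup_le (hG.le _ _) (hG.le _ _)) (sup_le (hG.le _ _) (hG.le _ _)))
    ((hG.two x z hr.xz).le t) ((hG.one x).le' t) (beta_psi hG hr hc x0 x2 h0 h2).1
  have e2 := PP_mulL (hG.row x z hr.xz) (beta_row_le hG x) (beta_row_le hG z) (le_iSup (𝒜 x) t)
    (le_iSup (𝒜 z) t) (beta_row2 (mulL_mem x0 x2)) (beta_row2 (mulL_mem h0 h2))
  rw [beta_first hG hr hc x1 x0 x2 hh h0 h2, ← pr_PP ((hG.one x).le' t) c1, e1, e2]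
  simp only [BB]
  have hβ : PP Θ (𝒜 x t) (mulL φ₀ φ₂) ∈ XX Θ (𝒜 x t) := PP_mem _
  have hκ : PP Θ (𝒜 z t) (mulL g₀ g₂) ∈ XX Θ (𝒜 z t) := PP_mem _
  generalize PP Θ (𝒜 z t) (mulL g₀ g₂) = κ at hκ ⊢
  have hn : PP Θ (𝒜 x t) (mulL h κ) ∈ XX Θ (𝒜 x t) := PP_mem _
  have k1 := pr_PP (hG.le x t) (XX_mono (sup_idem _).le (mulL_mem x1 hβ)) (mulL h κ)
  have k2 := pr_PP (hG.le x t) (XX_mono (sup_idem _).le (mulL_mem x1 hn)) (mulL φ₀ φ₂)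
  generalize PP Θ (𝒜 x t) (mulL φ₀ φ₂) = β at hβ k1 k2 ⊢
  generalize PP Θ (𝒜 x t) (mulL h κ) = n at hn k1 k2 ⊢
  calc pr (mulL h φ₁) (mulL β κ) = pr (mulL φ₁ β) (mulL h κ) := by
        refine integral_congr_ae ?_
        filter_upwards [beta_rows hG hr.xy.symm (beta_row hh) (beta_row x1),
          beta_rows hG hr.xz (beta_row hβ) (beta_row hκ), i1.mul β,
          beta_rows hG hr.yz (beta_row hh) (beta_row hκ)] with ω a1 a2 a3 a4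
        rw [a1, a2, a3, a4]
        ring
    _ = pr (mulL φ₁ β) n := k1.symm
    _ = pr (mulL φ₁ n) β := by
        refine integral_congr_ae ?_
        filter_upwards [i1.mul β, i1.mul n] with ω a1 a2
        rw [a1, a2]
        ring
    _ = pr (mulL φ₁ n) (mulL φ₀ φ₂) := k2
    _ = _ := by
        refine integral_congr_ae ?_
        filter_upwards [i1.mul n, beta_in hG hc.yz x0 x2] with ω a1 a2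
        rw [a1, a2]
        ring

/-- (2) By `ci` for the rows `x, y` and `PP_mulL`,
`PP (𝒞 u ⊔ 𝒞 v) (mulL h φ₁) = mulL h' φ₁'` with `h' = PP (𝒜 y u ⊔ 𝒜 y v) h`,
`φ₁' = PP (𝒜 x u ⊔ 𝒜 x v) φ₁` (bounded by one). So `∫ φ₀ φ₁ φ₂ Φ = ∫ h' φ₁' Ψ`, which is the
integral of `φ₀ φ₂ φ₁'` against `Φ' = mulL h' (mulL g₀ g₂)`, hence of `φ₀ φ₁ φ₂` against
`PP (𝒜 x u ⊔ 𝒜 x v) Φ'`. -/
theorem PP_row_eq' (hG : G33 Θ 𝒜 𝒞) (hr : Dist x y z) (hc : Dist t u v) {h g₀ g₂ : L2 Θ}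
    (hh : h ∈ XX Θ (𝒜 y t)) (h0 : g₀ ∈ XX Θ (𝒜 z u)) (h2 : g₂ ∈ XX Θ (𝒜 z v)) :
    PP Θ (𝒜 x t ⊔ (𝒜 x u ⊔ 𝒜 x v)) (mulL h (mulL g₀ g₂)) =
      PP Θ (𝒜 x u ⊔ 𝒜 x v) (mulL (PP Θ (𝒜 y u ⊔ 𝒜 y v) h) (mulL g₀ g₂)) := by
  refine beta_ext (hG.le _ _) (hG.le _ _) (hG.le _ _) (XX_mono le_sup_right (PP_mem _))
    fun φ₁ φ₀ φ₂ A₁ A₀ A₂ x1 x0 x2 _ i0 i2 => ?_
  have lx : 𝒜 x u ⊔ 𝒜 x v ≤ mΩ := sup_le (hG.le _ _) (hG.le _ _)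
  have lC : 𝒞 u ⊔ 𝒞 v ≤ mΩ := sup_le ((hG.one x).le' u) ((hG.one x).le' v)
  obtain ⟨p1, p2⟩ := beta_psi hG hr hc x0 x2 h0 h2
  have c1 := XX_mono (sup_le_sup ((hG.two x z hr.xz).le u) ((hG.two x z hr.xz).le v)) p1
  have e1 := ((hG.two y x hr.xy.symm).ci t u v hc.xy hc.xz hc.yz).PP_eq
    (sup_le (hG.le _ _) (hG.le _ _))
    (sup_le_sup ((hG.two y x hr.xy.symm).le u) ((hG.two y x hr.xy.symm).le v)) lC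
    (mulL_mem hh x1)
  have e2 := PP_mulL (hG.row y x hr.xy.symm) (beta_row_le hG y) (beta_row_le hG x)
    (sup_le (le_iSup (𝒜 y) u) (le_iSup (𝒜 y) v)) (sup_le (le_iSup (𝒜 x) u) (le_iSup (𝒜 x) v))
    (beta_row hh) (beta_row x1)
  rw [sup_sup_sup_comm] at e1
  rw [beta_first hG hr hc x1 x0 x2 hh h0 h2, pr_comm, ← pr_PP lC c1, e1, e2]
  have hh' : PP Θ (𝒜 y u ⊔ 𝒜 y v) h ∈ XX Θ (𝒜 y u ⊔ 𝒜 y v) := PP_mem _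
  generalize PP Θ (𝒜 y u ⊔ 𝒜 y v) h = h' at hh' ⊢
  have mem : ∀ a ∈ XX Θ (𝒜 x u ⊔ 𝒜 x v), mulL φ₀ (mulL φ₂ a) ∈ XX Θ (𝒜 x u ⊔ 𝒜 x v) :=
    fun a ha => XX_mono (sup_le le_sup_left (sup_le le_sup_right le_rfl))
      (mulL_mem x0 (mulL_mem x2 ha))
  have ae : ∀ a : L2 Θ, (mulL φ₀ (mulL φ₂ a) : Ω → ℂ) =ᵐ[Θ] fun ω => φ₀ ω * (φ₂ ω * a ω) :=
    fun a => by
      filter_upwards [i0.mul (mulL φ₂ a), i2.mul a] with ω a1 a2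
      rw [a1, a2]
  have hφ : PP Θ (𝒜 x u ⊔ 𝒜 x v) φ₁ ∈ XX Θ (𝒜 x u ⊔ 𝒜 x v) := PP_mem _
  have hm : PP Θ (𝒜 x u ⊔ 𝒜 x v) (mulL h' (mulL g₀ g₂)) ∈ XX Θ (𝒜 x u ⊔ 𝒜 x v) := PP_mem _
  have k1 := pr_PP lx (mem _ hφ) (mulL h' (mulL g₀ g₂))
  have k2 := pr_PP lx (mem _ hm) φ₁
  generalize PP Θ (𝒜 x u ⊔ 𝒜 x v) φ₁ = φ' at hφ k1 k2 ⊢
  generalize PP Θ (𝒜 x u ⊔ 𝒜 x v) (mulL h' (mulL g₀ g₂)) = m at hm k1 k2 ⊢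
  calc pr (mulL (mulL φ₀ φ₂) (mulL g₀ g₂)) (mulL h' φ')
      = pr (mulL φ₀ (mulL φ₂ φ')) (mulL h' (mulL g₀ g₂)) := by
        refine integral_congr_ae ?_
        filter_upwards [p2, beta_rows hG hr.xy.symm (beta_row2 hh') (beta_row2 hφ), ae φ',
          beta_rows hG hr.yz (beta_row2 hh') (beta_row2 (mulL_mem h0 h2))] with ω a1 a2 a3 a4
        rw [a1, a2, a3, a4]
        ring
    _ = pr (mulL φ₀ (mulL φ₂ φ')) m := k1.symm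
    _ = pr (mulL φ₀ (mulL φ₂ m)) φ' := by
        refine integral_congr_ae ?_
        filter_upwards [ae φ', ae m] with ω a1 a2
        rw [a1, a2]
        ring
    _ = pr (mulL φ₀ (mulL φ₂ m)) φ₁ := k2
    _ = _ := by
        refine integral_congr_ae ?_
        filter_upwards [ae m] with ω a1
        rw [a1]
        ring

theorem beta_closed (hG : G33 Θ 𝒜 𝒞) (hr : Dist x y z) {h k : L2 Θ} (hh : h ∈ XX Θ (𝒜 y t))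
    (hk : k ∈ HH Θ (𝒜 z u) (𝒜 z t) (𝒜 z v)) (S : Submodule ℂ (L2 Θ))
    (hS : IsClosed (S : Set (L2 Θ)))
    (hg : ∀ g₀ ∈ XX Θ (𝒜 z u), ∀ g₂ ∈ XX Θ (𝒜 z v), BB (𝒜 x t) h (BB (𝒜 z t) g₀ g₂) ∈ S) :
    BB (𝒜 x t) h k ∈ S := by
  obtain ⟨M, -, -, hM⟩ := exists_BBCLM (hG.ind_col hr.yz t t) (hG.le _ _) (hG.le _ _) (𝒜 x t) hh
  rw [← hM k (HH_le_XX (hG.le _ _) hk)]
  have hle : HH Θ (𝒜 z u) (𝒜 z t) (𝒜 z v) ≤ S.comap (M : L2 Θ →ₗ[ℂ] L2 Θ) := by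
    refine Submodule.topologicalClosure_minimal _ (Submodule.span_le.2 ?_)
      (hS.preimage M.continuous)
    rintro _ ⟨g₀, h0, g₂, h2, rfl⟩
    change M (BB (𝒜 z t) g₀ g₂) ∈ S
    rw [hM _ (BB_mem _ _)]
    exact hg g₀ h0 g₂ h2
  exact hle hk

/-- (beta): extend from the generators of `HH` by linearity and continuity (`exists_BBCLM`). -/
theorem beta_mem (hG : G33 Θ 𝒜 𝒞) (hr : Dist x y z) (hc : Dist t u v) {h k : L2 Θ}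
    (hh : h ∈ XX Θ (𝒜 y t)) (hk : k ∈ HH Θ (𝒜 z u) (𝒜 z t) (𝒜 z v)) :
    BB (𝒜 x t) h k ∈ XX Θ (𝒜 x u ⊔ 𝒜 x v) := by
  refine beta_closed hG hr hh hk _ (isClosed_XX (sup_le (hG.le _ _) (hG.le _ _)))
    fun g₀ h0 g₂ h2 => ?_
  rw [← PP_row_eq hG hr hc hh h0 h2, PP_row_eq' hG hr hc hh h0 h2]
  exact PP_mem _

/-- (K). -/
theorem beta_zero (hG : G33 Θ 𝒜 𝒞) (hr : Dist x y z) (hc : Dist t u v) {h k : L2 Θ}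
    (hh : h ∈ XX Θ (𝒜 y t)) (h0 : PP Θ (𝒜 y u ⊔ 𝒜 y v) h = 0)
    (hk : k ∈ HH Θ (𝒜 z u) (𝒜 z t) (𝒜 z v)) : BB (𝒜 x t) h k = 0 := by
  refine (Submodule.mem_bot ℂ).1 (beta_closed hG hr hh hk ⊥ isClosed_singleton
    fun g₀ k0 g₂ k2 => ?_)
  have e : mulL 0 (mulL g₀ g₂) = 0 := by
    rw [← norm_eq_zero, norm_mulL (hG.row y z hr.yz) (beta_row_le hG y) (beta_row_le hG z)
      (zero_mem _) (beta_row2 (mulL_mem k0 k2)), norm_zero, zero_mul]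
  rw [← PP_row_eq hG hr hc hh k0 k2, PP_row_eq' hG hr hc hh k0 k2, h0, e, map_zero]
  exact zero_mem _


end Vale.Agent.P102
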