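import Vale.Agent.P102.Sig

/-! Calculus of conditional independence. -/

open MeasureTheory ProbabilityTheory Filter Topology Set
open scoped ComplexConjugate

noncomputable section

namespace Vale.Agent.P102

variable {Ω : Type} {𝒜 𝒜' ℬ ℬ' 𝒞 𝒞' : MeasurableSpace Ω} {mΩ : MeasurableSpace Ω}
  {Θ : Measure Ω} [IsProbabilityMeasure Θ]

/-- The indicator function of a set. -/
abbrev cia_ind (A : Set Ω) : Ω → ℝ := A.indicator fun _ => 1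

theorem cia_int {A : Set Ω} (hA : MeasurableSet A) : Integrable (cia_ind A) Θ :=
  (integrable_const 1).indicator hA

omit [IsProbabilityMeasure Θ] in
theorem cia_bdd (A : Set Ω) : ∀ᵐ ω ∂Θ, ‖cia_ind A ω‖ ≤ 1 :=
  Eventually.of_forall fun ω => by by_cases h : ω ∈ A <;> simp [h]

omit [IsProbabilityMeasure Θ] in
theorem cia_aesm {A : Set Ω} (hA : MeasurableSet[𝒜] A) : AEStronglyMeasurable[𝒜] (cia_ind A) Θ :=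
  (stronglyMeasurable_const.indicator hA).aestronglyMeasurable

theorem cia_inter (A B : Set Ω) : cia_ind (A ∩ B) = B.indicator (cia_ind A) := by
  rw [indicator_indicator, inter_comm]

theorem cia_mul (B : Set Ω) (U : Ω → ℝ) : B.indicator U = U * cia_ind B := by
  funext ω
  by_cases h : ω ∈ B <;> simp [h]

omit [IsProbabilityMeasure Θ] in
theorem cia_smul {E : Type} [NormedAddCommGroup E] [NormedSpace ℝ E] {C : Set Ω}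
    (hC : MeasurableSet C) (f : Ω → E) : ∫ ω, (cia_ind C • f) ω ∂Θ = ∫ ω in C, f ω ∂Θ := by
  rw [← integral_indicator hC]
  congr 1
  funext ω
  by_cases h : ω ∈ C <;> simp [h]

theorem cia_real {A C : Set Ω} (hA : MeasurableSet A) :
    ∫ ω in C, cia_ind A ω ∂Θ = Θ.real (A ∩ C) := by
  rw [setIntegral_indicator hA, setIntegral_const, smul_eq_mul, mul_one, inter_comm]

section pull
variable {E : Type} [NormedAddCommGroup E] [NormedSpace ℝ E] [CompleteSpace E] {w : Ω → ℝ}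
  {f : Ω → E}

theorem cia_pull (h𝒜 : 𝒜 ≤ mΩ) (hw : Integrable w Θ) (hb : ∀ᵐ ω ∂Θ, ‖w ω‖ ≤ 1)
    (hf : Integrable f Θ) (hm : AEStronglyMeasurable[𝒜] f Θ) :
    ∫ ω, (w • f) ω ∂Θ = ∫ ω, (Θ[w | 𝒜] • f) ω ∂Θ :=
  (integral_condExp h𝒜).symm.trans (integral_congr_ae
    (condExp_smul_of_aestronglyMeasurable_right hw (hf.bdd_smul 1 hw.1 hb) hm))

theorem cia_dual (hℬ : ℬ ≤ mΩ) (hw : Integrable w Θ) (hb : ∀ᵐ ω ∂Θ, ‖w ω‖ ≤ 1)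
    (hf : Integrable f Θ) : ∫ ω, (w • Θ[f | ℬ]) ω ∂Θ = ∫ ω, (Θ[w | ℬ] • f) ω ∂Θ := by
  rw [cia_pull hℬ hw hb integrable_condExp stronglyMeasurable_condExp.aestronglyMeasurable]
  exact (integral_congr_ae (condExp_smul_of_aestronglyMeasurable_left
    stronglyMeasurable_condExp.aestronglyMeasurable (hf.bdd_smul 1 integrable_condExp.1
      (ae_bdd_norm_condExp_of_ae_bdd_norm hb)) hf)).symm.trans (integral_condExp hℬ)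

theorem cia_down (hℬ : ℬ ≤ 𝒞) (h𝒞 : 𝒞 ≤ mΩ) (h : AEStronglyMeasurable[ℬ] (Θ[f | 𝒞]) Θ) :
    Θ[f | 𝒞] =ᵐ[Θ] Θ[f | ℬ] :=
  (condExp_of_aestronglyMeasurable' (hℬ.trans h𝒞) h integrable_condExp).symm.trans
    (condExp_condExp_of_le hℬ h𝒞)

theorem cia_up (hℬ : ℬ ≤ 𝒞) (h𝒞 : 𝒞 ≤ mΩ) (hf : Integrable f Θ) {U : Ω → E}
    (hU : Integrable U Θ) (hm : AEStronglyMeasurable[ℬ] U Θ)
    (h : ∀ C, MeasurableSet[𝒞] C → ∫ ω in C, U ω ∂Θ = ∫ ω in C, f ω ∂Θ) : U =ᵐ[Θ] Θ[f | 𝒞] :=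
  ae_eq_condExp_of_forall_setIntegral_eq h𝒞 hf (fun _ _ _ => hU.integrableOn)
    (fun C hC _ => h C hC) (hm.mono hℬ)

omit [IsProbabilityMeasure Θ] in
theorem cia_dynkin (h𝒜 : 𝒜 ≤ mΩ) {P : Set (Set Ω)} (hP : IsPiSystem P)
    (hgen : 𝒜 = MeasurableSpace.generateFrom P) {f g : Ω → E} (hf : Integrable f Θ)
    (hg : Integrable g Θ) (h0 : ∫ ω, f ω ∂Θ = ∫ ω, g ω ∂Θ)
    (h : ∀ A ∈ P, ∫ ω in A, f ω ∂Θ = ∫ ω in A, g ω ∂Θ) {A : Set Ω} (hA : MeasurableSet[𝒜] A) :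
    ∫ ω in A, f ω ∂Θ = ∫ ω in A, g ω ∂Θ := by
  refine MeasurableSpace.induction_on_inter (m := 𝒜)
    (C := fun A _ => ∫ ω in A, f ω ∂Θ = ∫ ω in A, g ω ∂Θ) hgen hP (by simp) h
    (fun t ht e => ?_) (fun s hd hs e => ?_) A hA
  · rw [setIntegral_compl (h𝒜 t ht) hf, setIntegral_compl (h𝒜 t ht) hg, h0, e]
  · rw [integral_iUnion (fun i => h𝒜 _ (hs i)) hd hf.integrableOn,
      integral_iUnion (fun i => h𝒜 _ (hs i)) hd hg.integrableOn]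
    exact tsum_congr e

end pull

theorem cia_key (hℬ : ℬ ≤ 𝒞) (h𝒞 : 𝒞 ≤ mΩ) {A : Set Ω} (hA : MeasurableSet A) :
    AEStronglyMeasurable[ℬ] (Θ[cia_ind A | 𝒞]) Θ ↔ ∀ C, MeasurableSet[𝒞] C →
      ∫ ω in A, (Θ[cia_ind C | ℬ]) ω ∂Θ = ∫ ω in A, cia_ind C ω ∂Θ := by
  have e : ∀ C, MeasurableSet[𝒞] C →
      ∫ ω in A, (Θ[cia_ind C | ℬ]) ω ∂Θ = ∫ ω in C, (Θ[cia_ind A | ℬ]) ω ∂Θ := fun C hC => by
    rw [← cia_smul hA, ← cia_smul (h𝒞 C hC),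
      cia_dual (hℬ.trans h𝒞) (cia_int hA) (cia_bdd A) (cia_int (h𝒞 C hC))]
    simp only [Pi.smul_apply', smul_eq_mul, mul_comm]
  have e' : ∀ C, MeasurableSet[𝒞] C →
      ∫ ω in A, cia_ind C ω ∂Θ = ∫ ω in C, cia_ind A ω ∂Θ := fun C hC => by
    rw [cia_real hA, cia_real (h𝒞 C hC), inter_comm]
  refine ⟨fun h C hC => ?_, fun h => ?_⟩
  · rw [e C hC, e' C hC, ← setIntegral_condExp h𝒞 (cia_int hA) hC]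
    exact integral_congr_ae (ae_restrict_of_ae (cia_down hℬ h𝒞 h).symm)
  · exact stronglyMeasurable_condExp.aestronglyMeasurable.congr (cia_up hℬ h𝒞 (cia_int hA)
      integrable_condExp stronglyMeasurable_condExp.aestronglyMeasurable
      fun C hC => by rw [← e C hC, h C hC, e' C hC])

/-- Intersections of measurable sets of two sigma-algebras. -/
def cia_pi (𝒞 𝒞' : MeasurableSpace Ω) : Set (Set Ω) :=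
  {s | ∃ C C', MeasurableSet[𝒞] C ∧ MeasurableSet[𝒞'] C' ∧ s = C ∩ C'}

theorem cia_isPi (𝒞 𝒞' : MeasurableSpace Ω) : IsPiSystem (cia_pi 𝒞 𝒞') := by
  rintro _ ⟨C, C', hC, hC', rfl⟩ _ ⟨D, D', hD, hD', rfl⟩ -
  exact ⟨C ∩ D, C' ∩ D', hC.inter hD, hC'.inter hD', inter_inter_inter_comm ..⟩

theorem cia_gen (𝒞 𝒞' : MeasurableSpace Ω) :
    𝒞 ⊔ 𝒞' = MeasurableSpace.generateFrom (cia_pi 𝒞 𝒞') := by
  refine le_antisymm (sup_le (fun C hC => .basic _ ⟨C, univ, hC, .univ, by simp⟩)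
    fun C hC => .basic _ ⟨univ, C, .univ, hC, by simp⟩) (MeasurableSpace.generateFrom_le ?_)
  rintro _ ⟨C, C', hC, hC', rfl⟩
  exact ((le_sup_left : 𝒞 ≤ 𝒞 ⊔ 𝒞') C hC).inter ((le_sup_right : 𝒞' ≤ 𝒞 ⊔ 𝒞') C' hC')

/-- Extend from indicators to integrable functions (`Integrable.induction` on the trimmed measure,
`MemLp.induction_stronglyMeasurable`, or test against sets of `𝒞`). -/
theorem CI.condExp_eq {𝕜 : Type} [RCLike 𝕜] (h : CI Θ 𝒜 ℬ 𝒞) (h𝒜 : 𝒜 ≤ mΩ) (hℬ : ℬ ≤ 𝒞)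
    (h𝒞 : 𝒞 ≤ mΩ) {f : Ω → 𝕜} (hf : Integrable f Θ) (hm : AEStronglyMeasurable[𝒜] f Θ) :
    Θ[f | 𝒞] =ᵐ[Θ] Θ[f | ℬ] := by
  refine (cia_up hℬ h𝒞 hf integrable_condExp stronglyMeasurable_condExp.aestronglyMeasurable
    fun C hC => ?_).symm
  have hC' := h𝒞 C hC
  have e : Θ[Θ[cia_ind C | ℬ] | 𝒜] =ᵐ[Θ] Θ[cia_ind C | 𝒜] :=
    cia_up le_rfl h𝒜 (cia_int hC') integrable_condExp
      stronglyMeasurable_condExp.aestronglyMeasurable fun A hA => by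
        rw [setIntegral_condExp h𝒜 integrable_condExp hA]
        exact (cia_key hℬ h𝒞 (h𝒜 A hA)).1 (h A hA) C hC
  rw [← cia_smul hC', ← cia_smul hC', cia_dual (hℬ.trans h𝒞) (cia_int hC') (cia_bdd C) hf,
    cia_pull h𝒜 (cia_int hC') (cia_bdd C) hf hm, cia_pull h𝒜 integrable_condExp
      (ae_bdd_norm_condExp_of_ae_bdd_norm (cia_bdd C)) hf hm]
  refine integral_congr_ae ?_
  filter_upwards [e] with ω hω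
  rw [Pi.smul_apply', Pi.smul_apply', hω]

/-- Criterion by set integrals. -/
theorem CI_of_integral (h𝒜 : 𝒜 ≤ mΩ) (hℬ : ℬ ≤ 𝒞) (h𝒞 : 𝒞 ≤ mΩ)
    (h : ∀ A, MeasurableSet[𝒜] A → ∃ U : Ω → ℝ, Integrable U Θ ∧ AEStronglyMeasurable[ℬ] U Θ ∧
      ∀ C, MeasurableSet[𝒞] C → Θ.real (A ∩ C) = ∫ ω in C, U ω ∂Θ) : CI Θ 𝒜 ℬ 𝒞 := by
  intro A hA
  obtain ⟨U, hU, hm, e⟩ := h A hA
  exact hm.congr (cia_up hℬ h𝒞 (cia_int (h𝒜 A hA)) hU hm fun C hC => by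
    rw [cia_real (h𝒜 A hA), e C hC])

/-- It suffices to check a generating pi-system of `𝒜` (Dynkin). -/
theorem CI_of_pi (h𝒜 : 𝒜 ≤ mΩ) (hℬ : ℬ ≤ 𝒞) (h𝒞 : 𝒞 ≤ mΩ) {P : Set (Set Ω)}
    (hP : IsPiSystem P) (hgen : 𝒜 = MeasurableSpace.generateFrom P)
    (h : ∀ A ∈ P, AEStronglyMeasurable[ℬ] (Θ[A.indicator (fun _ => (1 : ℝ)) | 𝒞]) Θ) :
    CI Θ 𝒜 ℬ 𝒞 := by
  intro A hA
  refine (cia_key hℬ h𝒞 (h𝒜 A hA)).2 fun C hC => cia_dynkin h𝒜 hP hgen integrable_condExp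
    (cia_int (h𝒞 C hC)) (integral_condExp (hℬ.trans h𝒞)) (fun B hB => ?_) hA
  exact (cia_key hℬ h𝒞 (h𝒜 B (hgen ▸ .basic B hB))).1 (h B hB) C hC

/-- Two integrable functions with the same integrals on intersections have the same integrals on
the join (Dynkin). -/
theorem setIntegral_eq_of_sup {𝕜 : Type} [RCLike 𝕜] (h𝒞 : 𝒞 ≤ mΩ) (h𝒞' : 𝒞' ≤ mΩ)
    {f g : Ω → 𝕜} (hf : Integrable f Θ) (hg : Integrable g Θ)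
    (h : ∀ C C', MeasurableSet[𝒞] C → MeasurableSet[𝒞'] C' →
      ∫ ω in C ∩ C', f ω ∂Θ = ∫ ω in C ∩ C', g ω ∂Θ) {D : Set Ω}
    (hD : MeasurableSet[𝒞 ⊔ 𝒞'] D) : ∫ ω in D, f ω ∂Θ = ∫ ω in D, g ω ∂Θ := by
  refine cia_dynkin (sup_le h𝒞 h𝒞') (cia_isPi 𝒞 𝒞') (cia_gen 𝒞 𝒞') hf hg
    (by simpa using h univ univ .univ .univ) ?_ hD
  rintro _ ⟨C, C', hC, hC', rfl⟩
  exact h C C' hC hC'

theorem CI.mono_left (h : CI Θ 𝒜 ℬ 𝒞) (hle : 𝒜' ≤ 𝒜) : CI Θ 𝒜' ℬ 𝒞 := by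
  exact fun A hA => h A (hle A hA)

theorem CI.mono_mid (h : CI Θ 𝒜 ℬ 𝒞) (hle : ℬ ≤ ℬ') : CI Θ 𝒜 ℬ' 𝒞 := by
  exact fun A hA => (h A hA).mono hle

theorem CI.mono_right (h : CI Θ 𝒜 ℬ 𝒞) (h𝒞 : 𝒞 ≤ mΩ) (hle : 𝒞' ≤ 𝒞) (hℬ : ℬ ≤ 𝒞') :
    CI Θ 𝒜 ℬ 𝒞' := by
  exact fun A hA => (h A hA).congr (cia_down hle h𝒞 ((h A hA).mono hℬ))

theorem CI_bot_left (h𝒞 : 𝒞 ≤ mΩ) : CI Θ ⊥ ℬ 𝒞 := by
  intro A hA
  rcases MeasurableSpace.measurableSet_bot_iff.1 hA with rfl | rfl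
  · rw [indicator_empty, condExp_const h𝒞]
    exact stronglyMeasurable_const.aestronglyMeasurable
  · rw [indicator_univ, condExp_const h𝒞]
    exact stronglyMeasurable_const.aestronglyMeasurable

theorem CI_bot_iff (h𝒜 : 𝒜 ≤ mΩ) (h𝒞 : 𝒞 ≤ mΩ) : CI Θ 𝒜 ⊥ 𝒞 ↔ Indep 𝒜 𝒞 Θ := by
  refine ⟨fun h => (Indep_iff _ _ _).2 fun A C hA hC => ?_, fun h A hA =>
    stronglyMeasurable_const.aestronglyMeasurable.congr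
      (condExp_indep_eq h𝒜 h𝒞 (stronglyMeasurable_const.indicator hA) h).symm⟩
  have e := (cia_key bot_le h𝒞 (h𝒜 A hA)).1 (h A hA) C hC
  rw [condExp_bot, setIntegral_const, integral_indicator (h𝒞 C hC), setIntegral_const,
    cia_real (h𝒞 C hC), inter_comm, smul_eq_mul, smul_eq_mul, mul_one] at e
  rw [← ENNReal.toReal_eq_toReal_iff' (measure_ne_top _ _) (by finiteness), ENNReal.toReal_mul]
  exact e.symm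

/-- On the pi-system of intersections `A ∩ A'`: with `U = Θ[1_A | ℬ]`, `U' = Θ[1_A' | ℬ']`,
`Θ[1_A 1_A' | 𝒞] = Θ[U 1_A' | 𝒞] = U U'`. -/
theorem CI.sup (h : CI Θ 𝒜 ℬ (𝒞 ⊔ 𝒜')) (h' : CI Θ 𝒜' ℬ' 𝒞) (h𝒜 : 𝒜 ≤ mΩ) (h𝒜' : 𝒜' ≤ mΩ)
    (hℬ : ℬ ≤ 𝒞) (hℬ' : ℬ' ≤ 𝒞) (h𝒞 : 𝒞 ≤ mΩ) : CI Θ (𝒜 ⊔ 𝒜') (ℬ ⊔ ℬ') 𝒞 := by
  refine CI_of_pi (sup_le h𝒜 h𝒜') (sup_le hℬ hℬ') h𝒞 (cia_isPi 𝒜 𝒜') (cia_gen 𝒜 𝒜') ?_
  rintro _ ⟨A, A', hA, hA', rfl⟩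
  have h1 : Θ[cia_ind (A ∩ A') | 𝒞 ⊔ 𝒜'] =ᵐ[Θ] Θ[cia_ind A | 𝒞 ⊔ 𝒜'] * cia_ind A' := by
    rw [cia_inter, ← cia_mul]
    exact condExp_indicator (cia_int (h𝒜 A hA)) ((le_sup_right : 𝒜' ≤ 𝒞 ⊔ 𝒜') A' hA')
  have h2 : Θ[cia_ind (A ∩ A') | 𝒞] =ᵐ[Θ] Θ[cia_ind A | 𝒞 ⊔ 𝒜'] * Θ[cia_ind A' | 𝒞] :=
    ((condExp_condExp_of_le le_sup_left (sup_le h𝒞 h𝒜')).symm.trans (condExp_congr_ae h1)).trans
      (condExp_mul_of_aestronglyMeasurable_left ((h A hA).mono hℬ)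
        (integrable_condExp.congr h1) (cia_int (h𝒜' A' hA')))
  exact (((h A hA).mono le_sup_left).mul ((h' A' hA').mono le_sup_right)).congr h2.symm

/-- `Θ[1_B' 1_B | 𝒞] = Θ(B') 1_B` on the pi-system. -/
theorem CI_of_indep (hi : Indep 𝒞' 𝒞 Θ) (hℬ' : ℬ' ≤ 𝒞') (hℬ : ℬ ≤ 𝒞) (h𝒞' : 𝒞' ≤ mΩ)
    (h𝒞 : 𝒞 ≤ mΩ) : CI Θ (ℬ' ⊔ ℬ) ℬ 𝒞 := by
  refine CI_of_pi (sup_le (hℬ'.trans h𝒞') (hℬ.trans h𝒞)) hℬ h𝒞 (cia_isPi ℬ' ℬ) (cia_gen ℬ' ℬ) ?_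
  rintro _ ⟨B', B, hB', hB, rfl⟩
  have h1 : Θ[cia_ind (B' ∩ B) | 𝒞] =ᵐ[Θ] Θ[cia_ind B' | 𝒞] * cia_ind B := by
    rw [cia_inter, ← cia_mul]
    exact condExp_indicator (cia_int (h𝒞' B' (hℬ' B' hB'))) (hℬ B hB)
  exact ((stronglyMeasurable_const.aestronglyMeasurable.congr (condExp_indep_eq h𝒞' h𝒞
    (stronglyMeasurable_const.indicator (hℬ' B' hB')) hi).symm).mul (cia_aesm hB)).congr h1.symm

/-- `Θ[1_A 1_B' | 𝒞] = Θ[U 1_B' | 𝒞]` with `U = Θ[1_A | 𝒞' ⊔ 𝒞]` a.e. measurable for `ℬ' ⊔ ℬ`;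
then `CI_of_indep` and `CI.condExp_eq`. -/
theorem CI.shift (h : CI Θ 𝒜 (ℬ' ⊔ ℬ) (𝒞' ⊔ 𝒞)) (hi : Indep 𝒞' 𝒞 Θ) (h𝒜 : 𝒜 ≤ mΩ)
    (hℬ' : ℬ' ≤ 𝒞') (hℬ : ℬ ≤ 𝒞) (h𝒞' : 𝒞' ≤ mΩ) (h𝒞 : 𝒞 ≤ mΩ) : CI Θ (𝒜 ⊔ ℬ') ℬ 𝒞 := by
  refine CI_of_pi (sup_le h𝒜 (hℬ'.trans h𝒞')) hℬ h𝒞 (cia_isPi 𝒜 ℬ') (cia_gen 𝒜 ℬ') ?_
  rintro _ ⟨A, B', hA, hB', rfl⟩
  have h1 : Θ[cia_ind (A ∩ B') | 𝒞' ⊔ 𝒞] =ᵐ[Θ] Θ[cia_ind A | 𝒞' ⊔ 𝒞] * cia_ind B' := by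
    rw [cia_inter, ← cia_mul]
    exact condExp_indicator (cia_int (h𝒜 A hA))
      ((le_sup_left : 𝒞' ≤ 𝒞' ⊔ 𝒞) B' (hℬ' B' hB'))
  have h2 := (CI_of_indep hi hℬ' hℬ h𝒞' h𝒞).condExp_eq
    (sup_le (hℬ'.trans h𝒞') (hℬ.trans h𝒞)) hℬ h𝒞 (integrable_condExp.congr h1)
    ((h A hA).mul ((cia_aesm hB').mono le_sup_left))
  exact stronglyMeasurable_condExp.aestronglyMeasurable.congr
    (((condExp_condExp_of_le le_sup_right (sup_le h𝒞' h𝒞)).symm.trans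
      (condExp_congr_ae h1)).trans h2).symm


end Vale.Agent.P102
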