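import Vale.Agent.P102.HB2

/-! Compactness of the row operators. -/

open MeasureTheory ProbabilityTheory Filter Topology Set
open scoped ComplexConjugate

noncomputable section

namespace Vale.Agent.P102

theorem compact_abs {H : Type} [NormedAddCommGroup H] [InnerProductSpace ℂ H]
    (m : H →L[ℂ] H →L[ℂ] H) {S : Set H}
    (hS : ∀ w ∈ S, ∃ p q : H, ∀ c d, inner ℂ w (m c d) = inner ℂ p c * inner ℂ q d) {κ : H}
    (hκ : κ ∈ (Submodule.span ℂ S).topologicalClosure) :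
    IsCompactOperator fun c => (innerSL ℂ κ).comp (m c) := by
  let U : H → H →L[ℂ] H →L[ℂ] ℂ := fun κ =>
    (ContinuousLinearMap.compL ℂ H H ℂ (innerSL ℂ κ)).comp m
  have hU : Continuous U :=
    ((ContinuousLinearMap.compL ℂ H H ℂ).continuous.comp (innerSL ℂ).continuous).clm_comp
      continuous_const
  refine closure_minimal (s := (Submodule.span ℂ S : Set H))
    (t := U ⁻¹' {f | IsCompactOperator f})
    (fun w hw => ?_) (isClosed_setOfPred_isCompactOperator.preimage hU) hκ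
  change IsCompactOperator (U w)
  induction hw using Submodule.span_induction with
  | mem w hw =>
    obtain ⟨p, q, h⟩ := hS w hw
    have e : ⇑(U w) = (fun z : ℂ => z • innerSL ℂ q) ∘ innerSL ℂ p := by
      ext c d
      exact h c d
    rw [e]
    exact (isCompactOperator_of_locallyCompactSpace_dom _).continuous_comp (by fun_prop)
  | zero =>
    have e : ⇑(U 0) = 0 := by
      ext c d
      exact inner_zero_left _
    rw [e]
    exact isCompactOperator_zero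
  | add x y _ _ hx hy =>
    have e : ⇑(U (x + y)) = U x + U y := by
      ext c d
      exact inner_add_left _ _ _
    rw [e]
    exact hx.add hy
  | smul z x _ hx =>
    have e : ⇑(U (z • x)) = conj z • ⇑(U x) := by
      ext c d
      exact inner_smul_left _ _ _
    rw [e]
    exact hx.smul _

variable {Ω : Type} {𝒜 𝒜' ℬ ℬ' 𝒞 𝒞' : MeasurableSpace Ω} {mΩ : MeasurableSpace Ω}
  {Θ : Measure Ω} [IsProbabilityMeasure Θ]

omit [IsProbabilityMeasure Θ] in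
theorem compact_int_mul (hi : Indep 𝒜 ℬ Θ) (h𝒜 : 𝒜 ≤ mΩ) (hℬ : ℬ ≤ mΩ) {f g : Ω → ℂ}
    (hf : AEStronglyMeasurable[𝒜] f Θ) (hg : AEStronglyMeasurable[ℬ] g Θ) :
    ∫ ω, f ω * g ω ∂Θ = (∫ ω, f ω ∂Θ) * ∫ ω, g ω ∂Θ := by
  obtain ⟨f', h1, h2⟩ := hf
  obtain ⟨g', h3, h4⟩ := hg
  have h5 : IndepFun f' g' Θ := (IndepFun_iff_Indep _ _ _).2 (indep_of_indep_of_le_right
    (indep_of_indep_of_le_left hi h1.measurable.comap_le) h3.measurable.comap_le)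
  rw [integral_congr_ae h2, integral_congr_ae h4, ← h5.integral_fun_mul_eq_mul_integral
    (h1.mono h𝒜).aestronglyMeasurable (h3.mono hℬ).aestronglyMeasurable]
  exact integral_congr_ae (h2.mul h4)

theorem compact_pr_PP (h : 𝒜 ≤ mΩ) {f : L2 Θ} (hf : f ∈ XX Θ 𝒜) (d : L2 Θ) :
    pr (PP Θ 𝒜 d) f = pr d f := by
  rw [pr_comm, pr_PP h hf, pr_comm]

theorem compact_pr_mulL (hi : Indep 𝒜 ℬ Θ) (h𝒜 : 𝒜 ≤ mΩ) (hℬ : ℬ ≤ mΩ) {p q c d : L2 Θ}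
    (hp : p ∈ XX Θ 𝒜) (hq : q ∈ XX Θ ℬ) (hc : c ∈ XX Θ 𝒜) (hd : d ∈ XX Θ ℬ) :
    pr (mulL p q) (mulL c d) = pr p c * pr q d := by
  refine Eq.trans (integral_congr_ae ?_) (compact_int_mul hi h𝒜 hℬ
    ((mem_XX.1 hp).mul (mem_XX.1 hc)) ((mem_XX.1 hq).mul (mem_XX.1 hd)))
  filter_upwards [mulL_ae hi h𝒜 hℬ hp hq, mulL_ae hi h𝒜 hℬ hc hd] with ω h1 h2
  simp only [h1, h2]
  ring

theorem compact_bil (hi : Indep 𝒜 ℬ Θ) (h𝒜 : 𝒜 ≤ mΩ) (hℬ : ℬ ≤ mΩ) :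
    ∃ m : L2 Θ →L[ℂ] L2 Θ →L[ℂ] L2 Θ, ∀ c d, m c d = mulL (PP Θ 𝒜 c) (PP Θ ℬ d) := by
  choose N hN hN' using fun c : L2 Θ => exists_mulCLM hi h𝒜 hℬ (PP_mem c)
  choose N₂ _ hN₂ using fun d : L2 Θ => exists_mulCLM hi.symm hℬ h𝒜 (PP_mem d)
  have e : ∀ c d, N c d = N₂ d c := fun c d => by rw [hN', hN₂, mulL_comm]
  let N₀ : L2 Θ →ₗ[ℂ] L2 Θ →L[ℂ] L2 Θ :=
    { toFun := N
      map_add' := fun c c' => ContinuousLinearMap.ext fun d => by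
        rw [add_apply, e, e, e, map_add]
      map_smul' := fun z c => ContinuousLinearMap.ext fun d => by
        rw [smul_apply, e, e, map_smul, RingHom.id_apply] }
  exact ⟨N₀.mkContinuous 1 fun c => (hN c).trans ((norm_PP_le c).trans_eq (one_mul _).symm), hN'⟩

theorem compact_BB (h : Tri Θ 𝒜 ℬ 𝒞) {b w u : L2 Θ} (hb : b ∈ XX Θ 𝒜) (hw : w ∈ XX Θ ℬ)
    (hu : u ∈ XX Θ 𝒞) {ψ : Ω → ℂ} (hψ : AEStronglyMeasurable[𝒜] ψ Θ)
    (e : ∀ᵐ ω ∂Θ, w ω = ψ ω * u ω) : ∃ z : ℂ, BB 𝒞 b w = z • u := by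
  refine ⟨∫ ω, b ω * ψ ω ∂Θ, eq_of_pr (BB_mem _ _) (Submodule.smul_mem _ _ hu) fun φ hφ => ?_⟩
  rw [pr_BB h.swap02.swap12 hφ hb hw, pr_eq_inner, inner_smul_right, ← pr_eq_inner]
  refine Eq.trans (integral_congr_ae ?_) (compact_int_mul h.i02 h.le0 h.le2
    ((mem_XX.1 hb).mul hψ) ((mem_XX.1 hφ).mul (mem_XX.1 hu)))
  filter_upwards [e] with ω h1
  simp only [h1]
  ring

theorem compact_conj {z : ℂ} (h : ‖z‖ = 1) : conj z * z = 1 := by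
  rw [Complex.conj_mul', h]
  simp

/-- For `d ∈ XX ℬ`, `c ∈ XX 𝒞`: `pr d (BB ℬ a c) = pr (PP (ℬ ⊔ 𝒞) a) (mulL d c)`. For
`κ ∈ XX (ℬ ⊔ 𝒞)` let `T κ` be the bounded operator `L2 → XX ℬ` with
`pr d (T κ c) = pr κ (mulL (PP ℬ d) (PP 𝒞 c))`, `‖T κ‖ ≤ ‖κ‖`, linear in `κ`; for `κ = mulL p q` it
is the rank one operator `c ↦ pr q c • p`. Use `XX_sup_le_closure` and that the compact operators
form a closed submodule (`isClosed_setOf_isCompactOperator`). -/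
theorem isCompactOperator_BB (h : Tri Θ 𝒜 ℬ 𝒞) {a : L2 Θ} (ha : a ∈ XX Θ 𝒜)
    (M : L2 Θ →L[ℂ] L2 Θ) (hM : ∀ c, M c = BB ℬ a (PP Θ 𝒞 c)) : IsCompactOperator M := by
  obtain ⟨m, hm⟩ := compact_bil h.i12.symm h.le2 h.le1
  have h1 := compact_abs m ?_ (XX_sup_le_closure h.i12.symm h.le2 h.le1 (PP_mem (star a)))
  · have h2 := h1.continuous_comp (g := fun φ => star ((InnerProductSpace.toDual ℂ _).symm φ))
      (continuous_star_L2.comp (InnerProductSpace.toDual ℂ _).symm.continuous)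
    refine (congrArg IsCompactOperator (funext fun c => ?_)).mp h2
    rw [Function.comp_apply, star_eq_iff_star_eq, eq_comm]
    refine ext_inner_right ℂ fun d => ?_
    rw [InnerProductSpace.toDual_symm_apply, ContinuousLinearMap.comp_apply, innerSL_apply_apply,
      hm, inner_PP (sup_le h.le2 h.le1), PP_of_mem (sup_le h.le2 h.le1)
        (mulL_mem (PP_mem c) (PP_mem d)), ← pr_eq_inner, ← pr_eq_inner, hM, pr_comm _ d,
      ← compact_pr_PP h.le1 (BB_mem _ _), ← pr_BB_swap h ha (PP_mem d) (PP_mem c), mulL_comm]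
    exact (pr_PP h.le0 ha _).symm
  · rintro _ ⟨p, hp, q, hq, rfl⟩
    refine ⟨p, q, fun c d => ?_⟩
    rw [hm, inner_eq_pr, inner_eq_pr, inner_eq_pr, star_mulL, compact_pr_mulL h.i12.symm h.le2
      h.le1 (star_mem_XX hp) (star_mem_XX hq) (PP_mem c) (PP_mem d),
      pr_PP h.le2 (star_mem_XX hp), pr_PP h.le1 (star_mem_XX hq)]

theorem inner_BB_adj (h : Tri Θ 𝒜 ℬ 𝒞) {a : L2 Θ} (ha : a ∈ XX Θ 𝒜) (c d : L2 Θ) :
    inner ℂ (BB ℬ a (PP Θ 𝒞 c)) d = inner ℂ c (BB 𝒞 (star a) (PP Θ ℬ d)) := by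
  rw [inner_eq_pr, inner_eq_pr, star_BB, star_PP, pr_comm _ d, ← compact_pr_PP h.le1 (BB_mem _ _),
    ← compact_pr_PP h.le2 (BB_mem _ _), BB_comm (star a), BB_comm (star a)]
  exact pr_BB_swap h.swap01.swap12 (PP_mem _) (PP_mem _) (star_mem_XX ha)

/-- Characters are common eigenvectors: with `χ₀ χ χ₂ = 1`,
`BB 𝒞 b χ = (∫ b conj χ₀) • conj χ₂` and `BB ℬ b' (conj χ₂) = (∫ b' χ₀) • χ`. -/
theorem BB_BB_char (h : Tri Θ 𝒜 ℬ 𝒞) {w : L2 Θ} (hw : w ∈ ChL Θ 𝒜 ℬ 𝒞) {b b' : L2 Θ}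
    (hb : b ∈ XX Θ 𝒜) (hb' : b' ∈ XX Θ 𝒜) : ∃ c : ℂ, BB ℬ b' (BB 𝒞 b w) = c • w := by
  obtain ⟨χ, ⟨h1, -, χ₀, χ₂, h0, h2, n0, n2, e⟩, hw⟩ := hw
  have hw' : w ∈ XX Θ ℬ := mem_XX.2 (h1.aestronglyMeasurable.congr hw.symm)
  have m2 : Measurable[𝒞] fun ω => conj (χ₂ ω) := Complex.continuous_conj.measurable.comp h2
  have l2 : MemLp (fun ω => conj (χ₂ ω)) 2 Θ :=
    MemLp.of_bound (m2.mono h.le2 le_rfl).aestronglyMeasurable 1
      (ae_of_all _ fun ω => by simp [n2])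
  have hu : l2.toLp _ ∈ XX Θ 𝒞 := mem_XX.2 (m2.aestronglyMeasurable.congr l2.coeFn_toLp.symm)
  obtain ⟨z, hz⟩ := compact_BB h hb hw' hu (ψ := fun ω => conj (χ₀ ω))
    (Complex.continuous_conj.measurable.comp h0).aestronglyMeasurable (by
      filter_upwards [hw, e, l2.coeFn_toLp] with ω a1 a2 a3
      rw [a1, a3]
      linear_combination (conj (χ₀ ω) * conj (χ₂ ω)) * a2 - χ ω * compact_conj (n0 ω) -
        (χ ω * conj (χ₀ ω) * χ₀ ω) * compact_conj (n2 ω))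
  rw [hz]
  refine compact_BB h.swap12 hb' (Submodule.smul_mem _ _ hu) hw' (ψ := fun ω => z * χ₀ ω)
    (h0.const_mul z).aestronglyMeasurable ?_
  filter_upwards [hw, e, l2.coeFn_toLp, Lp.coeFn_smul z (l2.toLp _)] with ω a1 a2 a3 a4
  rw [a4, Pi.smul_apply, a1, a3, smul_eq_mul]
  linear_combination -(z * conj (χ₂ ω)) * a2 + (z * χ₀ ω * χ ω) * compact_conj (n2 ω)

theorem ChL_subset_XX (h : Tri Θ 𝒜 ℬ 𝒞) {w : L2 Θ} (hw : w ∈ ChL Θ 𝒜 ℬ 𝒞) :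
    w ∈ XX Θ ℬ ∧ w ∈ XX Θ (𝒜 ⊔ 𝒞) := by
  obtain ⟨χ, ⟨h1, -, χ₀, χ₂, h0, h2, n0, n2, e⟩, hw⟩ := hw
  have m : Measurable[𝒜 ⊔ 𝒞] fun ω => conj (χ₀ ω * χ₂ ω) :=
    Complex.continuous_conj.measurable.comp
      ((h0.mono le_sup_left le_rfl).mul (h2.mono le_sup_right le_rfl))
  refine ⟨mem_XX.2 (h1.aestronglyMeasurable.congr hw.symm),
    mem_XX.2 (m.aestronglyMeasurable.congr ?_)⟩
  filter_upwards [hw, e] with ω a1 a2
  rw [a1, map_mul]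
  linear_combination -(conj (χ₀ ω) * conj (χ₂ ω)) * a2 + χ ω * compact_conj (n0 ω) +
    (χ ω * conj (χ₀ ω) * χ₀ ω) * compact_conj (n2 ω)


end Vale.Agent.P102
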