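import Vale.Agent.P102.Defs

/-! Common eigenvectors of commuting operators. -/

open MeasureTheory ProbabilityTheory Filter Topology Set
open scoped ComplexConjugate

noncomputable section

namespace Vale.Agent.P102

/-- Restrict `T₀` to the complete space `W`: compact, symmetric, nonzero, so it has a nonzero
eigenvalue with finite dimensional eigenspace `E` (see `Analysis/InnerProductSpace/Spectrum` and
`Analysis/Normed/Operator/Compact`). `E` is invariant under `Op`; take a nonzero `Op`-invariant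
subspace of `E` of minimal dimension: each `T` has an eigenvalue on it
(`Module.End.exists_eigenvalue`) whose eigenspace is invariant, hence everything. -/
theorem exists_common_eigen {H : Type*} [NormedAddCommGroup H] [InnerProductSpace ℂ H]
    [CompleteSpace H] (W : Submodule ℂ H) (hW : IsClosed (W : Set H)) (Op : Set (H →L[ℂ] H))
    (hmap : ∀ T ∈ Op, ∀ w ∈ W, T w ∈ W)
    (hcomm : ∀ T ∈ Op, ∀ T' ∈ Op, ∀ w ∈ W, T (T' w) = T' (T w)) {T₀ : H →L[ℂ] H} (h0 : T₀ ∈ Op)
    (hc : IsCompactOperator T₀) (hsa : ∀ a b, inner ℂ (T₀ a) b = inner ℂ a (T₀ b))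
    (hne : ∃ w ∈ W, T₀ w ≠ 0) :
    ∃ e ∈ W, T₀ e ≠ 0 ∧ ∀ T ∈ Op, ∃ c : ℂ, T e = c • e := by
  have : CompleteSpace W := hW.completeSpace_coe
  have hinv : ∀ w ∈ W, (T₀ : H →ₗ[ℂ] H) w ∈ W := hmap T₀ h0
  have hsym : (T₀ : H →ₗ[ℂ] H).IsSymmetric := hsa
  obtain ⟨μ, hμ, hμ0⟩ : ∃ μ, Module.End.HasEigenvalue
      ((T₀.restrict hinv : W →L[ℂ] W) : Module.End ℂ W) μ ∧ μ ≠ 0 := by
    by_contra h
    push Not at h
    have := (ContinuousLinearMap.eq_zero_of_forall_hasEigenvalue_eq_zero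
      (T := T₀.restrict hinv) (hc.restrict' hinv) (hsym.restrict_invariant hinv)).1 h
    obtain ⟨w, hw, h1⟩ := hne
    have h2 := congrArg Subtype.val (DFunLike.congr_fun this (⟨w, hw⟩ : W))
    exact h1 h2
  have := ContinuousLinearMap.finite_dimensional_eigenspace hc μ hμ0
  let E := W ⊓ Module.End.eigenspace (T₀ : H →ₗ[ℂ] H) μ
  have hE : ∀ w, w ∈ E ↔ w ∈ W ∧ T₀ w = μ • w := fun w => by
    simp [E]
  have : FiniteDimensional ℂ E := Submodule.finiteDimensional_of_le inf_le_right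
  let P : ℕ → Prop := fun n => ∃ F : Submodule ℂ H, F ≤ E ∧ F ≠ ⊥ ∧
    (∀ T ∈ Op, ∀ w ∈ F, T w ∈ F) ∧ Module.finrank ℂ F = n
  have hP : ∃ n, P n := by
    obtain ⟨x, hx⟩ := hμ.exists_hasEigenvector
    refine ⟨_, E, le_rfl, fun h => hx.2 (Subtype.ext ((Submodule.eq_bot_iff _).1 h x
      ((hE _).2 ⟨x.2, congrArg Subtype.val hx.apply_eq_smul⟩))), fun T hT w hw => ?_, rfl⟩
    obtain ⟨h1, h2⟩ := (hE w).1 hw
    exact (hE _).2 ⟨hmap T hT w h1, by rw [hcomm T₀ h0 T hT w h1, h2, map_smul]⟩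
  classical
  obtain ⟨F, F1, F2, F3, F4⟩ := Nat.find_spec hP
  have : FiniteDimensional ℂ F := Submodule.finiteDimensional_of_le F1
  have : Nontrivial F := Submodule.nontrivial_iff_ne_bot.2 F2
  obtain ⟨e, he, he0⟩ := (Submodule.ne_bot_iff F).1 F2
  refine ⟨e, ((hE e).1 (F1 he)).1, by rw [((hE e).1 (F1 he)).2]; exact smul_ne_zero hμ0 he0,
    fun T hT => ?_⟩
  obtain ⟨c, hc⟩ := Module.End.exists_eigenvalue ((T : H →ₗ[ℂ] H).restrict (F3 T hT))
  obtain ⟨x, hx⟩ := hc.exists_hasEigenvector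
  let G := F ⊓ Module.End.eigenspace (T : H →ₗ[ℂ] H) c
  have hG : ∀ w, w ∈ G ↔ w ∈ F ∧ T w = c • w := fun w => by
    simp [G]
  have h1 : Nat.find hP ≤ Module.finrank ℂ G := Nat.find_min' hP ⟨G, inf_le_left.trans F1,
    fun h => hx.2 (Subtype.ext ((Submodule.eq_bot_iff _).1 h x
      ((hG _).2 ⟨x.2, congrArg Subtype.val hx.apply_eq_smul⟩))), fun T' hT' w hw => by
      obtain ⟨h1, h2⟩ := (hG w).1 hw
      exact (hG _).2 ⟨F3 T' hT' w h1, by
        rw [hcomm T hT T' hT' w ((hE w).1 (F1 h1)).1, h2, map_smul]⟩, rfl⟩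
  have h2 : G = F := Submodule.eq_of_le_of_finrank_le inf_le_left (F4.le.trans h1)
  exact ⟨c, ((hG e).1 (h2 ▸ he)).2⟩

/-- If the only element of the closed subspace `V` orthogonal to `Γ ⊆ V` is zero, then `V` is
contained in the closed span of `Γ`. -/
theorem le_closure_span_of_orth {H : Type*} [NormedAddCommGroup H] [InnerProductSpace ℂ H]
    [CompleteSpace H] (V : Submodule ℂ H) (hV : IsClosed (V : Set H)) (Γ : Set H)
    (hΓ : Γ ⊆ V) (h : ∀ w ∈ V, (∀ χ ∈ Γ, inner ℂ χ w = 0) → w = 0) :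
    V ≤ (Submodule.span ℂ Γ).topologicalClosure := by
  intro v hv
  set S := (Submodule.span ℂ Γ).topologicalClosure
  have hS : S ≤ V := Submodule.topologicalClosure_minimal _ (Submodule.span_le.2 hΓ) hV
  have h1 : v - S.starProjection v = 0 := h _ (V.sub_mem hv (hS (S.starProjection_apply_mem v)))
    fun χ hχ => (S.sub_starProjection_mem_orthogonal v) χ
      (Submodule.le_topologicalClosure _ (Submodule.subset_span hχ))
  rw [sub_eq_zero.1 h1]
  exact S.starProjection_apply_mem v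


end Vale.Agent.P102
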