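import Vale.Agent.P102.HB1

/-! A product that is measurable in the third algebra is a character. -/

open MeasureTheory ProbabilityTheory Filter Topology Set
open scoped ComplexConjugate

noncomputable section

namespace Vale.Agent.P102

variable {Ω : Type} {𝒜 𝒜' ℬ ℬ' 𝒞 𝒞' : MeasurableSpace Ω} {mΩ : MeasurableSpace Ω}
  {Θ : Measure Ω} [IsProbabilityMeasure Θ]

/-- Normalisation of a complex number. -/
def unimod_nrm (z : ℂ) : ℂ := if z = 0 then 1 else z / (‖z‖ : ℂ)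

theorem unimod_measurable : Measurable unimod_nrm := by
  refine Measurable.ite (measurableSet_singleton (0 : ℂ)) measurable_const ?_
  exact measurable_id.div (Complex.measurable_ofReal.comp measurable_norm)

theorem unimod_norm (z : ℂ) : ‖unimod_nrm z‖ = 1 := by
  unfold unimod_nrm
  split_ifs with h
  · exact norm_one
  · rw [norm_div, Complex.norm_real, norm_norm, div_self (norm_ne_zero_iff.2 h)]

theorem unimod_smul (z : ℂ) : z = (‖z‖ : ℂ) * unimod_nrm z := by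
  unfold unimod_nrm
  split_ifs with h
  · simp [h]
  · rw [mul_div_cancel₀ _ (Complex.ofReal_ne_zero.2 (norm_ne_zero_iff.2 h))]

theorem unimod_mul {z w : ℂ} (hz : z ≠ 0) (hw : w ≠ 0) :
    conj (unimod_nrm z) * unimod_nrm (z * w) * conj (unimod_nrm w) = 1 := by
  have e : unimod_nrm (z * w) = unimod_nrm z * unimod_nrm w := by
    simp only [unimod_nrm, hz, hw, mul_ne_zero hz hw, if_false, norm_mul, Complex.ofReal_mul]
    rw [div_mul_div_comm]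
  have c : ∀ u : ℂ, unimod_nrm u * conj (unimod_nrm u) = 1 := fun u => by
    rw [Complex.mul_conj, Complex.normSq_eq_norm_sq, unimod_norm]; simp
  rw [e]
  linear_combination (unimod_nrm w * conj (unimod_nrm w)) * c z + c w

theorem unimod_const (h : Tri Θ 𝒜 ℬ 𝒞) {a e k : Ω → ℂ} (ma : StronglyMeasurable[𝒜] a)
    (me : StronglyMeasurable[ℬ] e) (mk : StronglyMeasurable[𝒞] k) (ie : MemLp e 2 Θ)
    (ik : MemLp k 2 Θ) (hE : ∀ᵐ ω ∂Θ, e ω = a ω * k ω) (hne : ¬ e =ᵐ[Θ] 0) :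
    ∃ α : ℝ, α ≠ 0 ∧ ∀ᵐ ω ∂Θ, ‖a ω‖ = α := by
  have iE : Integrable (fun ω => ‖e ω‖ ^ 2) Θ := (memLp_two_iff_integrable_sq_norm ie.1).1 ie
  have iK : Integrable (fun ω => ‖k ω‖ ^ 2) Θ := (memLp_two_iff_integrable_sq_norm ik.1).1 ik
  have hE' : (fun ω => ‖e ω‖ ^ 2) =ᵐ[Θ] (fun ω => ‖a ω‖ ^ 2) * fun ω => ‖k ω‖ ^ 2 := by
    filter_upwards [hE] with ω hω
    rw [Pi.mul_apply, hω, norm_mul, mul_pow]
  have h1 := condExp_indep_eq h.le1 h.le0 (me.norm.pow 2) h.i01.symm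
  have h2 := condExp_indep_eq h.le2 h.le0 (mk.norm.pow 2) h.i02.symm
  have h3 := condExp_mul_of_stronglyMeasurable_left (ma.norm.pow 2) (iE.congr hE') iK
  have h4 := condExp_congr_ae (m := 𝒜) hE'
  have hJ : ∫ ω, ‖e ω‖ ^ 2 ∂Θ ≠ 0 := by
    intro h0
    rw [integral_eq_zero_iff_of_nonneg (fun ω => by positivity) iE] at h0
    refine hne ?_
    filter_upwards [h0] with ω hω
    simpa using hω
  have h5 : ∀ᵐ ω ∂Θ, ‖a ω‖ ^ 2 * ∫ ω, ‖k ω‖ ^ 2 ∂Θ = ∫ ω, ‖e ω‖ ^ 2 ∂Θ := by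
    filter_upwards [h1, h2, h3, h4] with ω e1 e2 e3 e4
    exact ((e1.symm.trans e4).trans (e3.trans (congrArg (‖a ω‖ ^ 2 * ·) e2))).symm
  obtain ⟨ω₀, h0⟩ := h5.exists
  have hK : ∫ ω, ‖k ω‖ ^ 2 ∂Θ ≠ 0 := fun hk => hJ (by rw [← h0, hk, mul_zero])
  refine ⟨‖a ω₀‖, fun hz => hJ (by rw [← h0, hz]; simp), ?_⟩
  filter_upwards [h5] with ω hω
  exact (sq_eq_sq₀ (norm_nonneg _) (norm_nonneg _)).1 (mul_right_cancel₀ hK (hω.trans h0.symm))

/-- `‖e‖² = ‖a‖² ‖k‖²` pointwise a.e. Conditioning on `𝒜` (test against sets of `𝒜`, use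
independence) gives that `‖a‖²` is a.e. constant, likewise `‖k‖²`; both constants are nonzero.
Normalise strongly measurable versions with `z ↦ if z = 0 then 1 else z / ‖z‖`. -/
theorem char_of_mulL (h : Tri Θ 𝒜 ℬ 𝒞) {a k : L2 Θ} (ha : a ∈ XX Θ 𝒜) (hk : k ∈ XX Θ 𝒞)
    (he : mulL a k ∈ XX Θ ℬ) (hne : mulL a k ≠ 0) :
    ∃ w ∈ ChL Θ 𝒜 ℬ 𝒞, ∃ c : ℂ, mulL a k = c • w := by
  have hm := mulL_ae h.i02 h.le0 h.le2 ha hk
  obtain ⟨a', ma, ea⟩ := mem_XX.1 ha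
  obtain ⟨k', mk, ek⟩ := mem_XX.1 hk
  obtain ⟨e', me, ee⟩ := mem_XX.1 he
  have ia : MemLp a' 2 Θ := (Lp.memLp a).ae_eq ea
  have ik : MemLp k' 2 Θ := (Lp.memLp k).ae_eq ek
  have ie : MemLp e' 2 Θ := (Lp.memLp (mulL a k)).ae_eq ee
  have hE : ∀ᵐ ω ∂Θ, e' ω = a' ω * k' ω := by
    filter_upwards [hm, ea, ek, ee] with ω e1 e2 e3 e4
    rw [← e4, e1, e2, e3]
  have hne' : ¬ e' =ᵐ[Θ] 0 := fun h0 => hne (Lp.eq_zero_iff_ae_eq_zero.2 (ee.trans h0))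
  obtain ⟨α, hα, ca⟩ := unimod_const h ma me mk ie ik hE hne'
  obtain ⟨β, hβ, ck⟩ := unimod_const h.swap02 mk me ma ie ia
    (hE.mono fun ω hω => hω.trans (mul_comm _ _)) hne'
  have mχ : Measurable[ℬ] fun ω => unimod_nrm (e' ω) := unimod_measurable.comp me.measurable
  have iχ : MemLp (fun ω => unimod_nrm (e' ω)) 2 Θ :=
    MemLp.of_bound (mχ.mono h.le1 le_rfl).aestronglyMeasurable 1
      (ae_of_all _ fun ω => (unimod_norm _).le)
  refine ⟨iχ.toLp _, ⟨_, ⟨mχ, fun ω => unimod_norm _, fun ω => conj (unimod_nrm (a' ω)),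
    fun ω => conj (unimod_nrm (k' ω)),
    Complex.continuous_conj.measurable.comp (unimod_measurable.comp ma.measurable),
    Complex.continuous_conj.measurable.comp (unimod_measurable.comp mk.measurable),
    fun ω => by rw [Complex.norm_conj, unimod_norm],
    fun ω => by rw [Complex.norm_conj, unimod_norm], ?_⟩, iχ.coeFn_toLp⟩,
    ((α * β : ℝ) : ℂ), Lp.ext ?_⟩
  · filter_upwards [hE, ca, ck] with ω e1 e2 e3
    rw [e1]
    exact unimod_mul (norm_ne_zero_iff.1 (e2 ▸ hα)) (norm_ne_zero_iff.1 (e3 ▸ hβ))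
  · filter_upwards [hE, ca, ck, ee, iχ.coeFn_toLp,
      Lp.coeFn_smul ((α * β : ℝ) : ℂ) (iχ.toLp _)] with ω e1 e2 e3 e4 e5 e6
    rw [e6, Pi.smul_apply, e5, e4, smul_eq_mul, ← e2, ← e3, ← norm_mul, ← e1]
    exact unimod_smul _


end Vale.Agent.P102
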