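import Vale.Agent.P102.Comm
import Vale.Agent.P102.Unimod
import Vale.Agent.P102.Compact
import Vale.Agent.P102.Eigen

/-! `VS` is spanned by characters. -/

open MeasureTheory ProbabilityTheory Filter Topology Set
open scoped ComplexConjugate

noncomputable section

namespace Vale.Agent.P102

variable {Ω : Type}

section aux
variable {U T V : MeasurableSpace Ω} {mΩ : MeasurableSpace Ω} {Θ : Measure Ω}
  [IsProbabilityMeasure Θ]

omit [IsProbabilityMeasure Θ] in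
theorem chare_int_mul (hi : Indep U V Θ) (hU : U ≤ mΩ) (hV : V ≤ mΩ) {f g : Ω → ℂ}
    (hf : AEStronglyMeasurable[U] f Θ) (hg : AEStronglyMeasurable[V] g Θ) :
    ∫ ω, f ω * g ω ∂Θ = (∫ ω, f ω ∂Θ) * ∫ ω, g ω ∂Θ := by
  obtain ⟨f', hf', ef⟩ := hf
  obtain ⟨g', hg', eg⟩ := hg
  have h1 : IndepFun f' g' Θ := by
    rw [IndepFun_iff_Indep]
    exact indep_of_indep_of_le_right (indep_of_indep_of_le_left hi hf'.measurable.comap_le)
      hg'.measurable.comap_le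
  have h2 := h1.integral_fun_mul_eq_mul_integral (hf'.mono hU).aestronglyMeasurable
    (hg'.mono hV).aestronglyMeasurable
  rw [integral_congr_ae ef, integral_congr_ae eg, ← h2]
  refine integral_congr_ae ?_
  filter_upwards [ef, eg] with ω h h'
  rw [h, h']

theorem chare_pr_mulL (hi : Indep U V Θ) (hU : U ≤ mΩ) (hV : V ≤ mΩ) {a b c d : L2 Θ}
    (ha : a ∈ XX Θ U) (hb : b ∈ XX Θ U) (hc : c ∈ XX Θ V) (hd : d ∈ XX Θ V) :
    pr (mulL b c) (mulL a d) = pr b a * pr c d := by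
  have h := chare_int_mul hi hU hV ((mem_XX.1 hb).mul (mem_XX.1 ha))
    ((mem_XX.1 hc).mul (mem_XX.1 hd))
  refine Eq.trans (integral_congr_ae ?_) h
  filter_upwards [mulL_ae hi hU hV hb hc, mulL_ae hi hU hV ha hd] with ω h1 h2
  rw [h1, h2]
  simp only [Pi.mul_apply]
  ring

theorem chare_BB_smul (hi : Indep U T Θ) (hU : U ≤ mΩ) (hT : T ≤ mΩ) {a d : L2 Θ}
    (ha : a ∈ XX Θ U) (hd : d ∈ XX Θ T) (c : ℂ) : BB V a (c • d) = c • BB V a d := by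
  obtain ⟨M, -, -, hM⟩ := exists_BBCLM hi hU hT V ha
  rw [← hM _ (Submodule.smul_mem _ c hd), ← hM _ hd, map_smul]

theorem chare_star_star (a : L2 Θ) : star (star a) = a := by
  refine Lp.ext ?_
  filter_upwards [star_ae (star a), star_ae a] with ω h1 h2
  rw [h1, h2, Complex.conj_conj]

theorem chare_pr_smul (a b : L2 Θ) (c : ℂ) : pr a (c • b) = c * pr a b := by
  rw [pr_eq_inner, pr_eq_inner, inner_smul_right]

theorem chare_adj (h : Tri Θ U T V) {b b' : L2 Θ} (hb : b ∈ XX Θ U) (hb' : b' ∈ XX Θ U)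
    (d d' : L2 Θ) : inner ℂ (BB T b' (BB V b (PP Θ T d))) d' =
      inner ℂ d (BB T (star b) (BB V (star b') (PP Θ T d'))) := by
  have h1 := inner_BB_adj h hb' (BB V b (PP Θ T d)) d'
  have h2 := inner_BB_adj h.swap12 hb d (BB V (star b') (PP Θ T d'))
  rw [PP_of_mem h.le2 (BB_mem _ _)] at h1 h2
  rw [h1, h2]

theorem chare_exists_op (h : Tri Θ U T V) {b b' : L2 Θ} (hb : b ∈ XX Θ U) (hb' : b' ∈ XX Θ U) :
    ∃ M : L2 Θ →L[ℂ] L2 Θ, IsCompactOperator M ∧ ∀ d, M d = BB T b' (BB V b (PP Θ T d)) := by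
  obtain ⟨M₁, -, h1, -⟩ := exists_BBCLM h.i01 h.le0 h.le1 V hb
  obtain ⟨M₂, -, h2, h3⟩ := exists_BBCLM h.i02 h.le0 h.le2 T hb'
  refine ⟨M₂.comp M₁, (isCompactOperator_BB h hb' M₂ h2).comp_clm M₁, fun d => ?_⟩
  rw [ContinuousLinearMap.comp_apply, h1, h3 _ (BB_mem _ _)]

end aux

variable {mΩ : MeasurableSpace Ω} {Θ : Measure Ω} [IsProbabilityMeasure Θ]
  {𝒜 : Fin 3 → Fin 3 → MeasurableSpace Ω} {𝒞 : Fin 3 → MeasurableSpace Ω}
  {x y z t u v : Fin 3}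

/-- Write `k b = BB (𝒜 x v) b e`, `BB (𝒜 x t) b' (k b) = β b b' • e`, `β₀ = β b₀ b₀' ≠ 0`,
`k₀ = k b₀ ∈ VS x y z v u t` (`VS_map`). Apply `VS_commute` (columns `v, u, t`) to `k₀` and the
operators `d ↦ BB v b (BB t b₀' d)`, `d ↦ BB v b₀ (BB t b₀' d)`: `β₀ • k b = β b b₀' • k₀`. So
`k b = φ b • k₀` with `φ b = pr b a`, `a = (‖k₀‖ ^ 2)⁻¹ • BB (𝒜 x u) (star k₀) e`
(`pr_BB_swap`). Then `pr (mulL b c) (e - mulL a k₀) = 0` for all `b`, `c`; conclude with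
`VS_le_XX_sup` and `eq_zero_of_pr_mulL`. -/
theorem eq_mulL_of_eigen (hG : G33 Θ 𝒜 𝒞) (hr : Dist x y z) (hc : Dist t u v) {e : L2 Θ}
    (he : e ∈ VS Θ 𝒜 x y z t u v) {b₀ b₀' : L2 Θ} (h0 : b₀ ∈ XX Θ (𝒜 x u))
    (h0' : b₀' ∈ XX Θ (𝒜 x u)) (hne : BB (𝒜 x t) b₀' (BB (𝒜 x v) b₀ e) ≠ 0)
    (heig : ∀ b ∈ XX Θ (𝒜 x u), ∀ b' ∈ XX Θ (𝒜 x u), ∃ c : ℂ,
      BB (𝒜 x t) b' (BB (𝒜 x v) b e) = c • e) :
    ∃ a ∈ XX Θ (𝒜 x u), ∃ k ∈ XX Θ (𝒜 x v), e = mulL a k := by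
  have hT : Tri Θ (𝒜 x t) (𝒜 x u) (𝒜 x v) := hG.tri_row x hc
  have heT : e ∈ XX Θ (𝒜 x t) := VS_le_XX hG he
  obtain ⟨β₀, hβ₀⟩ := heig b₀ h0 b₀' h0'
  have hβ : β₀ ≠ 0 := by
    rintro rfl
    exact hne (by rw [hβ₀, zero_smul])
  have sV : ∀ b ∈ XX Θ (𝒜 x u), ∀ c : ℂ, BB (𝒜 x v) b (c • e) = c • BB (𝒜 x v) b e :=
    fun b hb c => chare_BB_smul hT.i01.symm hT.le1 hT.le0 hb heT c
  have sT : ∀ (d d' : L2 Θ) (c : ℂ), BB (𝒜 x t) b₀' (c • BB (𝒜 x v) d d') =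
      c • BB (𝒜 x t) b₀' (BB (𝒜 x v) d d') :=
    fun d d' c => chare_BB_smul hT.i12 hT.le1 hT.le2 h0' (BB_mem _ _) c
  have hk0 : BB (𝒜 x v) b₀ e ≠ 0 := by
    intro h
    apply hne
    have := sT b₀ e 0
    rw [zero_smul, zero_smul] at this
    rw [h, this]
  have hk : ∀ b ∈ XX Θ (𝒜 x u), ∃ φ : ℂ, BB (𝒜 x v) b e = φ • BB (𝒜 x v) b₀ e := by
    intro b hb
    obtain ⟨β, hβ'⟩ := heig b hb b₀' h0'
    have h := VS_commute hG hr hc.swap13 h0' hb h0' h0 (VS_map hG hr hc h0 he)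
    rw [hβ₀, sV b₀ h0, sT, hβ₀, smul_smul, sV b hb, sV b hb, sT, hβ', smul_smul, sV b₀ h0] at h
    refine ⟨(β₀ * β₀)⁻¹ * (β₀ * β), ?_⟩
    rw [mul_smul, ← h, smul_smul, inv_mul_cancel₀ (mul_ne_zero hβ hβ), one_smul]
  set k₀ := BB (𝒜 x v) b₀ e with hk₀
  have hkV : k₀ ∈ XX Θ (𝒜 x v) := BB_mem _ _
  have hn : (inner ℂ k₀ k₀ : ℂ) ≠ 0 := by rwa [Ne, inner_self_eq_zero]
  have haU : (inner ℂ k₀ k₀ : ℂ)⁻¹ • BB (𝒜 x u) (star k₀) e ∈ XX Θ (𝒜 x u) :=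
    Submodule.smul_mem _ _ (BB_mem _ _)
  refine ⟨_, haU, k₀, hkV, ?_⟩
  rw [← sub_eq_zero]
  refine eq_zero_of_pr_mulL hT.i12 hT.le1 hT.le2
    (Submodule.sub_mem _ (VS_le_XX_sup hG hr hc he) (mulL_mem haU hkV)) fun b hb c hc' => ?_
  obtain ⟨φ, hφ⟩ := hk b hb
  have hT' : Tri Θ (𝒜 x v) (𝒜 x u) (𝒜 x t) := hT.swap02
  have e1 : pr b ((inner ℂ k₀ k₀ : ℂ)⁻¹ • BB (𝒜 x u) (star k₀) e) = φ := by
    rw [chare_pr_smul, ← pr_BB_swap hT' (star_mem_XX hkV) hb heT, hφ, chare_pr_smul,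
      ← inner_eq_pr]
    field_simp
  have e2 : pr (mulL b c) e = φ * pr c k₀ := by
    rw [← chare_pr_smul, ← hφ, pr_BB hT' hc' hb heT]
    refine integral_congr_ae ?_
    filter_upwards [mulL_ae hT.i12 hT.le1 hT.le2 hb hc'] with ω h1
    rw [h1]; ring
  rw [pr_eq_inner, inner_sub_right, ← pr_eq_inner, ← pr_eq_inner,
    chare_pr_mulL hT.i12 hT.le1 hT.le2 haU hb hc' hkV, e1, e2, sub_self]

/-- `le_closure_span_of_orth` with `Γ = ChL ∩ VS`. Let `W` be the elements of `VS` orthogonal to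
`Γ`, and `Op` the operators `T` with `T d = BB t b' (BB v b (PP (𝒜 x t) d))` for some `b, b'`
(`exists_BBCLM`). `W` is invariant (`VS_map` twice, `inner_BB_adj`, `BB_BB_char`). If `w ∈ W` is
nonzero, `eq_zero_of_HH` gives `a` with `BB v a w ≠ 0`; `T₀` for `b = a`, `b' = star a` is
compact, symmetric, and `inner w (T₀ w) = ‖BB v a w‖²`. Then `exists_common_eigen`,
`eq_mulL_of_eigen`, `char_of_mulL` give a nonzero multiple of an element of `Γ` in `W`. -/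
theorem VS_le_span (hG : G33 Θ 𝒜 𝒞) (hr : Dist x y z) (hc : Dist t u v) :
    VS Θ 𝒜 x y z t u v ≤
      (Submodule.span ℂ (ChL Θ (𝒜 x u) (𝒜 x t) (𝒜 x v))).topologicalClosure := by
  have hT : Tri Θ (𝒜 x u) (𝒜 x t) (𝒜 x v) := hG.tri_row x hc.swap12
  have hcl : IsClosed (VS Θ 𝒜 x y z t u v : Set (L2 Θ)) := Submodule.isClosed_topologicalClosure _
  set Γ : Set (L2 Θ) := ChL Θ (𝒜 x u) (𝒜 x t) (𝒜 x v) ∩ VS Θ 𝒜 x y z t u v with hΓ
  refine (le_closure_span_of_orth _ hcl Γ inter_subset_right fun w hw ho => ?_).trans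
    (Submodule.topologicalClosure_mono (Submodule.span_mono inter_subset_left))
  by_contra hw0
  set W : Submodule ℂ (L2 Θ) := VS Θ 𝒜 x y z t u v ⊓ (Submodule.span ℂ Γ)ᗮ with hW
  have memW : ∀ d, d ∈ W ↔ d ∈ VS Θ 𝒜 x y z t u v ∧ ∀ χ ∈ Γ, inner ℂ χ d = 0 := by
    intro d
    rw [hW, Submodule.mem_inf, Submodule.mem_orthogonal]
    refine and_congr_right fun _ => ⟨fun h χ hχ => h χ (Submodule.subset_span hχ), fun h χ hχ => ?_⟩
    induction hχ using Submodule.span_induction with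
    | mem a ha => exact h a ha
    | zero => exact inner_zero_left _
    | add a b _ _ ha hb => rw [inner_add_left, ha, hb, add_zero]
    | smul c a _ ha => rw [inner_smul_left, ha, mul_zero]
  have hWc : IsClosed (W : Set (L2 Θ)) := hcl.inter (Submodule.isClosed_orthogonal _)
  have hP : ∀ d ∈ VS Θ 𝒜 x y z t u v, PP Θ (𝒜 x t) d = d :=
    fun d hd => PP_of_mem hT.le1 (VS_le_XX hG hd)
  set Op : Set (L2 Θ →L[ℂ] L2 Θ) := {M | ∃ b ∈ XX Θ (𝒜 x u), ∃ b' ∈ XX Θ (𝒜 x u),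
    ∀ d, M d = BB (𝒜 x t) b' (BB (𝒜 x v) b (PP Θ (𝒜 x t) d))} with hOp
  have hmap : ∀ M ∈ Op, ∀ d ∈ W, M d ∈ W := by
    rintro M ⟨b, hb, b', hb', hM⟩ d hd
    rw [memW] at hd ⊢
    refine ⟨?_, fun χ hχ => ?_⟩
    · rw [hM, hP d hd.1]
      exact VS_map hG hr hc.swap13 hb' (VS_map hG hr hc hb hd.1)
    · obtain ⟨c, hc'⟩ := BB_BB_char hT hχ.1 (star_mem_XX hb') (star_mem_XX hb)
      rw [inner_eq_zero_symm, hM, chare_adj hT hb hb', hP χ hχ.2, hc', inner_smul_right,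
        inner_eq_zero_symm.1 (hd.2 χ hχ), mul_zero]
  have hcomm : ∀ M ∈ Op, ∀ M' ∈ Op, ∀ d ∈ W, M (M' d) = M' (M d) := by
    rintro M ⟨b, hb, b', hb', hM⟩ M' ⟨c, hc0, c', hc', hM'⟩ d hd
    rw [hM, hM', hM', hM, hP d hd.1, PP_of_mem hT.le1 (BB_mem _ _), PP_of_mem hT.le1 (BB_mem _ _)]
    exact VS_commute hG hr hc hb hb' hc0 hc' hd.1
  obtain ⟨a, ha, hane⟩ : ∃ a ∈ XX Θ (𝒜 x u), BB (𝒜 x v) a w ≠ 0 := by
    by_contra h
    push Not at h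
    exact hw0 (eq_zero_of_HH hT (VS_le_HH hG hr hc hw) h)
  have ha' := star_mem_XX ha
  obtain ⟨T₀, hcp, hT₀⟩ := chare_exists_op hT ha ha'
  have hsa : ∀ d d', inner ℂ (T₀ d) d' = inner ℂ d (T₀ d') := by
    intro d d'
    rw [hT₀, hT₀, chare_adj hT ha ha', chare_star_star]
  have hne : ∃ d ∈ W, T₀ d ≠ 0 := by
    refine ⟨w, (memW w).2 ⟨hw, ho⟩, fun h => hane ?_⟩
    have h1 := inner_BB_adj hT ha' (BB (𝒜 x v) a w) w
    rw [hT₀, hP w hw] at h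
    rw [PP_of_mem hT.le2 (BB_mem _ _), h, inner_zero_left, chare_star_star, hP w hw] at h1
    exact inner_self_eq_zero.1 h1.symm
  obtain ⟨e, heW, he0, heig⟩ := exists_common_eigen W hWc Op hmap hcomm ⟨a, ha, _, ha', hT₀⟩ hcp
    hsa hne
  have he := ((memW e).1 heW).1
  have he1 : e ≠ 0 := by
    rintro rfl
    exact he0 (map_zero _)
  rw [hT₀, hP e he] at he0
  obtain ⟨a', ha1, k, hk, hek⟩ := eq_mulL_of_eigen hG hr hc he ha ha' he0 fun b hb b' hb' => by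
    obtain ⟨M, -, hM⟩ := chare_exists_op hT hb hb'
    obtain ⟨c, hc'⟩ := heig M ⟨b, hb, b', hb', hM⟩
    exact ⟨c, by rw [← hc', hM, hP e he]⟩
  obtain ⟨χ, hχ, c, hc'⟩ := char_of_mulL hT ha1 hk (hek ▸ VS_le_XX hG he) (hek ▸ he1)
  rw [← hek] at hc'
  have hc0 : c ≠ 0 := by
    rintro rfl
    exact he1 (by rw [hc', zero_smul])
  have hχV : χ ∈ VS Θ 𝒜 x y z t u v := by
    have := Submodule.smul_mem _ c⁻¹ he
    rwa [hc', smul_smul, inv_mul_cancel₀ hc0, one_smul] at this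
  have h1 := ((memW e).1 heW).2 χ ⟨hχ, hχV⟩
  rw [hc', inner_smul_right, mul_eq_zero, inner_self_eq_zero] at h1
  exact he1 (by rw [hc', h1.resolve_left hc0, smul_zero])


end Vale.Agent.P102
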