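import Vale.Agent.P102.Medial
import Vale.Agent.P102.Beta

/-! The row operators preserve `VS` and commute on it. -/

open MeasureTheory ProbabilityTheory Filter Topology Set
open scoped ComplexConjugate

noncomputable section

namespace Vale.Agent.P102

variable {Ω : Type} {mΩ : MeasurableSpace Ω} {Θ : Measure Ω} [IsProbabilityMeasure Θ]
  {𝒜 : Fin 3 → Fin 3 → MeasurableSpace Ω} {𝒞 : Fin 3 → MeasurableSpace Ω}
  {x y z t u v : Fin 3}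

omit [IsProbabilityMeasure Θ] in
theorem comm_le {S : Set (L2 Θ)} {P : Submodule ℂ (L2 Θ)} (hP : IsClosed (P : Set (L2 Θ)))
    (h : ∀ w ∈ S, w ∈ P) : (Submodule.span ℂ S).topologicalClosure ≤ P :=
  Submodule.topologicalClosure_minimal _ (Submodule.span_le.2 h) hP

omit [IsProbabilityMeasure Θ] in
theorem comm_map {S : Set (L2 Θ)} {P : Submodule ℂ (L2 Θ)} (hP : IsClosed (P : Set (L2 Θ)))
    (M : L2 Θ →L[ℂ] L2 Θ) (h : ∀ w ∈ S, M w ∈ P) {w : L2 Θ}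
    (hw : w ∈ (Submodule.span ℂ S).topologicalClosure) : M w ∈ P :=
  comm_le (P := P.comap (M : L2 Θ →ₗ[ℂ] L2 Θ)) (hP.preimage M.continuous) h hw

omit [IsProbabilityMeasure Θ] in
theorem comm_gen {S : Set (L2 Θ)} {w : L2 Θ} (hw : w ∈ S) :
    w ∈ (Submodule.span ℂ S).topologicalClosure :=
  Submodule.le_topologicalClosure _ (Submodule.subset_span hw)

omit [IsProbabilityMeasure Θ] in
theorem comm_isClosed_VS : IsClosed (VS Θ 𝒜 x y z t u v : Set (L2 Θ)) :=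
  Submodule.isClosed_topologicalClosure _

omit [IsProbabilityMeasure Θ] in
theorem comm_BB_mem_HH {A₀ A₁ A₂ : MeasurableSpace Ω} {mΩ : MeasurableSpace Ω} {Θ : Measure Ω}
    {a c : L2 Θ} (ha : a ∈ XX Θ A₀) (hc : c ∈ XX Θ A₂) : BB A₁ a c ∈ HH Θ A₀ A₁ A₂ :=
  comm_gen ⟨a, ha, c, hc, rfl⟩

theorem comm_col_le : VS Θ 𝒜 x y z t u v ≤ VS Θ 𝒜 x y z t v u := by
  refine comm_le comm_isClosed_VS ?_
  rintro _ ⟨h₀, h0, h₂, h2, k₀, k0, k₂, k2, rfl⟩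
  exact comm_gen ⟨h₂, h2, h₀, h0, k₂, k2, k₀, k0, by rw [BB_comm h₀, BB_comm k₀]⟩

theorem comm_row_le : VS Θ 𝒜 x y z t u v ≤ VS Θ 𝒜 x z y t u v := by
  refine comm_le comm_isClosed_VS ?_
  rintro _ ⟨h₀, h0, h₂, h2, k₀, k0, k₂, k2, rfl⟩
  exact comm_gen ⟨k₀, k0, k₂, k2, h₀, h0, h₂, h2, BB_comm _ _⟩

theorem VS_comm_col : VS Θ 𝒜 x y z t u v = VS Θ 𝒜 x y z t v u :=
  le_antisymm comm_col_le comm_col_le

theorem VS_comm_row : VS Θ 𝒜 x y z t u v = VS Θ 𝒜 x z y t u v :=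
  le_antisymm comm_row_le comm_row_le

theorem VS_le_XX (hG : G33 Θ 𝒜 𝒞) : VS Θ 𝒜 x y z t u v ≤ XX Θ (𝒜 x t) := by
  refine comm_le (isClosed_XX (hG.le x t)) ?_
  rintro _ ⟨h₀, -, h₂, -, k₀, -, k₂, -, rfl⟩
  exact BB_mem _ _

/-- `beta_mem`. -/
theorem VS_le_XX_sup (hG : G33 Θ 𝒜 𝒞) (hr : Dist x y z) (hc : Dist t u v) :
    VS Θ 𝒜 x y z t u v ≤ XX Θ (𝒜 x u ⊔ 𝒜 x v) := by
  refine comm_le (isClosed_XX (sup_le (hG.le x u) (hG.le x v))) ?_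
  rintro _ ⟨h₀, -, h₂, -, k₀, k0, k₂, k2, rfl⟩
  exact beta_mem hG hr hc (BB_mem _ _) (comm_BB_mem_HH k0 k2)

/-- An element of `XX (𝒜 x t)` and of `XX (𝒜 x u ⊔ 𝒜 x v)` is in `HH` (`PP_mem_HH`). -/
theorem VS_le_HH (hG : G33 Θ 𝒜 𝒞) (hr : Dist x y z) (hc : Dist t u v) :
    VS Θ 𝒜 x y z t u v ≤ HH Θ (𝒜 x u) (𝒜 x t) (𝒜 x v) := by
  intro w hw
  have h := PP_mem_HH (hG.tri_row x hc.swap12) (VS_le_XX_sup hG hr hc hw)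
  rwa [PP_of_mem (hG.le x t) (VS_le_XX hG hw)] at h

/-- Decompose `h` with `exists_HH_decomp`, kill the orthogonal part with `beta_zero`, and extend
from generators by bilinearity and continuity (`exists_BBCLM`). -/
theorem BB_mem_VS (hG : G33 Θ 𝒜 𝒞) (hr : Dist x y z) (hc : Dist t u v) {h k : L2 Θ}
    (hh : h ∈ XX Θ (𝒜 y t)) (hk : k ∈ HH Θ (𝒜 z u) (𝒜 z t) (𝒜 z v)) :
    BB (𝒜 x t) h k ∈ VS Θ 𝒜 x y z t u v := by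
  have hk' : k ∈ XX Θ (𝒜 z t) := HH_le_XX (hG.le z t) hk
  obtain ⟨f, hf, hd, h0⟩ := exists_HH_decomp (hG.tri_row y hc.swap12) hh
  obtain ⟨M, -, -, hM⟩ := exists_BBCLM (hG.ind_col hr.yz.symm t t) (hG.le z t) (hG.le y t)
    (𝒜 x t) hk'
  have e : BB (𝒜 x t) h k = M f := by
    have e1 : M (h - f) = 0 := by rw [hM _ hd, BB_comm, beta_zero hG hr hc hd h0 hk]
    rw [map_sub, sub_eq_zero] at e1
    rw [← e1, hM _ hh, BB_comm]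
  rw [e]
  refine comm_map comm_isClosed_VS M ?_ hf
  rintro _ ⟨a, ha, c, hc', rfl⟩
  obtain ⟨N, -, -, hN⟩ := exists_BBCLM (hG.ind_col hr.yz t t) (hG.le y t) (hG.le z t)
    (𝒜 x t) (BB_mem (𝒜 := 𝒜 y t) a c)
  rw [hM _ (BB_mem _ _), BB_comm k, ← hN _ hk']
  refine comm_map comm_isClosed_VS N ?_ hk
  rintro _ ⟨a', ha', c', hc'', rfl⟩
  rw [hN _ (BB_mem _ _)]
  exact comm_gen ⟨a, ha, c, hc', a', ha', c', hc'', rfl⟩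

/-- `medial_one` on generators, then `BB_mem_VS`. -/
theorem VS_map (hG : G33 Θ 𝒜 𝒞) (hr : Dist x y z) (hc : Dist t u v) {b d : L2 Θ}
    (hb : b ∈ XX Θ (𝒜 x u)) (hd : d ∈ VS Θ 𝒜 x y z t u v) :
    BB (𝒜 x v) b d ∈ VS Θ 𝒜 x y z v u t := by
  obtain ⟨M, -, -, hM⟩ := exists_BBCLM (hG.ind_row x hc.xy.symm) (hG.le x u) (hG.le x t)
    (𝒜 x v) hb
  rw [← hM _ (VS_le_XX hG hd)]
  refine comm_map comm_isClosed_VS M ?_ hd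
  rintro _ ⟨h₀, h0, h₂, h2, k₀, -, k₂, -, rfl⟩
  rw [hM _ (BB_mem _ _), medial_one hG hr hc hb h0 h2 (BB_mem _ _)]
  exact BB_mem_VS hG hr hc.swap13 h2 (comm_BB_mem_HH (BB_mem _ _) (BB_mem _ _))

/-- `medial_one` twice (the second time with `y, z` and `t, v` exchanged). -/
theorem BB_BB_gen (hG : G33 Θ 𝒜 𝒞) (hr : Dist x y z) (hc : Dist t u v) {b b' h₀ h₂ k : L2 Θ}
    (hb : b ∈ XX Θ (𝒜 x u)) (hb' : b' ∈ XX Θ (𝒜 x u)) (h0 : h₀ ∈ XX Θ (𝒜 y u))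
    (h2 : h₂ ∈ XX Θ (𝒜 y v)) (hk : k ∈ XX Θ (𝒜 z t)) :
    BB (𝒜 x t) b' (BB (𝒜 x v) b (BB (𝒜 x t) (BB (𝒜 y t) h₀ h₂) k)) =
      BB (𝒜 x t) (BB (𝒜 y t) (BB (𝒜 y u) b' (BB (𝒜 z u) b h₀)) h₂) k := by
  rw [medial_one hG hr hc hb h0 h2 hk, BB_comm h₂,
    medial_one hG hr.swap23 hc.swap13 hb' (BB_mem _ _) hk h2, BB_comm k]

/-- On a generator, apply the inner operator on the `z` side and the outer one on the `y` side,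
and conversely (`BB_BB_gen`, `BB_comm`); extend by linearity and continuity. -/
theorem VS_commute (hG : G33 Θ 𝒜 𝒞) (hr : Dist x y z) (hc : Dist t u v) {b b' c c' d : L2 Θ}
    (hb : b ∈ XX Θ (𝒜 x u)) (hb' : b' ∈ XX Θ (𝒜 x u)) (hc0 : c ∈ XX Θ (𝒜 x u))
    (hc' : c' ∈ XX Θ (𝒜 x u)) (hd : d ∈ VS Θ 𝒜 x y z t u v) :
    BB (𝒜 x t) b' (BB (𝒜 x v) b (BB (𝒜 x t) c' (BB (𝒜 x v) c d))) =
      BB (𝒜 x t) c' (BB (𝒜 x v) c (BB (𝒜 x t) b' (BB (𝒜 x v) b d))) := by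
  have key : ∀ {a a' : L2 Θ}, a ∈ XX Θ (𝒜 x u) → a' ∈ XX Θ (𝒜 x u) →
      ∃ T : L2 Θ →L[ℂ] L2 Θ, ∀ w ∈ XX Θ (𝒜 x t), T w = BB (𝒜 x t) a' (BB (𝒜 x v) a w) := by
    intro a a' ha ha'
    obtain ⟨M, -, -, hM⟩ := exists_BBCLM (hG.ind_row x hc.xy.symm) (hG.le x u) (hG.le x t)
      (𝒜 x v) ha
    obtain ⟨N, -, -, hN⟩ := exists_BBCLM (hG.ind_row x hc.yz) (hG.le x u) (hG.le x v)
      (𝒜 x t) ha'
    exact ⟨N.comp M, fun w hw => by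
      rw [ContinuousLinearMap.comp_apply, hM w hw, hN _ (BB_mem _ _)]⟩
  obtain ⟨B, hB⟩ := key hb hb'
  obtain ⟨C, hC⟩ := key hc0 hc'
  have e : ∀ w ∈ XX Θ (𝒜 x t), (B.comp C - C.comp B) w =
      BB (𝒜 x t) b' (BB (𝒜 x v) b (BB (𝒜 x t) c' (BB (𝒜 x v) c w))) -
        BB (𝒜 x t) c' (BB (𝒜 x v) c (BB (𝒜 x t) b' (BB (𝒜 x v) b w))) := by
    intro w hw
    rw [_root_.sub_apply, ContinuousLinearMap.comp_apply,
      ContinuousLinearMap.comp_apply, hC w hw, hB w hw, hB _ (BB_mem _ _), hC _ (BB_mem _ _)]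
  rw [← sub_eq_zero, ← e d (VS_le_XX hG hd), ← Submodule.mem_bot ℂ]
  refine comm_map (P := ⊥) isClosed_singleton _ ?_ hd
  rintro _ ⟨h₀, h0, h₂, h2, k₀, k0, k₂, k2, rfl⟩
  rw [e _ (BB_mem _ _), Submodule.mem_bot, sub_eq_zero,
    BB_BB_gen hG hr hc hb hb' h0 h2 (BB_mem _ _), BB_comm (BB (𝒜 y t) h₀ h₂),
    BB_BB_gen hG hr.swap23 hc hc0 hc' k0 k2 (BB_mem _ _), BB_comm _ (BB (𝒜 y t) h₀ h₂),
    BB_BB_gen hG hr hc hb hb' h0 h2 (BB_mem _ _), BB_comm _ (BB (𝒜 z t) k₀ k₂),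
    BB_BB_gen hG hr.swap23 hc hc0 hc' k0 k2 (BB_mem _ _), BB_comm]


end Vale.Agent.P102
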