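import Vale.Agent.P102.Dis

/-! Conditioning an invariant random measure on a factor. -/

open MeasureTheory ProbabilityTheory Filter Topology Set
open scoped ComplexConjugate

noncomputable section

namespace Vale.Agent.P102

variable {K L : Type}
  [TopologicalSpace K] [MeasurableSpace K] [Nice K] [AddAction ℤ K] [ContinuousConstVAdd ℤ K]
  [TopologicalSpace L] [MeasurableSpace L] [Nice L] [AddAction ℤ L] [ContinuousConstVAdd ℤ L]

omit [AddAction ℤ K] [ContinuousConstVAdd ℤ K] [AddAction ℤ L] [ContinuousConstVAdd ℤ L] in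
/-- Integration of a continuous function against a composition-product. -/
theorem cond_int_compProd (β : Measure L) [IsProbabilityMeasure β] (η : L → PM K)
    (hη : Measurable η) (F : C(L × K, ℝ)) :
    ∫ p, F p ∂(β ⊗ₘ kerOf η hη) = ∫ b, ∫ w, F (b, w) ∂(η b : Measure K) ∂β := by
  rw [Measure.integral_compProd (integrable_cont F _)]
  rfl

/-- The map ` (θ, w) ↦ ((θ, ψ w), w)`. -/
def cond_map (ψ : C(K, L)) : C(PM K × K, (PM K × L) × K) :=
  ⟨fun p => ((p.1, ψ p.2), p.2), by fun_prop⟩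

omit [AddAction ℤ K] [ContinuousConstVAdd ℤ K] [AddAction ℤ L] [ContinuousConstVAdd ℤ L] in
theorem cond_pmap_const (ν : PM K) (ψ : C(K, L)) (c : L)
    (h : ∀ᵐ w ∂(ν : Measure K), ψ w = c) : pmap ψ ν = diracProba c := by
  apply ProbabilityMeasure.toMeasure_injective
  rw [coe_pmap, Measure.map_congr (g := fun _ => c) h, Measure.map_const]
  simp [diracProba]

/-- Total space: the law on ` (PM K × L) × K` of ` ((θ, ψ w), w)` with `θ ∼ 𝔱`, `w ∼ θ`
(image of `𝔱 ⊗ₘ kerOf id`; invariant by `inv_compProd` and `Inv.pmap`). Disintegrate it with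
`exists_disint` to get `η`, and let `ρ` be the law of ` (θ, η (θ, c))` (`inv_map`).
Dirac part: `∫∫ (u (ψ w) - u c)² = 0` for `u` in a countable dense set, or directly the set
`{(b, w) | ψ w = b.2}` is conull. Preservation: the bounded measurable function
`b ↦ ev g (η b) - ev g b.1` is orthogonal to all `Ψ b.1 * G b.2` (`ae_eq_zero_of_cont_prod`). -/
theorem exists_cond (𝔱 : PM (PM K)) (h : Inv 𝔱) (ψ : C(K, L)) (hψ : Eqv ψ) :
    ∃ ρ : PM (PM K × PM K), Inv ρ ∧ pfst ρ = 𝔱 ∧ Mart ρ ∧
      (∀ᵐ q ∂(ρ : Measure (PM K × PM K)), ∃ c, pmap ψ q.2 = diracProba c) ∧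
      ∀ g : C(K, ℝ), (∀ᵐ θ : PM K ∂(𝔱 : Measure (PM K)), IndepFun g ψ (θ : Measure K)) →
        ∀ᵐ q ∂(ρ : Measure (PM K × PM K)), ev g q.2 = ev g q.1 := by
  classical
  let τ₀ : PM (PM K × K) := ⟨(𝔱 : Measure (PM K)) ⊗ₘ kerOf id measurable_id, inferInstance⟩
  have hτ₀ : Inv τ₀ := inv_compProd 𝔱 h id measurable_id fun n => ae_of_all _ fun _ => rfl
  have hE : Eqv (cond_map ψ) := fun n p => by
    change ((n +ᵥ p.1, ψ (n +ᵥ p.2)), n +ᵥ p.2) = ((n +ᵥ p.1, n +ᵥ ψ p.2), n +ᵥ p.2)
    rw [hψ n]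
  let τ : PM ((PM K × L) × K) := pmap (cond_map ψ) τ₀
  have hτ : Inv τ := hτ₀.pmap hE
  obtain ⟨η, hη, hηe, hdis⟩ := exists_disint τ hτ
  set β : PM (PM K × L) := pfst τ with hβ
  have hβi : Inv β := hτ.pmap eqv_fst
  have hφ : Measurable fun b : PM K × L => (b.1, η b) := measurable_fst.prodMk hη
  let ρ : PM (PM K × PM K) := β.map hφ.aemeasurable
  have hρc : (ρ : Measure (PM K × PM K)) =
      (β : Measure (PM K × L)).map fun b : PM K × L => (b.1, η b) := rfl
  have hA : ∀ F : C((PM K × L) × K, ℝ), ∫ p, F p ∂(τ : Measure ((PM K × L) × K)) =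
      ∫ θ : PM K, ∫ w, F ((θ, ψ w), w) ∂(θ : Measure K) ∂(𝔱 : Measure (PM K)) := fun F => by
    have h1 := ev_pmap F (cond_map ψ) τ₀
    simp only [ev_apply] at h1
    rw [h1]
    exact cond_int_compProd (𝔱 : Measure (PM K)) id measurable_id (F.comp (cond_map ψ))
  have hB : ∀ F : C((PM K × L) × K, ℝ), ∫ p, F p ∂(τ : Measure ((PM K × L) × K)) =
      ∫ b, ∫ w, F (b, w) ∂(η b : Measure K) ∂(β : Measure (PM K × L)) := fun F => by
    rw [hdis]
    exact cond_int_compProd (β : Measure (PM K × L)) η hη F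
  have hC : ∀ H : C(PM K × L, ℝ), ∫ b, H b ∂(β : Measure (PM K × L)) =
      ∫ θ : PM K, ∫ w, H (θ, ψ w) ∂(θ : Measure K) ∂(𝔱 : Measure (PM K)) := fun H => by
    have h1 := ev_pmap H ContinuousMap.fst τ
    simp only [ev_apply] at h1
    exact h1.trans (hA (H.comp ContinuousMap.fst))
  have hint : ∀ H : C(PM K × PM K, ℝ), ∫ q, H q ∂(ρ : Measure (PM K × PM K)) =
      ∫ b, H (b.1, η b) ∂(β : Measure (PM K × L)) := fun H => by
    rw [hρc, integral_map hφ.aemeasurable H.continuous.aestronglyMeasurable]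
  have hfst : pfst ρ = 𝔱 := by
    refine pm_ext fun H => ?_
    have h1 := ev_pmap H ContinuousMap.fst ρ
    simp only [ev_apply] at h1 ⊢
    refine h1.trans ((hint (H.comp ContinuousMap.fst)).trans ?_)
    refine (hC (H.comp ContinuousMap.fst)).trans ?_
    simp
  refine ⟨ρ, ?_, hfst, ?_, ?_, ?_⟩
  · refine inv_map β hβi _ hφ fun n => ?_
    filter_upwards [hηe n] with b hb
    rw [hb]; rfl
  · intro f Ψ
    let H₁ : C(PM K × PM K, ℝ) := ⟨fun q => Ψ q.1 * ev f q.2, by fun_prop⟩
    let H₂ : C(PM K × PM K, ℝ) := ⟨fun q => Ψ q.1 * ev f q.1, by fun_prop⟩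
    let F : C((PM K × L) × K, ℝ) := ⟨fun p => Ψ p.1.1 * f p.2, by fun_prop⟩
    let H₃ : C(PM K × L, ℝ) := ⟨fun b => Ψ b.1 * ev f b.1, by fun_prop⟩
    have e1 := hint H₁
    have e2 := hint H₂
    have e3 := (hB F).symm.trans (hA F)
    have e4 := hC H₃
    simp only [H₁, H₂, F, H₃, ContinuousMap.coe_mk, integral_const_mul, integral_const,
      probReal_univ, one_smul, ev_apply, id] at e1 e2 e3 e4 ⊢
    rw [e1, e2, e3, e4]
  · have h1 : ∀ᵐ p ∂(τ : Measure ((PM K × L) × K)), ψ p.2 = p.1.2 :=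
      ae_pmap_of_ae (cond_map ψ) τ₀ (ae_of_all _ fun _ => rfl)
    rw [hdis] at h1
    have h2 := Measure.ae_ae_of_ae_compProd h1
    have hcl : IsClosed {q : PM K × PM K | ∃ c, pmap ψ q.2 = diracProba c} :=
      isClosed_range_dirac.preimage ((pmap ψ).continuous.comp continuous_snd)
    rw [hρc, ae_map_iff hφ.aemeasurable hcl.measurableSet]
    filter_upwards [h2] with b hb
    exact ⟨b.2, cond_pmap_const (η b) ψ b.2 hb⟩
  · intro g hg
    have hcl : IsClosed {q : PM K × PM K | ev g q.2 = ev g q.1} :=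
      isClosed_eq (by fun_prop) (by fun_prop)
    rw [hρc, ae_map_iff hφ.aemeasurable hcl.measurableSet]
    have hi1 : Integrable (fun b : PM K × L => ev g (η b)) (β : Measure (PM K × L)) := by
      refine Integrable.of_bound
        ((ev g).continuous.measurable.comp hη).aestronglyMeasurable ‖ev g‖ ?_
      exact ae_of_all _ fun b => (ev g).norm_coe_le_norm _
    have hi2 : Integrable (fun b : PM K × L => ev g b.1) (β : Measure (PM K × L)) :=
      integrable_cont ((ev g).comp ContinuousMap.fst) _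
    have h0 := ae_eq_zero_of_cont_prod (β : Measure (PM K × L)) (hi1.sub hi2) fun Ψ G => by
      let F : C((PM K × L) × K, ℝ) := ⟨fun p => Ψ p.1.1 * G p.1.2 * g p.2, by fun_prop⟩
      let H : C(PM K × L, ℝ) := ⟨fun b => Ψ b.1 * G b.2 * ev g b.1, by fun_prop⟩
      let W : C(PM K × L, ℝ) := ⟨fun b => Ψ b.1 * G b.2, by fun_prop⟩
      have e3 := (hB F).symm.trans (hA F)
      have e4 := hC H
      have hj1 : Integrable (fun b : PM K × L => Ψ b.1 * G b.2 * ev g (η b))
          (β : Measure (PM K × L)) :=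
        hi1.bdd_mul (c := ‖W‖) W.continuous.aestronglyMeasurable
          (ae_of_all _ fun b => W.norm_coe_le_norm b)
      have hj2 : Integrable (fun b : PM K × L => Ψ b.1 * G b.2 * ev g b.1)
          (β : Measure (PM K × L)) := integrable_cont H _
      simp only [Pi.sub_apply, mul_sub]
      rw [integral_sub hj1 hj2, sub_eq_zero]
      simp only [F, H, ContinuousMap.coe_mk, integral_const_mul, ev_apply] at e3 e4 ⊢
      rw [e3, e4]
      refine integral_congr_ae ?_
      filter_upwards [hg] with θ hθ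
      have h3 : IndepFun g (fun w => G (ψ w)) (θ : Measure K) :=
        hθ.comp measurable_id G.continuous.measurable
      have h4 := h3.integral_fun_mul_eq_mul_integral g.continuous.aestronglyMeasurable
        (G.continuous.comp ψ.continuous).aestronglyMeasurable
      have h5 : ∀ w, Ψ θ * G (ψ w) * g w = Ψ θ * (g w * G (ψ w)) := fun w => by ring
      simp only [h5]
      rw [integral_const_mul, h4, integral_mul_const, integral_const_mul]
      ring
    filter_upwards [h0] with b hb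
    simpa [sub_eq_zero] using hb


end Vale.Agent.P102
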