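import Vale.Agent.P102.Lim
import Vale.Agent.P102.Bary

/-! The cross lemma. -/

open MeasureTheory ProbabilityTheory Filter Topology Set
open scoped ComplexConjugate

noncomputable section

namespace Vale.Agent.P102

variable {K B : Type}
  [TopologicalSpace K] [MeasurableSpace K] [Nice K] [AddAction ℤ K] [ContinuousConstVAdd ℤ K]
  [TopologicalSpace B] [MeasurableSpace B] [Nice B] [AddAction ℤ B] [ContinuousConstVAdd ℤ B]
variable {D : Type}
  [TopologicalSpace D] [MeasurableSpace D] [Nice D]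
variable {ι : Type} [Fintype ι] (p : Ultrafilter (ι → ℤ))

omit [AddAction ℤ K] [ContinuousConstVAdd ℤ K] [AddAction ℤ B] [ContinuousConstVAdd ℤ B] in
theorem cross_push {ρ : PM (B × PM K)} {s : B → PM K} (hs : Measurable s) (hm : MartS ρ s)
    (ψ : C(B, D)) (γ : C(D, B)) (h : ∀ b, γ (ψ b) = b) :
    MartS (pmap (ψ.prodMap (ContinuousMap.id _)) ρ) fun d => s (γ d) := by
  intro f Ψ
  have h0 := (ψ.prodMap (ContinuousMap.id (PM K))).continuous.measurable.aemeasurable
    (μ := (ρ : Measure (B × PM K)))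
  have h1 : Measurable fun q : D × PM K => Ψ q.1 := Ψ.continuous.measurable.comp measurable_fst
  have h2 : Measurable fun q : D × PM K => Ψ q.1 * ev f q.2 :=
    h1.mul ((ev f).continuous.measurable.comp measurable_snd)
  have h3 : Measurable fun q : D × PM K => Ψ q.1 * ev f (s (γ q.1)) :=
    h1.mul ((ev f).continuous.measurable.comp (hs.comp (γ.continuous.measurable.comp
      measurable_fst)))
  rw [coe_pmap, integral_map h0 h2.aestronglyMeasurable, integral_map h0 h3.aestronglyMeasurable]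
  refine (hm f (Ψ.comp ψ)).trans (integral_congr_ae (ae_of_all _ fun q => ?_))
  change Ψ (ψ q.1) * ev f (s q.1) = Ψ (ψ q.1) * ev f (s (γ (ψ q.1)))
  rw [h]

omit [AddAction ℤ B] [ContinuousConstVAdd ℤ B] in
theorem cross_close (σ : PM D) (a : C(D, ℝ)) (γ : C(D, B)) {S : B → ℝ}
    (hS : Integrable S (pmap γ σ : Measure B)) (S' : C(B, ℝ)) :
    |∫ d, a d * S (γ d) ∂(σ : Measure D) - ev (a * S'.comp γ) σ| ≤
      ‖a‖ * ∫ b, |S b - S' b| ∂(pmap γ σ : Measure B) := by
  have hp := measurePreserving_pmap γ σ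
  have h1 := (hS.sub (integrable_cont S' _)).abs
  have h2 : Integrable (fun d => a d * S (γ d)) (σ : Measure D) :=
    (hp.integrable_comp_of_integrable hS).bdd_mul a.continuous.aestronglyMeasurable
      (ae_of_all _ a.norm_coe_le_norm)
  have h3 : ∫ b, |S b - S' b| ∂(pmap γ σ : Measure B) =
      ∫ d, |S (γ d) - S' (γ d)| ∂(σ : Measure D) :=
    integral_map γ.continuous.measurable.aemeasurable h1.aestronglyMeasurable
  rw [h3, ev_apply, ← integral_sub h2 (integrable_cont _ _), ← integral_const_mul]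
  refine (Real.norm_eq_abs _).symm.trans_le (norm_integral_le_of_norm_le
    ((hp.integrable_comp_of_integrable h1).const_mul _) (ae_of_all _ fun d => ?_))
  change ‖a d * S (γ d) - a d * S' (γ d)‖ ≤ _
  rw [← mul_sub, norm_mul]
  exact mul_le_mul_of_nonneg_right (a.norm_coe_le_norm d) (abs_nonneg _)

omit [AddAction ℤ K] [ContinuousConstVAdd ℤ K] [AddAction ℤ B] [ContinuousConstVAdd ℤ B] in
theorem cross_lim {I : Type} {F : Filter I} [F.NeBot] {σ : I → PM (D × PM K)} {τ : PM (D × PM K)}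
    (hσ : Tendsto σ F (𝓝 τ)) {s : B → PM K} (hs : Measurable s) (γ : C(D, B)) {β : PM B}
    (hβ : ∀ e, pmap (γ.comp ContinuousMap.fst) (σ e) = β)
    (hm : ∀ e, MartS (σ e) fun d => s (γ d)) : MartS τ fun d => s (γ d) := by
  intro f Ψ
  have hτ : pmap (γ.comp ContinuousMap.fst) τ = β := tendsto_nhds_unique
    (((pmap _).continuous.tendsto τ).comp hσ) (tendsto_const_nhds.congr fun e => (hβ e).symm)
  have hS : Integrable (fun b => ev f (s b)) (β : Measure B) :=
    .of_bound ((ev f).continuous.measurable.comp hs).aestronglyMeasurable _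
      (ae_of_all _ fun b => (ev f).norm_coe_le_norm (s b))
  let a : C(D × PM K, ℝ) := Ψ.comp ContinuousMap.fst
  refine eq_of_forall_dist_le fun ε hε => ?_
  have ha : 0 < 2 * ‖a‖ + 1 := by positivity
  obtain ⟨S', hS'⟩ := exists_cont_approx_one _ hS (div_pos hε ha)
  have key : ∀ ρ : PM (D × PM K), pmap (γ.comp ContinuousMap.fst) ρ = β →
      |∫ q, Ψ q.1 * ev f (s (γ q.1)) ∂(ρ : Measure (D × PM K)) -
        ev (a * S'.comp (γ.comp ContinuousMap.fst)) ρ| ≤ ‖a‖ * (ε / (2 * ‖a‖ + 1)) :=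
    fun ρ hρ => by
      subst hρ
      exact (cross_close ρ a _ hS S').trans (mul_le_mul_of_nonneg_left hS'.le (norm_nonneg _))
  have h1 : |ev (a * (ev f).comp ContinuousMap.snd) τ -
      ev (a * S'.comp (γ.comp ContinuousMap.fst)) τ| ≤ ‖a‖ * (ε / (2 * ‖a‖ + 1)) :=
    le_of_tendsto' ((tendsto_pm_iff.1 hσ _).sub (tendsto_pm_iff.1 hσ _)).abs fun e =>
      le_of_eq_of_le (congrArg (|· - _|) (hm e f Ψ)) (key _ (hβ e))
  have h2 := key τ hτ
  rw [abs_sub_comm] at h2
  refine (abs_sub_le _ _ _).trans ((add_le_add h1 h2).trans ?_)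
  rw [← add_mul, ← mul_div_assoc, div_le_iff₀ ha]
  linarith

/-- Fix `f`, `Ψ`; let `S b = ev f (s b)` and approximate it in `L¹ (pmap g 𝔩)` by a continuous
`S'` (`exists_cont_approx_one`). For each `e`, by invariance and `hm` applied to the continuous
function `b ↦ Ψ (φ e (-(e t) +ᵥ b))`:
`∫ Ψ (φ e (g λ)) * ev f (e t +ᵥ λ) = ∫ Ψ (φ e (-(e t) +ᵥ g λ)) * S (g λ)`, which is within
`‖Ψ‖ ε` of `∫ Ψ (φ e (g λ)) * S' (e t +ᵥ g λ) = ∫ Ψ (Φ Θ) * S' (γ (Φ Θ))` under
`pmap (pmap (rmap K e)) 𝔩`. Pass to the limit; the law of `γ (Φ Θ)` under `rowLim p 𝔩` is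
`pmap g 𝔩`. -/
theorem cross {𝔩 : PM (PM K)} (hl : Inv 𝔩) {g : C(PM K, B)} (hg : Eqv g) {s : B → PM K}
    (hs : Measurable s) (hm : MartS (pmap (g.prodMk (ContinuousMap.id _)) 𝔩) s)
    (φ : (ι → ℤ) → C(B, D)) (Φ : C(PM (ι → K), D))
    (hΦ : ∀ e μ, Φ (pmap (rmap K e) μ) = φ e (g μ)) (γ : C(D, B)) (t : ι)
    (hγ : ∀ e b, γ (φ e b) = e t +ᵥ b) :
    MartS (pmap (Φ.prodMk (pmap (cev K t))) (rowLim p 𝔩)) fun d => s (γ d) := by
  have he : ∀ e : ι → ℤ, pmap (Φ.prodMk (pmap (cev K t))) (pmap (pmap (rmap K e)) 𝔩) =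
      pmap (((φ e).comp (sh B (-e t))).prodMap (ContinuousMap.id _))
        (pmap (g.prodMk (ContinuousMap.id _)) 𝔩) := fun e => by
    conv_rhs => rw [← hl (e t), vadd_pm]
    rw [pmap_pmap, pmap_pmap, pmap_pmap]
    refine congrArg (fun T => pmap T 𝔩) (ContinuousMap.ext fun μ => Prod.ext ?_ ?_)
    · change Φ (pmap (rmap K e) μ) = φ e (-e t +ᵥ g (e t +ᵥ μ))
      rw [hΦ, hg, neg_vadd_vadd]
    · exact pmap_pmap _ _ μ
  have hb : ∀ e b, γ (((φ e).comp (sh B (-e t))) b) = b := fun e b =>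
    (hγ e _).trans (vadd_neg_vadd _ _)
  refine cross_lim (((pmap _).continuous.tendsto _).comp (tendsto_ulim p _)) hs γ
    (β := pmap g 𝔩) (fun e => ?_) fun e => ?_
  · rw [Function.comp_apply, he, pmap_pmap, pmap_pmap]
    exact congrArg (fun T => pmap T 𝔩) (ContinuousMap.ext fun μ => hb e (g μ))
  · rw [Function.comp_apply, he]
    exact cross_push hs hm _ γ (hb e)


end Vale.Agent.P102
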