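import Vale.Agent.P102.Bary

/-! Equivariant disintegration of an invariant law, and gluing. -/

open MeasureTheory ProbabilityTheory Filter Topology Set
open scoped ComplexConjugate

noncomputable section

namespace Vale.Agent.P102

variable {B K : Type}
  [TopologicalSpace B] [MeasurableSpace B] [Nice B] [AddAction ℤ B] [ContinuousConstVAdd ℤ B]
  [TopologicalSpace K] [MeasurableSpace K] [Nice K] [AddAction ℤ K] [ContinuousConstVAdd ℤ K]

/-- The Markov kernel of a measurable family of probability measures. -/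
def kerOf {X Z : Type} [MeasurableSpace X] [MeasurableSpace Z] (η : X → PM Z)
    (hη : Measurable η) : Kernel X Z :=
  ⟨fun b => (η b : Measure Z), measurable_subtype_coe.comp hη⟩

instance {X Z : Type} [MeasurableSpace X] [MeasurableSpace Z] (η : X → PM Z)
    (hη : Measurable η) : IsMarkovKernel (kerOf η hη) :=
  ⟨fun b => (η b).2⟩

@[simp] theorem kerOf_apply {X Z : Type} [MeasurableSpace X] [MeasurableSpace Z] (η : X → PM Z)
    (hη : Measurable η) (b : X) : kerOf η hη b = (η b : Measure Z) := rfl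

theorem dis_map {X X' Z Z' : Type} [MeasurableSpace X] [MeasurableSpace X'] [MeasurableSpace Z]
    [MeasurableSpace Z'] (μ : Measure X) [IsFiniteMeasure μ] {g : X → X'} (hg : Measurable g)
    {f : Z → Z'} (hf : Measurable f) {η : X → PM Z} (hη : Measurable η) {η' : X' → PM Z'}
    (hη' : Measurable η')
    (h : ∀ᵐ x ∂μ, (η' (g x) : Measure Z') = (η x : Measure Z).map f) :
    (μ ⊗ₘ kerOf η hη).map (Prod.map g f) = μ.map g ⊗ₘ kerOf η' hη' := by
  ext s hs
  rw [Measure.map_apply (hg.prodMap hf) hs, Measure.compProd_apply (hg.prodMap hf hs),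
    Measure.compProd_apply hs, lintegral_map (Kernel.measurable_kernel_prodMk_left hs) hg]
  refine lintegral_congr_ae (h.mono fun x hx => ?_)
  simp only [kerOf_apply]
  rw [hx, Measure.map_apply hf (measurable_prodMk_left hs)]
  rfl

theorem dis_int {X Z : Type} [TopologicalSpace X] [MeasurableSpace X] [Nice X]
    [TopologicalSpace Z] [MeasurableSpace Z] [Nice Z] (μ : Measure X) [IsFiniteMeasure μ]
    {η : X → PM Z} (hη : Measurable η) (Ψ : C(X, ℝ)) (G : C(Z, ℝ)) :
    ∫ q, Ψ q.1 * G q.2 ∂(μ ⊗ₘ kerOf η hη) = ∫ x, Ψ x * ev G (η x) ∂μ := by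
  rw [Measure.integral_compProd (f := fun q : X × Z => Ψ q.1 * G q.2)
    (integrable_cont (Ψ.comp ContinuousMap.fst * G.comp ContinuousMap.snd) _)]
  simp only [integral_const_mul, kerOf_apply, ev_apply]

theorem dis_int_fst {X Z : Type} [TopologicalSpace X] [MeasurableSpace X] [Nice X]
    [TopologicalSpace Z] [MeasurableSpace Z] [Nice Z] (μ : Measure X) [IsFiniteMeasure μ]
    {η : X → PM Z} (hη : Measurable η) (Ψ : C(X, ℝ)) :
    ∫ q, Ψ q.1 ∂(μ ⊗ₘ kerOf η hη) = ∫ x, Ψ x ∂μ := by
  simpa using dis_int μ hη Ψ 1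

/-- `η = condKernel ρ`. The kernel `b ↦ (-n) +ᵥ η (n +ᵥ b)` also disintegrates the invariant law
`ρ`, so a.e. uniqueness (`eq_condKernel_of_measure_eq_compProd`) gives equivariance. -/
theorem exists_disint (ρ : PM (B × K)) (h : Inv ρ) :
    ∃ (η : B → PM K) (hη : Measurable η),
      (∀ n : ℤ, ∀ᵐ b ∂(pfst ρ : Measure B), η (n +ᵥ b) = n +ᵥ η b) ∧
      (ρ : Measure (B × K)) = (pfst ρ : Measure B) ⊗ₘ kerOf η hη := by
  obtain ⟨η, hη, e⟩ : ∃ (η : B → PM K) (hη : Measurable η),
      (ρ : Measure (B × K)) = (pfst ρ : Measure B) ⊗ₘ kerOf η hη :=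
    ⟨fun b => ⟨(ρ : Measure (B × K)).condKernel b, inferInstance⟩,
      (ρ : Measure (B × K)).condKernel.measurable.subtype_mk,
      ((ρ : Measure (B × K)).disintegrate (ρ : Measure (B × K)).condKernel).symm⟩
  refine ⟨η, hη, fun n => ?_, e⟩
  have hβ : Inv (pfst ρ) := h.pmap eqv_fst
  have hη' : Measurable fun b : B => n +ᵥ η (-n +ᵥ b) :=
    (pmap (sh K n)).continuous.measurable.comp (hη.comp (sh B (-n)).continuous.measurable)
  have e1 := dis_map (pfst ρ : Measure B) (sh B n).continuous.measurable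
    (sh K n).continuous.measurable hη hη' (ae_of_all _ fun b => by
      simp only [sh_apply, neg_vadd_vadd]
      rfl)
  have e2 : (ρ : Measure (B × K)).map (Prod.map (sh B n) (sh K n)) = ρ :=
    (h.measurePreserving n).map_eq
  have e3 : (pfst ρ : Measure B).map (sh B n) = pfst ρ := (hβ.measurePreserving n).map_eq
  rw [← e, e2, e3, e] at e1
  filter_upwards [(hβ.measurePreserving n).quasiMeasurePreserving.ae
    (Kernel.ae_eq_of_compProd_eq e1)] with b hb
  apply ProbabilityMeasure.toMeasure_injective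
  simpa only [kerOf_apply, neg_vadd_vadd] using hb

/-- An invariant law composed with an a.e. equivariant kernel is invariant. -/
theorem inv_compProd (β : PM B) (h : Inv β) (η : B → PM K) (hη : Measurable η)
    (he : ∀ n : ℤ, ∀ᵐ b ∂(β : Measure B), η (n +ᵥ b) = n +ᵥ η b) :
    Inv (⟨(β : Measure B) ⊗ₘ kerOf η hη, inferInstance⟩ : PM (B × K)) := by
  intro n
  apply ProbabilityMeasure.toMeasure_injective
  have e1 := dis_map (β : Measure B) (sh B n).continuous.measurable
    (sh K n).continuous.measurable hη hη ((he n).mono fun b hb => by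
      rw [sh_apply, hb]
      rfl)
  have e3 : (β : Measure B).map (sh B n) = β := (h.measurePreserving n).map_eq
  rw [e3] at e1
  exact e1

/-- The image of an invariant law under an a.e. equivariant measurable map is invariant. -/
theorem inv_map (β : PM B) (h : Inv β) (η : B → K) (hη : Measurable η)
    (he : ∀ n : ℤ, ∀ᵐ b ∂(β : Measure B), η (n +ᵥ b) = n +ᵥ η b) :
    Inv (β.map hη.aemeasurable) := by
  intro n
  apply ProbabilityMeasure.toMeasure_injective
  have e3 : (β : Measure B).map (sh B n) = β := (h.measurePreserving n).map_eq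
  change ((β : Measure B).map η).map (sh K n) = (β : Measure B).map η
  conv_rhs => rw [← e3]
  rw [Measure.map_map (sh K n).continuous.measurable hη,
    Measure.map_map hη (sh B n).continuous.measurable]
  exact Measure.map_congr ((he n).mono fun b hb => hb.symm)

/-- Gluing of two invariant martingale pairs: `τ = ρ₁ ⊗ₘ (η ∘ snd)` where `η` disintegrates
`ρ₂`. For the last part use that `η d` has barycenter `d` for a.e. `d`. -/
theorem exists_glue (ρ₁ ρ₂ : PM (PM K × PM K)) (h₁ : Inv ρ₁) (h₂ : Inv ρ₂) (hm : Mart ρ₂)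
    (h : psnd ρ₁ = pfst ρ₂) :
    ∃ τ : PM ((PM K × PM K) × PM K), Inv τ ∧ pfst τ = ρ₁ ∧
      pmap ((ContinuousMap.snd.comp ContinuousMap.fst).prodMk ContinuousMap.snd) τ = ρ₂ ∧
      MartS τ Prod.snd := by
  obtain ⟨η, hη, he, e⟩ := exists_disint ρ₂ h₂
  rw [← h] at he e
  have hη' : Measurable fun q : PM K × PM K => η q.2 := hη.comp measurable_snd
  refine ⟨_, inv_compProd ρ₁ h₁ _ hη' fun n => ae_of_ae_psnd ρ₁ (he n), ?_, ?_, fun f Ψ => ?_⟩
  · apply ProbabilityMeasure.toMeasure_injective
    exact Measure.fst_compProd _ _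
  · apply ProbabilityMeasure.toMeasure_injective
    rw [e]
    exact dis_map (ρ₁ : Measure (PM K × PM K)) measurable_snd measurable_id hη' hη
      (ae_of_all _ fun q => Measure.map_id.symm)
  · have i1 : Integrable (fun d => ev (ev f) (η d)) (psnd ρ₁ : Measure (PM K)) :=
      Integrable.of_bound ((ev (ev f)).continuous.measurable.comp hη).aestronglyMeasurable
        ‖ev (ev f)‖ (ae_of_all _ fun d => (ev (ev f)).norm_coe_le_norm _)
    have k := ae_eq_zero_of_cont (psnd ρ₁ : Measure (PM K)) (i1.sub (integrable_cont (ev f) _))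
      fun g => by
        have h1 := hm f g
        rw [e, dis_int] at h1
        have h2 := dis_int_fst (psnd ρ₁ : Measure (PM K)) hη (g * ev f)
        simp only [Pi.sub_apply, mul_sub]
        refine (integral_sub (i1.bdd_mul g.continuous.aestronglyMeasurable
          (ae_of_all _ g.norm_coe_le_norm)) (integrable_cont (g * ev f) _)).trans ?_
        rw [h1, sub_eq_zero]
        exact h2
    refine (dis_int _ hη' Ψ (ev f)).trans (Eq.trans ?_
      (dis_int_fst _ hη' (Ψ * (ev f).comp ContinuousMap.snd)).symm)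
    refine integral_congr_ae ((ae_of_ae_psnd ρ₁ k).mono fun q hq => ?_)
    exact congrArg (Ψ q * ·) (sub_eq_zero.1 hq)


end Vale.Agent.P102
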