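import Vale.Agent.P102.HB2

/-! The epsilon lemma and the group of characters. -/

open MeasureTheory ProbabilityTheory Filter Topology Set
open scoped ComplexConjugate

noncomputable section

namespace Vale.Agent.P102

variable {Ω : Type} {𝒜₀ 𝒜₁ 𝒜₂ ℬ₀ ℬ₁ ℬ₂ : MeasurableSpace Ω} {mΩ : MeasurableSpace Ω}
  {Θ : Measure Ω} [IsProbabilityMeasure Θ] {χ χ' : Ω → ℂ}

theorem eps_memLp (h : 𝒜₀ ≤ mΩ) (hm : Measurable[𝒜₀] χ) (hn : ∀ ω, ‖χ ω‖ = 1) : MemLp χ 2 Θ :=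
  MemLp.of_bound (hm.mono h le_rfl).aestronglyMeasurable 1 (ae_of_all _ fun ω => (hn ω).le)

theorem eps_exists_L2 (h : 𝒜₀ ≤ mΩ) (hm : Measurable[𝒜₀] χ) (hn : ∀ ω, ‖χ ω‖ = 1) :
    ∃ a ∈ XX Θ 𝒜₀, (a : Ω → ℂ) =ᵐ[Θ] χ ∧ ‖a‖ = 1 := by
  have hL := eps_memLp (Θ := Θ) h hm hn
  have he := hL.coeFn_toLp
  refine ⟨hL.toLp χ, mem_XX.2 (hm.stronglyMeasurable.aestronglyMeasurable.congr he.symm), he, ?_⟩
  have h1 : ‖hL.toLp χ‖ ^ 2 = 1 := by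
    rw [← real_inner_self_eq_norm_sq, L2.inner_def]
    have : ∫ ω, inner ℝ ((hL.toLp χ : L2 Θ) ω) ((hL.toLp χ : L2 Θ) ω) ∂Θ = ∫ _, (1 : ℝ) ∂Θ := by
      refine integral_congr_ae ?_
      filter_upwards [he] with ω hω
      rw [hω, real_inner_self_eq_norm_sq, hn, one_pow]
    rw [this]; simp
  exact (pow_eq_one_iff_of_nonneg (norm_nonneg _) two_ne_zero).1 h1

omit [IsProbabilityMeasure Θ] in
theorem eps_version (hm : AEStronglyMeasurable[𝒜₀] χ Θ) (hn : ∀ ω, ‖χ ω‖ = 1) :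
    ∃ χ', Measurable[𝒜₀] χ' ∧ (∀ ω, ‖χ' ω‖ = 1) ∧ χ =ᵐ[Θ] χ' := by
  classical
  obtain ⟨g, hg, he⟩ := hm
  have hF : Measurable fun z : ℂ => if ‖z‖ = 1 then z else 1 :=
    Measurable.ite (measurableSet_eq_fun measurable_norm measurable_const) measurable_id
      measurable_const
  refine ⟨fun ω => if ‖g ω‖ = 1 then g ω else 1, hF.comp hg.measurable, fun ω => ?_, ?_⟩
  · beta_reduce
    split_ifs with h
    · exact h
    · exact norm_one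
  · filter_upwards [he] with ω hω
    rw [← hω, if_pos (hn ω)]

theorem eps_conj_of_mul {a b c : ℂ} (hb : ‖b‖ = 1) (hc : ‖c‖ = 1) (h : a * b * c = 1) :
    a = conj b * conj c := by
  have h1 : b * conj b = 1 := by rw [Complex.mul_conj, Complex.normSq_eq_norm_sq, hb]; simp
  have h2 : c * conj c = 1 := by rw [Complex.mul_conj, Complex.normSq_eq_norm_sq, hc]; simp
  linear_combination (conj b * conj c) * h - a * (c * conj c) * h1 - a * h2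

theorem eps_norm_le {A C : Fin 3 → MeasurableSpace Ω} (h : Star Θ A C) {t u v : Fin 3}
    (hd : Dist t u v) {a b c : L2 Θ} (hb : b ∈ XX Θ (C u)) (hc : c ∈ XX Θ (C v))
    (he : ∀ᵐ ω ∂Θ, a ω = conj (b ω) * conj (c ω)) :
    ‖PP Θ (A t) a‖ ≤ ‖PP Θ (A u) b‖ * ‖PP Θ (A v) c‖ := by
  have hA : ∀ s, A s ≤ mΩ := fun s => (h.le s).trans (h.le' s)
  have hi : Indep (C u) (C v) Θ := h.ind u v hd.yz
  have hi' : Indep (A u) (A v) Θ :=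
    indep_of_indep_of_le_right (indep_of_indep_of_le_left hi (h.le u)) (h.le v)
  have e1 : a = mulL (star b) (star c) := by
    refine Lp.ext ?_
    filter_upwards [he, star_ae b, star_ae c,
      mulL_ae hi (h.le' u) (h.le' v) (star_mem_XX hb) (star_mem_XX hc)] with ω h1 h2 h3 h4
    rw [h4, h2, h3, h1]
  have e2 : PP Θ (A t) a =
      PP Θ (A t) (mulL (PP Θ (A u) (star b)) (PP Θ (A v) (star c))) := by
    refine eq_of_pr (PP_mem _) (PP_mem _) fun ψ hψ => ?_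
    rw [pr_PP (hA t) hψ, pr_PP (hA t) hψ, e1,
      h.pr_mulL hd hψ (star_mem_XX hb) (star_mem_XX hc)]
  rw [e2]
  refine (norm_PP_le _).trans ?_
  rw [norm_mulL hi' (hA u) (hA v) (PP_mem _) (PP_mem _), ← star_PP, ← star_PP, norm_star_L2,
    norm_star_L2]

theorem eps_real {a b c : ℝ} (ha : a ≤ 1) (hb : b ≤ 1) (_hc : c ≤ 1) (ha0 : 0 ≤ a) (hb0 : 0 < b)
    (hc0 : 0 ≤ c) (h1 : a ≤ b * c) (h2 : b ≤ a * c) (h3 : c ≤ a * b) :
    1 ≤ a ∧ 1 ≤ b ∧ 1 ≤ c := by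
  have k1 : b ≤ b * c := by nlinarith [mul_le_mul_of_nonneg_right h1 hc0, mul_nonneg hb0.le hc0]
  have k2 : b ≤ b * a := by nlinarith [mul_le_mul_of_nonneg_left h3 ha0, mul_nonneg hb0.le ha0]
  have c1 : 1 ≤ c := by
    by_contra hcon
    nlinarith [mul_pos hb0 (sub_pos.2 (not_le.1 hcon))]
  have a1 : 1 ≤ a := by
    by_contra hcon
    nlinarith [mul_pos hb0 (sub_pos.2 (not_le.1 hcon))]
  exact ⟨a1, by nlinarith, c1⟩

/-- Let `ε t = PP (A t) (χ t)` for the three components. By `Star.pr_mulL`,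
`ε 1 = BB (A 1) (star (ε 0)) (star (ε 2))` and cyclically, so `‖ε 1‖ ≤ ‖ε 0‖ ‖ε 2‖` and so on, all
norms being at most one. As `ε 1 ≠ 0` all norms are one, so `χ t ∈ XX (A t)`
(`mem_XX_of_norm_PP`); take strongly measurable versions and set them to one where the norm is
not one. -/
theorem eps_lemma {A C : Fin 3 → MeasurableSpace Ω} (h : Star Θ A C)
    (hχ : ChO Θ (C 0) (C 1) (C 2) χ) {g : Ω → ℂ} (hg : MemLp g 2 Θ)
    (hgm : AEStronglyMeasurable[A 1] g Θ) (hne : ∫ ω, g ω * conj (χ ω) ∂Θ ≠ 0) :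
    ∃ χ', ChO Θ (A 0) (A 1) (A 2) χ' ∧ χ =ᵐ[Θ] χ' := by
  obtain ⟨m1, n1, χ₀, χ₂, m0, m2, n0, n2, hp⟩ := hχ
  have hA : ∀ s, A s ≤ mΩ := fun s => (h.le s).trans (h.le' s)
  obtain ⟨a, ha, ea, na⟩ := eps_exists_L2 (Θ := Θ) (h.le' 0) m0 n0
  obtain ⟨b, hb, eb, nb⟩ := eps_exists_L2 (Θ := Θ) (h.le' 1) m1 n1
  obtain ⟨c, hc, ec, nc⟩ := eps_exists_L2 (Θ := Θ) (h.le' 2) m2 n2
  have i1 := eps_norm_le h (t := 0) (u := 1) (v := 2) ⟨by decide, by decide, by decide⟩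
    (a := a) hb hc (by
      filter_upwards [hp, ea, eb, ec] with ω h1 h2 h3 h4
      rw [h2, h3, h4]
      exact eps_conj_of_mul (n1 ω) (n2 ω) h1)
  have i2 := eps_norm_le h (t := 1) (u := 0) (v := 2) ⟨by decide, by decide, by decide⟩
    (a := b) ha hc (by
      filter_upwards [hp, ea, eb, ec] with ω h1 h2 h3 h4
      rw [h2, h3, h4]
      exact eps_conj_of_mul (n0 ω) (n2 ω) (by rw [← h1]; ring))
  have i3 := eps_norm_le h (t := 2) (u := 0) (v := 1) ⟨by decide, by decide, by decide⟩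
    (a := c) ha hb (by
      filter_upwards [hp, ea, eb, ec] with ω h1 h2 h3 h4
      rw [h2, h3, h4]
      exact eps_conj_of_mul (n0 ω) (n1 ω) (by rw [← h1]; ring))
  have hb0 : PP Θ (A 1) b ≠ 0 := by
    intro h0
    apply hne
    have hG : hg.toLp g ∈ XX Θ (A 1) := mem_XX.2 (hgm.congr hg.coeFn_toLp.symm)
    have e := pr_PP (hA 1) hG (star b)
    rw [← star_PP, h0, star_zero_L2, pr_eq_inner, inner_zero_right] at e
    rw [e]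
    refine integral_congr_ae ?_
    filter_upwards [hg.coeFn_toLp, star_ae b, eb] with ω h1 h2 h3
    rw [h1, h2, h3]
  obtain ⟨k0, k1, k2⟩ := eps_real (na ▸ norm_PP_le a) (nb ▸ norm_PP_le b) (nc ▸ norm_PP_le c)
    (norm_nonneg _) (norm_pos_iff.2 hb0) (norm_nonneg _) i1 i2 i3
  obtain ⟨ψ₀, p0, q0, r0⟩ := eps_version
    ((mem_XX.1 (mem_XX_of_norm_PP (hA 0) (na.le.trans k0))).congr ea) n0
  obtain ⟨ψ₁, p1, q1, r1⟩ := eps_version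
    ((mem_XX.1 (mem_XX_of_norm_PP (hA 1) (nb.le.trans k1))).congr eb) n1
  obtain ⟨ψ₂, p2, q2, r2⟩ := eps_version
    ((mem_XX.1 (mem_XX_of_norm_PP (hA 2) (nc.le.trans k2))).congr ec) n2
  refine ⟨ψ₁, ⟨p1, q1, ψ₀, ψ₂, p0, p2, q0, q2, ?_⟩, r1⟩
  filter_upwards [hp, r0, r1, r2] with ω h1 h2 h3 h4
  rw [← h2, ← h3, ← h4, h1]

/-- The means satisfy `m₁ = conj m₀ * conj m₂` and cyclically (or `eps_lemma` with `A = ⊥`). -/
theorem ChO.dich (h : Tri Θ 𝒜₀ 𝒜₁ 𝒜₂) (hχ : ChO Θ 𝒜₀ 𝒜₁ 𝒜₂ χ) :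
    ∫ ω, χ ω ∂Θ = 0 ∨ ∃ z : ℂ, ∀ᵐ ω ∂Θ, χ ω = z := by
  refine or_iff_not_imp_left.2 fun hne => ?_
  have hle : ∀ t, (![𝒜₀, 𝒜₁, 𝒜₂] : Fin 3 → MeasurableSpace Ω) t ≤ mΩ := by
    intro t
    fin_cases t
    exacts [h.le0, h.le1, h.le2]
  have hS : Star Θ (fun _ => ⊥) ![𝒜₀, 𝒜₁, 𝒜₂] := by
    refine ⟨fun _ => bot_le, hle, fun t u htu => ?_, fun t u v _ _ _ =>
      CI_bot_left (sup_le (hle u) (hle v))⟩
    fin_cases t <;> fin_cases u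
    exacts [absurd rfl htu, h.i01, h.i02, h.i01.symm, absurd rfl htu, h.i12, h.i02.symm,
      h.i12.symm, absurd rfl htu]
  obtain ⟨ψ, hψ, he⟩ := eps_lemma hS hχ (g := fun _ => 1) (memLp_const 1)
    aestronglyMeasurable_const (by
      simp only [one_mul]
      rw [integral_conj]
      exact fun h0 => hne (by simpa using h0))
  obtain ⟨z, hz⟩ := stronglyMeasurable_bot_iff.1 hψ.1.stronglyMeasurable
  exact ⟨z, he.mono fun ω hω => by rw [hω, hz]⟩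

omit [IsProbabilityMeasure Θ] in
theorem ChO.mul (hχ : ChO Θ 𝒜₀ 𝒜₁ 𝒜₂ χ) (hχ' : ChO Θ 𝒜₀ 𝒜₁ 𝒜₂ χ') :
    ChO Θ 𝒜₀ 𝒜₁ 𝒜₂ fun ω => χ ω * χ' ω := by
  obtain ⟨m1, n1, χ₀, χ₂, m0, m2, n0, n2, hp⟩ := hχ
  obtain ⟨m1', n1', χ₀', χ₂', m0', m2', n0', n2', hp'⟩ := hχ'
  refine ⟨m1.mul m1', fun ω => by rw [norm_mul, n1, n1', one_mul], fun ω => χ₀ ω * χ₀' ω,
    fun ω => χ₂ ω * χ₂' ω, m0.mul m0', m2.mul m2', fun ω => by rw [norm_mul, n0, n0', one_mul],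
    fun ω => by rw [norm_mul, n2, n2', one_mul], ?_⟩
  filter_upwards [hp, hp'] with ω h h'
  linear_combination (χ₀' ω * χ' ω * χ₂' ω) * h + h'

omit [IsProbabilityMeasure Θ] in
theorem ChO.conj (hχ : ChO Θ 𝒜₀ 𝒜₁ 𝒜₂ χ) : ChO Θ 𝒜₀ 𝒜₁ 𝒜₂ fun ω => conj (χ ω) := by
  obtain ⟨m1, n1, χ₀, χ₂, m0, m2, n0, n2, hp⟩ := hχ
  have hc : Measurable fun z : ℂ => (starRingEnd ℂ) z := Complex.continuous_conj.measurable
  refine ⟨hc.comp m1, fun ω => by rw [Complex.norm_conj, n1], fun ω => (starRingEnd ℂ) (χ₀ ω),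
    fun ω => (starRingEnd ℂ) (χ₂ ω), hc.comp m0, hc.comp m2,
    fun ω => by rw [Complex.norm_conj, n0], fun ω => by rw [Complex.norm_conj, n2], ?_⟩
  filter_upwards [hp] with ω h
  rw [← map_mul, ← map_mul, h, map_one]

omit [IsProbabilityMeasure Θ] in
theorem ChO.const {c : ℂ} (hc : ‖c‖ = 1) : ChO Θ 𝒜₀ 𝒜₁ 𝒜₂ fun _ => c := by
  refine ⟨measurable_const, fun _ => hc, fun _ => (starRingEnd ℂ) c, fun _ => 1, measurable_const,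
    measurable_const, fun _ => by rw [Complex.norm_conj, hc], fun _ => norm_one,
    ae_of_all _ fun _ => ?_⟩
  rw [mul_one, mul_comm, Complex.mul_conj, Complex.normSq_eq_norm_sq, hc]
  simp

omit [IsProbabilityMeasure Θ] in
theorem ChO.mono (hχ : ChO Θ 𝒜₀ 𝒜₁ 𝒜₂ χ) (h0 : 𝒜₀ ≤ ℬ₀) (h1 : 𝒜₁ ≤ ℬ₁) (h2 : 𝒜₂ ≤ ℬ₂) :
    ChO Θ ℬ₀ ℬ₁ ℬ₂ χ := by
  obtain ⟨m1, n1, χ₀, χ₂, m0, m2, n0, n2, hp⟩ := hχ
  exact ⟨m1.mono h1 le_rfl, n1, χ₀, χ₂, m0.mono h0 le_rfl, m2.mono h2 le_rfl, n0, n2, hp⟩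

theorem eps_pull (h : 𝒜₀ ≤ mΩ) {f g : Ω → ℂ} (hf : Integrable f Θ)
    (hg : AEStronglyMeasurable[𝒜₀] g Θ) (hn : ∀ ω, ‖g ω‖ = 1) :
    ∫ ω, (Θ[f | 𝒜₀]) ω * g ω ∂Θ = ∫ ω, f ω * g ω ∂Θ := by
  have h1 := condExp_aestronglyMeasurable_bilin_of_bound (ContinuousLinearMap.mul ℝ ℂ) h hg hf 1
    (ae_of_all _ fun ω => (hn ω).le)
  simp only [ContinuousLinearMap.mul_apply'] at h1
  have h2 := integral_condExp (μ := Θ) (f := fun ω => g ω * f ω) h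
  rw [integral_congr_ae h1] at h2
  simpa only [mul_comm] using h2

/-- A conditional expectation chain does not change the correlation with a character: `conj χ` is
`𝒜₁`-measurable and a.e. equal to the `𝒜₀ ⊔ 𝒜₂`-measurable function `χ₀ χ₂`. -/
theorem ChO.integral_condExp (hχ : ChO Θ 𝒜₀ 𝒜₁ 𝒜₂ χ) (h0 : 𝒜₀ ≤ mΩ) (h1 : 𝒜₁ ≤ mΩ)
    (h2 : 𝒜₂ ≤ mΩ) {f : Ω → ℂ} (hf : Integrable f Θ) :
    ∫ ω, (Θ[Θ[f | 𝒜₀ ⊔ 𝒜₂] | 𝒜₁]) ω * conj (χ ω) ∂Θ = ∫ ω, f ω * conj (χ ω) ∂Θ := by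
  obtain ⟨m1, n1, χ₀, χ₂, m0, m2, n0, n2, hp⟩ := hχ
  have hc : Measurable fun z : ℂ => (starRingEnd ℂ) z := Complex.continuous_conj.measurable
  have hn : ∀ ω, ‖(starRingEnd ℂ) (χ ω)‖ = 1 := fun ω => by rw [Complex.norm_conj, n1]
  have hm : AEStronglyMeasurable[𝒜₀ ⊔ 𝒜₂] (fun ω => (starRingEnd ℂ) (χ ω)) Θ := by
    have hm' : Measurable[𝒜₀ ⊔ 𝒜₂] fun ω => χ₀ ω * χ₂ ω :=
      (m0.mono le_sup_left le_rfl).mul (m2.mono le_sup_right le_rfl)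
    refine hm'.stronglyMeasurable.aestronglyMeasurable.congr ?_
    filter_upwards [hp] with ω hω
    have e := eps_conj_of_mul (a := χ ω) (n0 ω) (n2 ω) (by rw [← hω]; ring)
    rw [e, map_mul, Complex.conj_conj, Complex.conj_conj]
  exact (eps_pull h1 integrable_condExp (hc.comp m1).stronglyMeasurable.aestronglyMeasurable
    hn).trans (eps_pull (sup_le h0 h2) hf hm hn)


end Vale.Agent.P102
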