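import Vale.Agent.P102.Lim
import Vale.Agent.P102.IndOn

/-! The limit joining on bounded measurable functions. -/

open MeasureTheory ProbabilityTheory Filter Topology Set
open scoped ComplexConjugate

noncomputable section

namespace Vale.Agent.P102

variable {Y : Type}
  [TopologicalSpace Y] [MeasurableSpace Y] [Nice Y] [AddAction ℤ Y] [ContinuousConstVAdd ℤ Y]
variable {ι : Type} [Fintype ι]

omit [AddAction ℤ Y] [ContinuousConstVAdd ℤ Y] in
theorem ext_close [DecidableEq ι] {μY : PM Y} {θ : PM (ι → Y)} {j : ι}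
    (hθ : pmap (cev Y j) θ = μY) {f : ι → Y → ℂ} (hf : ∀ l, BM (f l)) {g : Y → ℂ} (hg : BM g)
    {C : ℝ} (hC : ∀ y : ι → Y, ‖∏ l ∈ Finset.univ.erase j, f l (y l)‖ ≤ C) :
    ‖∫ y, ∏ l, f l (y l) ∂(θ : Measure (ι → Y)) -
      ∫ y, ∏ l, Function.update f j g l (y l) ∂(θ : Measure (ι → Y))‖ ≤
      C * ∫ x, ‖f j x - g x‖ ∂(μY : Measure Y) := by
  have hf' : ∀ l, BM (Function.update f j g l) := fun l => by
    by_cases h : l = j
    · subst h
      rw [Function.update_self]
      exact hg
    · rw [Function.update_of_ne h]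
      exact hf l
  have b1 : BM fun y : ι → Y => ∏ l, f l (y l) :=
    BM.prod _ fun l _ => (hf l).comp (measurable_pi_apply l)
  have b2 : BM fun y : ι → Y => ∏ l, Function.update f j g l (y l) :=
    BM.prod _ fun l _ => (hf' l).comp (measurable_pi_apply l)
  have b3 : BM fun y : ι → Y => f j (y j) - g (y j) :=
    ((hf j).sub hg).comp (measurable_pi_apply j)
  have e1 : ∫ x, ‖f j x - g x‖ ∂(μY : Measure Y) =
      ∫ y, ‖f j (y j) - g (y j)‖ ∂(θ : Measure (ι → Y)) := by
    rw [← hθ, coe_pmap, integral_map (cev Y j).continuous.measurable.aemeasurable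
      ((hf j).sub hg).1.norm.aestronglyMeasurable]
    rfl
  rw [← integral_sub (b1.integrable _) (b2.integrable _), e1, ← integral_const_mul]
  refine norm_integral_le_of_norm_le ((b3.integrable _).norm.const_mul C)
    (Eventually.of_forall fun y => ?_)
  have e2 : ∏ l ∈ Finset.univ.erase j, Function.update f j g l (y l) =
      ∏ l ∈ Finset.univ.erase j, f l (y l) :=
    Finset.prod_congr rfl fun l hl => by rw [Function.update_of_ne (Finset.ne_of_mem_erase hl)]
  rw [← Finset.mul_prod_erase Finset.univ (fun l => f l (y l)) (Finset.mem_univ j),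
    ← Finset.mul_prod_erase Finset.univ (fun l => Function.update f j g l (y l))
      (Finset.mem_univ j), e2, Function.update_self, ← sub_mul, norm_mul, mul_comm]
  exact mul_le_mul_of_nonneg_right (hC y) (norm_nonneg _)

omit [AddAction ℤ Y] [ContinuousConstVAdd ℤ Y] in
theorem ext_step {I : Type} {F : Filter I} {μY : PM Y} {u : I → PM (ι → Y)} {ν : PM (ι → Y)}
    (hu : Tendsto u F (𝓝 ν)) (h1 : ∀ i j, pmap (cev Y j) (u i) = μY)
    (h2 : ∀ j, pmap (cev Y j) ν = μY) (T : Finset ι) :
    ∀ f : ι → Y → ℂ, (∀ l, BM (f l)) → (∀ l, l ∉ T → Continuous (f l)) →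
      Tendsto (fun i => ∫ y, ∏ l, f l (y l) ∂(u i : Measure (ι → Y))) F
        (𝓝 (∫ y, ∏ l, f l (y l) ∂(ν : Measure (ι → Y)))) := by
  classical
  induction T using Finset.induction_on with
  | empty =>
    intro f _ hc
    have c1 : Continuous fun y : ι → Y => ∏ l, f l (y l) :=
      continuous_finset_prod _ fun l _ => (hc l (Finset.notMem_empty l)).comp (continuous_apply l)
    exact (ProbabilityMeasure.tendsto_iff_forall_integral_rclike_tendsto ℂ).1 hu
      (BoundedContinuousFunction.mkOfCompact ⟨_, c1⟩)
  | insert j T hj ih =>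
    intro f hf hc
    obtain ⟨C, hC⟩ := (BM.prod (Finset.univ.erase j)
      fun l _ => (hf l).comp (measurable_pi_apply (X := fun _ : ι => Y) l)).2
    have hC0 : 0 ≤ C := (norm_nonneg _).trans (hC (Classical.arbitrary _))
    rw [Metric.tendsto_nhds]
    intro ε hε
    have hδ : 0 < ε / (3 * (C + 1)) := by positivity
    obtain ⟨g, hg, -⟩ :=
      ((hf j).integrable (μY : Measure Y)).exists_boundedContinuous_integral_sub_le hδ
    have bg : BM g := ⟨g.continuous.measurable, ‖g‖, g.norm_coe_le_norm⟩
    have hf' : ∀ l, BM (Function.update f j g l) := fun l => by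
      by_cases h : l = j
      · subst h
        rw [Function.update_self]
        exact bg
      · rw [Function.update_of_ne h]
        exact hf l
    have hc' : ∀ l, l ∉ T → Continuous (Function.update f j g l) := fun l hl => by
      by_cases h : l = j
      · subst h
        rw [Function.update_self]
        exact g.continuous
      · rw [Function.update_of_ne h]
        exact hc l (by simp [h, hl])
    have hs : C * ∫ x, ‖f j x - g x‖ ∂(μY : Measure Y) < ε / 3 := by
      have a1 : C * ∫ x, ‖f j x - g x‖ ∂(μY : Measure Y) ≤ C * (ε / (3 * (C + 1))) :=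
        mul_le_mul_of_nonneg_left hg hC0
      have a2 : (C + 1) * (ε / (3 * (C + 1))) = ε / 3 := by field_simp
      nlinarith
    filter_upwards [Metric.tendsto_nhds.1 (ih _ hf' hc') (ε / 3) (by positivity)] with i hi
    have k1 := ext_close (h1 i j) hf bg hC
    have k2 := ext_close (h2 j) hf bg hC
    rw [← dist_eq_norm] at k1 k2
    have k3 := dist_triangle4 (∫ y, ∏ l, f l (y l) ∂(u i : Measure (ι → Y)))
      (∫ y, ∏ l, Function.update f j g l (y l) ∂(u i : Measure (ι → Y)))
      (∫ y, ∏ l, Function.update f j g l (y l) ∂(ν : Measure (ι → Y)))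
      (∫ y, ∏ l, f l (y l) ∂(ν : Measure (ι → Y)))
    rw [dist_comm] at k2
    linarith

/-- Replace one slot at a time by a continuous complex function close in `L¹ μY`
(`exists_cont_approx_one` for real and imaginary parts); all coordinate marginals of
`pmap (rmap Y e) μY` and of `nuLim p μY` are `μY` (`nuLim_slot`). For continuous functions use
`tendsto_ulim` and `ProbabilityMeasure.tendsto_iff_forall_integral_rclike_tendsto`. -/
theorem tendsto_nuLim (p : Ultrafilter (ι → ℤ)) {μY : PM Y} (hY : Inv μY) {f : ι → Y → ℂ}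
    (hf : ∀ l, BM (f l)) :
    Tendsto (fun e : ι → ℤ => ∫ y, ∏ l, f l (e l +ᵥ y) ∂(μY : Measure Y)) (p : Filter (ι → ℤ))
      (𝓝 (∫ y, ∏ l, f l (y l) ∂(nuLim p μY : Measure (ι → Y)))) := by
  have h := ext_step (μY := μY) (tendsto_ulim p fun e => pmap (rmap Y e) μY)
    (fun e j => by
      rw [pmap_pmap]
      exact hY (e j)) (nuLim_slot p hY) Finset.univ f hf
    fun l hl => absurd (Finset.mem_univ l) hl
  refine h.congr fun e => ?_
  have b1 : BM fun y : ι → Y => ∏ l, f l (y l) :=
    BM.prod _ fun l _ => (hf l).comp (measurable_pi_apply l)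
  rw [coe_pmap, integral_map (rmap Y e).continuous.measurable.aemeasurable
    b1.1.aestronglyMeasurable]
  rfl

omit [Fintype ι] in
theorem tendsto_restrict_sepF (S : Set ι) :
    Tendsto (fun (e : ι → ℤ) (i : S) => e i) (sepF ι) (sepF S) := by
  unfold sepF
  refine tendsto_iInf.2 fun G => tendsto_principal.2 ?_
  refine mem_iInf_of_mem G (mem_principal.2 fun e he i j hij => ?_)
  exact he i j fun h => hij (Subtype.ext h)

omit [Fintype ι] in
theorem ext_prod [DecidableEq ι] (S : Set ι) [Fintype S] {T : Finset ι} (hT : (T : Set ι) ⊆ S)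
    (a : ι → ℂ) : ∏ l : S, (if (l : ι) ∈ T then a l else 1) = ∏ l ∈ T, a l := by
  rw [Finset.prod_set_coe (f := fun l => if l ∈ T then a l else 1) S, Finset.prod_ite_mem,
    Finset.inter_eq_right.2 fun l hl => Set.mem_toFinset.2 (hT hl)]

/-- `indOn_of_cont`, `tendsto_nuLim` with the functions `f i` for `i ∈ T` and `1` otherwise. -/
theorem indOn_nuLim {p : Ultrafilter (ι → ℤ)} (hp : (p : Filter (ι → ℤ)) ≤ sepF ι) {μY : PM Y}
    (hY : Inv μY) (S : Set ι) [Fintype S] (h : MixK μY S) :
    IndOn (nuLim p μY : Measure (ι → Y)) (fun i => cσ Y {i}) S := by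
  classical
  have key := indOn_of_cont (Θ := (nuLim p μY : Measure (ι → Y))) (S := S)
    (fun (i : ι) (w : ι → Y) => w i) (fun i => measurable_pi_apply i) fun T f hT => by
      set F : ι → Y → ℂ := fun l y => if l ∈ T then (f l y : ℂ) else 1 with hF
      have bF : ∀ l, BM (F l) := fun l => by
        by_cases hl : l ∈ T
        · simp only [hF, if_pos hl]
          refine ⟨Complex.measurable_ofReal.comp (f l).continuous.measurable, ‖f l‖, fun y => ?_⟩
          rw [Complex.norm_real]
          exact (f l).norm_coe_le_norm y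
        · simp only [hF, if_neg hl]
          exact BM.const 1
      have e1 : ∀ x : ι → Y, ∏ l, F l (x l) = ∏ l ∈ T, (f l (x l) : ℂ) := fun x => by
        simp only [hF]
        rw [Finset.prod_ite_mem, Finset.univ_inter]
      have e2 : ∀ x : ι → Y, ∏ l : S, F l (x l) = ∏ l ∈ T, (f l (x l) : ℂ) := fun x =>
        ext_prod S hT fun l => (f l (x l) : ℂ)
      have e3 : ∏ l : S, ∫ y, F l y ∂(μY : Measure Y) =
          ∏ l ∈ T, ((∫ y, f l y ∂(μY : Measure Y) : ℝ) : ℂ) := by
        rw [← ext_prod S hT]
        refine Finset.prod_congr rfl fun l _ => ?_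
        by_cases hl : (l : ι) ∈ T
        · simp only [hF, if_pos hl]
          exact integral_ofReal
        · simp [hF, if_neg hl]
      have t1 := tendsto_nuLim p hY bF
      have t2 := ((h (fun l : S => F l) fun l => bF l).comp (tendsto_restrict_sepF S)).mono_left hp
      have t3 := tendsto_nhds_unique t1 (t2.congr fun e => by
        refine integral_congr_ae (Eventually.of_forall fun y => ?_)
        exact (e2 fun l => e l +ᵥ y).trans (e1 fun l => e l +ᵥ y).symm)
      have e4 : ∀ l, ∫ w, f l (w l) ∂(nuLim p μY : Measure (ι → Y)) =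
          ∫ y, f l y ∂(μY : Measure Y) := fun l => by
        have := ev_pmap (f l) (cev Y l) (nuLim p μY)
        rw [nuLim_slot p hY] at this
        exact this.symm
      simp only [e4]
      rw [e3] at t3
      simp only [e1] at t3
      apply Complex.ofReal_injective
      rw [Complex.ofReal_prod, ← t3, ← integral_complex_ofReal]
      simp only [Complex.ofReal_prod]
  refine key.mono_alg fun i _ => le_of_eq (cσ_singleton i)


end Vale.Agent.P102
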