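import Vale.Agent.P102.CharE

/-! The grid lemma in terms of functions. -/

open MeasureTheory ProbabilityTheory Filter Topology Set
open scoped ComplexConjugate

noncomputable section

namespace Vale.Agent.P102

variable {Ω : Type} {mΩ : MeasurableSpace Ω} {Θ : Measure Ω} [IsProbabilityMeasure Θ]
  {𝒜 : Fin 3 → Fin 3 → MeasurableSpace Ω} {𝒞 : Fin 3 → MeasurableSpace Ω}
  {x y z t u v : Fin 3}

omit [IsProbabilityMeasure Θ] in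
theorem g0_orth {S : Set (L2 Θ)} {w a : L2 Θ} (ho : ∀ χ ∈ S, inner ℂ χ w = 0)
    (ha : a ∈ (Submodule.span ℂ S).topologicalClosure) : inner ℂ a w = 0 := by
  have h : (Submodule.span ℂ S).topologicalClosure ≤ (Submodule.span ℂ {w})ᗮ :=
    comm_le (Submodule.isClosed_orthogonal _) fun χ hχ =>
      Submodule.mem_orthogonal_singleton_iff_inner_left.2 (ho χ hχ)
  exact Submodule.mem_orthogonal_singleton_iff_inner_left.1 (h ha)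

omit [IsProbabilityMeasure Θ] in
theorem g0_norm_sq (a : L2 Θ) : ‖a‖ ^ 2 = ∫ ω, ‖a ω‖ ^ 2 ∂Θ := by
  rw [← real_inner_self_eq_norm_sq, L2.inner_def]
  simp only [real_inner_self_eq_norm_sq]

/-- `w ∈ HH` orthogonal to the characters. For `h ∈ XX (𝒜 y t)`, `k ∈ XX (𝒜 z t)` decompose `k` by
`exists_HH_decomp`: the `HH` part gives an element of `VS` (`BB_mem_VS`, `VS_le_span`), and for
the other part use `beta_zero` with rows `y, z, x` and `star w ∈ HH`. So `w` is orthogonal to all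
`mulL h k`; `eq_zero_of_pr_mulL`. -/
theorem g0L (hG : G33 Θ 𝒜 𝒞) (hr : Dist x y z) (hc : Dist t u v) {w : L2 Θ}
    (hw : w ∈ HH Θ (𝒜 x u) (𝒜 x t) (𝒜 x v))
    (ho : ∀ χ ∈ ChL Θ (𝒜 x u) (𝒜 x t) (𝒜 x v), inner ℂ χ w = 0) :
    PP Θ (𝒜 y t ⊔ 𝒜 z t) w = 0 := by
  have hT : Tri Θ (𝒜 x t) (𝒜 y t) (𝒜 z t) := hG.tri_col hr t
  have hwX : w ∈ XX Θ (𝒜 x t) := HH_le_XX hT.le0 hw
  refine eq_zero_of_pr_mulL hT.i12 hT.le1 hT.le2 (PP_mem _) fun h hh k hk => ?_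
  rw [pr_PP (sup_le hT.le1 hT.le2) (mulL_mem hh hk), pr_comm, ← pr_PP hT.le0 hwX]
  change pr w (BB (𝒜 x t) h k) = 0
  obtain ⟨k', hk', hd, h0⟩ := exists_HH_decomp (hG.tri_row z hc.swap12) hk
  obtain ⟨M, -, -, hM⟩ := exists_BBCLM hT.i12 hT.le1 hT.le2 (𝒜 x t) hh
  have hk'' : k' ∈ XX Θ (𝒜 z t) := HH_le_XX hT.le2 hk'
  have e : BB (𝒜 x t) h k = BB (𝒜 x t) h k' + BB (𝒜 x t) h (k - k') := by
    rw [← hM _ hk, ← hM _ hk'', ← hM _ hd, ← map_add, add_sub_cancel]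
  have e1 : pr w (BB (𝒜 x t) h k') = 0 := by
    rw [pr_comm, pr_eq_inner, star_BB]
    exact g0_orth ho (VS_le_span hG hr hc
      (BB_mem_VS hG hr hc (star_mem_XX hh) (star_mem_HH hk')))
  have e2 : pr w (BB (𝒜 x t) h (k - k')) = 0 := by
    rw [pr_BB_swap hT hwX hh hd, BB_comm, beta_zero hG hr.swap12.swap23 hc hd h0 hw, pr_eq_inner,
      inner_zero_right]
  rw [e, pr_eq_inner, inner_add_right, ← pr_eq_inner, ← pr_eq_inner, e1, e2, add_zero]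

theorem g0 (hG : G33 Θ 𝒜 𝒞) (hr : Dist x y z) (hc : Dist t u v) {f F : Ω → ℂ}
    (hF : MemLp F 2 Θ) (hFm : AEStronglyMeasurable[𝒜 x u ⊔ 𝒜 x v] F Θ)
    (hf : f =ᵐ[Θ] Θ[F | 𝒜 x t])
    (ho : ∀ χ, ChO Θ (𝒜 x u) (𝒜 x t) (𝒜 x v) χ → ∫ ω, f ω * conj (χ ω) ∂Θ = 0) :
    Θ[f | 𝒜 y t ⊔ 𝒜 z t] =ᵐ[Θ] 0 := by
  have hL : hF.toLp F ∈ XX Θ (𝒜 x u ⊔ 𝒜 x v) := mem_XX.2 (hFm.congr hF.coeFn_toLp.symm)
  have hw := PP_mem_HH (hG.tri_row x hc.swap12) hL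
  have he : (PP Θ (𝒜 x t) (hF.toLp F) : Ω → ℂ) =ᵐ[Θ] f :=
    ((PP_ae (hG.le x t) _).trans (condExp_congr_ae hF.coeFn_toLp)).trans hf.symm
  have h0 := g0L hG hr hc hw (by
    rintro a ⟨χ, hχ, ea⟩
    rw [inner_eq_pr, ← ho χ hχ]
    refine integral_congr_ae ?_
    filter_upwards [he, ea, star_ae a] with ω h1 h2 h3
    rw [h3, h2, h1, mul_comm])
  have h1 := PP_ae (sup_le (hG.le y t) (hG.le z t)) (PP Θ (𝒜 x t) (hF.toLp F))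
  rw [h0] at h1
  exact ((condExp_congr_ae he).symm.trans h1.symm).trans (Lp.coeFn_zero _ _ _)

/-- `beta_zero` with rows `z, x, y`. -/
theorem gK (hG : G33 Θ 𝒜 𝒞) (hr : Dist x y z) (hc : Dist t u v) {f g k : Ω → ℂ}
    (hf : MemLp f 2 Θ) (hfm : AEStronglyMeasurable[𝒜 x t] f Θ)
    (hf0 : Θ[f | 𝒜 x u ⊔ 𝒜 x v] =ᵐ[Θ] 0)
    (hg : MemLp g 2 Θ) (hgm : AEStronglyMeasurable[𝒜 y t] g Θ)
    (hgm' : AEStronglyMeasurable[𝒜 y u ⊔ 𝒜 y v] g Θ)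
    (hk : MemLp k 2 Θ) (hkm : AEStronglyMeasurable[𝒜 z t] k Θ) :
    ∫ ω, f ω * g ω * k ω ∂Θ = 0 := by
  have hF : hf.toLp f ∈ XX Θ (𝒜 x t) := mem_XX.2 (hfm.congr hf.coeFn_toLp.symm)
  have hG1 : hg.toLp g ∈ XX Θ (𝒜 y t) := mem_XX.2 (hgm.congr hg.coeFn_toLp.symm)
  have hG2 : hg.toLp g ∈ XX Θ (𝒜 y u ⊔ 𝒜 y v) := mem_XX.2 (hgm'.congr hg.coeFn_toLp.symm)
  have hK : hk.toLp k ∈ XX Θ (𝒜 z t) := mem_XX.2 (hkm.congr hk.coeFn_toLp.symm)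
  have hH := PP_mem_HH (hG.tri_row y hc.swap12) hG2
  rw [PP_of_mem (hG.le y t) hG1] at hH
  have h0 : PP Θ (𝒜 x u ⊔ 𝒜 x v) (hf.toLp f) = 0 := by
    refine Lp.ext ?_
    exact (((PP_ae (sup_le (hG.le x u) (hG.le x v)) _).trans
      (condExp_congr_ae hf.coeFn_toLp)).trans hf0).trans (Lp.coeFn_zero _ _ _).symm
  have hr' : Dist z x y := hr.swap13.swap23
  have h1 := pr_BB (hG.tri_col hr' t) hK hF hG1
  rw [beta_zero hG hr' hc hF h0 hH, pr_eq_inner, inner_zero_right] at h1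
  rw [h1]
  refine integral_congr_ae ?_
  filter_upwards [hf.coeFn_toLp, hg.coeFn_toLp, hk.coeFn_toLp] with ω e1 e2 e3
  rw [e1, e2, e3]
  ring

theorem g0_inSpan {A₀ A₁ A₂ : MeasurableSpace Ω} {mΩ : MeasurableSpace Ω} {Θ : Measure Ω}
    {f : Ω → ℂ} {w : L2 Θ} (he : (w : Ω → ℂ) =ᵐ[Θ] f)
    (hw : w ∈ (Submodule.span ℂ (ChL Θ A₀ A₁ A₂)).topologicalClosure) :
    InSpan Θ (ChO Θ A₀ A₁ A₂) f := by
  intro ε hε
  have hw' : w ∈ closure (Submodule.span ℂ (ChL Θ A₀ A₁ A₂) : Set (L2 Θ)) := hw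
  obtain ⟨s, hs, hd⟩ := Metric.mem_closure_iff.1 hw' _ (Real.sqrt_pos.2 hε)
  obtain ⟨n, c, g, rfl⟩ := Submodule.mem_span_set'.1 hs
  choose χ hχ eχ using fun j => (g j).2
  refine ⟨n, c, χ, hχ, ?_⟩
  have h1 : ‖w - ∑ j, c j • (g j : L2 Θ)‖ ^ 2 < ε := by
    rw [dist_eq_norm] at hd
    exact (Real.lt_sqrt (norm_nonneg _)).1 hd
  rw [g0_norm_sq] at h1
  refine lt_of_eq_of_lt (integral_congr_ae ?_) h1
  have h2 : ∀ᵐ ω ∂Θ, ∀ j, (c j • (g j : L2 Θ)) ω = c j * χ j ω := by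
    rw [ae_all_iff]
    intro j
    filter_upwards [Lp.coeFn_smul (c j) (g j : L2 Θ), eχ j] with ω e1 e2
    rw [e1, Pi.smul_apply, e2, smul_eq_mul]
  filter_upwards [he, h2, Lp.coeFn_sub w (∑ j, c j • (g j : L2 Θ)),
    Lp.coeFn_finsetSum Finset.univ fun j => c j • (g j : L2 Θ)] with ω e1 e2 e3 e4
  rw [e3, Pi.sub_apply, e1, e4]
  simp only [Finset.sum_apply, e2]

/-- Let `w'` be `w` minus its projection on the closed span of `ChL`. It lies in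
`XX (𝒜 x t) ⊓ XX (𝒜 x u ⊔ 𝒜 x v) ≤ HH`, so `g0L` gives `inner w' w = 0`, hence `w' = 0`. -/
theorem g2 (hG : G33 Θ 𝒜 𝒞) (hr : Dist x y z) (hc : Dist t u v) {f : Ω → ℂ}
    (hf : MemLp f 2 Θ) (h1 : AEStronglyMeasurable[𝒜 x t] f Θ)
    (h2 : AEStronglyMeasurable[𝒜 x u ⊔ 𝒜 x v] f Θ)
    (h3 : AEStronglyMeasurable[𝒜 y t ⊔ 𝒜 z t] f Θ) :
    InSpan Θ (ChO Θ (𝒜 x u) (𝒜 x t) (𝒜 x v)) f := by
  have hT : Tri Θ (𝒜 x u) (𝒜 x t) (𝒜 x v) := hG.tri_row x hc.swap12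
  refine g0_inSpan hf.coeFn_toLp ?_
  set w := hf.toLp f with hw
  have w1 : w ∈ XX Θ (𝒜 x t) := mem_XX.2 (h1.congr hf.coeFn_toLp.symm)
  have w2 : w ∈ XX Θ (𝒜 x u ⊔ 𝒜 x v) := mem_XX.2 (h2.congr hf.coeFn_toLp.symm)
  have w3 : w ∈ XX Θ (𝒜 y t ⊔ 𝒜 z t) := mem_XX.2 (h3.congr hf.coeFn_toLp.symm)
  set K := (Submodule.span ℂ (ChL Θ (𝒜 x u) (𝒜 x t) (𝒜 x v))).topologicalClosure with hK
  have k1 : K ≤ XX Θ (𝒜 x t) :=
    comm_le (isClosed_XX hT.le1) fun a ha => (ChL_subset_XX hT ha).1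
  have k2 : K ≤ XX Θ (𝒜 x u ⊔ 𝒜 x v) :=
    comm_le (isClosed_XX (sup_le hT.le0 hT.le2)) fun a ha => (ChL_subset_XX hT ha).2
  obtain ⟨p, hp, hq⟩ := Submodule.HasOrthogonalProjection.exists_orthogonal (K := K) w
  have hH := PP_mem_HH hT (Submodule.sub_mem _ w2 (k2 hp))
  rw [PP_of_mem hT.le1 (Submodule.sub_mem _ w1 (k1 hp))] at hH
  have h0 := g0L hG hr hc hH fun χ hχ => (Submodule.mem_orthogonal _ _).1 hq χ (comm_gen hχ)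
  have hle : 𝒜 y t ⊔ 𝒜 z t ≤ mΩ := sup_le (hG.le y t) (hG.le z t)
  have e1 : inner ℂ (w - p) w = 0 := by
    have := inner_PP hle (w - p) w
    rw [h0, inner_zero_left, PP_of_mem hle w3] at this
    exact this.symm
  have e2 : inner ℂ (w - p) p = 0 := (Submodule.mem_orthogonal' _ _).1 hq p hp
  have e3 : w - p = 0 := by
    rw [← inner_self_eq_zero (𝕜 := ℂ), inner_sub_right, e1, e2, sub_zero]
  rw [sub_eq_zero.1 e3]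
  exact hp


end Vale.Agent.P102
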