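import Vale.Agent.P102.Dis

/-! Maximal refinements. -/

open MeasureTheory ProbabilityTheory Filter Topology Set
open scoped ComplexConjugate

noncomputable section

namespace Vale.Agent.P102

variable {K : Type}
  [TopologicalSpace K] [MeasurableSpace K] [Nice K] [AddAction ℤ K] [ContinuousConstVAdd ℤ K]

section
variable {X : Type} [TopologicalSpace X] [MeasurableSpace X] [Nice X]

/-- Integration against a fixed measure as a continuous linear functional. -/
def max_evL (μ : PM X) : C(X, ℝ) →L[ℝ] ℝ where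
  toFun f := ev f μ
  map_add' f g := integral_add (integrable_cont f _) (integrable_cont g _)
  map_smul' c _ := integral_const_mul c _
  cont := continuous_ev_left μ

theorem max_abs_ev (f : C(X, ℝ)) (μ : PM X) : |ev f μ| ≤ ‖f‖ := by
  simpa using abs_ev_sub_le f 0 μ

/-- The martingale identity for second moments. -/
theorem max_sq {ρ : PM (PM X × PM X)} (h : Mart ρ) (f : C(X, ℝ)) :
    ev (ev f ^ 2) (psnd ρ) - ev (ev f ^ 2) (pfst ρ) =
      ∫ q, (ev f q.2 - ev f q.1) ^ 2 ∂(ρ : Measure (PM X × PM X)) := by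
  have h1 := h f (ev f)
  let a : C(PM X × PM X, ℝ) := (ev f).comp ContinuousMap.fst
  let b : C(PM X × PM X, ℝ) := (ev f).comp ContinuousMap.snd
  have e1 : ev (ev f ^ 2) (psnd ρ) = max_evL ρ (b * b) := by
    rw [psnd, ev_pmap]; exact congrArg (ev · ρ) (by ext q; simp [b, sq])
  have e2 : ev (ev f ^ 2) (pfst ρ) = max_evL ρ (a * a) := by
    rw [pfst, ev_pmap]; exact congrArg (ev · ρ) (by ext q; simp [a, sq])
  have e3 : max_evL ρ (a * b) = max_evL ρ (a * a) := h1
  have e4 : ∫ q, (ev f q.2 - ev f q.1) ^ 2 ∂(ρ : Measure (PM X × PM X)) =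
      max_evL ρ (b * b - (a * b + a * b) + a * a) := by
    refine integral_congr_ae (ae_of_all _ fun q => ?_)
    simp only [a, b, ContinuousMap.add_apply, ContinuousMap.sub_apply, ContinuousMap.mul_apply,
      ContinuousMap.comp_apply, ContinuousMap.fst_apply, ContinuousMap.snd_apply]
    ring
  rw [e1, e2, e4, map_add, map_sub, map_add, e3]; ring

/-- A strictly convex continuous functional. -/
theorem max_phi : ∃ Φ : C(PM X, ℝ), ∀ ρ : PM (PM X × PM X), Mart ρ →
    ev Φ (psnd ρ) ≤ ev Φ (pfst ρ) → ∀ᵐ q ∂(ρ : Measure (PM X × PM X)), q.2 = q.1 := by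
  obtain ⟨f, hf⟩ := TopologicalSpace.exists_dense_seq C(X, ℝ)
  let w : ℕ → ℝ := fun i => (1 / 2) ^ i / (1 + ‖f i‖ ^ 2)
  have hw : ∀ i, 0 < w i := fun i => by positivity
  have hs : Summable fun i => w i • ev (f i) ^ 2 := by
    refine Summable.of_norm_bounded summable_geometric_two fun i => ?_
    refine (ContinuousMap.norm_le _ (by positivity)).2 fun μ => ?_
    have h1 := max_abs_ev (f i) μ
    have h2 : (ev (f i) μ) ^ 2 ≤ 1 + ‖f i‖ ^ 2 := by
      nlinarith [sq_abs (ev (f i) μ), abs_nonneg (ev (f i) μ)]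
    have h3 : (w i • ev (f i) ^ 2) μ = w i * (ev (f i) μ) ^ 2 := rfl
    rw [h3, Real.norm_of_nonneg (by have := hw i; positivity)]
    calc _ ≤ w i * (1 + ‖f i‖ ^ 2) := mul_le_mul_of_nonneg_left h2 (hw i).le
      _ = _ := div_mul_cancel₀ _ (by positivity)
  refine ⟨∑' i, w i • ev (f i) ^ 2, fun ρ hρ hle => ?_⟩
  have h1 := hs.hasSum.mapL (max_evL (pfst ρ))
  have h2 := hs.hasSum.mapL (max_evL (psnd ρ))
  have hd : ∀ i, max_evL (psnd ρ) (w i • ev (f i) ^ 2) - max_evL (pfst ρ) (w i • ev (f i) ^ 2) =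
      w i * ∫ q, (ev (f i) q.2 - ev (f i) q.1) ^ 2 ∂(ρ : Measure (PM X × PM X)) := fun i => by
    rw [map_smul, map_smul, ← max_sq hρ, mul_sub]; rfl
  have hn : ∀ i, 0 ≤ ∫ q, (ev (f i) q.2 - ev (f i) q.1) ^ 2 ∂(ρ : Measure (PM X × PM X)) :=
    fun i => integral_nonneg fun q => sq_nonneg _
  have hz : ∀ i, ∫ q, (ev (f i) q.2 - ev (f i) q.1) ^ 2 ∂(ρ : Measure (PM X × PM X)) = 0 := by
    intro i
    by_contra hne
    have hp := mul_pos (hw i) (lt_of_le_of_ne (hn i) (Ne.symm hne))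
    have := hasSum_lt (i := i) (fun j => by
      have := mul_nonneg (hw j).le (hn j); have := hd j; simp only; linarith)
      (by have := hd i; linarith) h1 h2
    exact absurd hle (not_le.2 this)
  have hae : ∀ i, ∀ᵐ q ∂(ρ : Measure (PM X × PM X)), ev (f i) q.2 = ev (f i) q.1 := fun i => by
    have hi := integrable_cont (((ev (f i)).comp ContinuousMap.snd -
      (ev (f i)).comp ContinuousMap.fst) ^ 2) (ρ : Measure (PM X × PM X))
    have := (integral_eq_zero_iff_of_nonneg (fun q => sq_nonneg _) hi).1 (hz i)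
    filter_upwards [this] with q hq
    exact sub_eq_zero.1 (pow_eq_zero_iff two_ne_zero |>.1 hq)
  filter_upwards [ae_all_iff.2 hae] with q hq
  exact pm_ext_dense hf (by rintro _ ⟨i, rfl⟩; exact hq i)

theorem max_mart_iff (ρ : PM (PM X × PM X)) : Mart ρ ↔ ∀ (f : C(X, ℝ)) (Ψ : C(PM X, ℝ)),
    ev (Ψ.comp ContinuousMap.fst * (ev f).comp ContinuousMap.snd) ρ =
      ev (Ψ.comp ContinuousMap.fst * (ev f).comp ContinuousMap.fst) ρ := Iff.rfl

theorem max_closed (F : Set C(X, ℝ)) :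
    IsClosed {q : PM X × PM X | ∀ f ∈ F, ev f q.2 = ev f q.1} := by
  simp only [ofPred_forall]
  exact isClosed_iInter fun f => isClosed_iInter fun _ =>
    isClosed_eq ((ev f).continuous.comp continuous_snd) ((ev f).continuous.comp continuous_fst)

end

/-- The set of admissible `ρ` is closed (`isClosed_ae` for `Pres`), nonempty (diagonal), so
compact. Maximise the continuous functional `ρ ↦ ∫ Φ q.2 ∂ρ`, `Φ ν = ∑' 2⁻¹ ^ i * (ev (f i) ν) ^ 2`
with `f i` a sequence in the unit ball of `C(K, ℝ)` separating measures (normalise a dense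
sequence). If `ρ₂` is an invariant refinement of `psnd ρ` preserving `F`, glue (`exists_glue`),
take the law of ` (q.1.1, q.2)`; it is admissible and the functional increases by
`∫ ∑' 2⁻¹ ^ i * (ev (f i) q.2 - ev (f i) q.1) ^ 2 ∂ρ₂`, which must vanish. -/
theorem exists_sated (𝔪 : PM (PM K)) (h : Inv 𝔪) (F : Set C(K, ℝ)) :
    ∃ ρ : PM (PM K × PM K), Inv ρ ∧ pfst ρ = 𝔪 ∧ Mart ρ ∧ Pres F ρ ∧ Sated F (psnd ρ) := by
  obtain ⟨Φ, hΦ⟩ := max_phi (X := K)
  let S : Set (PM (PM K × PM K)) := {ρ | Inv ρ ∧ pfst ρ = 𝔪 ∧ Mart ρ ∧ Pres F ρ}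
  have hS : IsClosed S := by
    refine IsClosed.inter ?_ (IsClosed.inter ?_ (IsClosed.inter ?_ (isClosed_ae (max_closed F))))
    · have : IsClosed (⋂ n : ℤ, {ρ : PM (PM K × PM K) | n +ᵥ ρ = ρ}) :=
        isClosed_iInter fun n => isClosed_eq (continuous_const_vadd n) continuous_id
      simp only [← ofPred_forall] at this
      exact this
    · exact isClosed_eq (pmap ContinuousMap.fst).continuous continuous_const
    · have : IsClosed (⋂ (f : C(K, ℝ)) (Ψ : C(PM K, ℝ)), {ρ : PM (PM K × PM K) |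
          ev (Ψ.comp ContinuousMap.fst * (ev f).comp ContinuousMap.snd) ρ =
            ev (Ψ.comp ContinuousMap.fst * (ev f).comp ContinuousMap.fst) ρ}) :=
        isClosed_iInter fun f => isClosed_iInter fun Ψ =>
          isClosed_eq (ev _).continuous (ev _).continuous
      simp only [← ofPred_forall] at this
      exact this
  have hZ := (max_closed F).measurableSet
  have hne : S.Nonempty := by
    let d : C(PM K, PM K × PM K) := (ContinuousMap.id _).prodMk (ContinuousMap.id _)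
    refine ⟨pmap d 𝔪, h.pmap fun _ _ => rfl, ?_, (max_mart_iff _).2 fun f Ψ => ?_, ?_⟩
    · rw [pfst, pmap_pmap]; exact pmap_id 𝔪
    · rw [ev_pmap, ev_pmap]; rfl
    · exact (ae_map_iff d.continuous.measurable.aemeasurable hZ).2 (ae_of_all _ fun _ _ _ => rfl)
  obtain ⟨ρ, ⟨h1, h2, h3, h4⟩, hmax⟩ := hS.isCompact.exists_isMaxOn hne
    (f := fun ρ => ev Φ (psnd ρ))
    ((ev Φ).continuous.comp (pmap ContinuousMap.snd).continuous).continuousOn
  refine ⟨ρ, h1, h2, h3, h4, fun ρ₂ g1 g2 g3 g4 => hΦ ρ₂ g3 ?_⟩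
  obtain ⟨τ, t1, t2, t3, t4⟩ := exists_glue ρ ρ₂ h1 g1 g3 g2.symm
  let e : C((PM K × PM K) × PM K, PM K × PM K) :=
    (ContinuousMap.fst.comp ContinuousMap.fst).prodMk ContinuousMap.snd
  have hm : pmap e τ ∈ S := by
    refine ⟨t1.pmap fun _ _ => rfl, ?_, (max_mart_iff _).2 fun f Ψ => ?_, ?_⟩
    · rw [← h2, ← t2, pfst, pfst, pfst, pmap_pmap, pmap_pmap]; rfl
    · have a1 := t4 f (Ψ.comp ContinuousMap.fst)
      have a2 := (max_mart_iff _).1 h3 f Ψ
      rw [← t2, pfst, ev_pmap, ev_pmap] at a2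
      rw [ev_pmap, ev_pmap]
      exact a1.trans a2
    · refine (ae_map_iff e.continuous.measurable.aemeasurable hZ).2 ?_
      rw [← t3] at g4
      rw [← t2] at h4
      filter_upwards [ae_of_ae_pmap _ _ g4, ae_of_ae_pfst _ h4] with q a1 a2 f hf
      exact (a1 f hf).trans (a2 f hf)
  have hle : ev Φ (psnd (pmap e τ)) ≤ ev Φ (psnd ρ) := hmax hm
  have e1 : psnd (pmap e τ) = psnd ρ₂ := by
    rw [← t3, psnd, psnd, pmap_pmap, pmap_pmap]; rfl
  rwa [e1, ← g2] at hle


end Vale.Agent.P102
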