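import Vale.Agent.P102.TPrime
import Vale.Agent.P102.Max

/-! A base-sated slot is independent of the other columns of any extension. -/

open MeasureTheory ProbabilityTheory Filter Topology Set
open scoped ComplexConjugate

noncomputable section

namespace Vale.Agent.P102

variable {K L Y : Type}
  [TopologicalSpace K] [MeasurableSpace K] [Nice K] [AddAction ℤ K] [ContinuousConstVAdd ℤ K]
  [TopologicalSpace L] [MeasurableSpace L] [Nice L] [AddAction ℤ L] [ContinuousConstVAdd ℤ L]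
  [TopologicalSpace Y] [MeasurableSpace Y] [Nice Y] [AddAction ℤ Y] [ContinuousConstVAdd ℤ Y]
variable {ι : Type} [Fintype ι] (p : Ultrafilter (ι → ℤ))

/-- Refine `𝔩` to a base-sated law (`exists_sated` with `baseF π`; the refinement is again a `Sys`
because `pmap π` is preserved), apply `tprime` to it, and average with `MartS.avg` for
`rowLim2 p ρ` (`rowLim2_mart`, `rowLim2_fst`, `rowLim2_snd`): for a.e. `θ`, and `ξ`-a.e. `ν`,
`ν (u (π (w i)) * G) = μY u * ν G` (`rowLim_base`, `nuLim_slot`); `indepFun_of_cont`. -/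
theorem ye {π : C(L, Y)} (hπ : Eqv π) {μY : PM Y} (hY : Inv μY) {𝔩 : PM (PM L)}
    (hs : Sys π μY 𝔩) {i : ι} {J : Set ι} (hi : i ∉ J)
    (hS : IndOn (nuLim p μY : Measure (ι → Y)) (fun i => cσ Y {i}) (insert i J)) :
    ∀ᵐ θ : PM (ι → L) ∂(rowLim p 𝔩 : Measure (PM (ι → L))),
      IndepFun (fun w => π (w i)) (crs L J) (θ : Measure (ι → L)) := by
  obtain ⟨ρ, hρ, h1, hM, hP, hsat⟩ := exists_sated 𝔩 hs.1 (baseF π)
  have hs' : Sys π μY (psnd ρ) := by
    refine ⟨hρ.pmap eqv_snd, ae_pmap_of_ae ContinuousMap.snd ρ (P := fun μ => pmap π μ = μY) ?_⟩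
    filter_upwards [hP, ae_of_ae_pfst ρ (P := fun μ => pmap π μ = μY) (h1 ▸ hs.2)] with q h2 h3
    rw [← h3]
    exact pm_ext fun u => by rw [ev_pmap, ev_pmap]; exact h2 _ ⟨u, rfl⟩
  have hT := (tprime p hπ hs' hsat hS).and (rowLim_base p hπ hs'.2)
  rw [← rowLim2_snd] at hT
  have h2 := MartS.avg measurable_id (rowLim2_mart p hM) (ae_of_ae_psnd _ hT)
  rw [rowLim2_fst, h1] at h2
  filter_upwards [h2] with θ ⟨ξ, hb, h3⟩
  have mπ : Measurable fun w : ι → L => π (w i) :=
    π.continuous.measurable.comp (measurable_pi_apply i)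
  refine indepFun_of_cont _ mπ (crs L J).continuous.measurable fun u G => ?_
  have h4 : ∀ᵐ ν : PM (ι → L) ∂(ξ : Measure (PM (ι → L))),
      ∫ w, u (π (w i)) ∂(ν : Measure (ι → L)) = ev u μY := by
    filter_upwards [h3] with ν hν
    rw [← nuLim_slot p hY i, ← hν.2, ev_pmap, ev_pmap]
    rfl
  have h5 : ∀ᵐ ν : PM (ι → L) ∂(ξ : Measure (PM (ι → L))),
      ∫ w, u (π (w i)) * G (crs L J w) ∂(ν : Measure (ι → L)) =
        ev u μY * ∫ w, G (crs L J w) ∂(ν : Measure (ι → L)) := by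
    filter_upwards [h3, h4] with ν hν h6
    have h7 := hν.1.indep_iSup (fun l => cσ_le _) (J := {i}) (J' := J) (by simp)
      (subset_insert _ _) (disjoint_singleton_left.2 hi)
    rw [← cσ_eq_iSup, ← cσ_eq_iSup, cσ_singleton, ← comap_crs, ← IndepFun_iff_Indep] at h7
    rw [← h6]
    exact h7.integral_fun_comp_mul_comp (f := fun x => u (π x)) (g := G)
      (measurable_pi_apply i).aemeasurable (crs L J).continuous.measurable.aemeasurable
      (u.continuous.comp π.continuous).aestronglyMeasurable G.continuous.aestronglyMeasurable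
  have e1 := hb.integral (integrable_cont
    (((u.comp π).comp (cev L i)) * (G.comp (crs L J))) (θ : Measure (ι → L)))
  have e2 := hb.integral (integrable_cont ((u.comp π).comp (cev L i)) (θ : Measure (ι → L)))
  have e3 := hb.integral (integrable_cont (G.comp (crs L J)) (θ : Measure (ι → L)))
  simp only [ContinuousMap.mul_apply, ContinuousMap.comp_apply, cev_apply, id] at e1 e2 e3
  rw [e1, e2, e3, integral_congr_ae h4, integral_congr_ae h5, integral_const_mul]
  simp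

/-- `ind_of_sated` with `β = ϖ.comp (cev L i)`, `ψ = crs L J`, and `ye` for `π.comp ϖ`. -/
theorem tw {π : C(K, Y)} (hπ : Eqv π) {μY : PM Y} (hY : Inv μY) {𝔪 : PM (PM K)}
    (hs : Sys π μY 𝔪) (hsat : Sated (baseF π) 𝔪) {ϖ : C(L, K)} (hϖ : Eqv ϖ) {𝔩 : PM (PM L)}
    (hl : Inv 𝔩) (hm : pmap (pmap ϖ) 𝔩 = 𝔪) {i : ι} {J : Set ι} (hi : i ∉ J)
    (hS : IndOn (nuLim p μY : Measure (ι → Y)) (fun i => cσ Y {i}) (insert i J)) :
    ∀ᵐ θ : PM (ι → L) ∂(rowLim p 𝔩 : Measure (PM (ι → L))),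
      IndepFun (fun w => ϖ (w i)) (crs L J) (θ : Measure (ι → L)) := by
  have hs' : Sys (π.comp ϖ) μY 𝔩 := by
    refine ⟨hl, ?_⟩
    filter_upwards [ae_of_ae_pmap (pmap ϖ) 𝔩 (P := fun μ => pmap π μ = μY) (hm ▸ hs.2)] with μ h
    rw [← pmap_pmap, h]
  refine ind_of_sated (rowLim p 𝔩) (rowLim_inv p hl) (ϖ.comp (cev L i)) (hϖ.comp (eqv_cev i))
    (crs L J) (eqv_crs J) (baseF π) ?_ ?_
  · rwa [← pmap_comp, ← pmap_pmap, rowLim_slot p hl, hm]
  · filter_upwards [ye p (hπ.comp hϖ) hY hs' hi hS] with θ h f ⟨u, hu⟩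
    subst hu
    exact h.comp u.continuous.measurable measurable_id


end Vale.Agent.P102
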