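import Vale.Agent.P102.Cond
import Vale.Agent.P102.TW
import Vale.Agent.P102.Avg

/-! One row of the grid against the other columns and rows. -/

open MeasureTheory ProbabilityTheory Filter Topology Set
open scoped ComplexConjugate

noncomputable section

namespace Vale.Agent.P102

variable {K Y : Type}
  [TopologicalSpace K] [MeasurableSpace K] [Nice K] [AddAction ℤ K] [ContinuousConstVAdd ℤ K]
  [TopologicalSpace Y] [MeasurableSpace Y] [Nice Y] [AddAction ℤ Y] [ContinuousConstVAdd ℤ Y]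
variable {ι α : Type} [Fintype ι] [Fintype α] {p : Ultrafilter (ι → ℤ)}

/-- Take `ρ` from `exists_cond 𝔩 (crs K T)`; the `s`-marginal is preserved, so `𝔩' = psnd ρ` is an
invariant law with `s`-marginal `𝔪`. For a.e. pair ` (Θ, Θ')` under `rowLim2 p ρ`: the row `s` laws
agree (`rowLim2_agree` for `cev K s`), the rows `T` are trivial under `Θ'` (`rowLim_dirac`,
`triv_of_dirac`, `comap_restrict_rows`), `Θ'` satisfies `SatS` and `tw` (with `ϖ = cev K s`,
`CI_bot_iff`). Then `MartS.avg` and `CI_of_bary` with `ℛ = gσ K univ {s}` (`gσ_row`),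
`𝒟 = gσ K univ T`. -/
theorem grid_step {μY : PM Y} {π : C(K, Y)} {𝔪 : PM (PM K)} (hS : Setup p μY π 𝔪)
    {𝔩 : PM (PM (α → K))} (hl : Inv 𝔩) {s : α} (hm : pmap (pmap (cev K s)) 𝔩 = 𝔪) {T : Set α}
    (hT : ∀ᵐ μ : PM (α → K) ∂(𝔩 : Measure (PM (α → K))),
      Indep (cσ K {s}) (cσ K T) (μ : Measure (α → K))) :
    ∀ᵐ Θ : PM (ι → α → K) ∂(rowLim p 𝔩 : Measure (PM (ι → α → K))),
      (∀ i, CI (Θ : Measure (ι → α → K)) (gσ K {i} {s}) (gσ K {l | l ≠ i} {s})
        (gσ K {l | l ≠ i} univ ⊔ gσ K univ T)) ∧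
      ∀ (i : ι) (J : Set ι), i ∉ J → insert i J ≠ univ →
        CI (Θ : Measure (ι → α → K)) (gσ K {i} {s}) ⊥ (gσ K J univ ⊔ gσ K univ T) := by
  obtain ⟨ρ, hρ, hfst, hmart, hdir, hpres⟩ := exists_cond 𝔩 hl (crs K T) (eqv_crs T)
  have hagree : ∀ᵐ q ∂(ρ : Measure (PM (α → K) × PM (α → K))),
      pmap (cev K s) q.2 = pmap (cev K s) q.1 := by
    have h1 : ∀ᵐ q ∂(ρ : Measure (PM (α → K) × PM (α → K))), ∀ f ∈ (univ : Set C(K, ℝ)),
        ev f (pmap (cev K s) q.2) = ev f (pmap (cev K s) q.1) := by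
      refine ae_forall_of_closed univ _ (fun q => isClosed_eq (continuous_ev_left _)
        (continuous_ev_left _)) fun f _ => ?_
      simp only [ev_pmap]
      refine hpres _ (hT.mono fun μ hμ => ?_)
      rw [IndepFun_iff_Indep]
      rw [cσ_singleton, ← comap_crs] at hμ
      refine indep_of_indep_of_le_left hμ ?_
      exact (f.continuous.measurable.comp (Measurable.of_comap_le le_rfl)).comap_le
    exact h1.mono fun q hq => pm_ext fun f => hq f (mem_univ _)
  have hl' : Inv (psnd ρ) := hρ.pmap eqv_snd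
  have hm' : pmap (pmap (cev K s)) (psnd ρ) = 𝔪 := by
    rw [← hm, ← hfst, psnd, pfst, pmap_pmap, pmap_pmap]
    exact pmap_congr hagree
  have hA := rowLim2_agree p (eqv_cev s) hagree
  have hD : ∀ᵐ Θ : PM (ι → α → K) ∂(rowLim p (psnd ρ) : Measure (PM (ι → α → K))),
      Triv (Θ : Measure (ι → α → K)) (gσ K univ T) := by
    have h1 : ∀ᵐ μ ∂(psnd ρ : Measure (PM (α → K))), ∃ c, pmap (crs K T) μ = diracProba c :=
      ae_pmap_of_ae ContinuousMap.snd ρ hdir
    filter_upwards [rowLim_dirac p (eqv_crs T) h1] with Θ ⟨c, hc⟩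
    have := triv_of_dirac Θ _ hc
    rwa [← comap_restrict_rows]
  have hSat := ae_all_iff.2 (hS.satS α s (psnd ρ) hl' hm')
  have hTW : ∀ᵐ Θ : PM (ι → α → K) ∂(rowLim p (psnd ρ) : Measure (PM (ι → α → K))),
      ∀ (i : ι) (J : Set ι), i ∉ J → insert i J ≠ univ →
        CI (Θ : Measure (ι → α → K)) (gσ K {i} {s}) ⊥ (gσ K J univ) := by
    refine ae_all_iff.2 fun i => ae_all_iff.2 fun J => ?_
    by_cases hi : i ∈ J
    · exact ae_of_all _ fun _ h => absurd hi h
    by_cases hJ : insert i J = univ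
    · exact ae_of_all _ fun _ _ h => absurd hJ h
    filter_upwards [tw p hS.eqv hS.inv hS.sys hS.sated (eqv_cev s) hl' hm' hi (hS.prop _ hJ)]
      with Θ hΘ _ _
    rw [CI_bot_iff (gσ_le _ _) (gσ_le _ _), gσ_singleton, gσ_univ, ← comap_crs]
    exact (IndepFun_iff_Indep _ _ _).1 hΘ
  rw [← rowLim2_snd] at hD hSat hTW
  have hall := (hA.and ((ae_of_ae_psnd _ hD).and ((ae_of_ae_psnd _ hSat).and
    (ae_of_ae_psnd _ hTW))))
  have havg := MartS.avg measurable_id (rowLim2_mart p hmart) hall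
  rw [rowLim2_fst, hfst] at havg
  filter_upwards [havg] with Θ ⟨ξ, hξ, hq⟩
  have hrow : Measurable fun (w : ι → α → K) (i : ι) => w i s :=
    (cpi ι (cev K s)).continuous.measurable
  have hR : ∀ᵐ ν : PM (ι → α → K) ∂(ξ : Measure (PM (ι → α → K))), ∀ A,
      MeasurableSet[gσ K (univ : Set ι) {s}] A →
        (ν : Measure (ι → α → K)) A = (Θ : Measure (ι → α → K)) A := by
    filter_upwards [hq] with ν hν A hA
    rw [gσ_row, cσ_univ] at hA
    obtain ⟨B, hB, rfl⟩ := hA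
    have h1 := congrArg (fun m : PM (ι → K) => (m : Measure (ι → K)) B) hν.1
    simp only [coe_pmap] at h1
    rw [Measure.map_apply (cpi ι (cev K s)).continuous.measurable hB,
      Measure.map_apply (cpi ι (cev K s)).continuous.measurable hB] at h1
    exact h1
  refine ⟨fun i => ?_, fun i J hi hJ => ?_⟩
  · refine CI_of_bary (ℛ := gσ K univ {s}) hξ (gσ_mono (subset_univ _) subset_rfl)
      (gσ_mono (subset_univ _) subset_rfl) (gσ_le _ _) (gσ_mono subset_rfl (subset_univ _))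
      (gσ_le _ _) (gσ_le _ _) ?_
    filter_upwards [hq, hR] with ν hν hν'
    exact ⟨hν', hν.2.1, hν.2.2.1 i⟩
  · refine CI_of_bary (ℛ := gσ K univ {s}) hξ (gσ_mono (subset_univ _) subset_rfl)
      bot_le (gσ_le _ _) bot_le (gσ_le _ _) (gσ_le _ _) ?_
    filter_upwards [hq, hR] with ν hν hν'
    exact ⟨hν', hν.2.1, hν.2.2.2 i J hi hJ⟩

end Vale.Agent.P102
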