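import Vale.Agent.P102.Lim
import Vale.Agent.P102.IndOn

/-! Independence of rows passes to the row limit; preserved product functions. -/

open MeasureTheory ProbabilityTheory Filter Topology Set
open scoped ComplexConjugate

noncomputable section

namespace Vale.Agent.P102

variable {K : Type}
  [TopologicalSpace K] [MeasurableSpace K] [Nice K] [AddAction ℤ K] [ContinuousConstVAdd ℤ K]
variable {ι α : Type} [Fintype ι] [Fintype α] (p : Ultrafilter (ι → ℤ))

/-- The product formula for continuous functions of rows is a closed condition on `Θ` (`ae_ulim`),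
it holds for `pmap (rmap _ e) λ` by `IndOn.integral_prod`; conclude with `indOn_of_cont` for
`X s w = fun i => w i s`, `gσ_row`, `cσ_univ`. -/
theorem rowLim_rows {𝔩 : PM (PM (α → K))} {S : Set α}
    (h : ∀ᵐ μ : PM (α → K) ∂(𝔩 : Measure (PM (α → K))),
      IndOn (μ : Measure (α → K)) (fun s => cσ K {s}) S) :
    ∀ᵐ Θ : PM (ι → α → K) ∂(rowLim p 𝔩 : Measure (PM (ι → α → K))),
      IndOn (Θ : Measure (ι → α → K)) (fun s => gσ K (univ : Set ι) {s}) S := by
  let row : α → C(ι → α → K, ι → K) := fun s => ⟨fun w i => w i s, by fun_prop⟩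
  have hZ : IsClosed {Θ : PM (ι → α → K) | ∀ (T : Finset α) (f : α → C(ι → K, ℝ)),
      (T : Set α) ⊆ S → ev (∏ s ∈ T, (f s).comp (row s)) Θ =
        ∏ s ∈ T, ev ((f s).comp (row s)) Θ} := by
    simp only [Set.ofPred_forall]
    exact isClosed_iInter fun T => isClosed_iInter fun f => isClosed_iInter fun _ =>
      isClosed_eq (ev _).continuous (continuous_finsetProd _ fun s _ => (ev _).continuous)
  have h1 := ae_ulim p (fun e => pmap (pmap (rmap (α → K) e)) 𝔩) hZ fun e => by
    refine ae_pmap_of_ae _ _ ?_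
    filter_upwards [h] with μ hμ T f hT
    simp only [ev_pmap]
    simp only [ev_apply, ContinuousMap.comp_apply, ContinuousMap.prod_apply]
    exact hμ.integral_prod (fun s => cσ_le {s}) T hT
      (fun s w => ((f s).comp (rmap K e)) (w s))
      (fun s _ => ((f s).comp (rmap K e)).continuous.measurable.comp (measurable_cσ rfl))
      fun s _ => ⟨_, fun w => ((f s).comp (rmap K e)).norm_coe_le_norm _⟩
  filter_upwards [h1] with Θ hΘ
  simp only [gσ_row, cσ_univ]
  refine indOn_of_cont (fun s (w : ι → α → K) i => w i s)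
    (fun s => (row s).continuous.measurable) fun T f hT => ?_
  have h2 := hΘ T f hT
  simp only [ev_apply, ContinuousMap.comp_apply, ContinuousMap.prod_apply] at h2
  exact h2

omit [AddAction ℤ K] [ContinuousConstVAdd ℤ K] in
theorem rows_prod {𝒮 : Set (Set α)} {μ ν : PM (α → K)}
    (h : ∀ f ∈ prodF K 𝒮, ev f ν = ev f μ) {S : Set α} (hS : S ∈ 𝒮) (T : Finset α)
    (f : α → C(K, ℝ)) (hT : (T : Set α) ⊆ S) :
    ∫ w, ∏ s ∈ T, f s (w s) ∂(ν : Measure (α → K)) =
      ∫ w, ∏ s ∈ T, f s (w s) ∂(μ : Measure (α → K)) := by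
  classical
  have h1 := h (∏ s ∈ T, (f s).comp (cev K s)) ⟨(Set.toFinite S).toFinset,
    fun s => if s ∈ T then f s else 1, by rw [Set.Finite.coe_toFinset]; exact hS, fun w => by
      rw [← Finset.prod_subset (s₁ := T) (fun s hs => (Set.Finite.mem_toFinset _).2 (hT hs))
        fun s _ hs => by simp only [hs, if_false, ContinuousMap.one_apply]]
      rw [ContinuousMap.prod_apply]
      exact Finset.prod_congr rfl fun s hs => by simp only [hs, if_true]; rfl⟩
  simpa only [ev_apply, ContinuousMap.comp_apply, ContinuousMap.prod_apply, cev_apply] using h1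

omit [AddAction ℤ K] [ContinuousConstVAdd ℤ K] in
/-- Single coordinate marginals are preserved (take `h s' = 1` for `s' ≠ s`). -/
theorem pmap_cev_eq_of_prodF {𝒮 : Set (Set α)} {μ ν : PM (α → K)}
    (h : ∀ f ∈ prodF K 𝒮, ev f ν = ev f μ) {S : Set α} (hS : S ∈ 𝒮) {s : α} (hs : s ∈ S) :
    pmap (cev K s) ν = pmap (cev K s) μ := by
  refine pm_ext fun f => ?_
  have h1 := rows_prod h hS {s} (fun _ => f) (by simpa using hs)
  simp only [Finset.prod_singleton] at h1
  rw [ev_pmap, ev_pmap]
  exact h1

omit [AddAction ℤ K] [ContinuousConstVAdd ℤ K] in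
theorem indOn_of_prodF {𝒮 : Set (Set α)} {μ ν : PM (α → K)}
    (h : ∀ f ∈ prodF K 𝒮, ev f ν = ev f μ) {S : Set α} (hS : S ∈ 𝒮)
    (hμ : IndOn (μ : Measure (α → K)) (fun s => cσ K {s}) S) :
    IndOn (ν : Measure (α → K)) (fun s => cσ K {s}) S := by
  simp only [cσ_singleton]
  refine indOn_of_cont (fun s (w : α → K) => w s) (fun s => measurable_pi_apply s)
    fun T f hT => ?_
  rw [rows_prod h hS T f hT, hμ.integral_prod (fun s => cσ_le {s}) T hT (fun s w => f s (w s))
    (fun s _ => (f s).continuous.measurable.comp (measurable_cσ rfl))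
    fun s _ => ⟨_, fun w => (f s).norm_coe_le_norm _⟩]
  refine Finset.prod_congr rfl fun s hs => ?_
  have h1 := rows_prod h hS {s} f (by simpa using hT hs)
  simp only [Finset.prod_singleton] at h1
  exact h1.symm


end Vale.Agent.P102
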