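import Vale.Agent.P102.GridA
import Vale.Agent.P102.Rows
import Vale.Agent.P102.Group3

/-! The grid theorem. -/

open MeasureTheory ProbabilityTheory Filter Topology Set
open scoped ComplexConjugate

noncomputable section

namespace Vale.Agent.P102

variable {K Y : Type}
  [TopologicalSpace K] [MeasurableSpace K] [Nice K] [AddAction ℤ K] [ContinuousConstVAdd ℤ K]
  [TopologicalSpace Y] [MeasurableSpace Y] [Nice Y] [AddAction ℤ Y] [ContinuousConstVAdd ℤ Y]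
variable {ι α : Type} [Fintype ι] [Fintype α] {p : Ultrafilter (ι → ℤ)}

/-- `h1`: `grid_step` with `T = S ∖ {s}` and `CI_biSup` with `ℛ s = gσ K univ {s}`.
`h3`: `rowLim_rows`. `h2`: for `i ∉ J'`, `insert i J' ≠ univ`, `CI_biSup` with `ℬ = ⊥` gives
`Indep (gσ {i} S) (gσ J' univ)` for all `S ∈ 𝒮`; `ind_of_sated` with `β = cev (α → K) i`,
`ψ = crs (α → K) J'`, `F = prodF K 𝒮` gives independence of the whole column; `indOn_of_indep`. -/
theorem gridThm {μY : PM Y} {π : C(K, Y)} {𝔪 : PM (PM K)} (hS : Setup p μY π 𝔪)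
    (𝒮 : Set (Set α)) {𝔩 : PM (PM (α → K))} (hl : Inv 𝔩)
    (hm : ∀ s, pmap (pmap (cev K s)) 𝔩 = 𝔪)
    (hI : ∀ S ∈ 𝒮, ∀ᵐ μ : PM (α → K) ∂(𝔩 : Measure (PM (α → K))),
      IndOn (μ : Measure (α → K)) (fun s => cσ K {s}) S)
    (hsat : Sated (prodF K 𝒮) 𝔩) :
    ∀ᵐ Θ : PM (ι → α → K) ∂(rowLim p 𝔩 : Measure (PM (ι → α → K))),
      GH (Θ : Measure (ι → α → K)) 𝒮 := by
  classical
  have hstep : ∀ᵐ Θ : PM (ι → α → K) ∂(rowLim p 𝔩 : Measure (PM (ι → α → K))),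
      ∀ (S : Set α), S ∈ 𝒮 → ∀ s ∈ S,
      (∀ i, CI (Θ : Measure (ι → α → K)) (gσ K {i} {s}) (gσ K {l | l ≠ i} {s})
        (gσ K {l | l ≠ i} univ ⊔ gσ K univ (S \ {s}))) ∧
      ∀ (i : ι) (J : Set ι), i ∉ J → insert i J ≠ univ →
        CI (Θ : Measure (ι → α → K)) (gσ K {i} {s}) ⊥ (gσ K J univ ⊔ gσ K univ (S \ {s})) := by
    refine ae_all_iff.2 fun S => ?_
    by_cases hSm : S ∈ 𝒮
    swap
    · exact ae_of_all _ fun _ h => absurd h hSm
    have : ∀ s, ∀ᵐ Θ : PM (ι → α → K) ∂(rowLim p 𝔩 : Measure (PM (ι → α → K))), s ∈ S →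
        (∀ i, CI (Θ : Measure (ι → α → K)) (gσ K {i} {s}) (gσ K {l | l ≠ i} {s})
          (gσ K {l | l ≠ i} univ ⊔ gσ K univ (S \ {s}))) ∧
        ∀ (i : ι) (J : Set ι), i ∉ J → insert i J ≠ univ →
          CI (Θ : Measure (ι → α → K)) (gσ K {i} {s}) ⊥
            (gσ K J univ ⊔ gσ K univ (S \ {s})) := by
      intro s
      by_cases hs : s ∈ S
      swap
      · exact ae_of_all _ fun _ h => absurd h hs
      have h1 := grid_step hS hl (hm s) (T := S \ {s}) ((hI S hSm).mono fun μ hμ => by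
        have := hμ.indep_iSup (fun _ => cσ_le _) (J := {s}) (J' := S \ {s})
          (singleton_subset_iff.2 hs) diff_subset disjoint_sdiff_right
        rwa [← cσ_eq_iSup, ← cσ_eq_iSup] at this)
      exact h1.mono fun Θ h _ => h
    filter_upwards [ae_all_iff.2 this] with Θ h _ s hs using h s hs
  have hrows : ∀ᵐ Θ : PM (ι → α → K) ∂(rowLim p 𝔩 : Measure (PM (ι → α → K))),
      ∀ (S : Set α), S ∈ 𝒮 →
        IndOn (Θ : Measure (ι → α → K)) (fun s => gσ K (univ : Set ι) {s}) S := by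
    refine ae_all_iff.2 fun S => ?_
    by_cases hSm : S ∈ 𝒮
    · exact (rowLim_rows p (hI S hSm)).mono fun _ h _ => h
    · exact ae_of_all _ fun _ h => absurd h hSm
  have hcol : ∀ (i : ι) (J : Set ι),
      ∀ᵐ Θ : PM (ι → α → K) ∂(rowLim p 𝔩 : Measure (PM (ι → α → K))),
        i ∉ J → insert i J ≠ univ →
          Indep (gσ K {i} (univ : Set α)) (gσ K J (univ : Set α)) (Θ : Measure (ι → α → K)) := by
    intro i J
    by_cases hi : i ∈ J
    · exact ae_of_all _ fun _ h => absurd hi h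
    by_cases hJ : insert i J = univ
    · exact ae_of_all _ fun _ _ h => absurd hJ h
    have hs' : Sated (prodF K 𝒮) (pmap (pmap (cev (α → K) i)) (rowLim p 𝔩)) := by
      rwa [rowLim_slot p hl]
    have h1 := ind_of_sated (rowLim p 𝔩) (rowLim_inv p hl) (cev (α → K) i) (eqv_cev i)
      (crs (α → K) J) (eqv_crs J) _ hs' (by
        filter_upwards [hstep] with Θ hΘ f ⟨S, h, hSm, hf⟩
        have h2 : CI (Θ : Measure (ι → α → K)) (⨆ s ∈ (S : Set α), gσ K {i} {s})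
            (⨆ _s ∈ (S : Set α), ⊥) (gσ K J univ) := by
          refine CI_biSup (fun s => gσ K {i} {s}) (fun _ => ⊥) (fun s => gσ K univ {s}) _ _
            (gσ_le _ _) (fun _ => gσ_le _ _) (fun _ => gσ_mono (subset_univ _) subset_rfl)
            (fun _ => bot_le) fun s hs => ?_
          rw [← gσ_eq_iSup_right]
          exact (hΘ _ hSm s hs).2 i J hi hJ
        rw [← gσ_eq_iSup_right] at h2
        have h3 := (CI_bot_iff (gσ_le _ _) (gσ_le _ _)).1 (h2.mono_mid (ℬ' := ⊥) (by simp))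
        rw [IndepFun_iff_Indep, comap_crs, ← gσ_univ]
        refine indep_of_indep_of_le_left h3 (Measurable.comap_le ?_)
        have e : (fun w : ι → α → K => f (cev (α → K) i w)) =
            fun w => ∏ s ∈ S, h s (w i s) := funext fun w => hf _
        rw [e]
        exact Finset.measurable_prod _ fun s hs =>
          (h s).continuous.measurable.comp (measurable_gσ rfl hs))
    filter_upwards [h1] with Θ hΘ _ _
    rw [IndepFun_iff_Indep, comap_crs, ← gσ_univ] at hΘ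
    rw [gσ_univ {i}, cσ_singleton]
    exact hΘ
  filter_upwards [hstep, hrows, ae_all_iff.2 fun i => ae_all_iff.2 (hcol i)] with Θ h1 h3 h2
  refine ⟨fun S hSm i => ?_, fun J hJ => ?_, h3⟩
  · rw [gσ_eq_iSup_right {i} S, gσ_eq_iSup_right _ S]
    refine CI_biSup (fun s => gσ K {i} {s}) (fun s => gσ K {l | l ≠ i} {s})
      (fun s => gσ K univ {s}) _ _ (gσ_le _ _) (fun _ => gσ_le _ _)
      (fun _ => gσ_mono (subset_univ _) subset_rfl)
      (fun _ => gσ_mono subset_rfl (subset_univ _)) fun s hs => ?_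
    rw [← gσ_eq_iSup_right]
    exact (h1 S hSm s hs).1 i
  · refine indOn_of_indep (fun _ => gσ_le _ _) fun i hi => ?_
    rw [← gσ_eq_iSup_left]
    refine h2 i _ (by simp) ?_
    rwa [insert_diff_singleton, insert_eq_of_mem hi]

/-- `exists_sated` for `prodF K 𝒮`, `pmap_cev_eq_of_prodF`, `indOn_of_prodF`, `ae_pmap_of_ae`,
`gridThm`. -/
theorem exists_refine {μY : PM Y} {π : C(K, Y)} {𝔪 : PM (PM K)} (hS : Setup p μY π 𝔪)
    (𝒮 : Set (Set α)) (hc : ∀ s, ∃ S ∈ 𝒮, s ∈ S) {𝔰 : PM (PM (α → K))} (hl : Inv 𝔰)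
    (hm : ∀ s, pmap (pmap (cev K s)) 𝔰 = 𝔪)
    (hI : ∀ S ∈ 𝒮, ∀ᵐ μ : PM (α → K) ∂(𝔰 : Measure (PM (α → K))),
      IndOn (μ : Measure (α → K)) (fun s => cσ K {s}) S) :
    ∃ ρ : PM (PM (α → K) × PM (α → K)), Inv ρ ∧ pfst ρ = 𝔰 ∧ Mart ρ ∧
      (∀ᵐ q ∂(ρ : Measure (PM (α → K) × PM (α → K))),
        ∀ s, pmap (cev K s) q.2 = pmap (cev K s) q.1) ∧
      (∀ s, pmap (pmap (cev K s)) (psnd ρ) = 𝔪) ∧
      ∀ᵐ Θ : PM (ι → α → K) ∂(rowLim p (psnd ρ) : Measure (PM (ι → α → K))),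
        GH (Θ : Measure (ι → α → K)) 𝒮 := by
  obtain ⟨ρ, hρ, hfst, hmart, hpres, hsat⟩ := exists_sated 𝔰 hl (prodF K 𝒮)
  have hagree : ∀ᵐ q ∂(ρ : Measure (PM (α → K) × PM (α → K))),
      ∀ s, pmap (cev K s) q.2 = pmap (cev K s) q.1 :=
    hpres.mono fun q hq s => by
      obtain ⟨S, hSm, hs⟩ := hc s
      exact pmap_cev_eq_of_prodF hq hSm hs
  have hm' : ∀ s, pmap (pmap (cev K s)) (psnd ρ) = 𝔪 := fun s => by
    rw [← hm s, ← hfst, psnd, pfst, pmap_pmap, pmap_pmap]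
    exact pmap_congr (hagree.mono fun q hq => hq s)
  refine ⟨ρ, hρ, hfst, hmart, hagree, hm', gridThm hS 𝒮 (hρ.pmap eqv_snd) hm' ?_ hsat⟩
  intro S hSm
  refine ae_pmap_of_ae ContinuousMap.snd ρ ?_
  have h1 := hI S hSm
  rw [← hfst] at h1
  filter_upwards [hpres, ae_of_ae_pfst ρ h1] with q hq hq'
  exact indOn_of_prodF hq hSm hq'

/-- The main grid: `exists_refine` for `rowLim p 𝔪` and the proper subsets (`tprime`,
`rowLim_inv`, `rowLim_slot`); row laws by `rowLim_map`, column laws by `rowLim_slot`. -/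
theorem exists_main_grid [Nontrivial ι] {μY : PM Y} {π : C(K, Y)} {𝔪 : PM (PM K)}
    (hS : Setup p μY π 𝔪) :
    ∃ (ρ : PM (PM (ι → K) × PM (ι → K))) (𝔤 : PM (PM (ι → ι → K))),
      pfst ρ = rowLim p 𝔪 ∧ Mart ρ ∧
      (∀ s, pmap (pmap (cpi ι (cev K s))) 𝔤 = rowLim p 𝔪) ∧
      (∀ t, pmap (pmap (cev (ι → K) t)) 𝔤 = psnd ρ) ∧
      ∀ᵐ Θ : PM (ι → ι → K) ∂(𝔤 : Measure (PM (ι → ι → K))),
        GH (Θ : Measure (ι → ι → K)) {S | S ≠ univ} := by
  obtain ⟨ρ, hρ, hfst, hmart, -, hm', hG⟩ := exists_refine hS {S : Set ι | S ≠ univ}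
    (fun s => by
      obtain ⟨s', hs'⟩ := exists_ne s
      refine ⟨{s}, fun h => hs' ?_, rfl⟩
      have : s' ∈ ({s} : Set ι) := h ▸ mem_univ _
      exact this)
    (rowLim_inv p hS.sys.1) (rowLim_slot p hS.sys.1)
    fun S hSm => tprime p hS.eqv hS.sys hS.sated (hS.prop S hSm)
  refine ⟨ρ, rowLim p (psnd ρ), hfst, hmart, fun s => ?_, fun t => ?_, hG⟩
  · rw [rowLim_map p (eqv_cev s), hm']
  · exact rowLim_slot p (hρ.pmap eqv_snd) t


end Vale.Agent.P102
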