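import Vale.Agent.P102.VdC
import Vale.Agent.P102.Alg

/-! The group lemma. -/

open MeasureTheory ProbabilityTheory Filter Topology Set
open scoped ComplexConjugate

noncomputable section

namespace Vale.Agent.P102

variable {Y : Type} [TopologicalSpace Y] [MeasurableSpace Y] [Nice Y] [AddAction ℤ Y]
  [ContinuousConstVAdd ℤ Y] {X G : Type} [MeasurableSpace X] [CommGroup G] {μ : Measure X}
  [IsProbabilityMeasure μ] {π : X → Y} {r : G → X → ℂ} {σ : MulAut G} {μY : PM Y}
variable {ι : Type} [Fintype ι]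

theorem groupl_sum {I : Type} [Fintype I] {f : I → X → ℂ} (hf : ∀ i, BM (f i)) :
    BM fun x => ∑ i, f i x := by
  choose C hC using fun i => (hf i).2
  exact ⟨Finset.measurable_fun_sum _ fun i _ => (hf i).1, ∑ i, C i,
    fun x => norm_sum_le_of_le _ fun i _ => hC i x⟩

theorem groupl_gram {I : Type} [Fintype I] (d : I → ℂ) {w : I → X → ℂ} (hw : ∀ i, BM (w i)) :
    ((∫ x, ‖∑ i, d i * w i x‖ ^ 2 ∂μ : ℝ) : ℂ) =
      ∑ i, ∑ j, d i * conj (d j) * ∫ x, w i x * conj (w j x) ∂μ := by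
  have h1 : ∀ i j, Integrable (fun x => d i * w i x * conj (d j * w j x)) μ := fun i j =>
    (((BM.const _).mul (hw i)).mul ((BM.const _).mul (hw j)).conj).integrable μ
  simp only [← integral_complex_ofReal, Complex.ofReal_pow, ← Complex.mul_conj', map_sum,
    Finset.sum_mul_sum, ← integral_const_mul, mul_mul_mul_comm (d _) (conj _), ← map_mul]
  rw [integral_finsetSum _ fun i _ => integrable_finsetSum _ fun j _ => h1 i j]
  exact Finset.sum_congr rfl fun i _ => integral_finsetSum _ fun j _ => h1 i j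

theorem groupl_close {I : Type} {F : Filter I} {f : I → ℂ} {c : ℂ} {B : ℝ} (hB : 0 ≤ B)
    (h : ∀ ε : ℝ, 0 < ε → ∃ (f' : I → ℂ) (c' : ℂ), Tendsto f' F (𝓝 c') ∧
      (∀ e, ‖f e - f' e‖ ≤ ε * B) ∧ ‖c' - c‖ ≤ ε * B) : Tendsto f F (𝓝 c) := by
  refine Metric.tendsto_nhds.2 fun ε hε => ?_
  obtain ⟨f', c', h1, h2, h3⟩ := h (ε / 3 / (B + 1)) (by positivity)
  have h4 : ε / 3 / (B + 1) * B ≤ ε / 3 := by
    rw [div_mul_eq_mul_div, div_le_iff₀ (by positivity)]
    nlinarith
  filter_upwards [Metric.tendsto_nhds.1 h1 (ε / 3) (by positivity)] with e he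
  have h5 := dist_triangle4 (f e) (f' e) c' c
  rw [dist_eq_norm (f e) (f' e), dist_eq_norm c'] at h5
  linarith [h2 e]

theorem groupl_l1 {w : X → ℂ} (hw : BM w) {ε : ℝ} (hε : 0 < ε)
    (h : ∫ x, ‖w x‖ ^ 2 ∂μ < ε ^ 2) : ∫ x, ‖w x‖ ∂μ ≤ ε := by
  have h1 : Integrable (fun x => ‖w x‖ ^ 2) μ := (hw.memLp μ 2).norm.integrable_sq
  have h2 := integral_mono ((hw.integrable μ).norm.const_mul (2 * ε))
    ((integrable_const (ε ^ 2)).add h1) fun x => by
      simp only [Pi.add_apply]
      nlinarith [sq_nonneg (ε - ‖w x‖)]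
  rw [integral_const_mul, integral_add' (integrable_const _) h1] at h2
  simp only [integral_const, probReal_univ, one_smul] at h2
  nlinarith

omit [IsProbabilityMeasure μ] [TopologicalSpace Y] [Nice Y] [AddAction ℤ Y]
  [ContinuousConstVAdd ℤ Y] in
theorem groupl_int (hπ : MeasurePreserving π μ (μY : Measure Y)) {f : Y → ℂ} (hf : BM f) :
    ∫ x, f (π x) ∂μ = ∫ y, f y ∂(μY : Measure Y) := by
  rw [← hπ.map_eq, integral_map hπ.aemeasurable hf.1.aestronglyMeasurable]

omit [IsProbabilityMeasure μ] [TopologicalSpace Y] [Nice Y] [ContinuousConstVAdd ℤ Y] in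
theorem groupl_bm (h : GData μ π G r σ) (a : G) : BM (r a) :=
  ⟨h.meas a, 1, fun x => (h.norm a x).le⟩

theorem groupl_inner (h : GData μ π G r σ) (a b : G) :
    ∫ x, r a x * conj (r b x) ∂μ = ∫ x, r (a * b⁻¹) x ∂μ :=
  integral_congr_ae (by
    filter_upwards [h.mul a b⁻¹, h.inv b] with x h1 h2
    rw [h1, h2])

/-- If all `a l` are constant both sides agree for every `e`. Otherwise the right side is zero,
and the left side is zero unless the product is in `h.C`; if that happened frequently,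
`alg_nil_mul` and `GData.vdc` would make the nonconstant `a l` uncorrelated. -/
theorem GData.eventually_prod (h : GData μ π G r σ) (hY : Inv μY) (hm : MixY μY)
    (hπ : MeasurePreserving π μ (μY : Measure Y)) (a : ι → G)
    (ha : ∀ l, ∃ f : Y → ℂ, BM f ∧ ∫ x, f (π x) * conj (r (a l) x) ∂μ ≠ 0) :
    ∀ᶠ e in sepF ι, ∫ x, ∏ l, r ((σ ^ e l) (a l)) x ∂μ = ∏ l, ∫ x, r (a l) x ∂μ := by
  by_cases h1 : ∀ l, a l ∈ h.C
  · refine .of_forall fun e => ?_
    have h2 : ∀ l, ∀ᵐ x ∂μ, r ((σ ^ e l) (a l)) x = ∫ x, r (a l) x ∂μ := fun l => by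
      obtain ⟨z, hz⟩ := (h.zpow_mem_C (e l) _).2 (h1 l)
      rwa [← h.integral_zpow (e l), integral_congr_ae hz, integral_const, probReal_univ, one_smul]
    rw [integral_congr_ae ((eventually_all.2 h2).mono fun x hx =>
      Finset.prod_congr rfl fun l _ => hx l), integral_const, probReal_univ, one_smul]
  obtain ⟨l, hl⟩ := not_forall.1 h1
  have h2 := h.integral_eq_zero hl
  by_contra h3
  obtain ⟨q, s, h4, h5⟩ := alg_nil_mul σ h.C (fun b => by simpa using h.zpow_mem_C 1 b) a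
    ((not_eventually.1 h3).mono fun e he => by
      by_contra h4
      exact he (((integral_congr_ae (h.prod _ _)).symm.trans (h.integral_eq_zero h4)).trans
        (Finset.prod_eq_zero (Finset.mem_univ l) h2).symm)) l
  obtain ⟨f, hf, h6⟩ := ha l
  exact h6 ((h.vdc hY hm hπ h4 s _ h5 hf).trans (by rw [h2, map_zero, mul_zero]))

/-- The approximation error does not depend on the time (expand the square, use `aut_zpow`,
`integral_zpow` and invariance). -/
theorem GData.error_eq (h : GData μ π G r σ) (hY : Inv μY)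
    (hπ : MeasurePreserving π μ (μY : Measure Y)) {g : Y → ℂ} (hg : BM g) {n : ℕ}
    (c : Fin n → ℂ) (a : Fin n → G) (k : ℤ) :
    ∫ x, ‖g (k +ᵥ π x) - ∑ j, c j * r ((σ ^ k) (a j)) x‖ ^ 2 ∂μ =
      ∫ x, ‖g (π x) - ∑ j, c j * r (a j) x‖ ^ 2 ∂μ := by
  have hk := (hY.measurePreserving k).comp hπ
  have h1 := groupl_gram (μ := μ) (fun o : Option (Fin n) => o.elim 1 fun j => -c j)
    (w := fun o => o.elim (fun x => g (k +ᵥ π x)) fun j => r ((σ ^ k) (a j)))
    fun o => o.rec (hg.comp hk.measurable) fun j => groupl_bm h _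
  have h2 := groupl_gram (μ := μ) (fun o : Option (Fin n) => o.elim 1 fun j => -c j)
    (w := fun o => o.elim (fun x => g (π x)) fun j => r (a j))
    fun o => o.rec (hg.comp hπ.measurable) fun j => groupl_bm h _
  have h3 := h1.trans (Eq.trans (Finset.sum_congr rfl fun i _ => Finset.sum_congr rfl fun j _ =>
    congrArg _ (by
      rcases i with _ | i <;> rcases j with _ | j <;> simp only [Option.elim]
      · exact (groupl_int hk (hg.mul hg.conj)).trans (groupl_int hπ (hg.mul hg.conj)).symm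
      · exact h.aut_zpow k _ hg
      · simpa only [← integral_conj, map_mul, Complex.conj_conj, mul_comm] using
          congrArg conj (h.aut_zpow k (a i) hg)
      · rw [groupl_inner h, groupl_inner h, ← map_inv, ← map_mul, h.integral_zpow])) h2.symm)
  simpa [← sub_eq_add_neg] using Complex.ofReal_injective h3

/-- Telescoping: families `u l : ℤ → X → ℂ`, uniformly bounded and measurable, with constant
means `m l`. If the limit holds for all tuples from a class `𝒯` and every `u l` is uniformly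
approximable in `L¹` by members of `𝒯`, it holds for `u` (replace one slot at a time: induction
on the finset of slots not yet in `𝒯`). -/
theorem tendsto_of_approx {F : Filter (ι → ℤ)} (𝒯 : Set (ℤ → X → ℂ))
    (hb : ∀ v ∈ 𝒯, (∀ k, Measurable (v k)) ∧ (∃ C : ℝ, ∀ k x, ‖v k x‖ ≤ C))
    (hT : ∀ v : ι → ℤ → X → ℂ, (∀ l, v l ∈ 𝒯) →
      Tendsto (fun e : ι → ℤ => ∫ x, ∏ l, v l (e l) x ∂μ) F (𝓝 (∏ l, ∫ x, v l 0 x ∂μ)))
    (u : ι → ℤ → X → ℂ) (hu : ∀ l, (∀ k, Measurable (u l k)) ∧ ∃ C : ℝ, ∀ k x, ‖u l k x‖ ≤ C)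
    (happ : ∀ l, ∀ ε : ℝ, 0 < ε → ∃ v ∈ 𝒯, ∀ k, ∫ x, ‖u l k x - v k x‖ ∂μ ≤ ε) :
    Tendsto (fun e : ι → ℤ => ∫ x, ∏ l, u l (e l) x ∂μ) F (𝓝 (∏ l, ∫ x, u l 0 x ∂μ)) := by
  classical
  suffices H : ∀ S : Finset ι, (∀ l, l ∉ S → u l ∈ 𝒯) →
      Tendsto (fun e : ι → ℤ => ∫ x, ∏ l, u l (e l) x ∂μ) F (𝓝 (∏ l, ∫ x, u l 0 x ∂μ)) from
    H Finset.univ (by simp)
  intro S hS
  induction S using Finset.induction_on generalizing u with
  | empty => exact hT u (by simpa using hS)
  | insert i S _ ih =>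
    choose C hC using fun l => (hu l).2
    have h1 : ∀ l k, BM (u l k) := fun l k => ⟨(hu l).1 k, C l, hC l k⟩
    have h2 : ∀ l, ‖∫ x, u l 0 x ∂μ‖ ≤ C l := fun l => by
      simpa using norm_integral_le_of_norm_le_const (μ := μ) (.of_forall (hC l 0))
    refine groupl_close (B := ∏ l ∈ Finset.univ.erase i, C l)
      (Finset.prod_nonneg fun l _ => (norm_nonneg _).trans (h2 l)) fun ε hε => ?_
    obtain ⟨v, v1, v2⟩ := happ i ε hε
    have v3 : ∀ k, BM (v k) := fun k => ⟨(hb v v1).1 k, (hb v v1).2.imp fun _ h => h k⟩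
    have h3 : ∀ Φ : ι → (ℤ → X → ℂ) → ℂ, ∏ l, Φ l (u l) - ∏ l, Φ l (Function.update u i v l) =
        (Φ i (u i) - Φ i v) * ∏ l ∈ Finset.univ.erase i, Φ l (u l) := fun Φ => by
      rw [← Finset.mul_prod_erase _ _ (Finset.mem_univ i),
        ← Finset.mul_prod_erase _ (fun l => Φ l _) (Finset.mem_univ i), Function.update_self,
        sub_mul, Finset.prod_congr rfl fun l hl =>
          congrArg (Φ l) (Function.update_of_ne (Finset.ne_of_mem_erase hl) v u)]
    have h4 : ∀ {Q : (ℤ → X → ℂ) → Prop} {l}, Q v → (l ≠ i → Q (u l)) →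
        Q (Function.update u i v l) := fun {Q l} a1 a2 => by
      rcases eq_or_ne l i with rfl | a3
      · rwa [Function.update_self]
      · exact Function.update_of_ne a3 v u ▸ a2 a3
    refine ⟨_, _, ih (Function.update u i v) (fun l => h4 (Q := fun w => (∀ k, Measurable (w k)) ∧
      ∃ C : ℝ, ∀ k x, ‖w k x‖ ≤ C) (hb v v1) fun _ => hu l) (fun l => h4 (Q := fun w =>
        ∀ ε : ℝ, 0 < ε → ∃ v ∈ 𝒯, ∀ k, ∫ x, ‖w k x - v k x‖ ∂μ ≤ ε)
        (fun ε hε => ⟨v, v1, by simpa using hε.le⟩) fun _ => happ l)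
      fun l hl => h4 (Q := (· ∈ 𝒯)) v1 fun a => hS l (by simp [a, hl]), fun e => ?_, ?_⟩
    · rw [← integral_sub ((BM.prod _ fun l _ => h1 l _).integrable μ)
        ((BM.prod _ fun l _ => h4 (Q := fun w => BM (w (e l))) (v3 _) fun _ => h1 l _).integrable μ)]
      refine (norm_integral_le_of_norm_le ((((h1 i (e i)).sub (v3 (e i))).integrable μ).norm.mul_const
        (∏ l ∈ Finset.univ.erase i, C l)) (.of_forall fun x => ?_)).trans ?_
      · rw [h3 fun l w => w (e l) x, norm_mul, norm_prod]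
        exact mul_le_mul_of_nonneg_left (Finset.prod_le_prod (fun _ _ => norm_nonneg _)
          fun l _ => hC l _ x) (norm_nonneg _)
      · rw [integral_mul_const]
        exact mul_le_mul_of_nonneg_right (v2 _)
          (Finset.prod_nonneg fun l _ => (norm_nonneg _).trans (h2 l))
    · rw [norm_sub_rev, h3 fun l w => ∫ x, w 0 x ∂μ, norm_mul, norm_prod,
        ← integral_sub ((h1 i 0).integrable μ) ((v3 0).integrable μ)]
      exact mul_le_mul ((norm_integral_le_integral_norm _).trans (v2 0))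
        (Finset.prod_le_prod (fun _ _ => norm_nonneg _) fun l _ => h2 l)
        (Finset.prod_nonneg fun _ _ => norm_nonneg _) hε.le

/-- `tendsto_of_approx` with `𝒯` the families `k ↦ ∑ j, c j * r ((σ ^ k) (a j))` with correlated
`a j` (expand the product with `Finset.prod_univ_sum`, use `eventually_prod`), and `error_eq`. -/
theorem group_lemma (h : GData μ π G r σ) (hY : Inv μY) (hm : MixY μY)
    (hπ : MeasurePreserving π μ (μY : Measure Y)) {g : ι → Y → ℂ} (hg : ∀ l, BM (g l))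
    (hs : ∀ l, InSpan μ (fun χ => ∃ a, χ = r a ∧
      ∃ f : Y → ℂ, BM f ∧ ∫ x, f (π x) * conj (r a x) ∂μ ≠ 0) fun x => g l (π x)) :
    Tendsto (fun e : ι → ℤ => ∫ y, ∏ l, g l (e l +ᵥ y) ∂(μY : Measure Y)) (sepF ι)
      (𝓝 (∏ l, ∫ y, g l y ∂(μY : Measure Y))) := by
  classical
  have h1 : ∀ l (k : ℤ), BM fun y => g l (k +ᵥ y) := fun l k =>
    (hg l).comp (hY.measurePreserving k).measurable
  have h2 : ∀ {n : ℕ} (c : Fin n → ℂ) (a : Fin n → G), BM fun x => ∑ j, c j * r (a j) x :=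
    fun c a => groupl_sum fun j => (BM.const _).mul (groupl_bm h _)
  have := tendsto_of_approx (μ := μ) (F := sepF ι) {v | ∃ (n : ℕ) (c : Fin n → ℂ) (a : Fin n → G),
      (∀ j, ∃ f : Y → ℂ, BM f ∧ ∫ x, f (π x) * conj (r (a j) x) ∂μ ≠ 0) ∧
      v = fun k x => ∑ j, c j * r ((σ ^ k) (a j)) x} ?_ ?_ (fun l k x => g l (k +ᵥ π x))
    (fun l => ⟨fun k => ((h1 l k).comp hπ.measurable).1, (hg l).2.imp fun _ h _ _ => h _⟩) ?_
  · simpa only [zero_vadd, groupl_int hπ (hg _),
      fun e : ι → ℤ => groupl_int hπ (BM.prod Finset.univ fun l _ => h1 l (e l))] using this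
  · rintro _ ⟨n, c, a, -, rfl⟩
    exact ⟨fun k => (h2 c _).1, ∑ j, ‖c j‖, fun k x => norm_sum_le_of_le _ fun j _ => by
      rw [norm_mul, h.norm, mul_one]⟩
  · intro v hv
    choose n c a ha hv using hv
    refine tendsto_const_nhds.congr' ((eventually_all.2 fun p : (l : ι) → Fin (n l) =>
      h.eventually_prod hY hm hπ (fun l => a l (p l)) fun l => ha l (p l)).mono fun e he => ?_)
    have h3 : ∀ l, ∫ x, v l 0 x ∂μ = ∑ j, c l j * ∫ x, r (a l j) x ∂μ := fun l => by
      simp only [hv, zpow_zero, MulAut.one_apply, ← integral_const_mul]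
      exact integral_finsetSum _ fun j _ => ((groupl_bm h _).integrable μ).const_mul _
    simp only [h3]
    simp only [hv, Finset.prod_univ_sum, Finset.prod_mul_distrib, ← he]
    rw [integral_finsetSum _ fun p _ =>
      ((BM.prod _ fun l _ => groupl_bm h _).integrable μ).const_mul _]
    simp only [integral_const_mul]
  · intro l ε hε
    obtain ⟨n, c, χ, h3, h4⟩ := hs l (ε ^ 2) (by positivity)
    choose a ha h3 using h3
    refine ⟨_, ⟨n, c, a, h3, rfl⟩, fun k =>
      groupl_l1 (((h1 l k).comp hπ.measurable).sub (h2 c _)) hε ?_⟩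
    rw [h.error_eq hY hπ (hg l)]
    simpa only [ha] using h4


end Vale.Agent.P102
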