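import Vale.Agent.P102.HDefs

/-! Basic facts on `XX`, `mulL`, `PP`, `pr` and `star`. -/

open MeasureTheory ProbabilityTheory Filter Topology Set
open scoped ComplexConjugate

noncomputable section

namespace Vale.Agent.P102

variable {Ω : Type} {𝒜 𝒜' ℬ ℬ' 𝒞 𝒞' : MeasurableSpace Ω} {mΩ : MeasurableSpace Ω}
  {Θ : Measure Ω} [IsProbabilityMeasure Θ]

theorem mem_XX {a : L2 Θ} : a ∈ XX Θ 𝒜 ↔ AEStronglyMeasurable[𝒜] (a : Ω → ℂ) Θ := by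
  unfold XX
  exact mem_lpMeas_iff_aestronglyMeasurable

theorem XX_mono (h : 𝒜 ≤ ℬ) : XX Θ 𝒜 ≤ XX Θ ℬ := by
  intro a ha
  rw [mem_XX] at ha ⊢
  exact ha.mono h

theorem isClosed_XX (h : 𝒜 ≤ mΩ) : IsClosed (XX Θ 𝒜 : Set (L2 Θ)) := by
  have h1 := isClosed_aestronglyMeasurable (F := ℂ) (p := 2) (μ := Θ) h
  have h2 : (XX Θ 𝒜 : Set (L2 Θ)) = {f : L2 Θ | AEStronglyMeasurable[𝒜] (f : Ω → ℂ) Θ} := by
    ext a
    exact mem_XX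
  rw [h2]
  exact h1

omit [IsProbabilityMeasure Θ] in
theorem hb1_PP_eq (h : 𝒜 ≤ mΩ) (f : L2 Θ) :
    PP Θ 𝒜 f = ((condExpL2 ℂ ℂ h f : @lpMeas Ω ℂ ℂ _ _ _ 𝒜 mΩ 2 Θ) : L2 Θ) := by
  unfold PP
  rw [dif_pos h]
  rfl

omit [IsProbabilityMeasure Θ] in
theorem hb1_PP_zero (h : ¬ 𝒜 ≤ mΩ) (f : L2 Θ) : PP Θ 𝒜 f = 0 := by
  unfold PP
  rw [dif_neg h]
  rfl

theorem PP_ae (h : 𝒜 ≤ mΩ) (f : L2 Θ) : (PP Θ 𝒜 f : Ω → ℂ) =ᵐ[Θ] Θ[(f : Ω → ℂ) | 𝒜] := by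
  rw [hb1_PP_eq h]
  have h1 := MemLp.condExpL2_ae_eq_condExp (𝕜 := ℂ) h (Lp.memLp f)
  rw [Lp.toLp_coeFn] at h1
  exact h1

theorem PP_mem (f : L2 Θ) : PP Θ 𝒜 f ∈ XX Θ 𝒜 := by
  by_cases h : 𝒜 ≤ mΩ
  · rw [hb1_PP_eq h]
    exact (condExpL2 ℂ ℂ h f).2
  · rw [hb1_PP_zero h]
    exact (XX Θ 𝒜).zero_mem

theorem hb1_inner_PP_left (h : 𝒜 ≤ mΩ) (f : L2 Θ) {g : L2 Θ} (hg : g ∈ XX Θ 𝒜) :
    inner ℂ (PP Θ 𝒜 f) g = inner ℂ f g := by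
  rw [hb1_PP_eq h]
  exact inner_condExpL2_eq_inner_fun h f g (mem_XX.1 hg)

theorem hb1_inner_PP_right (h : 𝒜 ≤ mΩ) (f : L2 Θ) {g : L2 Θ} (hg : g ∈ XX Θ 𝒜) :
    inner ℂ g (PP Θ 𝒜 f) = inner ℂ g f := by
  rw [← inner_conj_symm, hb1_inner_PP_left h f hg, inner_conj_symm]

theorem hb1_eq_of_inner {a b : L2 Θ} (ha : a ∈ XX Θ 𝒜) (hb : b ∈ XX Θ 𝒜)
    (h : ∀ ψ ∈ XX Θ 𝒜, inner ℂ ψ a = inner ℂ ψ b) : a = b := by
  have h1 := h (a - b) ((XX Θ 𝒜).sub_mem ha hb)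
  rw [← sub_eq_zero, ← inner_sub_right, inner_self_eq_zero, sub_eq_zero] at h1
  exact h1

theorem PP_of_mem (h : 𝒜 ≤ mΩ) {f : L2 Θ} (hf : f ∈ XX Θ 𝒜) : PP Θ 𝒜 f = f := by
  refine hb1_eq_of_inner (PP_mem f) hf fun ψ hψ => ?_
  exact hb1_inner_PP_right h f hψ

theorem norm_PP_le (f : L2 Θ) : ‖PP Θ 𝒜 f‖ ≤ ‖f‖ := by
  by_cases h : 𝒜 ≤ mΩ
  · rw [hb1_PP_eq h]
    exact norm_condExpL2_coe_le h f
  · rw [hb1_PP_zero h, norm_zero]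
    exact norm_nonneg _

theorem PP_PP (h : 𝒜 ≤ ℬ) (h' : ℬ ≤ mΩ) (f : L2 Θ) : PP Θ 𝒜 (PP Θ ℬ f) = PP Θ 𝒜 f := by
  refine hb1_eq_of_inner (PP_mem _) (PP_mem _) fun ψ hψ => ?_
  rw [hb1_inner_PP_right (h.trans h') _ hψ, hb1_inner_PP_right (h.trans h') _ hψ,
    hb1_inner_PP_right h' _ (XX_mono h hψ)]

theorem inner_PP (h : 𝒜 ≤ mΩ) (f g : L2 Θ) :
    inner ℂ (PP Θ 𝒜 f) g = inner ℂ f (PP Θ 𝒜 g) := by
  rw [hb1_PP_eq h, hb1_PP_eq h]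
  exact inner_condExpL2_left_eq_right h

/-- Pythagoras. -/
theorem mem_XX_of_norm_PP (h : 𝒜 ≤ mΩ) {f : L2 Θ} (hf : ‖f‖ ≤ ‖PP Θ 𝒜 f‖) : f ∈ XX Θ 𝒜 := by
  have h1 : inner ℂ (PP Θ 𝒜 f) (f - PP Θ 𝒜 f) = 0 := by
    rw [inner_sub_right, hb1_inner_PP_right h f (PP_mem f), sub_self]
  have h2 := norm_add_sq_eq_norm_sq_add_norm_sq_of_inner_eq_zero _ _ h1
  rw [add_sub_cancel] at h2
  have h3 : ‖f‖ * ‖f‖ ≤ ‖PP Θ 𝒜 f‖ * ‖PP Θ 𝒜 f‖ :=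
    mul_le_mul hf hf (norm_nonneg _) (norm_nonneg _)
  have h4 : ‖f - PP Θ 𝒜 f‖ * ‖f - PP Θ 𝒜 f‖ = 0 :=
    le_antisymm (by linarith) (mul_self_nonneg _)
  have h5 : f = PP Θ 𝒜 f := sub_eq_zero.1 (norm_eq_zero.1 (mul_self_eq_zero.1 h4))
  rw [h5]
  exact PP_mem f

theorem star_ae (a : L2 Θ) : ((star a : L2 Θ) : Ω → ℂ) =ᵐ[Θ] fun ω => conj (a ω) := by
  filter_upwards [Lp.coeFn_star a] with ω hω
  rw [hω]
  rfl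

theorem star_mem_XX {a : L2 Θ} (ha : a ∈ XX Θ 𝒜) : star a ∈ XX Θ 𝒜 := by
  rw [mem_XX] at ha ⊢
  refine AEStronglyMeasurable.congr ?_ (star_ae a).symm
  exact Complex.continuous_conj.comp_aestronglyMeasurable ha

theorem norm_star_L2 (a : L2 Θ) : ‖star a‖ = ‖a‖ := by
  rw [Lp.norm_def, Lp.norm_def, eLpNorm_congr_ae (Lp.coeFn_star a), eLpNorm_star]

theorem star_add_L2 (a b : L2 Θ) : star (a + b) = star a + star b := by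
  apply Lp.ext
  filter_upwards [star_ae (a + b), Lp.coeFn_add a b, Lp.coeFn_add (star a) (star b), star_ae a,
    star_ae b] with ω h1 h2 h3 h4 h5
  rw [h1, h2, h3, Pi.add_apply, Pi.add_apply, h4, h5, map_add]

theorem star_smul_L2 (c : ℂ) (a : L2 Θ) : star (c • a) = conj c • star a := by
  apply Lp.ext
  filter_upwards [star_ae (c • a), Lp.coeFn_smul c a, Lp.coeFn_smul (conj c) (star a),
    star_ae a] with ω h1 h2 h3 h4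
  rw [h1, h2, h3, Pi.smul_apply, Pi.smul_apply, h4, smul_eq_mul, smul_eq_mul, map_mul]

theorem star_zero_L2 : star (0 : L2 Θ) = 0 := by
  rw [← norm_eq_zero, norm_star_L2, norm_zero]

theorem hb1_star_sub (a b : L2 Θ) : star (a - b) = star a - star b := by
  rw [eq_sub_iff_add_eq, ← star_add_L2, sub_add_cancel]

theorem continuous_star_L2 : Continuous fun a : L2 Θ => star a := by
  have : Isometry fun a : L2 Θ => star a := by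
    refine Isometry.of_dist_eq fun a b => ?_
    rw [dist_eq_norm, dist_eq_norm, ← hb1_star_sub, norm_star_L2]
  exact this.continuous

theorem hb1_inner_star (a b : L2 Θ) : inner ℂ a (star b) = conj (inner ℂ (star a) b) := by
  rw [L2.inner_def, L2.inner_def, ← integral_conj]
  refine integral_congr_ae ?_
  filter_upwards [star_ae a, star_ae b] with ω h1 h2
  rw [h1, h2]
  simp

theorem star_PP (f : L2 Θ) : star (PP Θ 𝒜 f) = PP Θ 𝒜 (star f) := by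
  by_cases h : 𝒜 ≤ mΩ
  · refine hb1_eq_of_inner (star_mem_XX (PP_mem f)) (PP_mem _) fun ψ hψ => ?_
    rw [hb1_inner_PP_right h _ hψ, hb1_inner_star, hb1_inner_star,
      hb1_inner_PP_right h _ (star_mem_XX hψ)]
  · rw [hb1_PP_zero h, hb1_PP_zero h, star_zero_L2]

omit [IsProbabilityMeasure Θ] in
theorem hb1_mulL_ae {a b : L2 Θ} (h : MemLp (fun ω => a ω * b ω) 2 Θ) :
    (mulL a b : Ω → ℂ) =ᵐ[Θ] fun ω => a ω * b ω := by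
  unfold mulL
  rw [dif_pos h]
  exact h.coeFn_toLp

omit [IsProbabilityMeasure Θ] in
theorem hb1_mulL_zero {a b : L2 Θ} (h : ¬ MemLp (fun ω => a ω * b ω) 2 Θ) : mulL a b = 0 := by
  unfold mulL
  rw [dif_neg h]

theorem hb1_memLp_star {a b : L2 Θ} (h : MemLp (fun ω => a ω * b ω) 2 Θ) :
    MemLp (fun ω => (star a : L2 Θ) ω * (star b : L2 Θ) ω) 2 Θ := by
  refine (memLp_congr_ae ?_).1 h.star
  filter_upwards [star_ae a, star_ae b] with ω h1 h2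
  rw [h1, h2, ← map_mul]
  rfl

theorem star_mulL (a b : L2 Θ) : star (mulL a b) = mulL (star a) (star b) := by
  by_cases h : MemLp (fun ω => a ω * b ω) 2 Θ
  · apply Lp.ext
    filter_upwards [star_ae (mulL a b), hb1_mulL_ae h, hb1_mulL_ae (hb1_memLp_star h), star_ae a,
      star_ae b] with ω h1 h2 h3 h4 h5
    rw [h1, h2, h3, h4, h5, map_mul]
  · have h' : ¬ MemLp (fun ω => (star a : L2 Θ) ω * (star b : L2 Θ) ω) 2 Θ := by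
      intro h'
      have h2 := hb1_memLp_star h'
      rw [star_star, star_star] at h2
      exact h h2
    rw [hb1_mulL_zero h, hb1_mulL_zero h', star_zero_L2]

theorem inner_eq_pr (a b : L2 Θ) : inner ℂ a b = pr (star a) b := by
  rw [L2.inner_def, pr]
  refine integral_congr_ae ?_
  filter_upwards [star_ae a] with ω h1
  rw [h1]
  simp [mul_comm]

theorem pr_eq_inner (a b : L2 Θ) : pr a b = inner ℂ (star a) b := by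
  rw [inner_eq_pr, star_star]

theorem pr_comm (a b : L2 Θ) : pr a b = pr b a := by
  unfold pr
  simp_rw [mul_comm]

theorem pr_PP (h : 𝒜 ≤ mΩ) {a : L2 Θ} (ha : a ∈ XX Θ 𝒜) (f : L2 Θ) :
    pr a (PP Θ 𝒜 f) = pr a f := by
  rw [pr_eq_inner, pr_eq_inner, hb1_inner_PP_right h f (star_mem_XX ha)]

theorem eq_of_pr {a b : L2 Θ} (ha : a ∈ XX Θ 𝒜) (hb : b ∈ XX Θ 𝒜)
    (h : ∀ ψ ∈ XX Θ 𝒜, pr ψ a = pr ψ b) : a = b := by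
  refine hb1_eq_of_inner ha hb fun ψ hψ => ?_
  rw [inner_eq_pr, inner_eq_pr]
  exact h _ (star_mem_XX hψ)

theorem mulL_comm (a b : L2 Θ) : mulL a b = mulL b a := by
  have h0 : (fun ω => a ω * b ω) = fun ω => b ω * a ω := by
    funext ω
    exact mul_comm _ _
  by_cases h : MemLp (fun ω => a ω * b ω) 2 Θ
  · have h' : MemLp (fun ω => b ω * a ω) 2 Θ := h0 ▸ h
    apply Lp.ext
    filter_upwards [hb1_mulL_ae h, hb1_mulL_ae h'] with ω h1 h2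
    rw [h1, h2, mul_comm]
  · have h' : ¬ MemLp (fun ω => b ω * a ω) 2 Θ := h0 ▸ h
    rw [hb1_mulL_zero h, hb1_mulL_zero h']

theorem mulL_ae_of_memLp {a b : L2 Θ} (h : MemLp (fun ω => a ω * b ω) 2 Θ) :
    (mulL a b : Ω → ℂ) =ᵐ[Θ] fun ω => a ω * b ω := by
  exact hb1_mulL_ae h

theorem hb1_indepFun (hi : Indep 𝒜 ℬ Θ) {a b : L2 Θ}
    (ha : a ∈ XX Θ 𝒜) (hb : b ∈ XX Θ ℬ) : IndepFun (a : Ω → ℂ) (b : Ω → ℂ) Θ := by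
  rw [mem_XX] at ha hb
  refine IndepFun.congr ?_ ha.ae_eq_mk.symm hb.ae_eq_mk.symm
  rw [IndepFun_iff_Indep]
  exact indep_of_indep_of_le_right
    (indep_of_indep_of_le_left hi ha.stronglyMeasurable_mk.measurable.comap_le)
    hb.stronglyMeasurable_mk.measurable.comap_le

theorem hb1_indepFun_sq (hi : Indep 𝒜 ℬ Θ) {a b : L2 Θ}
    (ha : a ∈ XX Θ 𝒜) (hb : b ∈ XX Θ ℬ) :
    IndepFun (fun ω => ‖a ω‖ ^ 2) (fun ω => ‖b ω‖ ^ 2) Θ :=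
  (hb1_indepFun hi ha hb).comp (φ := fun z : ℂ => ‖z‖ ^ 2) (ψ := fun z : ℂ => ‖z‖ ^ 2)
    (by fun_prop) (by fun_prop)

omit [IsProbabilityMeasure Θ] in
theorem hb1_int_sq (a : L2 Θ) : Integrable (fun ω => ‖a ω‖ ^ 2) Θ :=
  (memLp_two_iff_integrable_sq_norm (Lp.aestronglyMeasurable a)).1 (Lp.memLp a)

omit [IsProbabilityMeasure Θ] in
theorem hb1_norm_sq (a : L2 Θ) : ‖a‖ ^ 2 = ∫ ω, ‖a ω‖ ^ 2 ∂Θ := by
  have h1 : ((‖a‖ ^ 2 : ℝ) : ℂ) = ((∫ ω, ‖a ω‖ ^ 2 ∂Θ : ℝ) : ℂ) := by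
    rw [← integral_complex_ofReal]
    have h2 := inner_self_eq_norm_sq_to_K (𝕜 := ℂ) a
    rw [L2.inner_def] at h2
    push_cast
    refine h2.symm.trans ?_
    refine integral_congr_ae (Eventually.of_forall fun ω => ?_)
    exact inner_self_eq_norm_sq_to_K (𝕜 := ℂ) (a ω)
  exact_mod_cast h1

/-- Independence gives `∫ ‖a‖² ‖b‖² = ∫ ‖a‖² ∫ ‖b‖²` (pass to strongly measurable versions). -/
theorem memLp_mul_of_indep (hi : Indep 𝒜 ℬ Θ) (h𝒜 : 𝒜 ≤ mΩ) (hℬ : ℬ ≤ mΩ) {a b : L2 Θ}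
    (ha : a ∈ XX Θ 𝒜) (hb : b ∈ XX Θ ℬ) : MemLp (fun ω => a ω * b ω) 2 Θ := by
  refine (memLp_two_iff_integrable_sq_norm
    ((Lp.aestronglyMeasurable a).mul (Lp.aestronglyMeasurable b))).2 ?_
  have h1 := (hb1_indepFun_sq hi ha hb).integrable_mul (hb1_int_sq a) (hb1_int_sq b)
  refine h1.congr (Eventually.of_forall fun ω => ?_)
  simp [mul_pow]

theorem mulL_ae (hi : Indep 𝒜 ℬ Θ) (h𝒜 : 𝒜 ≤ mΩ) (hℬ : ℬ ≤ mΩ) {a b : L2 Θ}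
    (ha : a ∈ XX Θ 𝒜) (hb : b ∈ XX Θ ℬ) : (mulL a b : Ω → ℂ) =ᵐ[Θ] fun ω => a ω * b ω := by
  exact hb1_mulL_ae (memLp_mul_of_indep hi h𝒜 hℬ ha hb)

theorem norm_mulL (hi : Indep 𝒜 ℬ Θ) (h𝒜 : 𝒜 ≤ mΩ) (hℬ : ℬ ≤ mΩ) {a b : L2 Θ}
    (ha : a ∈ XX Θ 𝒜) (hb : b ∈ XX Θ ℬ) : ‖mulL a b‖ = ‖a‖ * ‖b‖ := by
  have h1 : ‖mulL a b‖ ^ 2 = (‖a‖ * ‖b‖) ^ 2 := by
    rw [mul_pow, hb1_norm_sq, hb1_norm_sq a, hb1_norm_sq b,
      ← (hb1_indepFun_sq hi ha hb).integral_fun_mul_eq_mul_integral (hb1_int_sq a).1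
        (hb1_int_sq b).1]
    refine integral_congr_ae ?_
    filter_upwards [mulL_ae hi h𝒜 hℬ ha hb] with ω h2
    rw [h2, norm_mul, mul_pow]
  exact (pow_left_inj₀ (norm_nonneg _) (mul_nonneg (norm_nonneg _) (norm_nonneg _))
    two_ne_zero).1 h1

theorem mulL_mem {a b : L2 Θ} (ha : a ∈ XX Θ 𝒜) (hb : b ∈ XX Θ ℬ) :
    mulL a b ∈ XX Θ (𝒜 ⊔ ℬ) := by
  by_cases h : MemLp (fun ω => a ω * b ω) 2 Θ
  · have ha' := mem_XX.1 (XX_mono (le_sup_left : 𝒜 ≤ 𝒜 ⊔ ℬ) ha)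
    have hb' := mem_XX.1 (XX_mono (le_sup_right : ℬ ≤ 𝒜 ⊔ ℬ) hb)
    rw [mem_XX]
    exact (ha'.mul hb').congr (hb1_mulL_ae h).symm
  · rw [hb1_mulL_zero h]
    exact Submodule.zero_mem _

theorem pr_of_indep (hi : Indep 𝒜 ℬ Θ) (h𝒜 : 𝒜 ≤ mΩ) (hℬ : ℬ ≤ mΩ) {a b : L2 Θ}
    (ha : a ∈ XX Θ 𝒜) (hb : b ∈ XX Θ ℬ) : pr a b = (∫ ω, a ω ∂Θ) * ∫ ω, b ω ∂Θ := by
  exact (hb1_indepFun hi ha hb).integral_fun_mul_eq_mul_integral (Lp.aestronglyMeasurable a)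
    (Lp.aestronglyMeasurable b)

/-- Multiplication by `a` composed with the projection is a bounded operator. -/
theorem exists_mulCLM (hi : Indep 𝒜 ℬ Θ) (h𝒜 : 𝒜 ≤ mΩ) (hℬ : ℬ ≤ mΩ) {a : L2 Θ}
    (ha : a ∈ XX Θ 𝒜) :
    ∃ M : L2 Θ →L[ℂ] L2 Θ, ‖M‖ ≤ ‖a‖ ∧ ∀ b, M b = mulL a (PP Θ ℬ b) := by
  let L : L2 Θ →ₗ[ℂ] L2 Θ :=
    { toFun := fun b => mulL a (PP Θ ℬ b)
      map_add' := fun b c => by
        rw [map_add]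
        apply Lp.ext
        filter_upwards [mulL_ae hi h𝒜 hℬ ha ((XX Θ ℬ).add_mem (PP_mem b) (PP_mem c)),
          mulL_ae hi h𝒜 hℬ ha (PP_mem b), mulL_ae hi h𝒜 hℬ ha (PP_mem c),
          Lp.coeFn_add (PP Θ ℬ b) (PP Θ ℬ c),
          Lp.coeFn_add (mulL a (PP Θ ℬ b)) (mulL a (PP Θ ℬ c))] with ω h1 h2 h3 h4 h5
        rw [h1, h5, h4, Pi.add_apply, Pi.add_apply, h2, h3, mul_add]
      map_smul' := fun c b => by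
        rw [map_smul, RingHom.id_apply]
        apply Lp.ext
        filter_upwards [mulL_ae hi h𝒜 hℬ ha ((XX Θ ℬ).smul_mem c (PP_mem b)),
          mulL_ae hi h𝒜 hℬ ha (PP_mem b), Lp.coeFn_smul c (PP Θ ℬ b),
          Lp.coeFn_smul c (mulL a (PP Θ ℬ b))] with ω h1 h2 h4 h5
        rw [h1, h5, h4, Pi.smul_apply, Pi.smul_apply, h2, smul_eq_mul, smul_eq_mul]
        ring }
  have hL : ∀ b, ‖L b‖ ≤ ‖a‖ * ‖b‖ := fun b => by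
    change ‖mulL a (PP Θ ℬ b)‖ ≤ _
    rw [norm_mulL hi h𝒜 hℬ ha (PP_mem b)]
    exact mul_le_mul_of_nonneg_left (norm_PP_le b) (norm_nonneg _)
  exact ⟨L.mkContinuous ‖a‖ hL, L.mkContinuous_norm_le (norm_nonneg _) hL, fun b => rfl⟩

/-- The row or column operator as a bounded operator. -/
theorem exists_BBCLM (hi : Indep 𝒜 ℬ Θ) (h𝒜 : 𝒜 ≤ mΩ) (hℬ : ℬ ≤ mΩ) (𝒟 : MeasurableSpace Ω)
    {a : L2 Θ} (ha : a ∈ XX (mΩ := mΩ) Θ 𝒜) :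
    ∃ M : L2 Θ →L[ℂ] L2 Θ, ‖M‖ ≤ ‖a‖ ∧ (∀ b, M b = BB 𝒟 a (PP (mΩ := mΩ) Θ ℬ b)) ∧
      ∀ b ∈ XX (mΩ := mΩ) Θ ℬ, M b = BB 𝒟 a b := by
  obtain ⟨M, hM, hM'⟩ := exists_mulCLM (mΩ := mΩ) hi h𝒜 hℬ ha
  refine ⟨(PP (mΩ := mΩ) Θ 𝒟).comp M, ?_, fun b => ?_, fun b hb => ?_⟩
  · refine ContinuousLinearMap.opNorm_le_bound _ (norm_nonneg _) fun b => ?_
    refine (norm_PP_le (mΩ := mΩ) (M b)).trans ?_
    exact (M.le_opNorm b).trans (mul_le_mul_of_nonneg_right hM (norm_nonneg _))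
  · rw [ContinuousLinearMap.comp_apply, hM']
    rfl
  · rw [ContinuousLinearMap.comp_apply, hM', PP_of_mem (mΩ := mΩ) hℬ hb]
    rfl

theorem BB_comm (a b : L2 Θ) : BB 𝒜 a b = BB 𝒜 b a := by
  unfold BB
  rw [mulL_comm]

theorem BB_mem (a b : L2 Θ) : BB 𝒜 a b ∈ XX Θ 𝒜 := by
  exact PP_mem _

theorem star_BB (a b : L2 Θ) : star (BB 𝒜 a b) = BB 𝒜 (star a) (star b) := by
  unfold BB
  rw [star_PP, star_mulL]

theorem hb1_pr_BB (h : Tri Θ 𝒜 ℬ 𝒞) {a b c : L2 Θ} (ha : a ∈ XX Θ 𝒜) (hb : b ∈ XX Θ ℬ)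
    (hc : c ∈ XX Θ 𝒞) : pr a (BB 𝒜 b c) = ∫ ω, a ω * b ω * c ω ∂Θ := by
  unfold BB
  rw [pr_PP h.le0 ha, pr]
  refine integral_congr_ae ?_
  filter_upwards [mulL_ae h.i12 h.le1 h.le2 hb hc] with ω h1
  rw [h1, mul_assoc]

/-- Symmetry of the trilinear form. -/
theorem pr_BB_swap (h : Tri Θ 𝒜 ℬ 𝒞) {a b c : L2 Θ} (ha : a ∈ XX Θ 𝒜) (hb : b ∈ XX Θ ℬ)
    (hc : c ∈ XX Θ 𝒞) : pr a (BB 𝒜 b c) = pr b (BB ℬ a c) := by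
  rw [hb1_pr_BB h ha hb hc, hb1_pr_BB h.swap01 hb ha hc]
  refine integral_congr_ae (Eventually.of_forall fun ω => ?_)
  change a ω * b ω * c ω = b ω * a ω * c ω
  ring

theorem pr_BB (h : Tri Θ 𝒜 ℬ 𝒞) {a b c : L2 Θ} (ha : a ∈ XX Θ 𝒜) (hb : b ∈ XX Θ ℬ)
    (hc : c ∈ XX Θ 𝒞) : pr a (BB 𝒜 b c) = ∫ ω, a ω * b ω * c ω ∂Θ := by
  exact hb1_pr_BB h ha hb hc


end Vale.Agent.P102
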