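import Vale.Agent.P102.HB1
import Vale.Agent.P102.CIa

/-! Density of products, Lemma T, the star formula, and the spaces `HH`. -/

open MeasureTheory ProbabilityTheory Filter Topology Set
open scoped ComplexConjugate

noncomputable section

namespace Vale.Agent.P102

variable {Ω : Type} {𝒜 𝒜' ℬ ℬ' 𝒞 𝒞' : MeasurableSpace Ω} {mΩ : MeasurableSpace Ω}
  {Θ : Measure Ω} [IsProbabilityMeasure Θ]

theorem hb2_integrable (f : L2 Θ) : Integrable (f : Ω → ℂ) Θ :=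
  (Lp.memLp f).integrable one_le_two

theorem hb2_pr_sub (a f g : L2 Θ) : pr a (f - g) = pr a f - pr a g := by
  simp only [pr_eq_inner, inner_sub_right]

theorem hb2_ind (h𝒜 : 𝒜 ≤ mΩ) {C : Set Ω} (hC : MeasurableSet[𝒜] C) :
    ∃ a ∈ XX Θ 𝒜, (a : Ω → ℂ) =ᵐ[Θ] C.indicator fun _ => 1 := by
  have e := indicatorConstLp_coeFn (p := 2) (μ := Θ) (hs := h𝒜 C hC) (hμs := measure_ne_top Θ C)
    (c := (1 : ℂ))
  refine ⟨_, mem_XX.2 ?_, e⟩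
  exact ((stronglyMeasurable_const.indicator hC).aestronglyMeasurable (m := 𝒜)).congr e.symm

omit [IsProbabilityMeasure Θ] in
theorem hb2_integral_mul (hi : Indep 𝒜 ℬ Θ) (h𝒜 : 𝒜 ≤ mΩ) (hℬ : ℬ ≤ mΩ) {u v : Ω → ℂ}
    (hu : AEStronglyMeasurable[𝒜] u Θ) (hv : AEStronglyMeasurable[ℬ] v Θ) :
    ∫ ω, u ω * v ω ∂Θ = (∫ ω, u ω ∂Θ) * ∫ ω, v ω ∂Θ := by
  have h1 : IndepFun (hu.mk u) (hv.mk v) Θ := by
    rw [IndepFun_iff_Indep]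
    exact indep_of_indep_of_le_right (indep_of_indep_of_le_left hi
      hu.stronglyMeasurable_mk.measurable.comap_le) hv.stronglyMeasurable_mk.measurable.comap_le
  have h2 : IndepFun u v Θ := h1.congr hu.ae_eq_mk.symm hv.ae_eq_mk.symm
  exact h2.integral_fun_mul_eq_mul_integral (hu.mono h𝒜) (hv.mono hℬ)

theorem hb2_pr_mul_mul (hi : Indep 𝒞 𝒞' Θ) (h𝒞 : 𝒞 ≤ mΩ) (h𝒞' : 𝒞' ≤ mΩ) {a a' b b' : L2 Θ}
    (ha : a ∈ XX Θ 𝒞) (ha' : a' ∈ XX Θ 𝒞) (hb : b ∈ XX Θ 𝒞') (hb' : b' ∈ XX Θ 𝒞') :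
    pr (mulL a' b') (mulL a b) = pr a' a * pr b' b := by
  unfold pr
  rw [← hb2_integral_mul hi h𝒞 h𝒞' (u := fun ω => a' ω * a ω) (v := fun ω => b' ω * b ω)
    ((mem_XX.1 ha').mul (mem_XX.1 ha)) ((mem_XX.1 hb').mul (mem_XX.1 hb))]
  refine integral_congr_ae ?_
  filter_upwards [mulL_ae hi h𝒞 h𝒞' ha hb, mulL_ae hi h𝒞 h𝒞' ha' hb'] with ω h1 h2
  rw [h1, h2]
  ring

/-- Orthogonal decomposition with respect to a closed span. -/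
theorem hb2_decomp (S : Set (L2 Θ)) (f : L2 Θ) :
    ∃ f' ∈ (Submodule.span ℂ S).topologicalClosure, ∀ w ∈ S, pr (star w) (f - f') = 0 := by
  obtain ⟨y, hy, z, hz, rfl⟩ :=
    (Submodule.span ℂ S).topologicalClosure.exists_add_mem_mem_orthogonal f
  refine ⟨y, hy, fun w hw => ?_⟩
  rw [add_sub_cancel_left, ← inner_eq_pr]
  exact hz w (Submodule.le_topologicalClosure _ (Submodule.subset_span hw))

theorem hb2_star_star (a : L2 Θ) : star (star a) = a := by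
  refine Lp.ext ?_
  filter_upwards [star_ae (star a), star_ae a] with ω h1 h2
  rw [h1, h2, Complex.conj_conj]

/-- Test against indicators and use `setIntegral_eq_of_sup`. -/
theorem eq_zero_of_pr_mulL (hi : Indep 𝒜 ℬ Θ) (h𝒜 : 𝒜 ≤ mΩ) (hℬ : ℬ ≤ mΩ) {f : L2 Θ}
    (hf : f ∈ XX Θ (𝒜 ⊔ ℬ)) (h : ∀ a ∈ XX Θ 𝒜, ∀ b ∈ XX Θ ℬ, pr (mulL a b) f = 0) : f = 0 := by
  have key : ∀ C C', MeasurableSet[𝒜] C → MeasurableSet[ℬ] C' →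
      ∫ ω in C ∩ C', f ω ∂Θ = ∫ _ω in C ∩ C', (0 : ℂ) ∂Θ := by
    intro C C' hC hC'
    obtain ⟨a, ha, ea⟩ := hb2_ind (Θ := Θ) h𝒜 hC
    obtain ⟨b, hb, eb⟩ := hb2_ind (Θ := Θ) hℬ hC'
    rw [integral_zero, ← h a ha b hb, ← integral_indicator ((h𝒜 C hC).inter (hℬ C' hC'))]
    refine integral_congr_ae ?_
    filter_upwards [mulL_ae hi h𝒜 hℬ ha hb, ea, eb] with ω h1 h2 h3
    rw [h1, h2, h3]
    by_cases m1 : ω ∈ C <;> by_cases m2 : ω ∈ C' <;> simp [m1, m2]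
  refine Lp.eq_zero_iff_ae_eq_zero.2 (Lp.ae_eq_zero_of_forall_setIntegral_eq_zero' ℂ
    (sup_le h𝒜 hℬ) f two_ne_zero ENNReal.ofNat_ne_top
    (fun s _ _ => (hb2_integrable f).integrableOn) (fun s hs _ => ?_) (mem_XX.1 hf))
  rw [setIntegral_eq_of_sup h𝒜 hℬ (hb2_integrable f) (integrable_zero _ _ _) key hs]
  simp

theorem XX_sup_le_closure (hi : Indep 𝒜 ℬ Θ) (h𝒜 : 𝒜 ≤ mΩ) (hℬ : ℬ ≤ mΩ) :
    XX Θ (𝒜 ⊔ ℬ) ≤
      (Submodule.span ℂ {w | ∃ a ∈ XX Θ 𝒜, ∃ b ∈ XX Θ ℬ, w = mulL a b}).topologicalClosure := by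
  intro f hf
  obtain ⟨f', hf', h0⟩ := hb2_decomp {w | ∃ a ∈ XX Θ 𝒜, ∃ b ∈ XX Θ ℬ, w = mulL a b} f
  have hle : (Submodule.span ℂ {w | ∃ a ∈ XX Θ 𝒜, ∃ b ∈ XX Θ ℬ, w = mulL a b}).topologicalClosure
      ≤ XX Θ (𝒜 ⊔ ℬ) := by
    refine Submodule.topologicalClosure_minimal _ (Submodule.span_le.2 ?_)
      (isClosed_XX (sup_le h𝒜 hℬ))
    rintro _ ⟨a, ha, b, hb, rfl⟩
    exact mulL_mem ha hb
  have : f - f' = 0 := by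
    refine eq_zero_of_pr_mulL hi h𝒜 hℬ (Submodule.sub_mem _ hf (hle hf')) fun a ha b hb => ?_
    have := h0 _ ⟨star a, star_mem_XX ha, star b, star_mem_XX hb, rfl⟩
    rwa [star_mulL, hb2_star_star, hb2_star_star] at this
  rwa [sub_eq_zero.1 this]

/-- Lemma T. Test against `mulL a' b'` with `eq_zero_of_pr_mulL`; both sides factor by
independence of `𝒞` and `𝒞'` (the products `a a'` and `b b'` are integrable). -/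
theorem PP_mulL (hi : Indep 𝒞 𝒞' Θ) (h𝒞 : 𝒞 ≤ mΩ) (h𝒞' : 𝒞' ≤ mΩ) (h𝒜 : 𝒜 ≤ 𝒞) (h𝒜' : 𝒜' ≤ 𝒞')
    {a b : L2 Θ} (ha : a ∈ XX Θ 𝒞) (hb : b ∈ XX Θ 𝒞') :
    PP Θ (𝒜 ⊔ 𝒜') (mulL a b) = mulL (PP Θ 𝒜 a) (PP Θ 𝒜' b) := by
  have l1 := h𝒜.trans h𝒞
  have l2 := h𝒜'.trans h𝒞'
  refine sub_eq_zero.1 (eq_zero_of_pr_mulL
    (indep_of_indep_of_le_right (indep_of_indep_of_le_left hi h𝒜) h𝒜') l1 l2
    (Submodule.sub_mem _ (PP_mem _) (mulL_mem (PP_mem _) (PP_mem _))) fun a' ha' b' hb' => ?_)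
  rw [hb2_pr_sub, pr_PP (sup_le l1 l2) (mulL_mem ha' hb'),
    hb2_pr_mul_mul hi h𝒞 h𝒞' ha (XX_mono h𝒜 ha') hb (XX_mono h𝒜' hb'),
    hb2_pr_mul_mul hi h𝒞 h𝒞' (XX_mono h𝒜 (PP_mem _)) (XX_mono h𝒜 ha') (XX_mono h𝒜' (PP_mem _))
      (XX_mono h𝒜' hb'), pr_PP l1 ha', pr_PP l2 hb', sub_self]

theorem CI.PP_eq (h : CI Θ 𝒜 ℬ 𝒞) (h𝒜 : 𝒜 ≤ mΩ) (hℬ : ℬ ≤ 𝒞) (h𝒞 : 𝒞 ≤ mΩ) {f : L2 Θ}
    (hf : f ∈ XX Θ 𝒜) : PP Θ 𝒞 f = PP Θ ℬ f :=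
  Lp.ext (((PP_ae h𝒞 f).trans (h.condExp_eq h𝒜 hℬ h𝒞 (hb2_integrable f) (mem_XX.1 hf))).trans
    (PP_ae (hℬ.trans h𝒞) f).symm)

/-- The star formula. -/
theorem Star.pr_mulL {A C : Fin 3 → MeasurableSpace Ω} (h : Star Θ A C) {t u v : Fin 3}
    (hd : Dist t u v) {φ g g' : L2 Θ} (hφ : φ ∈ XX Θ (A t)) (hg : g ∈ XX Θ (C u))
    (hg' : g' ∈ XX Θ (C v)) :
    pr φ (mulL g g') = pr φ (mulL (PP Θ (A u) g) (PP Θ (A v) g')) := by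
  have lA : ∀ s, A s ≤ mΩ := fun s => (h.le s).trans (h.le' s)
  have l1 : C u ⊔ C v ≤ mΩ := sup_le (h.le' u) (h.le' v)
  have l2 : A u ⊔ A v ≤ mΩ := sup_le (lA u) (lA v)
  have e : PP Θ (C u ⊔ C v) φ = PP Θ (A u ⊔ A v) φ :=
    (h.ci t u v hd.xy hd.xz hd.yz).PP_eq (lA t) (sup_le_sup (h.le u) (h.le v)) l1 hφ
  rw [pr_comm, ← pr_PP l1 (mulL_mem hg hg'), e, pr_comm, ← pr_PP l2 (PP_mem φ),
    PP_mulL (h.ind u v hd.yz) (h.le' u) (h.le' v) (h.le u) (h.le v) hg hg', pr_comm,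
    pr_PP l2 (mulL_mem (PP_mem _) (PP_mem _)), pr_comm]

theorem HH_le_XX (h : ℬ ≤ mΩ) : HH Θ 𝒜 ℬ 𝒞 ≤ XX Θ ℬ := by
  refine Submodule.topologicalClosure_minimal _ (Submodule.span_le.2 ?_) (isClosed_XX h)
  rintro _ ⟨a, -, c, -, rfl⟩
  exact BB_mem a c

theorem HH_comm : HH Θ 𝒜 ℬ 𝒞 = HH Θ 𝒞 ℬ 𝒜 := by
  unfold HH
  congr 2
  ext w
  constructor <;> rintro ⟨a, ha, c, hc, rfl⟩ <;> exact ⟨c, hc, a, ha, BB_comm a c⟩

theorem star_mem_HH {w : L2 Θ} (hw : w ∈ HH Θ 𝒜 ℬ 𝒞) : star w ∈ HH Θ 𝒜 ℬ 𝒞 := by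
  refine map_mem_closure (f := fun a : L2 Θ => star a) continuous_star_L2 hw fun x hx => ?_
  beta_reduce
  induction hx using Submodule.span_induction with
  | mem x hx =>
    obtain ⟨a, ha, c, hc, rfl⟩ := hx
    exact Submodule.subset_span ⟨star a, star_mem_XX ha, star c, star_mem_XX hc, star_BB a c⟩
  | zero => rw [star_zero_L2]; exact Submodule.zero_mem _
  | add x y _ _ hx hy => rw [star_add_L2]; exact Submodule.add_mem _ hx hy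
  | smul c x _ hx => rw [star_smul_L2]; exact Submodule.smul_mem _ _ hx

theorem PP_mem_HH (h : Tri Θ 𝒜 ℬ 𝒞) {f : L2 Θ} (hf : f ∈ XX Θ (𝒜 ⊔ 𝒞)) :
    PP Θ ℬ f ∈ HH Θ 𝒜 ℬ 𝒞 := by
  refine map_mem_closure (PP Θ ℬ).continuous (XX_sup_le_closure h.i02 h.le0 h.le2 hf)
    fun x hx => ?_
  induction hx using Submodule.span_induction with
  | mem x hx =>
    obtain ⟨a, ha, c, hc, rfl⟩ := hx
    exact Submodule.subset_span ⟨a, ha, c, hc, rfl⟩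
  | zero => rw [map_zero]; exact Submodule.zero_mem _
  | add x y _ _ hx hy => rw [map_add]; exact Submodule.add_mem _ hx hy
  | smul c x _ hx => rw [map_smul]; exact Submodule.smul_mem _ _ hx

/-- Orthogonal decomposition with respect to `HH`. -/
theorem exists_HH_decomp (h : Tri Θ 𝒜 ℬ 𝒞) {f : L2 Θ} (hf : f ∈ XX Θ ℬ) :
    ∃ f' ∈ HH Θ 𝒜 ℬ 𝒞, f - f' ∈ XX Θ ℬ ∧ PP Θ (𝒜 ⊔ 𝒞) (f - f') = 0 := by
  obtain ⟨f', hf', h0⟩ := hb2_decomp {w | ∃ a ∈ XX Θ 𝒜, ∃ c ∈ XX Θ 𝒞, w = BB ℬ a c} f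
  have hg : f - f' ∈ XX Θ ℬ := Submodule.sub_mem _ hf (HH_le_XX h.le1 hf')
  refine ⟨f', hf', hg, eq_zero_of_pr_mulL h.i02 h.le0 h.le2 (PP_mem _) fun a ha c hc => ?_⟩
  have := h0 _ ⟨star a, star_mem_XX ha, star c, star_mem_XX hc, rfl⟩
  rw [star_BB, hb2_star_star, hb2_star_star] at this
  rw [pr_PP (sup_le h.le0 h.le2) (mulL_mem ha hc), pr_comm, ← pr_PP h.le1 hg, pr_comm]
  exact this

/-- An element of `HH` killed by all adjoint operators vanishes. -/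
theorem eq_zero_of_HH (h : Tri Θ 𝒜 ℬ 𝒞) {w : L2 Θ} (hw : w ∈ HH Θ 𝒜 ℬ 𝒞)
    (h0 : ∀ a ∈ XX Θ 𝒜, BB 𝒞 a w = 0) : w = 0 := by
  have hw' := HH_le_XX h.le1 hw
  have hle : HH Θ 𝒜 ℬ 𝒞 ≤ (ℂ ∙ w)ᗮ := by
    refine Submodule.topologicalClosure_minimal _ (Submodule.span_le.2 ?_)
      (Submodule.isClosed_orthogonal _)
    rintro _ ⟨a, ha, c, hc, rfl⟩
    refine Submodule.mem_orthogonal_singleton_iff_inner_left.2 ?_
    rw [inner_eq_pr, star_BB, pr_comm, BB_comm,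
      pr_BB_swap h.swap01.swap12 hw' (star_mem_XX hc) (star_mem_XX ha), BB_comm,
      h0 _ (star_mem_XX ha), pr_eq_inner, inner_zero_right]
  exact inner_self_eq_zero.1 (Submodule.mem_orthogonal_singleton_iff_inner_left.1 (hle hw))


end Vale.Agent.P102
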