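import Vale.Agent.P102.Sig

/-! Hilbert space definitions for the grid lemma. -/

open MeasureTheory ProbabilityTheory Filter Topology Set
open scoped ComplexConjugate

noncomputable section

namespace Vale.Agent.P102

variable {Ω : Type} {mΩ : MeasurableSpace Ω}

/-- Complex `L²`. -/
abbrev L2 (Θ : Measure Ω) : Type := Lp ℂ 2 Θ

/-- The `𝒜`-measurable elements of `L²`. -/
def XX (Θ : Measure Ω) (𝒜 : MeasurableSpace Ω) : Submodule ℂ (L2 Θ) :=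
  @lpMeas Ω ℂ ℂ _ _ _ 𝒜 mΩ 2 Θ

open Classical in
/-- The product of two elements of `L²`, when it is in `L²`. -/
def mulL {Θ : Measure Ω} (a b : L2 Θ) : L2 Θ :=
  if h : MemLp (fun ω => a ω * b ω) 2 Θ then h.toLp _ else 0

open Classical in
/-- The orthogonal projection on the `𝒜`-measurable elements. -/
def PP (Θ : Measure Ω) (𝒜 : MeasurableSpace Ω) : L2 Θ →L[ℂ] L2 Θ :=
  if h : 𝒜 ≤ mΩ then (XX Θ 𝒜).subtypeL.comp (condExpL2 ℂ ℂ h) else 0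

/-- Conditional expectation of a product. -/
def BB {Θ : Measure Ω} (𝒜 : MeasurableSpace Ω) (a b : L2 Θ) : L2 Θ := PP Θ 𝒜 (mulL a b)

/-- The bilinear pairing. -/
def pr {Θ : Measure Ω} (a b : L2 Θ) : ℂ := ∫ ω, a ω * b ω ∂Θ

/-- The closed range of the row map into the entry `𝒜₁`. -/
def HH (Θ : Measure Ω) (𝒜₀ 𝒜₁ 𝒜₂ : MeasurableSpace Ω) : Submodule ℂ (L2 Θ) :=
  (Submodule.span ℂ {w | ∃ a ∈ XX Θ 𝒜₀, ∃ c ∈ XX Θ 𝒜₂, w = BB 𝒜₁ a c}).topologicalClosure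

/-- The space on which the row operators commute. -/
def VS (Θ : Measure Ω) (𝒜 : Fin 3 → Fin 3 → MeasurableSpace Ω) (x y z t u v : Fin 3) :
    Submodule ℂ (L2 Θ) :=
  (Submodule.span ℂ {w | ∃ h₀ ∈ XX Θ (𝒜 y u), ∃ h₂ ∈ XX Θ (𝒜 y v), ∃ k₀ ∈ XX Θ (𝒜 z u),
    ∃ k₂ ∈ XX Θ (𝒜 z v),
      w = BB (𝒜 x t) (BB (𝒜 y t) h₀ h₂) (BB (𝒜 z t) k₀ k₂)}).topologicalClosure

/-- Characters as elements of `L²`. -/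
def ChL (Θ : Measure Ω) (𝒜₀ 𝒜₁ 𝒜₂ : MeasurableSpace Ω) : Set (L2 Θ) :=
  {w | ∃ χ, ChO Θ 𝒜₀ 𝒜₁ 𝒜₂ χ ∧ (w : Ω → ℂ) =ᵐ[Θ] χ}

/-- Three distinct indices. -/
structure Dist (x y z : Fin 3) : Prop where
  xy : x ≠ y
  xz : x ≠ z
  yz : y ≠ z

theorem Dist.swap12 {x y z : Fin 3} (h : Dist x y z) : Dist y x z := ⟨h.xy.symm, h.yz, h.xz⟩
theorem Dist.swap23 {x y z : Fin 3} (h : Dist x y z) : Dist x z y := ⟨h.xz, h.xy, h.yz.symm⟩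
theorem Dist.swap13 {x y z : Fin 3} (h : Dist x y z) : Dist z y x :=
  ⟨h.yz.symm, h.xz.symm, h.xy.symm⟩

/-- Three pairwise independent sub-sigma-algebras. -/
structure Tri (Θ : Measure Ω) (𝒜₀ 𝒜₁ 𝒜₂ : MeasurableSpace Ω) : Prop where
  le0 : 𝒜₀ ≤ mΩ
  le1 : 𝒜₁ ≤ mΩ
  le2 : 𝒜₂ ≤ mΩ
  i01 : Indep 𝒜₀ 𝒜₁ Θ
  i02 : Indep 𝒜₀ 𝒜₂ Θ
  i12 : Indep 𝒜₁ 𝒜₂ Θ

theorem Tri.swap01 {𝒜₀ 𝒜₁ 𝒜₂ : MeasurableSpace Ω} {mΩ : MeasurableSpace Ω} {Θ : Measure Ω}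
    (h : Tri Θ 𝒜₀ 𝒜₁ 𝒜₂) : Tri Θ 𝒜₁ 𝒜₀ 𝒜₂ :=
  ⟨h.le1, h.le0, h.le2, h.i01.symm, h.i12, h.i02⟩

theorem Tri.swap12 {𝒜₀ 𝒜₁ 𝒜₂ : MeasurableSpace Ω} {mΩ : MeasurableSpace Ω} {Θ : Measure Ω}
    (h : Tri Θ 𝒜₀ 𝒜₁ 𝒜₂) : Tri Θ 𝒜₀ 𝒜₂ 𝒜₁ :=
  ⟨h.le0, h.le2, h.le1, h.i02, h.i01, h.i12.symm⟩

theorem Tri.swap02 {𝒜₀ 𝒜₁ 𝒜₂ : MeasurableSpace Ω} {mΩ : MeasurableSpace Ω} {Θ : Measure Ω}
    (h : Tri Θ 𝒜₀ 𝒜₁ 𝒜₂) : Tri Θ 𝒜₂ 𝒜₁ 𝒜₀ :=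
  ⟨h.le2, h.le1, h.le0, h.i12.symm, h.i02.symm, h.i01.symm⟩

section
variable {Θ : Measure Ω} {𝒜 : Fin 3 → Fin 3 → MeasurableSpace Ω}
  {𝒞 : Fin 3 → MeasurableSpace Ω}

theorem G33.le (h : G33 Θ 𝒜 𝒞) (s t : Fin 3) : 𝒜 s t ≤ mΩ :=
  ((h.one s).le t).trans ((h.one s).le' t)

theorem G33.ind_row (h : G33 Θ 𝒜 𝒞) (s : Fin 3) {t u : Fin 3} (htu : t ≠ u) :
    Indep (𝒜 s t) (𝒜 s u) Θ :=
  indep_of_indep_of_le_right (indep_of_indep_of_le_left ((h.one s).ind t u htu) ((h.one s).le t))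
    ((h.one s).le u)

theorem G33.ind_col (h : G33 Θ 𝒜 𝒞) {s s' : Fin 3} (hs : s ≠ s') (t u : Fin 3) :
    Indep (𝒜 s t) (𝒜 s' u) Θ :=
  indep_of_indep_of_le_right (indep_of_indep_of_le_left (h.row s s' hs) (le_iSup (𝒜 s) t))
    (le_iSup (𝒜 s') u)

theorem G33.tri_row (h : G33 Θ 𝒜 𝒞) (s : Fin 3) {t u v : Fin 3} (hd : Dist t u v) :
    Tri Θ (𝒜 s t) (𝒜 s u) (𝒜 s v) :=
  ⟨h.le _ _, h.le _ _, h.le _ _, h.ind_row s hd.xy, h.ind_row s hd.xz, h.ind_row s hd.yz⟩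

theorem G33.tri_col (h : G33 Θ 𝒜 𝒞) {x y z : Fin 3} (hd : Dist x y z) (t : Fin 3) :
    Tri Θ (𝒜 x t) (𝒜 y t) (𝒜 z t) :=
  ⟨h.le _ _, h.le _ _, h.le _ _, h.ind_col hd.xy t t, h.ind_col hd.xz t t, h.ind_col hd.yz t t⟩

end


end Vale.Agent.P102
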