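import Vale.Agent.P102.Cond

/-! Independence from satedness. -/

open MeasureTheory ProbabilityTheory Filter Topology Set
open scoped ComplexConjugate

noncomputable section

namespace Vale.Agent.P102

variable {K L N : Type}
  [TopologicalSpace K] [MeasurableSpace K] [Nice K] [AddAction ℤ K] [ContinuousConstVAdd ℤ K]
  [TopologicalSpace L] [MeasurableSpace L] [Nice L] [AddAction ℤ L] [ContinuousConstVAdd ℤ L]
  [TopologicalSpace N] [MeasurableSpace N] [Nice N] [AddAction ℤ N] [ContinuousConstVAdd ℤ N]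

/-- Take `ρ` from `exists_cond 𝔱 ψ`. The pair ` (pmap β q.1, pmap β q.2)` is an invariant
martingale pair (`Mart.map`, `Inv.pmap`) over `pmap (pmap β) 𝔱` preserving `F`
(`ae_forall_of_closed`, `ae_pmap_of_ae`), hence trivial. By `MartS.avg`, a.e. `θ` is the
barycenter of measures `ν` with `pmap β ν = pmap β θ` and `pmap ψ ν` Dirac, so
`θ (f β * G ψ) = ∫ ν (f β) * ν (G ψ) = θ (f β) * θ (G ψ)`; finish with `indepFun_of_cont`. -/
theorem ind_of_sated (𝔱 : PM (PM N)) (h : Inv 𝔱) (β : C(N, K)) (hβ : Eqv β) (ψ : C(N, L))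
    (hψ : Eqv ψ) (F : Set C(K, ℝ)) (hs : Sated F (pmap (pmap β) 𝔱))
    (hI : ∀ᵐ θ : PM N ∂(𝔱 : Measure (PM N)), ∀ f ∈ F,
      IndepFun (fun w => f (β w)) ψ (θ : Measure N)) :
    ∀ᵐ θ : PM N ∂(𝔱 : Measure (PM N)), IndepFun β ψ (θ : Measure N) := by
  obtain ⟨ρ, hρ, hfst, hmart, hdir, hpres⟩ := exists_cond 𝔱 h ψ hψ
  have hF : ∀ᵐ q ∂(ρ : Measure (PM N × PM N)), ∀ f ∈ F,
      ev f (pmap β q.2) = ev f (pmap β q.1) := by
    refine ae_forall_of_closed F _ (fun q => isClosed_eq (continuous_ev_left _)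
      (continuous_ev_left _)) fun f hf => ?_
    simp only [ev_pmap]
    exact hpres _ (hI.mono fun θ hθ => hθ f hf)
  let j : C(PM N × PM N, PM K × PM K) := (pmap β).prodMap (pmap β)
  have hj : Eqv j := fun n q => Prod.ext (hβ.pmap n q.1) (hβ.pmap n q.2)
  have h1 : pfst (pmap j ρ) = pmap (pmap β) 𝔱 := by
    rw [← hfst, pfst, pfst, pmap_pmap, pmap_pmap]; rfl
  have h2 := ae_of_ae_pmap j ρ
    (hs (pmap j ρ) (hρ.pmap hj) h1 (hmart.map β) (ae_pmap_of_ae j ρ hF))
  have havg := MartS.avg measurable_id hmart (h2.and hdir)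
  rw [hfst] at havg
  filter_upwards [havg] with θ ⟨ξ, hξ, hq⟩
  refine indepFun_of_cont _ β.continuous.measurable ψ.continuous.measurable fun f g => ?_
  have e1 := hξ.integral (integrable_cont ((f.comp β) * (g.comp ψ)) (θ : Measure N))
  have e2 := hξ.integral (integrable_cont (g.comp ψ) (θ : Measure N))
  simp only [ContinuousMap.mul_apply, ContinuousMap.comp_apply, id] at e1 e2
  rw [e1, e2, ← integral_const_mul]
  refine integral_congr_ae ?_
  filter_upwards [hq] with ν ⟨hν, c, hc⟩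
  have h3 : ∀ᵐ w ∂(ν : Measure N), ψ w = c := by
    refine ae_of_ae_pmap ψ ν (P := fun y => y = c) ?_
    change ∀ᵐ y ∂((pmap ψ ν : PM L) : Measure L), y = c
    rw [hc]
    change ∀ᵐ y ∂(Measure.dirac c), y = c
    simp
  have h4 : ∫ w, f (β w) ∂(ν : Measure N) = ∫ w, f (β w) ∂(θ : Measure N) := by
    have := congrArg (ev f) hν
    change ev f (pmap β ν) = ev f (pmap β θ) at this
    rw [ev_pmap, ev_pmap] at this
    exact this
  have h5 : ∫ w, g (ψ w) ∂(ν : Measure N) = g c := by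
    rw [integral_congr_ae (g := fun _ => g c) (h3.mono fun w hw => by simp only [hw])]
    simp
  rw [h5, ← h4, ← integral_mul_const]
  exact integral_congr_ae (h3.mono fun w hw => by simp only [hw])


end Vale.Agent.P102
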