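import Vale.Agent.P102.Push

/-! Row limits. Use `map_ulim`, `ulim_const`, `pmap_pmap`, `pmap_comp`, `ae_ulim`,
`tendsto_ulim`, `ev_pmap`. -/

open MeasureTheory ProbabilityTheory Filter Topology Set
open scoped ComplexConjugate

noncomputable section

namespace Vale.Agent.P102

variable {K L N : Type}
  [TopologicalSpace K] [MeasurableSpace K] [Nice K] [AddAction ℤ K] [ContinuousConstVAdd ℤ K]
  [TopologicalSpace L] [MeasurableSpace L] [Nice L] [AddAction ℤ L] [ContinuousConstVAdd ℤ L]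
  [TopologicalSpace N] [MeasurableSpace N] [Nice N] [AddAction ℤ N] [ContinuousConstVAdd ℤ N]
variable {ι : Type} [Fintype ι] (p : Ultrafilter (ι → ℤ))

theorem lim_inv {I : Type} (q : Ultrafilter I) {u : I → PM K} (h : ∀ i, Inv (u i)) :
    Inv (ulim q u) := fun n => by
  rw [vadd_pm, map_ulim q u (pmap (sh K n))]
  congr 1
  funext i
  exact h i n

omit [MeasurableSpace K] [Nice K] [Fintype ι] in
theorem lim_cev_rmap (i : ι) (e : ι → ℤ) : (cev K i).comp (rmap K e) = sh K (e i) := rfl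

omit [MeasurableSpace K] [Nice K] [MeasurableSpace L] [Nice L] [Fintype ι] in
theorem lim_cpi_rmap {f : C(K, L)} (hf : Eqv f) (e : ι → ℤ) :
    (cpi ι f).comp (rmap K e) = (rmap L e).comp f :=
  ContinuousMap.ext fun w => funext fun l => hf (e l) w

theorem lim_pmap_cpi_rmap {f : C(K, L)} (hf : Eqv f) (e : ι → ℤ) (μ : PM K) :
    pmap (cpi ι f) (pmap (rmap K e) μ) = pmap (rmap L e) (pmap f μ) := by
  rw [pmap_pmap, pmap_pmap, lim_cpi_rmap hf]

omit [AddAction ℤ K] [ContinuousConstVAdd ℤ K] [AddAction ℤ L] [ContinuousConstVAdd ℤ L] in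
theorem lim_pmap_const (ν : PM K) (ψ : C(K, L)) (c : L)
    (h : ∀ᵐ w ∂(ν : Measure K), ψ w = c) : pmap ψ ν = diracProba c := by
  apply ProbabilityMeasure.toMeasure_injective
  rw [coe_pmap, Measure.map_congr (g := fun _ => c) h, Measure.map_const]
  simp [diracProba]

omit [AddAction ℤ K] [ContinuousConstVAdd ℤ K] [AddAction ℤ L] [ContinuousConstVAdd ℤ L] in
theorem lim_mart_map {ρ : PM (PM K × PM K)} (h : Mart ρ) (f : C(K, L)) :
    Mart (pmap ((pmap f).prodMap (pmap f)) ρ) := by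
  intro g Ψ
  let H₁ : C(PM L × PM L, ℝ) := ⟨fun q => Ψ q.1 * ev g q.2, by fun_prop⟩
  let H₂ : C(PM L × PM L, ℝ) := ⟨fun q => Ψ q.1 * ev g q.1, by fun_prop⟩
  change ev H₁ _ = ev H₂ _
  rw [ev_pmap, ev_pmap]
  have := h (g.comp f) (Ψ.comp (pmap f))
  simp only [← ev_pmap] at this
  exact this

omit [AddAction ℤ K] [ContinuousConstVAdd ℤ K] in
theorem lim_mart_ulim {I : Type} (q : Ultrafilter I) {u : I → PM (PM K × PM K)}
    (h : ∀ i, Mart (u i)) : Mart (ulim q u) := by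
  intro g Ψ
  let H₁ : C(PM K × PM K, ℝ) := ⟨fun q => Ψ q.1 * ev g q.2, by fun_prop⟩
  let H₂ : C(PM K × PM K, ℝ) := ⟨fun q => Ψ q.1 * ev g q.1, by fun_prop⟩
  have hc : IsClosed {ρ : PM (PM K × PM K) | ev H₁ ρ = ev H₂ ρ} :=
    isClosed_eq (ev H₁).continuous (ev H₂).continuous
  exact hc.mem_of_tendsto (tendsto_ulim q u) (Eventually.of_forall fun i => h i g Ψ)

theorem rowLim_inv {𝔪 : PM (PM K)} (h : Inv 𝔪) : Inv (rowLim p 𝔪) := by
  exact lim_inv p fun e => h.pmap (eqv_rmap e).pmap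

theorem nuLim_inv {μ : PM K} (h : Inv μ) : Inv (nuLim p μ) := by
  exact lim_inv p fun e => h.pmap (eqv_rmap e)

/-- `cev i ∘ rmap e = sh (e i)`. -/
theorem rowLim_slot {𝔪 : PM (PM K)} (h : Inv 𝔪) (i : ι) :
    pmap (pmap (cev K i)) (rowLim p 𝔪) = 𝔪 := by
  rw [rowLim, map_ulim p _ (pmap (pmap (cev K i)))]
  have : ∀ e : ι → ℤ, pmap (pmap (cev K i)) (pmap (pmap (rmap K e)) 𝔪) = 𝔪 := fun e => by
    rw [pmap_pmap, pmap_comp, lim_cev_rmap]
    exact h (e i)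
  simp only [this, ulim_const]

theorem nuLim_slot {μ : PM K} (h : Inv μ) (i : ι) : pmap (cev K i) (nuLim p μ) = μ := by
  rw [nuLim, map_ulim p _ (pmap (cev K i))]
  have : ∀ e : ι → ℤ, pmap (cev K i) (pmap (rmap K e) μ) = μ := fun e => by
    rw [pmap_pmap, lim_cev_rmap]
    exact h (e i)
  simp only [this, ulim_const]

theorem rowLim_map {f : C(K, L)} (hf : Eqv f) (𝔪 : PM (PM K)) :
    pmap (pmap (cpi ι f)) (rowLim p 𝔪) = rowLim p (pmap (pmap f) 𝔪) := by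
  rw [rowLim, rowLim, map_ulim p _ (pmap (pmap (cpi ι f)))]
  congr 1
  funext e
  rw [pmap_pmap, pmap_pmap, pmap_comp, pmap_comp, lim_cpi_rmap hf]

/-- The law of the base marginal is a limit of Dirac masses, hence the Dirac mass at `nuLim`. -/
theorem rowLim_base {π : C(K, L)} (hπ : Eqv π) {μY : PM L} {𝔪 : PM (PM K)}
    (h : ∀ᵐ μ ∂(𝔪 : Measure (PM K)), pmap π μ = μY) :
    ∀ᵐ κ ∂(rowLim p 𝔪 : Measure (PM (ι → K))), pmap (cpi ι π) κ = nuLim p μY := by
  have h1 : pmap (pmap π) 𝔪 = diracProba μY := lim_pmap_const 𝔪 (pmap π) μY h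
  have h2 : pmap (pmap (cpi ι π)) (rowLim p 𝔪) = diracProba (nuLim p μY) := by
    rw [rowLim_map p hπ, h1, rowLim, nuLim]
    have := map_ulim p (fun e => pmap (rmap L e) μY)
      (⟨diracProba, continuous_diracProba⟩ : C(PM (ι → L), PM (PM (ι → L))))
    simp only [ContinuousMap.coe_mk] at this
    rw [this]
    simp only [pmap_dirac]
  refine ae_of_ae_pmap (pmap (cpi ι π)) (rowLim p 𝔪) (P := fun ν => ν = nuLim p μY) ?_
  rw [h2]
  change ∀ᵐ ν ∂(Measure.dirac (nuLim p μY)), ν = nuLim p μY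
  rw [ae_dirac_eq]
  exact eventually_pure.2 rfl

theorem rowLim2_fst (ρ : PM (PM K × PM L)) : pfst (rowLim2 p ρ) = rowLim p (pfst ρ) := by
  rw [rowLim2, rowLim, pfst, map_ulim p _ (pmap ContinuousMap.fst)]
  congr 1
  funext e
  rw [pfst, pmap_pmap, pmap_pmap]
  rfl

theorem rowLim2_snd (ρ : PM (PM K × PM L)) : psnd (rowLim2 p ρ) = rowLim p (psnd ρ) := by
  rw [rowLim2, rowLim, psnd, map_ulim p _ (pmap ContinuousMap.snd)]
  congr 1
  funext e
  rw [psnd, pmap_pmap, pmap_pmap]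
  rfl

theorem rowLim2_mart {ρ : PM (PM K × PM K)} (h : Mart ρ) : Mart (rowLim2 p ρ) := by
  exact lim_mart_ulim p fun e => lim_mart_map h (rmap K e)

/-- Closed condition (`ae_ulim`). -/
theorem rowLim2_agree {f : C(K, L)} (hf : Eqv f) {ρ : PM (PM K × PM K)}
    (h : ∀ᵐ q ∂(ρ : Measure (PM K × PM K)), pmap f q.2 = pmap f q.1) :
    ∀ᵐ q ∂(rowLim2 p ρ : Measure (PM (ι → K) × PM (ι → K))),
      pmap (cpi ι f) q.2 = pmap (cpi ι f) q.1 := by
  have hc : IsClosed {q : PM (ι → K) × PM (ι → K) |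
      pmap (cpi ι f) q.2 = pmap (cpi ι f) q.1} := isClosed_eq (by fun_prop) (by fun_prop)
  refine ae_ulim p _ hc fun e => ae_pmap_of_ae _ _ ?_
  filter_upwards [h] with q hq
  change pmap (cpi ι f) (pmap (rmap K e) q.2) = pmap (cpi ι f) (pmap (rmap K e) q.1)
  rw [lim_pmap_cpi_rmap hf, lim_pmap_cpi_rmap hf, hq]

/-- Closed condition (`ae_ulim`, `isClosed_range_dirac`, `pmap_dirac`). -/
theorem rowLim_dirac {ψ : C(K, L)} (hψ : Eqv ψ) {𝔪 : PM (PM K)}
    (h : ∀ᵐ μ ∂(𝔪 : Measure (PM K)), ∃ c, pmap ψ μ = diracProba c) :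
    ∀ᵐ κ ∂(rowLim p 𝔪 : Measure (PM (ι → K))), ∃ c, pmap (cpi ι ψ) κ = diracProba c := by
  have hc : IsClosed {κ : PM (ι → K) | ∃ c, pmap (cpi ι ψ) κ = diracProba c} :=
    isClosed_range_dirac.preimage (pmap (cpi ι ψ)).continuous
  refine ae_ulim p _ hc fun e => ae_pmap_of_ae _ _ ?_
  filter_upwards [h] with μ hμ
  obtain ⟨c, hc⟩ := hμ
  refine ⟨rmap L e c, ?_⟩
  rw [lim_pmap_cpi_rmap hψ, hc, pmap_dirac]

/-- `ProbabilityMeasure.continuous_prod`, `ProbabilityMeasure.map_prod_map`. -/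
theorem rowLim2_prod (𝔪 : PM (PM K)) (𝔪' : PM (PM L)) :
    rowLim2 p (𝔪.prod 𝔪') = (rowLim p 𝔪).prod (rowLim p 𝔪') := by
  refine ulim_eq ?_
  have h1 := (tendsto_ulim p fun e => pmap (pmap (rmap K e)) 𝔪).prodMk_nhds
    (tendsto_ulim p fun e => pmap (pmap (rmap L e)) 𝔪')
  have h2 := (ProbabilityMeasure.continuous_prod.tendsto _).comp h1
  refine h2.congr fun e => ?_
  apply ProbabilityMeasure.toMeasure_injective
  simp only [Function.comp_apply, ProbabilityMeasure.toMeasure_prod, coe_pmap]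
  rw [Measure.map_prod_map _ _ (pmap (rmap K e)).continuous.measurable
    (pmap (rmap L e)).continuous.measurable]
  rfl

theorem rowLim_pair {f : C(K, L)} {g : C(K, N)} (hf : Eqv f) (hg : Eqv g) (𝔩 : PM (PM K)) :
    pmap ((pmap (cpi ι f)).prodMk (pmap (cpi ι g))) (rowLim p 𝔩) =
      rowLim2 p (pmap ((pmap f).prodMk (pmap g)) 𝔩) := by
  rw [rowLim2, rowLim, map_ulim p _ (pmap ((pmap (cpi ι f)).prodMk (pmap (cpi ι g))))]
  congr 1
  funext e
  rw [pmap_pmap, pmap_pmap]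
  congr 2
  refine ContinuousMap.ext fun μ => Prod.ext ?_ ?_
  · exact lim_pmap_cpi_rmap hf e μ
  · exact lim_pmap_cpi_rmap hg e μ


end Vale.Agent.P102
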