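import Vale.Agent.P102.HB1

/-! A deterministic projection lemma. -/

open MeasureTheory ProbabilityTheory Filter Topology Set
open scoped ComplexConjugate

noncomputable section

namespace Vale.Agent.P102

variable {Ω : Type} {𝒜 𝒜' ℬ ℬ' 𝒞 𝒞' : MeasurableSpace Ω} {mΩ : MeasurableSpace Ω}
  {Θ : Measure Ω} [IsProbabilityMeasure Θ]

theorem projdet_ae (h : 𝒜 ≤ mΩ) {a : L2 Θ} {f : Ω → ℂ} (e : (a : Ω → ℂ) =ᵐ[Θ] f) :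
    (PP Θ 𝒜 a : Ω → ℂ) =ᵐ[Θ] Θ[f | 𝒜] :=
  (PP_ae h a).trans (condExp_congr_ae e)

theorem projdet_L2 (h𝒜 : 𝒜 ≤ mΩ) (hℬ : ℬ ≤ mΩ) {F : L2 Θ} (hF : F ∈ XX Θ 𝒜)
    (h0 : PP Θ ℬ (PP Θ 𝒜 (PP Θ ℬ (F - PP Θ 𝒜 (PP Θ ℬ F)))) = 0) :
    PP Θ ℬ F = PP Θ 𝒜 (PP Θ ℬ F) := by
  set G := PP Θ 𝒜 (PP Θ ℬ F) with hG
  have hD : PP Θ 𝒜 (F - G) = F - G := PP_of_mem h𝒜 (sub_mem hF (PP_mem _))
  have e1 : PP Θ 𝒜 (PP Θ ℬ (F - G)) = 0 := by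
    rw [← inner_self_eq_zero (𝕜 := ℂ), inner_PP h𝒜, PP_PP le_rfl h𝒜, inner_PP hℬ, h0,
      inner_zero_right]
  have e2 : PP Θ ℬ (F - G) = 0 := by
    rw [← inner_self_eq_zero (𝕜 := ℂ), ← inner_PP hℬ, PP_PP le_rfl hℬ]
    calc inner ℂ (PP Θ ℬ (F - G)) (F - G)
        = inner ℂ (PP Θ ℬ (F - G)) (PP Θ 𝒜 (F - G)) := by rw [hD]
      _ = 0 := by rw [← inner_PP h𝒜, e1, inner_zero_left]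
  have e3 : PP Θ ℬ F = PP Θ ℬ G := by rwa [map_sub, sub_eq_zero] at e2
  have e4 : G ∈ XX Θ ℬ := by
    refine mem_XX_of_norm_PP hℬ ?_
    rw [← e3]
    exact norm_PP_le _
  rw [e3, PP_of_mem hℬ e4]

/-- In `L²` with `P₁ = PP 𝒜`, `P₀ = PP ℬ`, `d = f - g`: `‖g'‖² = ⟪P₀ d, g'⟫ = ⟪d, P₀ g'⟫ = 0`, so
`P₁ P₀ d = 0`, `‖P₀ d‖² = ⟪P₁ P₀ d, d⟫ = 0`, `P₀ f = P₀ g`, `g = P₁ P₀ g`, `‖g‖² = ‖P₀ g‖²`,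
`P₀ g = g`. -/
theorem proj_det (h𝒜 : 𝒜 ≤ mΩ) (hℬ : ℬ ≤ mΩ) {f g g' : Ω → ℂ} (hf : MemLp f 2 Θ)
    (hfm : AEStronglyMeasurable[𝒜] f Θ) (hg : Θ[Θ[f | ℬ] | 𝒜] =ᵐ[Θ] g)
    (hg' : Θ[Θ[fun ω => f ω - g ω | ℬ] | 𝒜] =ᵐ[Θ] g') (h0 : Θ[g' | ℬ] =ᵐ[Θ] 0) :
    Θ[f | ℬ] =ᵐ[Θ] g := by
  have eF := hf.coeFn_toLp
  set F : L2 Θ := hf.toLp f
  have eG := (projdet_ae h𝒜 (projdet_ae hℬ eF)).trans hg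
  have eD : ((F - PP Θ 𝒜 (PP Θ ℬ F) : L2 Θ) : Ω → ℂ) =ᵐ[Θ] fun ω => f ω - g ω := by
    filter_upwards [Lp.coeFn_sub F (PP Θ 𝒜 (PP Θ ℬ F)), eF, eG] with ω a b c
    rw [a, Pi.sub_apply, b, c]
  have eG' := (projdet_ae h𝒜 (projdet_ae hℬ eD)).trans hg'
  have e0 := (projdet_ae hℬ eG').trans h0
  have key := projdet_L2 h𝒜 hℬ (mem_XX.2 (hfm.congr eF.symm))
    (Lp.ext (e0.trans (Lp.coeFn_zero _ _ _).symm))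
  rw [← key] at eG
  exact (projdet_ae hℬ eF).symm.trans eG

end Vale.Agent.P102
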