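import Vale.Agent.P102.Eps

/-! Transfer along a measurable map. -/

open MeasureTheory ProbabilityTheory Filter Topology Set
open scoped ComplexConjugate

noncomputable section

namespace Vale.Agent.P102

theorem tr_unit {X Y : Type} (m : MeasurableSpace Y) (f : X → Y) {χ : X → ℂ}
    (h : Measurable[m.comap f] χ) (hn : ∀ x, ‖χ x‖ = 1) :
    ∃ ψ : Y → ℂ, Measurable ψ ∧ (∀ y, ‖ψ y‖ = 1) ∧ χ = fun x => ψ (f x) := by
  obtain ⟨g, mg, rfl⟩ := h.exists_eq_measurable_comp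
  refine ⟨fun y => if ‖g y‖ = 1 then g y else 1,
    Measurable.ite (measurableSet_eq_fun mg.norm measurable_const) mg measurable_const,
    fun y => ?_, funext fun x => (if_pos (hn x)).symm⟩
  beta_reduce
  split_ifs with hy
  · exact hy
  · exact norm_one

theorem tr_meas_row {K ι α : Type} [MeasurableSpace K] (s : α) :
    Measurable fun (w : ι → α → K) (i : ι) => w i s :=
  measurable_pi_lambda _ fun i =>
    (measurable_pi_apply s).comp (measurable_pi_apply (X := fun _ : ι => α → K) i)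

section
variable {Ω Ω' : Type} {𝒜 𝒜₀ 𝒜₁ 𝒜₂ : MeasurableSpace Ω'} {mΩ : MeasurableSpace Ω}
  {mΩ' : MeasurableSpace Ω'} {Θ : Measure Ω} [IsProbabilityMeasure Θ] {f : Ω → Ω'}

theorem condExp_comp_map {𝕜 : Type} [RCLike 𝕜] (hf : Measurable f) (h𝒜 : 𝒜 ≤ mΩ') {g : Ω' → 𝕜}
    (hg : Integrable g (Θ.map f)) :
    Θ[fun ω => g (f ω) | 𝒜.comap f] =ᵐ[Θ] fun ω => ((Θ.map f)[g | 𝒜]) (f ω) := by
  have : IsProbabilityMeasure (Θ.map f) := Measure.isProbabilityMeasure_map hf.aemeasurable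
  have hle : 𝒜.comap f ≤ mΩ := (MeasurableSpace.comap_mono h𝒜).trans hf.comap_le
  have hi : Integrable ((Θ.map f)[g | 𝒜]) (Θ.map f) := integrable_condExp
  refine (ae_eq_condExp_of_forall_setIntegral_eq hle (hg.comp_measurable hf)
    (fun s _ _ => (hi.comp_measurable hf).integrableOn) ?_ ?_).symm
  · rintro s ⟨t, ht, rfl⟩ -
    simp only [Function.comp_apply]
    rw [← setIntegral_map (h𝒜 t ht) hi.aestronglyMeasurable hf.aemeasurable,
      setIntegral_condExp h𝒜 hg ht,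
      setIntegral_map (h𝒜 t ht) hg.aestronglyMeasurable hf.aemeasurable]
  · exact (stronglyMeasurable_condExp.comp_measurable (comap_measurable f)).aestronglyMeasurable

/-- An a.e. equality of measurable functions can be pushed forward. -/
theorem ae_eq_map_iff {𝕜 : Type} [RCLike 𝕜] (hf : Measurable f) {g g' : Ω' → 𝕜}
    (hg : AEStronglyMeasurable g (Θ.map f)) (hg' : AEStronglyMeasurable g' (Θ.map f)) :
    g =ᵐ[Θ.map f] g' ↔ (fun ω => g (f ω)) =ᵐ[Θ] fun ω => g' (f ω) := by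
  refine ⟨fun h => ae_of_ae_map hf.aemeasurable h, fun h => ?_⟩
  obtain ⟨g₁, m₁, e₁⟩ := hg
  obtain ⟨g₂, m₂, e₂⟩ := hg'
  have h1 : g₁ =ᵐ[Θ.map f] g₂ := by
    refine (ae_map_iff hf.aemeasurable (m₁.measurableSet_eq_fun m₂)).2 ?_
    filter_upwards [h, ae_of_ae_map hf.aemeasurable e₁, ae_of_ae_map hf.aemeasurable e₂]
      with ω a b c
    rw [← b, ← c, a]
  exact e₁.trans (h1.trans e₂.symm)

theorem aesm_comap_iff {𝕜 : Type} [RCLike 𝕜] (hf : Measurable f) (h𝒜 : 𝒜 ≤ mΩ') {g : Ω' → 𝕜}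
    (hg : Measurable g) :
    AEStronglyMeasurable[𝒜.comap f] (fun ω => g (f ω)) Θ ↔
      AEStronglyMeasurable[𝒜] g (Θ.map f) := by
  constructor
  · rintro ⟨g₁, m₁, e₁⟩
    obtain ⟨h, mh, rfl⟩ := StronglyMeasurable.exists_eq_measurable_comp (mY := 𝒜) m₁
    exact ⟨h, mh, (ae_eq_map_iff hf hg.aestronglyMeasurable
      (mh.mono h𝒜).aestronglyMeasurable).2 e₁⟩
  · rintro ⟨h, mh, e⟩
    exact ⟨fun ω => h (f ω), mh.comp_measurable (comap_measurable f),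
      ae_of_ae_map hf.aemeasurable e⟩

/-- Doob-Dynkin (`Measurable.exists_eq_measurable_comp`), then set the factor to one where its
norm is not one. -/
theorem ChO.of_comap (hf : Measurable f) (h0 : 𝒜₀ ≤ mΩ') (h1 : 𝒜₁ ≤ mΩ') (h2 : 𝒜₂ ≤ mΩ')
    {χ : Ω → ℂ} (h : ChO Θ (𝒜₀.comap f) (𝒜₁.comap f) (𝒜₂.comap f) χ) :
    ∃ χ' : Ω' → ℂ, ChO (Θ.map f) 𝒜₀ 𝒜₁ 𝒜₂ χ' ∧ χ = fun ω => χ' (f ω) := by
  obtain ⟨m1, n1, χ₀, χ₂, m0, m2, n0, n2, e⟩ := h
  obtain ⟨ψ₁, a1, b1, rfl⟩ := tr_unit 𝒜₁ f m1 n1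
  obtain ⟨ψ₀, a0, b0, rfl⟩ := tr_unit 𝒜₀ f m0 n0
  obtain ⟨ψ₂, a2, b2, rfl⟩ := tr_unit 𝒜₂ f m2 n2
  refine ⟨ψ₁, ⟨a1, b1, ψ₀, ψ₂, a0, a2, b0, b2, ?_⟩, rfl⟩
  refine (ae_map_iff hf.aemeasurable ?_).2 e
  exact measurableSet_eq_fun (((a0.mono h0 le_rfl).mul (a1.mono h1 le_rfl)).mul
    (a2.mono h2 le_rfl)) measurable_const

theorem ChO.comap (hf : Measurable f) {χ' : Ω' → ℂ} (h : ChO (Θ.map f) 𝒜₀ 𝒜₁ 𝒜₂ χ') :
    ChO Θ (𝒜₀.comap f) (𝒜₁.comap f) (𝒜₂.comap f) fun ω => χ' (f ω) := by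
  obtain ⟨m1, n1, χ₀, χ₂, m0, m2, n0, n2, e⟩ := h
  exact ⟨m1.comp (comap_measurable f), fun _ => n1 _, fun ω => χ₀ (f ω), fun ω => χ₂ (f ω),
    m0.comp (comap_measurable f), m2.comp (comap_measurable f), fun _ => n0 _, fun _ => n2 _,
    ae_of_ae_map hf.aemeasurable e⟩

end

section
variable {K ι α : Type} [MeasurableSpace K]

theorem isChar_of_ChO {κ : Measure (ι → K)} {t₀ t₁ : ι} {χ : (ι → K) → ℂ}
    (h : ChO κ (cσ K {t₀}) (cσ K {t₁}) (cσ K {l | l ≠ t₀ ∧ l ≠ t₁}) χ) :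
    ∃ χ' : K → ℂ, IsChar κ t₀ t₁ χ' ∧ χ = fun w => χ' (w t₁) := by
  have m1 := h.1
  rw [cσ_singleton] at m1
  obtain ⟨ψ, a, b, rfl⟩ := tr_unit _ _ m1 h.2.1
  exact ⟨ψ, ⟨a, b, h⟩, rfl⟩

/-- Characters of row `s` of a grid. -/
theorem isChar_of_row {Θ : Measure (ι → α → K)} [IsProbabilityMeasure Θ] {t₀ t₁ : ι} {s : α}
    {χ : (ι → α → K) → ℂ}
    (h : ChO Θ (gσ K {t₀} {s}) (gσ K {t₁} {s}) (gσ K {l | l ≠ t₀ ∧ l ≠ t₁} {s}) χ) :
    ∃ χ' : K → ℂ, IsChar (Θ.map fun w i => w i s) t₀ t₁ χ' ∧ χ = fun w => χ' (w t₁ s) := by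
  rw [gσ_row, gσ_row, gσ_row] at h
  obtain ⟨ψ, hψ, rfl⟩ := ChO.of_comap (tr_meas_row s) (cσ_le _) (cσ_le _) (cσ_le _) h
  obtain ⟨χ', h', rfl⟩ := isChar_of_ChO hψ
  exact ⟨χ', h', rfl⟩

theorem IsChar.row {Θ : Measure (ι → α → K)} [IsProbabilityMeasure Θ] {t₀ t₁ : ι} {s : α}
    {χ : K → ℂ} (h : IsChar (Θ.map fun w i => w i s) t₀ t₁ χ) :
    ChO Θ (gσ K {t₀} {s}) (gσ K {t₁} {s}) (gσ K {l | l ≠ t₀ ∧ l ≠ t₁} {s})
      fun w => χ (w t₁ s) := by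
  rw [gσ_row, gσ_row, gσ_row]
  exact ChO.comap (tr_meas_row s) h.2.2

theorem JJ.row {Θ : Measure (ι → α → K)} [IsProbabilityMeasure Θ] {t : ι} {s : α} {v F : K → ℂ}
    (hv : BM v) (h : JJ (Θ.map fun w i => w i s) t v F) :
    Θ[Θ[fun w => v (w t s) | gσ K {l | l ≠ t} {s}] | gσ K {t} {s}] =ᵐ[Θ]
      fun w => F (w t s) := by
  have : IsProbabilityMeasure (Θ.map fun (w : ι → α → K) i => w i s) :=
    Measure.isProbabilityMeasure_map (tr_meas_row s).aemeasurable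
  rw [gσ_row, gσ_row]
  have h1 := condExp_comp_map (Θ := Θ) (tr_meas_row s) (cσ_le {l | l ≠ t})
    ((hv.comp (measurable_pi_apply t)).integrable _)
  have h2 := condExp_comp_map (Θ := Θ) (tr_meas_row s) (cσ_le {t})
    (g := (Θ.map fun (w : ι → α → K) i => w i s)[fun w => v (w t) | cσ K {l | l ≠ t}])
    integrable_condExp
  exact (condExp_congr_ae h1).trans (h2.trans (ae_of_ae_map (tr_meas_row s).aemeasurable h))

theorem Rel.row {Θ : Measure (ι → α → K)} [IsProbabilityMeasure Θ] {t : ι} {s : α} {v F : K → ℂ}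
    (hv : BM v) (h : Rel (Θ.map fun w i => w i s) t v F) :
    Θ[fun w => v (w t s) | gσ K {l | l ≠ t} {s}] =ᵐ[Θ] fun w => F (w t s) := by
  have : IsProbabilityMeasure (Θ.map fun (w : ι → α → K) i => w i s) :=
    Measure.isProbabilityMeasure_map (tr_meas_row s).aemeasurable
  rw [gσ_row]
  have h1 := condExp_comp_map (Θ := Θ) (tr_meas_row s) (cσ_le {l | l ≠ t})
    ((hv.comp (measurable_pi_apply t)).integrable _)
  exact h1.trans (ae_of_ae_map (tr_meas_row s).aemeasurable h)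

/-- Doob-Dynkin and truncation (conditional expectations preserve the bound a.e.). -/
theorem exists_JJ (κ : Measure (ι → K)) [IsProbabilityMeasure κ] (t : ι) {v : K → ℂ}
    (hv : BM v) : ∃ F, BM F ∧ JJ κ t v F := by
  obtain ⟨-, C, hC⟩ := hv
  have h1 : ∀ᵐ w ∂κ, ‖(κ[κ[fun w => v (w t) | cσ K {l | l ≠ t}] | cσ K {t}]) w‖ ≤ C :=
    ae_bdd_norm_condExp_of_ae_bdd_norm
      (ae_bdd_norm_condExp_of_ae_bdd_norm (ae_of_all _ fun w => hC _))
  have h2 : Measurable[cσ K {t}] (κ[κ[fun w => v (w t) | cσ K {l | l ≠ t}] | cσ K {t}]) :=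
    stronglyMeasurable_condExp.measurable
  unfold JJ
  generalize κ[κ[fun w => v (w t) | cσ K {l | l ≠ t}] | cσ K {t}] = G at h1 h2
  rw [cσ_singleton] at h2
  obtain ⟨g, mg, rfl⟩ := h2.exists_eq_measurable_comp
  refine ⟨fun x => if ‖g x‖ ≤ C then g x else 0,
    ⟨Measurable.ite (measurableSet_le mg.norm measurable_const) mg measurable_const, max C 0,
      fun x => ?_⟩, ?_⟩
  · beta_reduce
    split_ifs with hx
    · exact hx.trans (le_max_left _ _)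
    · simp
  · filter_upwards [h1] with w hw
    exact (if_pos hw).symm

theorem Rel.integral_eq {κ : Measure (ι → K)} [IsProbabilityMeasure κ] {t : ι} {v F : K → ℂ}
    (h : Rel κ t v F) : ∫ w, F (w t) ∂κ = ∫ w, v (w t) ∂κ := by
  rw [← integral_congr_ae h, integral_condExp (cσ_le _)]

theorem Rel.aesm {κ : Measure (ι → K)} {t : ι} {v F : K → ℂ} (h : Rel κ t v F) :
    AEStronglyMeasurable[cσ K {l | l ≠ t}] (fun w => F (w t)) κ := by
  exact stronglyMeasurable_condExp.aestronglyMeasurable.congr h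

end


end Vale.Agent.P102
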