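import Vale.Agent.P102.GridB
import Vale.Agent.P102.G0
import Vale.Agent.P102.Tr
import Vale.Agent.P102.ProjDet

/-! The deterministic operator is a projection. -/

open MeasureTheory ProbabilityTheory Filter Topology Set
open scoped ComplexConjugate

noncomputable section

namespace Vale.Agent.P102

theorem proj_condExp_zero {Ω : Type} {ℬ mΩ : MeasurableSpace Ω} {κ : Measure Ω}
    [IsProbabilityMeasure κ] (hℬ : ℬ ≤ mΩ) {G : Ω → ℂ} (hG : Integrable G κ)
    (h : ∀ A, MeasurableSet[ℬ] A → ∫ w in A, G w ∂κ = 0) : κ[G | ℬ] =ᵐ[κ] 0 := by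
  refine (ae_eq_condExp_of_forall_setIntegral_eq hℬ hG (g := 0)
    (fun A _ _ => (integrable_zero _ _ _).integrableOn) (fun A hA _ => ?_)
    stronglyMeasurable_zero.aestronglyMeasurable).symm
  rw [h A hA]
  simp

theorem proj_grid {K ι : Type} [MeasurableSpace K] {Θ : Measure (ι → ι → K)}
    [IsProbabilityMeasure Θ] {t₀ t₁ : ι} (hG : GH Θ {S | S ≠ univ}) (ht : t₀ ≠ t₁)
    (h3 : ∃ c, c ≠ t₀ ∧ c ≠ t₁) {v g g' : K → ℂ} (hv : BM v) (hg : BM g) (hg' : BM g')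
    (h1 : JJ (Θ.map fun w i => w i t₁) t₁ v g)
    (h2 : JJ (Θ.map fun w i => w i t₁) t₁ (fun x => v x - g x) g') {A : Set (ι → K)}
    (hA : MeasurableSet[cσ K {l | l ≠ t₁}] A) :
    ∫ w in A, g' (w t₁) ∂(Θ.map fun w => w t₁) = 0 := by
  have hm : Measurable fun w : ι → ι → K => w t₁ t₁ :=
    (measurable_pi_apply t₁).comp (measurable_pi_apply (X := fun _ : ι => ι → K) t₁)
  have hm1 : Measurable fun w : ι → ι → K => w t₁ := measurable_pi_apply t₁
  have G := hG.g33 ht h3 ht.symm (h3.imp fun c hc => ⟨hc.2, hc.1⟩)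
  have e1 : gσ K ({t₀} : Set ι) ({t₁} : Set ι) ⊔ gσ K {l | l ≠ t₀ ∧ l ≠ t₁} {t₁} =
      gσ K {l | l ≠ t₁} {t₁} := by rw [← gσ_union_left, blk_zero_union_two ht]
  have e2 : gσ K ({t₁} : Set ι) ({t₀} : Set ι) ⊔ gσ K {t₁} {l | l ≠ t₁ ∧ l ≠ t₀} =
      gσ K {t₁} {l | l ≠ t₁} := by rw [← gσ_union_right, blk_one_union_two ht.symm]
  have r1 := JJ.row hv h1
  have r2 := JJ.row (hv.sub hg) h2
  have h0 := g0 (x := 0) (y := 1) (z := 2) (t := 1) (u := 0) (v := 2) G
    ⟨by decide, by decide, by decide⟩ ⟨by decide, by decide, by decide⟩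
    (f := fun w => g' (w t₁ t₁))
    (F := Θ[fun w => v (w t₁ t₁) - g (w t₁ t₁) | gσ K {l | l ≠ t₁} {t₁}])
    ((((hv.sub hg).comp hm).memLp Θ 2).condExp one_le_two)
    (stronglyMeasurable_condExp.mono e1.ge).aestronglyMeasurable
    r2.symm fun χ hχ => by
      simp only [blk_zero, blk_one, blk_two] at hχ
      have hχm : BM fun ω => conj (χ ω) :=
        BM.conj ⟨hχ.1.mono (gσ_le _ _) le_rfl, 1, fun ω => (hχ.2.1 ω).le⟩
      have i1 := hχ.integral_condExp (gσ_le _ _) (gσ_le _ _) (gσ_le _ _)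
        ((hv.comp hm).integrable Θ)
      have i2 := hχ.integral_condExp (gσ_le _ _) (gσ_le _ _) (gσ_le _ _)
        (((hv.sub hg).comp hm).integrable Θ)
      rw [e1] at i1 i2
      have j1 : ∫ ω, g (ω t₁ t₁) * conj (χ ω) ∂Θ = ∫ ω, v (ω t₁ t₁) * conj (χ ω) ∂Θ := by
        rw [← i1]
        refine integral_congr_ae ?_
        filter_upwards [r1] with ω hω
        rw [hω]
      have j2 : ∫ ω, g' (ω t₁ t₁) * conj (χ ω) ∂Θ =
          ∫ ω, (v (ω t₁ t₁) - g (ω t₁ t₁)) * conj (χ ω) ∂Θ := by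
        rw [← i2]
        refine integral_congr_ae ?_
        filter_upwards [r2] with ω hω
        rw [hω]
      rw [j2]
      simp only [sub_mul]
      rw [integral_sub (((hv.comp hm).mul hχm).integrable Θ) (((hg.comp hm).mul hχm).integrable Θ),
        j1, sub_self]
  simp only [blk_one, blk_two] at h0
  rw [e2] at h0
  have hA' : MeasurableSet[gσ K ({t₁} : Set ι) {l | l ≠ t₁}]
      ((fun w : ι → ι → K => w t₁) ⁻¹' A) := by
    rw [gσ_col]
    exact ⟨A, hA, rfl⟩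
  rw [setIntegral_map (cσ_le _ A hA)
      (hg'.comp (measurable_pi_apply t₁)).1.aestronglyMeasurable hm1.aemeasurable,
    ← setIntegral_condExp (gσ_le _ _) ((hg'.comp hm).integrable Θ) hA',
    setIntegral_congr_ae (gσ_le _ _ _ hA') (g := 0) (h0.mono fun ω hω _ => hω)]
  simp

variable {K Y : Type}
  [TopologicalSpace K] [MeasurableSpace K] [Nice K] [AddAction ℤ K] [ContinuousConstVAdd ℤ K]
  [TopologicalSpace Y] [MeasurableSpace Y] [Nice Y] [AddAction ℤ Y] [ContinuousConstVAdd ℤ Y]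
variable {ι : Type} [Fintype ι] {p : Ultrafilter (ι → ℤ)} {μY : PM Y} {π : C(K, Y)}
  {𝔪 : PM (PM K)} {t₀ t₁ : ι}

/-- Let `g = R h`, `d = h - g`, `g' = R d`. In the main grid (`exists_main_grid`, `GH.g33` with
columns `blk t₀ t₁` and rows `blk t₁ t₀`; `x, y, z = 0, 1, 2`, `t, u, v = 1, 0, 2`) apply `g0` to
`f w = g' (π (w t₁ t₁))`, `F = Θ[d (π (w t₁ t₁)) | gσ {l ≠ t₁} {t₁}]` (`JJ.row`,
`ChO.integral_condExp` twice for the orthogonality). With `gσ_col` and `condExp_comp_map` the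
column law `λ` has `λ[g' (π (w t₁)) | cσ {l ≠ t₁}] = 0`, that is all set integrals over
`cσ {l ≠ t₁}` vanish. Push (`ae_pmap_of_ae`), average (`MartS.avg`, `IsBary.integral`), and apply
`proj_det`. -/
theorem rel_of_R (hS : Setup p μY π 𝔪) (ht : t₀ ≠ t₁) (h3 : ∃ c, c ≠ t₀ ∧ c ≠ t₁)
    {R : (Y → ℂ) → Y → ℂ} (hb : ∀ h, BM h → BM (R h))
    (hR : ∀ᵐ κ : PM (ι → K) ∂(rowLim p 𝔪 : Measure (PM (ι → K))), ∀ h, BM h →
      JJ (κ : Measure (ι → K)) t₁ (fun x => h (π x)) (fun x => R h (π x)))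
    {h : Y → ℂ} (hh : BM h) :
    ∀ᵐ κ : PM (ι → K) ∂(rowLim p 𝔪 : Measure (PM (ι → K))),
      Rel (κ : Measure (ι → K)) t₁ (fun x => h (π x)) (fun x => R h (π x)) := by
  have : Nontrivial ι := ⟨t₀, t₁, ht⟩
  obtain ⟨ρ, 𝔤, hfst, hM, hrow, hcol, hG⟩ := exists_main_grid hS
  have hπ : Measurable π := π.continuous.measurable
  have hd : BM fun y => h y - R h y := hh.sub (hb h hh)
  have hG' : BM fun w : ι → K => R (fun y => h y - R h y) (π (w t₁)) :=
    ((hb _ hd).comp hπ).comp (measurable_pi_apply t₁)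
  have hR' := hR
  rw [← hrow t₁] at hR'
  have h1 : ∀ᵐ ν : PM (ι → K) ∂(psnd ρ : Measure (PM (ι → K))), ∀ A,
      MeasurableSet[cσ K {l | l ≠ t₁}] A →
        ∫ w in A, R (fun y => h y - R h y) (π (w t₁)) ∂(ν : Measure (ι → K)) = 0 := by
    rw [← hcol t₁]
    refine ae_pmap_of_ae _ _ ?_
    filter_upwards [hG, ae_of_ae_pmap _ _ hR'] with Θ hΘ hΘ' A hA
    exact proj_grid hΘ ht h3 (hh.comp hπ) ((hb h hh).comp hπ) ((hb _ hd).comp hπ) (hΘ' h hh)
      (hΘ' _ hd) hA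
  have h2 := MartS.avg measurable_id hM (ae_of_ae_psnd ρ h1)
  rw [hfst] at h2
  filter_upwards [h2, hR] with κ ⟨ξ, hξ, hν⟩ hκ
  have h0 := proj_condExp_zero (cσ_le {l | l ≠ t₁}) (hG'.integrable (κ : Measure (ι → K)))
    fun A hA => by
      have hA' := cσ_le _ A hA
      rw [← integral_indicator hA',
        IsBary.integral (μ := κ) hξ ((hG'.integrable _).indicator hA')]
      refine integral_eq_zero_of_ae ?_
      filter_upwards [hν] with ν hν
      rw [integral_indicator hA']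
      exact hν A hA
  exact proj_det (cσ_le {t₁}) (cσ_le {l | l ≠ t₁})
    (((hh.comp hπ).comp (measurable_pi_apply t₁)).memLp _ 2)
    ((hh.1.comp hπ).comp (measurable_cσ (mem_singleton t₁))).aestronglyMeasurable
    (hκ h hh) (hκ _ hd) h0


end Vale.Agent.P102
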