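import Vale.Agent.P102.Tr

/-! The automorphism of the group of characters. -/

open MeasureTheory ProbabilityTheory Filter Topology Set
open scoped ComplexConjugate

noncomputable section

namespace Vale.Agent.P102

section
variable {X X' Z : Type} [MeasurableSpace X] [MeasurableSpace X'] [MeasurableSpace Z]
  {μ : Measure X} {μ' : Measure X'} {ς : Measure Z} {p : Z → X} {p' : Z → X'}

/-- The class `a` is represented by `χ`. -/
def sigma_Rep (μ : Measure X) (a : X →ₘ[μ] Circle) (χ : X → ℂ) : Prop :=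
  ∀ᵐ x ∂μ, ((a x : Circle) : ℂ) = χ x

theorem sigma_cls (μ : Measure X) {χ : X → ℂ} (hm : Measurable χ) (h1 : ∀ x, ‖χ x‖ = 1) :
    ∃ a, sigma_Rep μ a χ := by
  let f : X → Circle := fun x => ⟨χ x, mem_sphere_zero_iff_norm.2 (h1 x)⟩
  have emb : IsEmbedding (X := Circle) (fun z : Circle => (z : ℂ)) := IsEmbedding.subtypeVal
  have : TopologicalSpace.PseudoMetrizableSpace Circle := emb.isInducing.pseudoMetrizableSpace
  have hf : AEStronglyMeasurable f μ :=
    (emb.aestronglyMeasurable_comp_iff (f := f)).1 hm.aestronglyMeasurable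
  refine ⟨AEEqFun.mk f hf, ?_⟩
  filter_upwards [AEEqFun.coeFn_mk f hf] with x hx
  rw [hx]

theorem sigma_sm (a : X →ₘ[μ] Circle) : Measurable fun x => ((a x : Circle) : ℂ) :=
  (continuous_subtype_val.comp_stronglyMeasurable a.stronglyMeasurable).measurable

theorem sigma_ae (hp : MeasurePreserving p ς μ) {f g : X → ℂ} (hf : Measurable f)
    (hg : Measurable g) (h : ∀ᵐ z ∂ς, f (p z) = g (p z)) : ∀ᵐ x ∂μ, f x = g x := by
  rw [← hp.map_eq]
  exact (ae_map_iff hp.aemeasurable (measurableSet_eq_fun hf hg)).2 h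

theorem sigma_int (hp : MeasurePreserving p ς μ) {f : X → ℂ} (hf : Measurable f) :
    ∫ x, f x ∂μ = ∫ z, f (p z) ∂ς := by
  rw [← hp.map_eq, integral_map hp.aemeasurable hf.aestronglyMeasurable]

/-- Composition with a measure preserving map. -/
def sigma_cmp (hp : MeasurePreserving p ς μ) : (X →ₘ[μ] Circle) →* (Z →ₘ[ς] Circle) :=
  MonoidHom.mk' (fun a => a.compMeasurePreserving p hp) fun a b => AEEqFun.ext (by
    filter_upwards [(a * b).coeFn_compMeasurePreserving hp, a.coeFn_compMeasurePreserving hp,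
      b.coeFn_compMeasurePreserving hp, hp.quasiMeasurePreserving.ae (a.coeFn_mul b),
      (a.compMeasurePreserving p hp).coeFn_mul (b.compMeasurePreserving p hp)]
      with z h1 h2 h3 h4 h5
    rw [h1, h5, Pi.mul_apply, h2, h3]
    exact h4)

theorem sigma_cmp_coe (hp : MeasurePreserving p ς μ) (a : X →ₘ[μ] Circle) :
    ∀ᵐ z ∂ς, sigma_cmp hp a z = a (p z) := a.coeFn_compMeasurePreserving hp

theorem sigma_cmp_iff (hp : MeasurePreserving p ς μ) (hp' : MeasurePreserving p' ς μ')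
    (a : X →ₘ[μ] Circle) (a' : X' →ₘ[μ'] Circle) :
    sigma_cmp hp a = sigma_cmp hp' a' ↔ ∀ᵐ z ∂ς, (a (p z) : ℂ) = a' (p' z) := by
  constructor
  · intro h
    filter_upwards [sigma_cmp_coe hp a, sigma_cmp_coe hp' a'] with z h1 h2
    rw [← h1, ← h2, h]
  · intro h
    refine AEEqFun.ext ?_
    filter_upwards [sigma_cmp_coe hp a, sigma_cmp_coe hp' a', h] with z h1 h2 h3
    rw [h1, h2]
    exact Circle.ext h3

theorem sigma_cmp_inj (hp : MeasurePreserving p ς μ) : Function.Injective (sigma_cmp hp) :=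
  fun a b h => AEEqFun.ext ((sigma_ae hp (sigma_sm a) (sigma_sm b)
    ((sigma_cmp_iff hp hp a b).1 h)).mono fun _ hx => Circle.ext hx)

/-- The group generated by the classes of the functions with property `P`. -/
def sigma_G (μ : Measure X) (P : (X → ℂ) → Prop) : Subgroup (X →ₘ[μ] Circle) :=
  Subgroup.closure {a | ∃ χ, P χ ∧ sigma_Rep μ a χ}

theorem sigma_img (hp : MeasurePreserving p ς μ) (hp' : MeasurePreserving p' ς μ')
    {P : (X → ℂ) → Prop} {P' : (X' → ℂ) → Prop}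
    (hP' : ∀ χ, P' χ → Measurable χ ∧ ∀ x, ‖χ x‖ = 1)
    (h : ∀ χ, P χ → ∃ χ', P' χ' ∧ ∀ᵐ z ∂ς, χ (p z) = χ' (p' z)) :
    (sigma_G μ P).map (sigma_cmp hp) ≤ (sigma_G μ' P').map (sigma_cmp hp') := by
  rw [sigma_G, sigma_G, MonoidHom.map_closure, MonoidHom.map_closure]
  refine Subgroup.closure_mono ?_
  rintro _ ⟨a, ⟨χ, hχ, ha⟩, rfl⟩
  obtain ⟨χ', hχ', e⟩ := h χ hχ
  obtain ⟨a', ha'⟩ := sigma_cls μ' (hP' χ' hχ').1 (hP' χ' hχ').2
  refine ⟨a', ⟨χ', hχ', ha'⟩, ((sigma_cmp_iff hp hp' a a').2 ?_).symm⟩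
  filter_upwards [e, hp.quasiMeasurePreserving.ae ha, hp'.quasiMeasurePreserving.ae ha']
    with z h1 h2 h3
  rw [h2, h3, h1]

theorem sigma_iso (hp : MeasurePreserving p ς μ) (hp' : MeasurePreserving p' ς μ')
    {P : (X → ℂ) → Prop} {P' : (X' → ℂ) → Prop}
    (hP : ∀ χ, P χ → Measurable χ ∧ ∀ x, ‖χ x‖ = 1)
    (hP' : ∀ χ, P' χ → Measurable χ ∧ ∀ x, ‖χ x‖ = 1)
    (h : ∀ χ, P χ → ∃ χ', P' χ' ∧ ∀ᵐ z ∂ς, χ (p z) = χ' (p' z))
    (h' : ∀ χ', P' χ' → ∃ χ, P χ ∧ ∀ᵐ z ∂ς, χ (p z) = χ' (p' z)) :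
    ∃ e : sigma_G μ P ≃* sigma_G μ' P', ∀ (a : sigma_G μ P) (H : X → ℂ) (H' : X' → ℂ),
      Measurable H → Measurable H' → (∀ᵐ z ∂ς, H (p z) = H' (p' z)) →
      ∫ x, H' x * conj ((e a).1 x : ℂ) ∂μ' = ∫ x, H x * conj (a.1 x : ℂ) ∂μ := by
  have E : (sigma_G μ P).map (sigma_cmp hp) = (sigma_G μ' P').map (sigma_cmp hp') :=
    le_antisymm (sigma_img hp hp' hP' h) (sigma_img hp' hp hP fun χ' hχ' =>
      (h' χ' hχ').imp fun χ hχ => ⟨hχ.1, hχ.2.mono fun _ hz => hz.symm⟩)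
  let e₁ := (sigma_G μ P).equivMapOfInjective _ (sigma_cmp_inj hp)
  let e₂ := (sigma_G μ' P').equivMapOfInjective _ (sigma_cmp_inj hp')
  refine ⟨(e₁.trans (MulEquiv.subgroupCongr E)).trans e₂.symm, fun a H H' hH hH' hz => ?_⟩
  set b := (e₁.trans (MulEquiv.subgroupCongr E)).trans e₂.symm a with hb
  have k : sigma_cmp hp a.1 = sigma_cmp hp' b.1 := by
    have : e₂ b = MulEquiv.subgroupCongr E (e₁ a) := by
      rw [hb, MulEquiv.trans_apply, MulEquiv.apply_symm_apply, MulEquiv.trans_apply]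
    exact (congrArg Subtype.val this).symm
  have cj := Complex.continuous_conj.measurable
  rw [sigma_int hp' (f := fun x => H' x * conj (b.1 x : ℂ)) (hH'.mul (cj.comp (sigma_sm _))),
    sigma_int hp (f := fun x => H x * conj (a.1 x : ℂ)) (hH.mul (cj.comp (sigma_sm _)))]
  refine integral_congr_ae ?_
  filter_upwards [hz, (sigma_cmp_iff hp hp' _ _).1 k] with z h1 h2
  rw [h1, h2]

theorem sigma_rep {P Q : (X → ℂ) → Prop} (hPQ : ∀ χ, P χ → Q χ) (h1 : Q fun _ => 1)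
    (hm : ∀ χ χ', Q χ → Q χ' → Q fun x => χ x * χ' x) (hc : ∀ χ, Q χ → Q fun x => conj (χ x))
    (a : sigma_G μ P) : ∃ χ, Q χ ∧ sigma_Rep μ a.1 χ := by
  obtain ⟨a, ha⟩ := a
  induction ha using Subgroup.closure_induction with
  | mem a ha => exact ha.imp fun χ h => ⟨hPQ χ h.1, h.2⟩
  | one =>
    refine ⟨_, h1, ?_⟩
    filter_upwards [AEEqFun.coeFn_one (α := X) (μ := μ) (β := Circle)] with x hx
    rw [hx]; rfl
  | mul a b _ _ ha hb =>
    obtain ⟨χ, hχ, e⟩ := ha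
    obtain ⟨χ', hχ', e'⟩ := hb
    refine ⟨_, hm χ χ' hχ hχ', ?_⟩
    filter_upwards [a.coeFn_mul b, e, e'] with x h1 h2 h3
    rw [h1, Pi.mul_apply, Circle.coe_mul, h2, h3]
  | inv a _ ha =>
    obtain ⟨χ, hχ, e⟩ := ha
    refine ⟨_, hc χ hχ, ?_⟩
    filter_upwards [a.coeFn_inv, e] with x h1 h2
    rw [h1, Pi.inv_apply, Circle.coe_inv_eq_conj, h2]

end

section
variable {K Y ι : Type} [MeasurableSpace K] [MeasurableSpace Y] {t₀ t₁ : ι}

theorem sigma_mp (κ : Measure (ι → K)) (t : ι) :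
    MeasurePreserving (fun w : ι → K => w t) κ (κ.map fun w => w t) :=
  ⟨measurable_pi_apply t, rfl⟩

theorem sigma_cor {Z : Type} [MeasurableSpace Z] {ς : Measure Z} {p p' : Z → K} {π : K → Y}
    (hπ : Measurable π) {κ κ' : Measure (ι → K)}
    (hp : MeasurePreserving p ς (κ.map fun w => w t₁))
    (hp' : MeasurePreserving p' ς (κ'.map fun w => w t₁)) (e : ∀ᵐ z ∂ς, π (p z) = π (p' z))
    {χ χ' : K → ℂ} (h : CorChar π κ t₀ t₁ χ) (h' : IsChar κ' t₀ t₁ χ')
    (e' : ∀ᵐ z ∂ς, χ (p z) = χ' (p' z)) : CorChar π κ' t₀ t₁ χ' := by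
  obtain ⟨hχ, g, hg, hne⟩ := h
  refine ⟨h', g, hg, fun h0 => hne ?_⟩
  have cj := Complex.continuous_conj.measurable
  have m : Measurable fun x => g (π x) * conj (χ x) := (hg.1.comp hπ).mul (cj.comp hχ.1)
  have m' : Measurable fun x => g (π x) * conj (χ' x) := (hg.1.comp hπ).mul (cj.comp h'.1)
  rw [← sigma_int (sigma_mp κ t₁) m, sigma_int hp m, ← h0, ← sigma_int (sigma_mp κ' t₁) m',
    sigma_int hp' m']
  refine integral_congr_ae ?_
  filter_upwards [e, e'] with z h1 h2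
  rw [h1, h2]

theorem sigma_isoC {π : K → Y} (hπ : Measurable π) {κ κ' : Measure (ι → K)}
    (h : IsoC π κ κ' t₀ t₁) :
    ∃ e : sigma_G (κ.map fun w => w t₁) (CorChar π κ t₀ t₁) ≃*
        sigma_G (κ'.map fun w => w t₁) (CorChar π κ' t₀ t₁), ∀ a (g : Y → ℂ), Measurable g →
      ∫ x, g (π x) * conj ((e a).1 x : ℂ) ∂(κ'.map fun w => w t₁) =
        ∫ x, g (π x) * conj (a.1 x : ℂ) ∂(κ.map fun w => w t₁) := by
  obtain ⟨ς, -, m, m', hz, h1, h2⟩ := h
  have hp : MeasurePreserving (fun w : Bool → K => w false) ς (κ.map fun w => w t₁) :=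
    ⟨measurable_pi_apply _, m⟩
  have hp' : MeasurePreserving (fun w : Bool → K => w true) ς (κ'.map fun w => w t₁) :=
    ⟨measurable_pi_apply _, m'⟩
  obtain ⟨e, he⟩ := sigma_iso hp hp' (P := CorChar π κ t₀ t₁) (P' := CorChar π κ' t₀ t₁)
    (fun _ h => ⟨h.1.1, h.1.2.1⟩) (fun _ h => ⟨h.1.1, h.1.2.1⟩)
    (fun χ hχ => (h1 χ hχ).imp fun χ' h => ⟨sigma_cor hπ hp hp' hz hχ h.1 h.2, h.2⟩)
    (fun χ' hχ' => (h2 χ' hχ').imp fun χ h => ⟨sigma_cor hπ hp' hp (hz.mono fun _ h => h.symm)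
      hχ' h.1 (h.2.mono fun _ h => h.symm), h.2⟩)
  exact ⟨e, fun a g hg => he a _ _ (hg.comp hπ) (hg.comp hπ) (hz.mono fun _ h => congrArg g h)⟩

end

variable {K Y : Type}
  [TopologicalSpace K] [MeasurableSpace K] [Nice K] [AddAction ℤ K] [ContinuousConstVAdd ℤ K]
  [TopologicalSpace Y] [MeasurableSpace Y] [Nice Y] [AddAction ℤ Y] [ContinuousConstVAdd ℤ Y]
variable {ι : Type} [Fintype ι] {t₀ t₁ : ι}

omit [Nice Y] [ContinuousConstVAdd ℤ Y] in
/-- Characters of the shifted measure (the shift by `n` is measurable for every `cσ K D`). -/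
theorem IsChar.shift {κ : PM (ι → K)} (n : ℤ) {χ : K → ℂ}
    (h : IsChar ((n +ᵥ κ : PM (ι → K)) : Measure (ι → K)) t₀ t₁ χ) :
    IsChar (κ : Measure (ι → K)) t₀ t₁ fun x => χ (n +ᵥ x) := by
  have hn : Measurable fun x : K => n +ᵥ x := (continuous_const_vadd n).measurable
  have hle : ∀ D : Set ι, (cσ K D).comap (sh (ι → K) n) ≤ cσ K D := fun D => by
    conv_lhs => rw [cσ]
    simp only [MeasurableSpace.comap_iSup, MeasurableSpace.comap_comp]
    exact iSup₂_le fun i hi => (hn.comp (measurable_cσ hi)).comap_le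
  exact ⟨h.1.comp hn, fun x => h.2.1 _, ChO.mono (ChO.comap (sh (ι → K) n).continuous.measurable
    h.2.2) (hle _) (hle _) (hle _)⟩

theorem CorChar.shift {π : C(K, Y)} (hπ : Eqv π) {κ : PM (ι → K)} (n : ℤ) {χ : K → ℂ}
    (h : CorChar π ((n +ᵥ κ : PM (ι → K)) : Measure (ι → K)) t₀ t₁ χ) :
    CorChar π (κ : Measure (ι → K)) t₀ t₁ fun x => χ (n +ᵥ x) := by
  obtain ⟨hχ, g, hg, hne⟩ := h
  refine ⟨hχ.shift n, fun y => g (n +ᵥ y), hg.comp (continuous_const_vadd n).measurable, ?_⟩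
  have m : Measurable fun w : ι → K => g (π (w t₁)) * conj (χ (w t₁)) :=
    ((hg.1.comp π.continuous.measurable).mul
      (Complex.continuous_conj.measurable.comp hχ.1)).comp (measurable_pi_apply t₁)
  rw [vadd_pm, sigma_int (measurePreserving_pmap (sh (ι → K) n) κ) m] at hne
  simpa only [sh_apply, Pi.vadd_apply, hπ n] using hne

/-- For a measure `κ` with `μ = κ.map (· t₁)` let `G κ` be the subgroup of the units of
`K →ₘ[μ] ℂ` (or of `K →ₘ[μ] Circle`) generated by the classes of the `CorChar`; every element is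
the class of an `IsChar` function (`ChO.mul`, `ChO.conj`, `ChO.const`), choose such a
representative `r a`. A coupling as in `IsoC` gives two injective homomorphisms
(`AEEqFun.compMeasurePreserving`) into the group over `ς` with the same image on the generators
(a character equal `ς`-a.e. to a correlated one is correlated), hence an isomorphism
`G κ ≃* G κ'` preserving `∫ h (π x) * conj (r a x)`. Composition with the shift gives
`G (1 +ᵥ κ) ≃* G κ` (`CorChar.shift` for `n = 1` and `n = -1`). Compose the three. `dich` is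
`ChO.dich`. -/
theorem exists_gdata {π : C(K, Y)} (hπ : Eqv π) {κ κ' : PM (ι → K)}
    (hT : Tri (κ : Measure (ι → K)) (cσ K {t₀}) (cσ K {t₁}) (cσ K {l | l ≠ t₀ ∧ l ≠ t₁}))
    (h1 : IsoC π (κ : Measure (ι → K)) (κ' : Measure (ι → K)) t₀ t₁)
    (h2 : IsoC π (((1 : ℤ) +ᵥ κ : PM (ι → K)) : Measure (ι → K)) (κ' : Measure (ι → K)) t₀ t₁) :
    ∃ (G : Type) (_ : CommGroup G) (r : G → K → ℂ) (σ : MulAut G),
      GData ((κ : Measure (ι → K)).map fun w => w t₁) π G r σ ∧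
      ∀ χ, CorChar π (κ : Measure (ι → K)) t₀ t₁ χ →
        ∃ a, r a =ᵐ[(κ : Measure (ι → K)).map fun w => w t₁] χ := by
  have mπ : Measurable π := π.continuous.measurable
  have hn : Measurable fun x : K => (1 : ℤ) +ᵥ x := (continuous_const_vadd 1).measurable
  set μ := (κ : Measure (ι → K)).map fun w => w t₁ with hμ
  obtain ⟨e₁, he₁⟩ := sigma_isoC mπ h1
  obtain ⟨e₂, he₂⟩ := sigma_isoC mπ h2
  have hS : MeasurePreserving (fun x : K => (1 : ℤ) +ᵥ x) μ
      ((((1 : ℤ) +ᵥ κ : PM (ι → K)) : Measure (ι → K)).map fun w => w t₁) := by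
    refine ⟨hn, ?_⟩
    rw [hμ, vadd_pm, coe_pmap, Measure.map_map hn (measurable_pi_apply t₁),
      Measure.map_map (measurable_pi_apply t₁) (sh (ι → K) 1).continuous.measurable]
    rfl
  obtain ⟨e₃, he₃⟩ := sigma_iso hS (MeasurePreserving.id μ)
    (P := CorChar π (((1 : ℤ) +ᵥ κ : PM (ι → K)) : Measure (ι → K)) t₀ t₁)
    (P' := CorChar π (κ : Measure (ι → K)) t₀ t₁)
    (fun _ h => ⟨h.1.1, h.1.2.1⟩) (fun _ h => ⟨h.1.1, h.1.2.1⟩)
    (fun χ hχ => ⟨_, hχ.shift hπ 1, Eventually.of_forall fun _ => rfl⟩)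
    (fun χ hχ => ⟨_, CorChar.shift hπ (-1) (χ := χ) (by rwa [neg_vadd_vadd]),
      Eventually.of_forall fun z => by rw [neg_vadd_vadd]; rfl⟩)
  choose r hr hr' using sigma_rep (μ := μ) (P := CorChar π (κ : Measure (ι → K)) t₀ t₁)
    (Q := IsChar (κ : Measure (ι → K)) t₀ t₁) (fun _ h => h.1)
    ⟨measurable_const, fun _ => norm_one, ChO.const norm_one⟩
    (fun χ χ' h h' => ⟨h.1.mul h'.1, fun x => by rw [norm_mul, h.2.1, h'.2.1, mul_one],
      h.2.2.mul h'.2.2⟩)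
    (fun χ h => ⟨Complex.continuous_conj.measurable.comp h.1, fun x => by
      rw [Complex.norm_conj, h.2.1], h.2.2.conj⟩)
  have ri : ∀ a (H : K → ℂ), ∫ x, H x * conj (r a x) ∂μ = ∫ x, H x * conj (a.1 x : ℂ) ∂μ :=
    fun a H => integral_congr_ae ((hr' a).mono fun x hx => by simp only [hx])
  refine ⟨_, inferInstance, r, (e₁.trans e₂.symm).trans e₃, ⟨fun a => (hr a).1,
    fun a => (hr a).2.1, fun a b => ?_, fun a => ?_, fun a g hg => ?_⟩, fun χ hχ => ?_⟩
  · filter_upwards [hr' a, hr' b, hr' (a * b), a.1.coeFn_mul b.1] with x k1 k2 k3 k4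
    rw [← k1, ← k2, ← k3, Subgroup.coe_mul, k4, Pi.mul_apply, Circle.coe_mul]
  · rw [sigma_int (sigma_mp _ t₁) (hr a).1]
    exact ((hr a).2.2.dich hT).imp_right fun h => h.imp fun z hz =>
      sigma_ae (sigma_mp _ t₁) (hr a).1 measurable_const hz
  · rw [ri, ri, MulEquiv.trans_apply, MulEquiv.trans_apply, he₃ _ (fun x => g (π x))
      (fun x => g ((1 : ℤ) +ᵥ π x)) (hg.1.comp mπ)
      ((hg.1.comp (continuous_const_vadd 1).measurable).comp mπ)
      (Eventually.of_forall fun z => by rw [hπ]; rfl), ← he₂ _ g hg.1,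
      MulEquiv.apply_symm_apply]
    exact he₁ a g hg.1
  · obtain ⟨a, ha⟩ := sigma_cls μ hχ.1.1 hχ.1.2.1
    refine ⟨⟨a, Subgroup.subset_closure ⟨χ, hχ, ha⟩⟩, ?_⟩
    filter_upwards [ha, hr' ⟨a, Subgroup.subset_closure ⟨χ, hχ, ha⟩⟩] with x k1 k2
    rw [← k1, ← k2]


end Vale.Agent.P102
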