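import Vale.Agent.P102.Tr

/-! Only characters correlated with the base are needed. -/

open MeasureTheory ProbabilityTheory Filter Topology Set
open scoped ComplexConjugate

noncomputable section

namespace Vale.Agent.P102

variable {K Y ι : Type} [MeasurableSpace K] [MeasurableSpace Y] {π : K → Y}
  {κ : Measure (ι → K)} [IsProbabilityMeasure κ] {t₀ t₁ : ι}

theorem spancor_pyth {X : Type} [MeasurableSpace X] (μ : Measure X) [IsFiniteMeasure μ]
    {A B : X → ℂ} (hA : BM A) (hB : BM B) (h : ∫ x, A x * conj (B x) ∂μ = 0) :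
    ∫ x, ‖A x‖ ^ 2 ∂μ ≤ ∫ x, ‖A x - B x‖ ^ 2 ∂μ := by
  have i1 := ((hA.mul hB.conj).integrable μ).re
  have i2 : Integrable (fun x => ‖A x - B x‖ ^ 2) μ := ((hA.sub hB).memLp μ 2).norm.integrable_sq
  have h1 := integral_re ((hA.mul hB.conj).integrable μ)
  rw [h, map_zero] at h1
  calc _ ≤ ∫ x, (‖A x - B x‖ ^ 2 + 2 * RCLike.re (A x * conj (B x))) ∂μ := by
        refine integral_mono (hA.memLp μ 2).norm.integrable_sq (i2.add (i1.const_mul 2)) fun x => ?_
        simp only [← Complex.normSq_eq_norm_sq, Complex.normSq_sub, RCLike.re_to_complex]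
        linarith [Complex.normSq_nonneg (B x)]
    _ = _ := by rw [integral_add i2 (i1.const_mul 2), integral_const_mul, h1, mul_zero, add_zero]

theorem spancor_sum {X I : Type} [MeasurableSpace X] (T : Finset I) {f : I → X → ℂ}
    (hf : ∀ i, BM (f i)) : BM fun x => ∑ i ∈ T, f i x := by
  classical
  induction T using Finset.induction_on with
  | empty => simpa using BM.const 0
  | insert a T ha ih => simpa only [Finset.sum_insert ha] using (hf a).add ih

omit [IsProbabilityMeasure κ] in
theorem spancor_bm {χ : K → ℂ} (h : IsChar κ t₀ t₁ χ) : BM χ := ⟨h.1, 1, fun x => (h.2.1 x).le⟩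

omit [IsProbabilityMeasure κ] in
theorem spancor_map {F : K → ℂ} (hF : BM F) :
    ∫ x, F x ∂(κ.map fun w => w t₁) = ∫ w, F (w t₁) ∂κ :=
  integral_map (measurable_pi_apply t₁).aemeasurable hF.1.aestronglyMeasurable

theorem spancor_one : CorChar π κ t₀ t₁ fun _ => 1 :=
  ⟨⟨measurable_const, fun _ => norm_one, ChO.const norm_one⟩, fun _ => 1, BM.const 1, by simp⟩

theorem spancor_orth (hT : Tri κ (cσ K {t₀}) (cσ K {t₁}) (cσ K {l | l ≠ t₀ ∧ l ≠ t₁}))
    {χ χ' : K → ℂ} (h : CorChar π κ t₀ t₁ χ) (h' : IsChar κ t₀ t₁ χ')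
    (hn : ¬CorChar π κ t₀ t₁ χ') : ∫ w, χ (w t₁) * conj (χ' (w t₁)) ∂κ = 0 := by
  refine (ChO.dich hT (h.1.2.2.mul h'.2.2.conj)).resolve_right fun ⟨z, hz⟩ => hn ⟨h', ?_⟩
  obtain ⟨g, hg, h0⟩ := h.2
  obtain ⟨w₀, hw₀⟩ := hz.exists
  have z0 : z ≠ 0 := by
    rintro rfl
    simpa [h.1.2.1, h'.2.1] using congrArg norm hw₀
  refine ⟨g, hg, fun h1 => mul_ne_zero z0 h0 ?_⟩
  rw [← integral_const_mul, ← h1]
  refine integral_congr_ae ?_
  filter_upwards [hz] with w hw
  have h2 : conj (χ (w t₁)) * χ (w t₁) = 1 := by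
    rw [Complex.conj_mul', h.1.2.1]
    simp
  rw [← hw]
  linear_combination (g (π (w t₁)) * conj (χ' (w t₁))) * h2

/-- Drop the uncorrelated characters from the approximating sum: they are orthogonal to `g ∘ π`
and to the correlated ones (the quotient of two characters is a character, `ChO.mul`, `ChO.conj`,
so by `ChO.dich` it has mean zero unless they are proportional a.e.). By Pythagoras the error
decreases. To keep the index set, replace an uncorrelated character by the constant `1` (which is
correlated) with coefficient `0`. -/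
theorem inSpan_corChar (hπ : Measurable π)
    (hT : Tri κ (cσ K {t₀}) (cσ K {t₁}) (cσ K {l | l ≠ t₀ ∧ l ≠ t₁})) {g : Y → ℂ} (hg : BM g)
    (h : InSpan (κ.map fun w => w t₁) (IsChar κ t₀ t₁) fun x => g (π x)) :
    InSpan (κ.map fun w => w t₁) (CorChar π κ t₀ t₁) fun x => g (π x) := by
  classical
  intro ε hε
  obtain ⟨n, c, χ, hχ, h1⟩ := h ε hε
  have := Measure.isProbabilityMeasure_map (μ := κ) (measurable_pi_apply t₁).aemeasurable
  let P : Fin n → Prop := fun j => CorChar π κ t₀ t₁ (χ j)
  let χ' : Fin n → K → ℂ := fun j => if P j then χ j else fun _ => 1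
  let c' : Fin n → ℂ := fun j => if P j then c j else 0
  have hχ' : ∀ j, CorChar π κ t₀ t₁ (χ' j) := fun j => by
    simp only [χ']
    split_ifs with hj
    exacts [hj, spancor_one]
  have b1 := fun j => spancor_bm (hχ j)
  have b2 := fun j => spancor_bm (hχ' j).1
  have b3 := hg.comp hπ
  have hA := b3.sub (spancor_sum Finset.univ fun j => (BM.const (c' j)).mul (b2 j))
  have hB := spancor_sum Finset.univ fun j => (BM.const (c j - c' j)).mul (b1 j)
  refine ⟨n, c', χ', hχ', ((spancor_pyth _ hA hB ?_).trans_eq ?_).trans_lt h1⟩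
  · simp only [map_sum, Finset.mul_sum]
    rw [integral_finsetSum _ fun j _ =>
      (hA.mul ((BM.const (c j - c' j)).mul (b1 j)).conj).integrable _]
    refine Finset.sum_eq_zero fun j _ => ?_
    by_cases hj : P j
    · simp [c', hj]
    have e : ∀ x, (g (π x) - ∑ i, c' i * χ' i x) * conj ((c j - c' j) * χ j x) =
        conj (c j - c' j) * (g (π x) * conj (χ j x) - ∑ i, c' i * (χ' i x * conj (χ j x))) := by
      intro x
      simp only [map_mul, ← mul_assoc, ← Finset.sum_mul]
      ring
    have b4 := fun i => (BM.const (c' i)).mul ((b2 i).mul (b1 j).conj)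
    simp only [e]
    rw [integral_const_mul, integral_sub ((b3.mul (b1 j).conj).integrable _)
      ((spancor_sum _ b4).integrable _), integral_finsetSum _ fun i _ => (b4 i).integrable _,
      spancor_map (b3.mul (b1 j).conj), not_not.1 fun h0 => hj ⟨hχ j, g, hg, h0⟩,
      Finset.sum_eq_zero fun i _ => ?_, sub_zero, mul_zero]
    rw [integral_const_mul, spancor_map ((b2 i).mul (b1 j).conj),
      spancor_orth hT (hχ' i) (hχ j) hj, mul_zero]
  · refine integral_congr_ae (ae_of_all _ fun x => ?_)
    simp only [sub_sub, ← Finset.sum_add_distrib]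
    congr 3
    refine Finset.sum_congr rfl fun j _ => ?_
    by_cases hj : P j <;> simp [c', χ', hj]


end Vale.Agent.P102
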