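import Vale.Agent.P102.VV1
import Vale.Agent.P102.CIa

/-! Conditional independence and measurability from `VV`. -/

open MeasureTheory ProbabilityTheory Filter Topology Set
open scoped ComplexConjugate

noncomputable section

namespace Vale.Agent.P102

section Gen
variable {Ω : Type} {m m' mΩ : MeasurableSpace Ω} {μ : Measure Ω} [IsFiniteMeasure μ]

omit [IsFiniteMeasure μ] in
theorem vv2_ae_eq {a b : Ω → ℝ} (ha : MemLp a 2 μ) (hb : MemLp b 2 μ)
    (h : ∫ w, (a w - b w) ^ 2 ∂μ ≤ 0) : a =ᵐ[μ] b := by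
  have h0 : ∫ w, (a w - b w) ^ 2 ∂μ = 0 :=
    le_antisymm h (integral_nonneg fun w => sq_nonneg _)
  have hi : Integrable (fun w => (a w - b w) ^ 2) μ := (ha.sub hb).integrable_sq
  rw [integral_eq_zero_iff_of_nonneg (fun w => sq_nonneg _) hi] at h0
  filter_upwards [h0] with w hw
  exact sub_eq_zero.1 (pow_eq_zero_iff two_ne_zero |>.1 hw)

theorem vv2_tower (hm' : m' ≤ m) (hm : m ≤ mΩ) {h : Ω → ℝ} (hh : MemLp h 2 μ)
    (hle : ∫ w, (μ[h | m] w) ^ 2 ∂μ ≤ ∫ w, (μ[h | m'] w) ^ 2 ∂μ) :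
    μ[h | m] =ᵐ[μ] μ[h | m'] := by
  have hP : MemLp (μ[h | m]) 2 μ := hh.condExp one_le_two
  have h1 : μ[μ[h | m] | m'] =ᵐ[μ] μ[h | m'] := condExp_condExp_of_le hm' hm
  have h2 := vv1_pyth (hm'.trans hm) hP
  have h3 : ∫ w, (μ[μ[h | m] | m'] w) ^ 2 ∂μ = ∫ w, (μ[h | m'] w) ^ 2 ∂μ :=
    integral_congr_ae (h1.mono fun w hw => by simp only [hw])
  refine (vv2_ae_eq hP (hP.condExp one_le_two) ?_).trans h1
  linarith

omit [IsFiniteMeasure μ] in
theorem vv2_approx {h : Ω → ℝ} (hh : Integrable h μ)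
    (hap : ∀ ε : ℝ, 0 < ε → ∃ g : Ω → ℝ, Integrable g μ ∧ μ[g | m] =ᵐ[μ] μ[g | m'] ∧
      ∫ w, |h w - g w| ∂μ < ε) : μ[h | m] =ᵐ[μ] μ[h | m'] := by
  have hi : Integrable (fun w => |μ[h | m] w - μ[h | m'] w|) μ :=
    (integrable_condExp.sub integrable_condExp).abs
  have h0 : ∫ w, |μ[h | m] w - μ[h | m'] w| ∂μ = 0 := by
    refine le_antisymm (le_of_forall_pos_le_add fun ε hε => ?_)
      (integral_nonneg fun w => abs_nonneg _)
    obtain ⟨g, hg, hgg, hlt⟩ := hap (ε / 2) (half_pos hε)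
    have h1 := integral_abs_condExp_le (μ := μ) (m := m) (h - g)
    have h2 := integral_abs_condExp_le (μ := μ) (m := m') (h - g)
    have i1 : Integrable (fun w => |μ[h - g | m] w|) μ := integrable_condExp.abs
    have i2 : Integrable (fun w => |μ[h - g | m'] w|) μ := integrable_condExp.abs
    have h3 : ∫ w, |μ[h | m] w - μ[h | m'] w| ∂μ ≤
        ∫ w, (|μ[h - g | m] w| + |μ[h - g | m'] w|) ∂μ := by
      refine integral_mono_ae hi (i1.add i2) ?_
      filter_upwards [condExp_sub hh hg m, condExp_sub hh hg m', hgg] with w a1 a2 a3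
      rw [a1, a2, Pi.sub_apply, Pi.sub_apply, a3]
      have : μ[h | m] w - μ[h | m'] w =
          (μ[h | m] w - μ[g | m'] w) - (μ[h | m'] w - μ[g | m'] w) := by ring
      rw [this]
      exact abs_sub _ _
    rw [integral_add i1 i2] at h3
    simp only [Pi.sub_apply] at h1 h2
    linarith
  rw [integral_eq_zero_iff_of_nonneg (fun w => abs_nonneg _) hi] at h0
  filter_upwards [h0] with w hw
  exact sub_eq_zero.1 (abs_eq_zero.1 hw)

end Gen

variable {K L N B : Type}
  [TopologicalSpace K] [MeasurableSpace K] [Nice K]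
  [TopologicalSpace L] [MeasurableSpace L] [Nice L]
  [TopologicalSpace N] [MeasurableSpace N] [Nice N]
  [TopologicalSpace B] [MeasurableSpace B] [Nice B]

omit [MeasurableSpace B] [Nice B] in
theorem vv2_cont [CompactSpace B] (θ : PM K) (β : C(K, B)) (ψ : C(K, L)) :
    Continuous fun f : C(B, ℝ) => VV θ (fun w => f (β w)) ψ := by
  refine continuous_iff_continuousAt.2 fun f => ?_
  rw [ContinuousAt, tendsto_iff_dist_tendsto_zero]
  have h1 : Continuous fun g : C(B, ℝ) => 2 * (‖g‖ + ‖f‖) * ‖g - f‖ := by fun_prop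
  have h2 := h1.tendsto f
  simp only [sub_self, norm_zero, mul_zero] at h2
  refine squeeze_zero (fun _ => dist_nonneg) (fun g => ?_) h2
  rw [Real.dist_eq]
  exact abs_VV_sub_le θ (g.comp β).continuous.measurable (f.comp β).continuous.measurable
    (fun w => (g.norm_coe_le_norm (β w)).trans (le_add_of_nonneg_right (norm_nonneg f)))
    (fun w => (f.norm_coe_le_norm (β w)).trans (le_add_of_nonneg_left (norm_nonneg g)))
    (fun w => (g - f).norm_coe_le_norm (β w)) ψ

/-- By `abs_VV_sub_le` the inequality holds for all `f`. With `VV_eq` and Pythagoras,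
`θ[f ∘ β | comap ψ] = θ[f ∘ β | comap (χ ∘ ψ)]` a.e.; pass from continuous `f` to indicators of
measurable sets by `L²` or `L¹` approximation in `pmap β θ` (the a.e. measurable functions are
closed in `L¹`), or test against sets as in `CI_of_integral`. -/
theorem CI_of_VV (θ : PM K) (β : C(K, B)) (ψ : C(K, L)) (χ : C(L, N)) {D : Set C(B, ℝ)}
    (hD : Dense D)
    (h : ∀ f ∈ D, VV θ (fun w => f (β w)) ψ ≤ VV θ (fun w => f (β w)) (χ.comp ψ)) :
    CI (θ : Measure K) (MeasurableSpace.comap β inferInstance)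
      (MeasurableSpace.comap (χ.comp ψ) inferInstance)
      (MeasurableSpace.comap ψ inferInstance) := by
  have hall : ∀ f : C(B, ℝ),
      VV θ (fun w => f (β w)) ψ ≤ VV θ (fun w => f (β w)) (χ.comp ψ) := fun f =>
    (isClosed_le (vv2_cont θ β ψ) (vv2_cont θ β (χ.comp ψ))).closure_subset_iff.2 h (hD f)
  have hle : MeasurableSpace.comap (χ.comp ψ) inferInstance ≤
      MeasurableSpace.comap ψ inferInstance :=
    (χ.continuous.measurable.comp (comap_measurable ψ)).comap_le
  have hc : ∀ f : C(B, ℝ),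
      (θ : Measure K)[fun w => f (β w) | MeasurableSpace.comap ψ inferInstance] =ᵐ[(θ : Measure K)]
      (θ : Measure K)[fun w => f (β w) | MeasurableSpace.comap (χ.comp ψ) inferInstance] := by
    intro f
    have hm : Measurable fun w => f (β w) := (f.comp β).continuous.measurable
    have hC : ∀ w, |f (β w)| ≤ ‖f‖ := fun w => f.norm_coe_le_norm _
    refine vv2_tower hle (vv1_le ψ) (vv1_memLp hm hC) ?_
    rw [← VV_eq θ hm hC, ← VV_eq θ hm hC]
    exact hall f
  rintro A ⟨S, hS, rfl⟩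
  have hβ : Measurable β := β.continuous.measurable
  refine (stronglyMeasurable_condExp.aestronglyMeasurable).congr
    (vv2_approx ((integrable_const _).indicator (hβ hS)) fun ε hε => ?_).symm
  obtain ⟨g, hg⟩ := exists_cont_approx_one ((θ : Measure K).map β)
    ((integrable_const (1 : ℝ)).indicator hS) hε
  have hm : Measurable fun x => |S.indicator (fun _ => (1 : ℝ)) x - g x| :=
    ((measurable_const.indicator hS).sub g.continuous.measurable).abs
  rw [integral_map hβ.aemeasurable hm.aestronglyMeasurable] at hg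
  exact ⟨fun w => g (β w), integrable_cont (g.comp β) _, hc g, hg⟩

theorem aesm_iff_VV (θ : PM K) {h : K → ℝ} (hm : Measurable h) {C : ℝ} (hC : ∀ w, |h w| ≤ C)
    (ψ : C(K, L)) :
    AEStronglyMeasurable[MeasurableSpace.comap ψ inferInstance] h (θ : Measure K) ↔
      VV θ h ψ = ∫ w, h w ^ 2 ∂(θ : Measure K) := by
  have hh : MemLp h 2 (θ : Measure K) := vv1_memLp hm hC
  rw [VV_eq θ hm hC ψ]
  constructor
  · intro ha
    exact integral_congr_ae ((condExp_of_aestronglyMeasurable' (vv1_le ψ) ha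
      (hh.integrable one_le_two)).mono fun w hw => by simp only [hw])
  · intro he
    have h1 := vv1_pyth (vv1_le ψ) hh
    refine (stronglyMeasurable_condExp.aestronglyMeasurable).congr
      (vv2_ae_eq hh (hh.condExp one_le_two) ?_).symm
    linarith

theorem vv2_inherit {ρ : PM (PM K × PM K)} (hρ : Mart ρ) (ψ : C(K, L)) {g : K → ℝ}
    (hm : Measurable g) {C : ℝ} (hC : ∀ w, |g w| ≤ C)
    (h : ∀ᵐ κ : PM K ∂(pfst ρ : Measure (PM K)),
      AEStronglyMeasurable[MeasurableSpace.comap ψ inferInstance] g (κ : Measure K)) :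
    ∀ᵐ ν : PM K ∂(psnd ρ : Measure (PM K)),
      AEStronglyMeasurable[MeasurableSpace.comap ψ inferInstance] g (ν : Measure K) := by
  have h1 := hρ.jensen (measurable_VV hm hC ψ) (fun μ => abs_VV_le μ hm hC ψ)
    (fun ξ μ hb => VV_bary hb hm hC ψ)
  have hb : ∀ w, ‖g w ^ 2‖ ≤ C ^ 2 := fun w => by
    rw [Real.norm_eq_abs, abs_pow]
    exact pow_le_pow_left₀ (abs_nonneg _) (hC w) 2
  have h2 := hρ.integral_snd (hm.pow_const 2) hb
  have h3 : ∫ κ, VV κ g ψ ∂(pfst ρ : Measure (PM K)) =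
      ∫ κ : PM K, ∫ x, g x ^ 2 ∂(κ : Measure K) ∂(pfst ρ : Measure (PM K)) :=
    integral_congr_ae (h.mono fun κ hκ => (aesm_iff_VV κ hm hC ψ).1 hκ)
  have i1 : Integrable (fun ν : PM K => ∫ x, g x ^ 2 ∂(ν : Measure K))
      (psnd ρ : Measure (PM K)) := by
    refine Integrable.of_bound (measurable_integral_pm (hm.pow_const 2)).aestronglyMeasurable
      (C ^ 2) (ae_of_all _ fun ν => ?_)
    simpa using norm_integral_le_of_norm_le_const (μ := (ν : Measure K)) (ae_of_all _ hb)
  have i2 : Integrable (fun ν : PM K => VV ν g ψ) (psnd ρ : Measure (PM K)) :=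
    Integrable.of_bound (measurable_VV hm hC ψ).aestronglyMeasurable (C ^ 2)
      (ae_of_all _ fun ν => abs_VV_le ν hm hC ψ)
  have hnn : ∀ ν : PM K, 0 ≤ ∫ x, g x ^ 2 ∂(ν : Measure K) - VV ν g ψ := fun ν =>
    sub_nonneg.2 (VV_le ν hm hC ψ)
  have h4 : ∫ ν : PM K, (∫ x, g x ^ 2 ∂(ν : Measure K) - VV ν g ψ)
      ∂(psnd ρ : Measure (PM K)) = 0 := by
    refine le_antisymm ?_ (integral_nonneg hnn)
    rw [integral_sub i1 i2]
    linarith
  rw [integral_eq_zero_iff_of_nonneg hnn (i1.sub i2)] at h4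
  filter_upwards [h4] with ν hν
  exact (aesm_iff_VV ν hm hC ψ).2 (sub_eq_zero.1 hν).symm

/-- For real and imaginary part: `Mart.jensen` with `VV_bary`, `Mart.integral_snd`, `VV_le`,
`aesm_iff_VV`. -/
theorem Mart.inherit {ρ : PM (PM K × PM K)} (hρ : Mart ρ) (ψ : C(K, L)) {u : K → ℂ} (hu : BM u)
    (h : ∀ᵐ κ : PM K ∂(pfst ρ : Measure (PM K)),
      AEStronglyMeasurable[MeasurableSpace.comap ψ inferInstance] u (κ : Measure K)) :
    ∀ᵐ ν : PM K ∂(psnd ρ : Measure (PM K)),
      AEStronglyMeasurable[MeasurableSpace.comap ψ inferInstance] u (ν : Measure K) := by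
  obtain ⟨hm, C, hC⟩ := hu
  have h1 := vv2_inherit hρ ψ (g := fun w => (u w).re) (Complex.measurable_re.comp hm)
    (fun w => (Complex.abs_re_le_norm _).trans (hC w))
    (h.mono fun κ hκ => Complex.continuous_re.comp_aestronglyMeasurable hκ)
  have h2 := vv2_inherit hρ ψ (g := fun w => (u w).im) (Complex.measurable_im.comp hm)
    (fun w => (Complex.abs_im_le_norm _).trans (hC w))
    (h.mono fun κ hκ => Complex.continuous_im.comp_aestronglyMeasurable hκ)
  filter_upwards [h1, h2] with ν a1 a2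
  have e : u = fun w => ((u w).re : ℂ) + ((u w).im : ℂ) * Complex.I :=
    funext fun w => (Complex.re_add_im _).symm
  rw [e]
  exact (Complex.continuous_ofReal.comp_aestronglyMeasurable a1).add
    ((Complex.continuous_ofReal.comp_aestronglyMeasurable a2).mul_const _)


end Vale.Agent.P102
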