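import Vale.Agent.P102.GridB
import Vale.Agent.P102.G0
import Vale.Agent.P102.Tr
import Vale.Agent.P102.VV2

/-! The image of the operator is spanned by characters. -/

open MeasureTheory ProbabilityTheory Filter Topology Set
open scoped ComplexConjugate

noncomputable section

namespace Vale.Agent.P102

variable {K Y : Type}
  [TopologicalSpace K] [MeasurableSpace K] [Nice K] [AddAction ℤ K] [ContinuousConstVAdd ℤ K]
  [TopologicalSpace Y] [MeasurableSpace Y] [Nice Y] [AddAction ℤ Y] [ContinuousConstVAdd ℤ Y]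
variable {ι : Type} [Fintype ι] {p : Ultrafilter (ι → ℤ)} {μY : PM Y} {π : C(K, Y)}
  {𝔪 : PM (PM K)} {t₀ t₁ : ι}

omit [TopologicalSpace K] [Nice K] [AddAction ℤ K] [ContinuousConstVAdd ℤ K] [Fintype ι] in
/-- The deterministic part: one grid. -/
theorem spank_grid [Finite ι] {Θ : Measure (ι → ι → K)} [IsProbabilityMeasure Θ]
    (hG : GH Θ {S | S ≠ univ}) (ht : t₀ ≠ t₁) (h3 : ∃ c, c ≠ t₀ ∧ c ≠ t₁) {u : K → ℂ}
    (hu : BM u)
    (hrow : AEStronglyMeasurable[cσ K {l | l ≠ t₁}] (fun w : ι → K => u (w t₁))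
      (Θ.map fun w i => w i t₁))
    (hcol : AEStronglyMeasurable[cσ K {l | l ≠ t₁}] (fun w : ι → K => u (w t₁))
      (Θ.map fun w => w t₁)) :
    InSpan ((Θ.map fun w i => w i t₁).map fun w => w t₁)
      (IsChar (Θ.map fun w i => w i t₁) t₀ t₁) u := by
  have h3' : ∃ c, c ≠ t₁ ∧ c ≠ t₀ := by
    obtain ⟨c, h1, h2⟩ := h3
    exact ⟨c, h2, h1⟩
  have hg33 := hG.g33 ht h3 ht.symm h3'
  have hmr : Measurable fun (w : ι → ι → K) (i : ι) => w i t₁ :=
    measurable_pi_lambda _ fun i => (measurable_pi_apply t₁).comp (measurable_pi_apply i)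
  have hmc : Measurable fun w : ι → ι → K => w t₁ := measurable_pi_apply t₁
  have hme : Measurable fun w : ι → K => w t₁ := measurable_pi_apply t₁
  have hmu : Measurable fun w : ι → K => u (w t₁) := hu.1.comp hme
  have hbm : BM fun w : ι → ι → K => u (w t₁ t₁) := hu.comp (hme.comp hmc)
  have e1 : AEStronglyMeasurable[gσ K ({t₁} : Set ι) ({t₁} : Set ι)]
      (fun w : ι → ι → K => u (w t₁ t₁)) Θ :=
    (hu.1.comp (measurable_gσ (mem_singleton t₁) (mem_singleton t₁))).aestronglyMeasurable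
  have e2 : AEStronglyMeasurable[gσ K ({t₀} : Set ι) ({t₁} : Set ι) ⊔
      gσ K {l | l ≠ t₀ ∧ l ≠ t₁} ({t₁} : Set ι)] (fun w : ι → ι → K => u (w t₁ t₁)) Θ := by
    rw [← gσ_union_left, blk_zero_union_two ht, gσ_row]
    exact (aesm_comap_iff hmr (cσ_le _) hmu).2 hrow
  have e3 : AEStronglyMeasurable[gσ K ({t₁} : Set ι) ({t₀} : Set ι) ⊔
      gσ K ({t₁} : Set ι) {l | l ≠ t₁ ∧ l ≠ t₀}] (fun w : ι → ι → K => u (w t₁ t₁)) Θ := by
    rw [← gσ_union_right, blk_one_union_two ht.symm, gσ_col]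
    exact (aesm_comap_iff hmc (cσ_le _) hmu).2 hcol
  have key : InSpan Θ (ChO Θ (gσ K ({t₀} : Set ι) ({t₁} : Set ι))
      (gσ K ({t₁} : Set ι) ({t₁} : Set ι)) (gσ K {l | l ≠ t₀ ∧ l ≠ t₁} ({t₁} : Set ι)))
      fun w : ι → ι → K => u (w t₁ t₁) :=
    g2 (x := 0) (y := 1) (z := 2) (t := 1) (u := 0) (v := 2) hg33
      ⟨by decide, by decide, by decide⟩ ⟨by decide, by decide, by decide⟩
      (hbm.memLp Θ 2) e1 e2 e3
  intro ε hε
  obtain ⟨n, c, χ, hχ, hlt⟩ := key ε hε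
  choose χ' hχ' hχe using fun j => isChar_of_row (hχ j)
  refine ⟨n, c, χ', hχ', ?_⟩
  have hm : Measurable fun x : K => ‖u x - ∑ j, c j * χ' j x‖ ^ 2 :=
    (hu.1.sub (Finset.measurable_sum _ fun j _ => (hχ' j).1.const_mul _)).norm.pow_const 2
  rw [Measure.map_map hme hmr, integral_map (hme.comp hmr).aemeasurable hm.aestronglyMeasurable]
  simp only [hχe] at hlt
  exact hlt

/-- `Rel.aesm` and `Mart.inherit` (with `ψ = crs K {l | l ≠ t₁}`, `comap_crs`) give the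
measurability in the column law; in the main grid apply `g2` (same indices as in `rel_of_R`) to
`w ↦ g (π (w t₁ t₁))`, transfer with `aesm_comap_iff`, `gσ_row`, `gσ_col`, `isChar_of_row`, and
push to the row law with `ae_pmap_of_ae`. -/
theorem inSpan_of_rel (hS : Setup p μY π 𝔪) (ht : t₀ ≠ t₁) (h3 : ∃ c, c ≠ t₀ ∧ c ≠ t₁)
    {h g : Y → ℂ} (hg : BM g)
    (hrel : ∀ᵐ κ : PM (ι → K) ∂(rowLim p 𝔪 : Measure (PM (ι → K))),
      Rel (κ : Measure (ι → K)) t₁ (fun x => h (π x)) (fun x => g (π x))) :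
    ∀ᵐ κ : PM (ι → K) ∂(rowLim p 𝔪 : Measure (PM (ι → K))),
      InSpan ((κ : Measure (ι → K)).map fun w => w t₁) (IsChar (κ : Measure (ι → K)) t₀ t₁)
        fun x => g (π x) := by
  have : Nontrivial ι := ⟨⟨t₀, t₁, ht⟩⟩
  obtain ⟨ρ, 𝔤, h1, h2, h4, h5, h6⟩ := exists_main_grid hS
  have hu : BM fun x : K => g (π x) := hg.comp π.continuous.measurable
  have hu' : BM fun w : ι → K => g (π (w t₁)) := hu.comp (measurable_pi_apply t₁)
  have hrow : ∀ᵐ κ : PM (ι → K) ∂(rowLim p 𝔪 : Measure (PM (ι → K))),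
      AEStronglyMeasurable[cσ K {l | l ≠ t₁}] (fun w : ι → K => g (π (w t₁)))
        (κ : Measure (ι → K)) := hrel.mono fun κ hκ => hκ.aesm
  have hcol : ∀ᵐ κ : PM (ι → K) ∂(psnd ρ : Measure (PM (ι → K))),
      AEStronglyMeasurable[cσ K {l | l ≠ t₁}] (fun w : ι → K => g (π (w t₁)))
        (κ : Measure (ι → K)) := by
    have := h2.inherit (crs K {l : ι | l ≠ t₁}) hu' (by
      rw [h1]
      refine hrow.mono fun κ hκ => ?_
      rw [← comap_crs] at hκ
      exact hκ)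
    refine this.mono fun κ hκ => ?_
    rw [← comap_crs]
    exact hκ
  rw [← h4 t₁] at hrow ⊢
  rw [← h5 t₁] at hcol
  refine ae_pmap_of_ae _ _ ?_
  filter_upwards [ae_of_ae_pmap _ _ hrow, ae_of_ae_pmap _ _ hcol, h6] with Θ a1 a2 a3
  exact spank_grid a3 ht h3 hu a1 a2


end Vale.Agent.P102
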