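import Vale.Agent.P102.GridB
import Vale.Agent.P102.G0
import Vale.Agent.P102.Tr

/-! Replacing every function by its image under the operator. -/

open MeasureTheory ProbabilityTheory Filter Topology Set
open scoped ComplexConjugate

noncomputable section

namespace Vale.Agent.P102

variable {K Y : Type}
  [TopologicalSpace K] [MeasurableSpace K] [Nice K] [AddAction ℤ K] [ContinuousConstVAdd ℤ K]
  [TopologicalSpace Y] [MeasurableSpace Y] [Nice Y] [AddAction ℤ Y] [ContinuousConstVAdd ℤ Y]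
variable {ι : Type} [Fintype ι] {p : Ultrafilter (ι → ℤ)} {μY : PM Y} {π : C(K, Y)}
  {𝔪 : PM (PM K)} {t₀ t₁ : ι}

theorem step8_pull {Ω : Type} {m mΩ : MeasurableSpace Ω} {Θ : Measure Ω} [IsProbabilityMeasure Θ]
    (hm : m ≤ mΩ) {P v F : Ω → ℂ} (hP : Measurable[m] P) (hPb : BM P) (hv : BM v)
    (h : Θ[v | m] =ᵐ[Θ] F) : ∫ w, v w * P w ∂Θ = ∫ w, F w * P w ∂Θ := by
  have h1 : Θ[fun w => v w * P w | m] =ᵐ[Θ] fun w => (Θ[v | m]) w * P w :=
    condExp_bilin_of_stronglyMeasurable_right (ContinuousLinearMap.mul ℝ ℂ)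
      hP.stronglyMeasurable ((hv.mul hPb).integrable Θ) (hv.integrable Θ)
  rw [← integral_condExp hm, integral_congr_ae h1]
  refine integral_congr_ae ?_
  filter_upwards [h] with w hw
  rw [hw]

omit [AddAction ℤ K] [ContinuousConstVAdd ℤ K] [AddAction ℤ Y] [ContinuousConstVAdd ℤ Y] in
theorem step8_map (π : C(K, Y)) (κ : PM (ι → K)) {Φ : (ι → Y) → ℂ} (hΦ : Measurable Φ) :
    ∫ y, Φ y ∂((pmap (cpi ι π) κ : PM (ι → Y)) : Measure (ι → Y)) =
      ∫ w, Φ (fun l => π (w l)) ∂(κ : Measure (ι → K)) := by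
  rw [coe_pmap, integral_map (cpi ι π).continuous.measurable.aemeasurable
    hΦ.aestronglyMeasurable]
  rfl

theorem step8_bm {X : Type} [MeasurableSpace X] {f : ι → X → ℂ} (hf : ∀ l, BM (f l)) :
    BM fun y : ι → X => ∏ l, f l (y l) :=
  BM.prod Finset.univ fun l _ => (hf l).comp (measurable_pi_apply l)

omit [Fintype ι] in
theorem step8_upd [DecidableEq ι] {X : Type} [MeasurableSpace X] {f : ι → X → ℂ}
    (hf : ∀ l, BM (f l)) {g : X → ℂ} (hg : BM g) (a l : ι) : BM (Function.update f a g l) := by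
  by_cases h : l = a
  · rw [h, Function.update_self]
    exact hg
  · rw [Function.update_of_ne h]
    exact hf l

theorem step8_prod_upd [DecidableEq ι] {X : Type} (f : ι → X → ℂ) (g : X → ℂ) (a : ι)
    (y : ι → X) :
    ∏ l, Function.update f a g l (y l) = g (y a) * ∏ l ∈ Finset.univ.erase a, f l (y l) := by
  rw [← Finset.mul_prod_erase Finset.univ _ (Finset.mem_univ a), Function.update_self]
  congr 1
  exact Finset.prod_congr rfl fun l hl => by
    rw [Function.update_of_ne (Finset.ne_of_mem_erase hl)]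

/-- The deterministic part of `nu_replace_other`. -/
theorem step8_grid [DecidableEq ι] {X : Type} [MeasurableSpace X] {Θ : Measure (ι → ι → X)}
    [IsProbabilityMeasure Θ] (hG : GH Θ {S | S ≠ univ}) (ht : t₀ ≠ t₁)
    (h3 : ∃ c, c ≠ t₀ ∧ c ≠ t₁) {a : ι} (ha : a ≠ t₁) {f : ι → X → ℂ} (hf : ∀ l, BM (f l))
    {g h : X → ℂ} (hg : BM g) (hr : Rel (Θ.map fun w i => w i a) t₁ (f a) g)
    (hr' : Rel (Θ.map fun w i => w i t₁) t₁ h (f t₁)) :
    ∫ w, ((∏ l, f l (w t₁ l)) - ∏ l, Function.update f a g l (w t₁ l)) ∂Θ = 0 := by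
  have h3' : ∃ c, c ≠ a ∧ c ≠ t₁ := by
    by_cases h0 : a = t₀
    · rw [h0]
      exact h3
    · exact ⟨t₀, fun e => h0 e.symm, ht⟩
  have hG3 := hG.g33 ht h3 ha h3'
  have me : ∀ s : ι, Measurable fun w : ι → ι → X => w t₁ s := fun s =>
    (measurable_pi_apply s).comp (measurable_pi_apply (X := fun _ : ι => ι → X) t₁)
  have eσ : ∀ s : ι, gσ X {t₀} {s} ⊔ gσ X {l | l ≠ t₀ ∧ l ≠ t₁} {s} = gσ X {l | l ≠ t₁} {s} := by
    intro s
    rw [← gσ_union_left, blk_zero_union_two ht]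
  have b1 : BM fun w : ι → ι → X => f a (w t₁ a) := (hf a).comp (me a)
  have b2 : BM fun w : ι → ι → X => g (w t₁ a) := hg.comp (me a)
  have b3 : BM fun w : ι → ι → X => f t₁ (w t₁ t₁) := (hf t₁).comp (me t₁)
  have b4 : BM fun w : ι → ι → X => ∏ l ∈ (Finset.univ.erase a).erase t₁, f l (w t₁ l) :=
    BM.prod _ fun l _ => (hf l).comp (me l)
  have key := gK (x := 0) (y := 1) (z := 2) (t := 1) (u := 0) (v := 2) hG3
    ⟨by decide, by decide, by decide⟩ ⟨by decide, by decide, by decide⟩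
    (f := fun w => f a (w t₁ a) - g (w t₁ a)) (g := fun w => f t₁ (w t₁ t₁))
    (k := fun w => ∏ l ∈ (Finset.univ.erase a).erase t₁, f l (w t₁ l))
    ((b1.sub b2).memLp Θ 2) ?_ ?_ (b3.memLp Θ 2) ?_ ?_ (b4.memLp Θ 2) ?_
  · rw [← key]
    refine integral_congr_ae (ae_of_all _ fun w => ?_)
    have hm : t₁ ∈ Finset.univ.erase a := Finset.mem_erase.2 ⟨ha.symm, Finset.mem_univ _⟩
    simp only
    rw [step8_prod_upd, ← Finset.mul_prod_erase Finset.univ _ (Finset.mem_univ a),
      ← Finset.mul_prod_erase _ _ hm]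
    ring
  · have m1 : Measurable[gσ X {t₁} {a}] fun w : ι → ι → X => w t₁ a := measurable_gσ rfl rfl
    exact (((hf a).1.comp m1).sub (hg.1.comp m1)).stronglyMeasurable.aestronglyMeasurable
  · show Θ[fun w => f a (w t₁ a) - g (w t₁ a) |
      gσ X {t₀} {a} ⊔ gσ X {l | l ≠ t₀ ∧ l ≠ t₁} {a}] =ᵐ[Θ] 0
    rw [eσ]
    have r1 := hr.row (hf a)
    have r2 : Θ[fun w => g (w t₁ a) | gσ X {l | l ≠ t₁} {a}] =ᵐ[Θ] fun w => g (w t₁ a) :=
      condExp_of_aestronglyMeasurable' (gσ_le _ _)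
        (stronglyMeasurable_condExp.aestronglyMeasurable.congr r1) (b2.integrable Θ)
    have r3 := condExp_sub (b1.integrable Θ) (b2.integrable Θ) (gσ X {l | l ≠ t₁} {a})
    filter_upwards [r1, r2, r3] with w e1 e2 e3
    refine Eq.trans e3 ?_
    rw [Pi.sub_apply, e1, e2, sub_self, Pi.zero_apply]
  · have m1 : Measurable[gσ X {t₁} {t₁}] fun w : ι → ι → X => w t₁ t₁ := measurable_gσ rfl rfl
    exact ((hf t₁).1.comp m1).stronglyMeasurable.aestronglyMeasurable
  · show AEStronglyMeasurable[gσ X {t₀} {t₁} ⊔ gσ X {l | l ≠ t₀ ∧ l ≠ t₁} {t₁}]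
      (fun w => f t₁ (w t₁ t₁)) Θ
    rw [eσ, gσ_row]
    have m1 : Measurable fun (w : ι → ι → X) (i : ι) => w i t₁ :=
      measurable_pi_lambda _ fun i =>
        (measurable_pi_apply t₁).comp (measurable_pi_apply (X := fun _ : ι => ι → X) i)
    exact (aesm_comap_iff m1 (cσ_le _) (g := fun w : ι → X => f t₁ (w t₁))
      ((hf t₁).1.comp (measurable_pi_apply t₁))).2 hr'.aesm
  · have m1 : Measurable[gσ X {t₁} {l | l ≠ a ∧ l ≠ t₁}]
        fun w : ι → ι → X => ∏ l ∈ (Finset.univ.erase a).erase t₁, f l (w t₁ l) := by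
      refine Finset.measurable_fun_prod _ fun l hl => (hf l).1.comp (measurable_gσ rfl ?_)
      exact ⟨Finset.ne_of_mem_erase (Finset.mem_of_mem_erase hl), Finset.ne_of_mem_erase hl⟩
    exact m1.stronglyMeasurable.aestronglyMeasurable

/-- Slot `t₁`: in a typical `κ` (`rowLim_base`), pull the other factors out of the conditional
expectation. -/
theorem nu_replace_one [DecidableEq ι] (hS : Setup p μY π 𝔪) {f : ι → Y → ℂ}
    (hf : ∀ l, BM (f l)) {g : Y → ℂ} (hg : BM g)
    (hrel : ∀ᵐ κ : PM (ι → K) ∂(rowLim p 𝔪 : Measure (PM (ι → K))),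
      Rel (κ : Measure (ι → K)) t₁ (fun x => f t₁ (π x)) (fun x => g (π x))) :
    ∫ y, ∏ l, f l (y l) ∂(nuLim p μY : Measure (ι → Y)) =
      ∫ y, ∏ l, Function.update f t₁ g l (y l) ∂(nuLim p μY : Measure (ι → Y)) := by
  obtain ⟨κ, hκ, hr⟩ := ((rowLim_base p hS.eqv hS.sys.2).and hrel).exists
  have mπ : Measurable π := π.continuous.measurable
  rw [← hκ, step8_map π κ (step8_bm hf).1, step8_map π κ (step8_bm (step8_upd hf hg t₁)).1]
  have hP : Measurable[cσ K {l | l ≠ t₁}]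
      fun w : ι → K => ∏ l ∈ Finset.univ.erase t₁, f l (π (w l)) :=
    Finset.measurable_fun_prod _ fun l hl =>
      ((hf l).1.comp mπ).comp (measurable_cσ (Finset.ne_of_mem_erase hl))
  have key := step8_pull (cσ_le _) hP
    (BM.prod _ fun l _ => (hf l).comp (mπ.comp (measurable_pi_apply l)))
    ((hf t₁).comp (mπ.comp (measurable_pi_apply t₁))) hr
  simp only [step8_prod_upd]
  refine Eq.trans ?_ key
  refine integral_congr_ae (ae_of_all _ fun w => ?_)
  exact (Finset.mul_prod_erase Finset.univ (fun l => f l (π (w l))) (Finset.mem_univ t₁)).symm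

/-- Slot `a ≠ t₁`: in the main grid with rows `blk a t₁` and columns `blk t₀ t₁` apply `gK`
(`x, y, z = 0, 1, 2`, `t, u, v = 1, 0, 2`) to ` (f a - g) (π (w t₁ a))`, `f t₁ (π (w t₁ t₁))` and
`∏_{l ≠ a, t₁} f l (π (w t₁ l))` (`Rel.row`, `Rel.aesm`). So the column law integrates
`Φ w = ∏ f l (π (w l)) - ∏ update f a g l (π (w l))` to zero a.e.; integrate over the law
(`measurable_integral_pm`, `Mart.integral_snd`, `rowLim_base`). -/
theorem nu_replace_other [DecidableEq ι] (hS : Setup p μY π 𝔪) (ht : t₀ ≠ t₁)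
    (h3 : ∃ c, c ≠ t₀ ∧ c ≠ t₁) {a : ι} (ha : a ≠ t₁) {f : ι → Y → ℂ} (hf : ∀ l, BM (f l))
    {g h : Y → ℂ} (hg : BM g)
    (hrel : ∀ᵐ κ : PM (ι → K) ∂(rowLim p 𝔪 : Measure (PM (ι → K))),
      Rel (κ : Measure (ι → K)) t₁ (fun x => f a (π x)) (fun x => g (π x)))
    (hrel' : ∀ᵐ κ : PM (ι → K) ∂(rowLim p 𝔪 : Measure (PM (ι → K))),
      Rel (κ : Measure (ι → K)) t₁ (fun x => h (π x)) (fun x => f t₁ (π x))) :
    ∫ y, ∏ l, f l (y l) ∂(nuLim p μY : Measure (ι → Y)) =
      ∫ y, ∏ l, Function.update f a g l (y l) ∂(nuLim p μY : Measure (ι → Y)) := by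
  haveI : Nontrivial ι := ⟨t₀, t₁, ht⟩
  obtain ⟨ρ, 𝔤, hfst, hM, hrow, hcol, hG⟩ := exists_main_grid hS
  have mπ : Measurable π := π.continuous.measurable
  have hb : BM fun y : ι → Y => (∏ l, f l (y l)) - ∏ l, Function.update f a g l (y l) :=
    (step8_bm hf).sub (step8_bm (step8_upd hf hg a))
  have hΦ := hb.comp (cpi ι π).continuous.measurable
  rw [← hrow a] at hrel
  rw [← hrow t₁] at hrel'
  have h1 : ∀ᵐ ν : PM (ι → K) ∂(psnd ρ : Measure (PM (ι → K))),
      ∫ w, ((∏ l, f l (cpi ι π w l)) - ∏ l, Function.update f a g l (cpi ι π w l))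
        ∂(ν : Measure (ι → K)) = 0 := by
    rw [← hcol t₁]
    refine ae_pmap_of_ae _ _ ?_
    filter_upwards [hG, ae_of_ae_pmap _ _ hrel, ae_of_ae_pmap _ _ hrel'] with Θ hΘ r1 r2
    rw [coe_pmap, integral_map (cev (ι → K) t₁).continuous.measurable.aemeasurable
      hΦ.1.aestronglyMeasurable]
    have key := step8_grid (f := fun l x => f l (π x)) hΘ ht h3 ha (fun l => (hf l).comp mπ)
      (hg.comp mπ) r1 r2
    rw [← key]
    refine integral_congr_ae (ae_of_all _ fun w => ?_)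
    simp only [step8_prod_upd, cpi_apply, cev_apply]
  obtain ⟨C, hC⟩ := hΦ.2
  have h2 := hM.integral_snd hΦ.1 hC
  rw [integral_congr_ae h1, integral_zero, hfst] at h2
  have h4 : ∀ᵐ κ : PM (ι → K) ∂(rowLim p 𝔪 : Measure (PM (ι → K))),
      ∫ w, ((∏ l, f l (cpi ι π w l)) - ∏ l, Function.update f a g l (cpi ι π w l))
        ∂(κ : Measure (ι → K)) =
      ∫ y, ((∏ l, f l (y l)) - ∏ l, Function.update f a g l (y l))
        ∂(nuLim p μY : Measure (ι → Y)) := by
    filter_upwards [rowLim_base p hS.eqv hS.sys.2] with κ hκ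
    rw [← hκ, step8_map π κ hb.1]
    rfl
  rw [integral_congr_ae h4, integral_const, probReal_univ, one_smul,
    integral_sub ((step8_bm hf).integrable _) ((step8_bm (step8_upd hf hg a)).integrable _)] at h2
  exact sub_eq_zero.1 h2.symm

/-- First slot `t₁`, then the other slots one at a time (finset induction). -/
theorem nu_replace (hS : Setup p μY π 𝔪) (ht : t₀ ≠ t₁) (h3 : ∃ c, c ≠ t₀ ∧ c ≠ t₁)
    {h g : ι → Y → ℂ} (hh : ∀ l, BM (h l)) (hg : ∀ l, BM (g l))
    (hrel : ∀ l, ∀ᵐ κ : PM (ι → K) ∂(rowLim p 𝔪 : Measure (PM (ι → K))),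
      Rel (κ : Measure (ι → K)) t₁ (fun x => h l (π x)) (fun x => g l (π x))) :
    ∫ y, ∏ l, h l (y l) ∂(nuLim p μY : Measure (ι → Y)) =
      ∫ y, ∏ l, g l (y l) ∂(nuLim p μY : Measure (ι → Y)) := by
  classical
  have key : ∀ T : Finset ι, ∫ y, ∏ l, h l (y l) ∂(nuLim p μY : Measure (ι → Y)) =
      ∫ y, ∏ l, (if l = t₁ ∨ l ∈ T then g l else h l) (y l) ∂(nuLim p μY : Measure (ι → Y)) := by
    intro T
    induction T using Finset.induction_on with
    | empty =>
      have e : (fun l => if l = t₁ ∨ l ∈ (∅ : Finset ι) then g l else h l) =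
          Function.update h t₁ (g t₁) := by
        funext l
        by_cases hl : l = t₁
        · simp [hl]
        · simp [hl]
      rw [nu_replace_one hS hh (hg t₁) (hrel t₁), ← e]
    | insert a T haT ih =>
      by_cases ha : a = t₁
      · rw [ih]
        simp [ha]
      · have e : (fun l => if l = t₁ ∨ l ∈ insert a T then g l else h l) =
            Function.update (fun l => if l = t₁ ∨ l ∈ T then g l else h l) a (g a) := by
          funext l
          by_cases hl : l = a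
          · simp [hl]
          · simp [hl]
        have hF : ∀ l, BM (if l = t₁ ∨ l ∈ T then g l else h l) := by
          intro l
          split_ifs
          · exact hg l
          · exact hh l
        rw [ih, nu_replace_other (f := fun l => if l = t₁ ∨ l ∈ T then g l else h l) (h := h t₁)
          hS ht h3 ha hF (hg a) (by simpa [ha, haT] using hrel a) (by simpa using hrel t₁), ← e]
  simpa using key Finset.univ


end Vale.Agent.P102
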