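import Vale.Agent.P102.Two

/-! The deterministic operator and the isomorphisms. -/

open MeasureTheory ProbabilityTheory Filter Topology Set
open scoped ComplexConjugate

noncomputable section

namespace Vale.Agent.P102

variable {K Y : Type}
  [TopologicalSpace K] [MeasurableSpace K] [Nice K] [AddAction ℤ K] [ContinuousConstVAdd ℤ K]
  [TopologicalSpace Y] [MeasurableSpace Y] [Nice Y] [AddAction ℤ Y] [ContinuousConstVAdd ℤ Y]
variable {ι : Type} [Fintype ι] {p : Ultrafilter (ι → ℤ)} {μY : PM Y} {π : C(K, Y)}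
  {𝔪 : PM (PM K)} {t₀ t₁ : ι}

theorem twor_slot (hS : Setup p μY π 𝔪) :
    ∀ᵐ κ : PM (ι → K) ∂(rowLim p 𝔪 : Measure (PM (ι → K))), ∀ t,
      MeasurePreserving π ((κ : Measure (ι → K)).map fun w => w t) (μY : Measure Y) := by
  refine ae_all_iff.2 fun t => ?_
  have h := hS.sys.2
  rw [← rowLim_slot p hS.sys.1 t] at h
  filter_upwards [ae_of_ae_pmap _ _ h] with κ hκ
  exact ⟨π.continuous.measurable, congrArg (fun μ : PM Y => (μ : Measure Y)) hκ⟩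

/-- Fix a typical second coordinate `κ'` (`Measure.ae_ae_of_ae_prod` after swapping) whose slot
`t₁` projects to `μY` (`rowLim_slot`, `hS.sys`), and let `R h` be a choice of `g` for `κ'`. Two
such `g` agree `μY`-a.e. -/
theorem exists_R (hS : Setup p μY π 𝔪) (ht : t₀ ≠ t₁) (h3 : ∃ c, c ≠ t₀ ∧ c ≠ t₁) :
    ∃ R : (Y → ℂ) → Y → ℂ, (∀ h, BM h → BM (R h)) ∧
      ∀ᵐ κ : PM (ι → K) ∂(rowLim p 𝔪 : Measure (PM (ι → K))), ∀ h, BM h →
        JJ (κ : Measure (ι → K)) t₁ (fun x => h (π x)) (fun x => R h (π x)) := by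
  classical
  obtain ⟨κ₀, h0, h1⟩ :=
    ((twor_slot hS).and (Measure.ae_ae_of_ae_prod (two_copies hS ht h3))).exists
  have hex : ∀ h : Y → ℂ, ∃ g : Y → ℂ, BM g ∧ ((∃ g', BM g' ∧
      JJ (κ₀ : Measure (ι → K)) t₁ (fun x => h (π x)) (fun x => g' (π x))) →
      JJ (κ₀ : Measure (ι → K)) t₁ (fun x => h (π x)) (fun x => g (π x))) := by
    intro h
    by_cases hc : ∃ g', BM g' ∧
      JJ (κ₀ : Measure (ι → K)) t₁ (fun x => h (π x)) (fun x => g' (π x))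
    · obtain ⟨g, hg, hj⟩ := hc
      exact ⟨g, hg, fun _ => hj⟩
    · exact ⟨fun _ => 0, BM.const 0, fun h' => absurd h' hc⟩
  choose R hR hJ using hex
  refine ⟨R, fun h _ => hR h, ?_⟩
  filter_upwards [h1, twor_slot hS] with κ hκ hκ' h hh
  obtain ⟨g, hg, j₀, j⟩ := hκ.1 h hh
  have mp : ∀ κ : PM (ι → K),
      MeasurePreserving π ((κ : Measure (ι → K)).map fun w => w t₁) (μY : Measure Y) →
      MeasurePreserving (fun w : ι → K => π (w t₁)) (κ : Measure (ι → K)) (μY : Measure Y) :=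
    fun κ hκ => hκ.comp ⟨measurable_pi_apply t₁, rfl⟩
  have e : ∀ᵐ y ∂(μY : Measure Y), g y = R h y := by
    rw [← (mp κ₀ (h0 t₁)).map_eq]
    exact (ae_map_iff (mp κ₀ (h0 t₁)).measurable.aemeasurable
      (measurableSet_eq_fun hg.1 (hR h).1)).2 (j₀.symm.trans (hJ h ⟨g, hg, j₀⟩))
  exact j.trans ((mp κ (hκ' t₁)).quasiMeasurePreserving.ae e)

/-- The map ` (κ, κ') ↦ (1 +ᵥ κ, κ')` preserves the product law (`rowLim_inv`). -/
theorem exists_iso (hS : Setup p μY π 𝔪) (ht : t₀ ≠ t₁) (h3 : ∃ c, c ≠ t₀ ∧ c ≠ t₁) :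
    ∀ᵐ κ : PM (ι → K) ∂(rowLim p 𝔪 : Measure (PM (ι → K))), ∃ κ' : PM (ι → K),
      IsoC π (κ : Measure (ι → K)) (κ' : Measure (ι → K)) t₀ t₁ ∧
      IsoC π (((1 : ℤ) +ᵥ κ : PM (ι → K)) : Measure (ι → K)) (κ' : Measure (ι → K)) t₀ t₁ := by
  have h := Measure.ae_ae_of_ae_prod (two_copies hS ht h3)
  have h' := ((rowLim_inv p hS.sys.1).measurePreserving 1).quasiMeasurePreserving.ae h
  filter_upwards [h, h'] with κ h1 h2
  obtain ⟨κ', h3, h4⟩ := (h1.and h2).exists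
  exact ⟨κ', h3.2, h4.2⟩

theorem ae_slot_base (hS : Setup p μY π 𝔪) :
    ∀ᵐ κ : PM (ι → K) ∂(rowLim p 𝔪 : Measure (PM (ι → K))), ∀ t,
      MeasurePreserving π ((κ : Measure (ι → K)).map fun w => w t) (μY : Measure Y) := by
  exact twor_slot hS

/-- `tprime` and `IndOn.indep_iSup`. -/
theorem ae_tri (hS : Setup p μY π 𝔪) (ht : t₀ ≠ t₁) (h3 : ∃ c, c ≠ t₀ ∧ c ≠ t₁) :
    ∀ᵐ κ : PM (ι → K) ∂(rowLim p 𝔪 : Measure (PM (ι → K))),
      Tri (κ : Measure (ι → K)) (cσ K {t₀}) (cσ K {t₁}) (cσ K {l | l ≠ t₀ ∧ l ≠ t₁}) := by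
  obtain ⟨c, hc0, hc1⟩ := h3
  have key : ∀ i : ι, ∀ᵐ κ : PM (ι → K) ∂(rowLim p 𝔪 : Measure (PM (ι → K))),
      IndOn (κ : Measure (ι → K)) (fun i => cσ K {i}) {l | l ≠ i} := fun i =>
    tprime p hS.eqv hS.sys hS.sated (hS.prop _ fun h => (h.ge (mem_univ i) : i ≠ i) rfl)
  have ind : ∀ (κ : PM (ι → K)) (i : ι) (J J' : Set ι),
      IndOn (κ : Measure (ι → K)) (fun i => cσ K {i}) {l | l ≠ i} → i ∉ J → i ∉ J' →
      Disjoint J J' → Indep (cσ K J) (cσ K J') (κ : Measure (ι → K)) := by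
    intro κ i J J' h hJ hJ' hd
    rw [cσ_eq_iSup J, cσ_eq_iSup J']
    exact h.indep_iSup (fun _ => cσ_le _) (fun l hl e => hJ (e ▸ hl)) (fun l hl e => hJ' (e ▸ hl)) hd
  filter_upwards [key c, key t₀, key t₁] with κ k k₀ k₁
  exact ⟨cσ_le _, cσ_le _, cσ_le _, ind κ c _ _ k hc0 hc1 (disjoint_singleton.2 ht),
    ind κ t₁ _ _ k₁ ht.symm (fun h => h.2 rfl) (disjoint_singleton_left.2 fun h => h.1 rfl),
    ind κ t₀ _ _ k₀ ht (fun h => h.1 rfl) (disjoint_singleton_left.2 fun h => h.2 rfl)⟩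


end Vale.Agent.P102
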