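import Vale.Agent.P102.Tower
import Vale.Agent.P102.TwoR
import Vale.Agent.P102.Proj
import Vale.Agent.P102.SpanCor
import Vale.Agent.P102.SpanK
import Vale.Agent.P102.Step8
import Vale.Agent.P102.Sigma
import Vale.Agent.P102.GroupL
import Vale.Agent.P102.Ext

/-! The inductive step and multiple mixing for compact systems. -/

open MeasureTheory ProbabilityTheory Filter Topology Set
open scoped ComplexConjugate

noncomputable section

namespace Vale.Agent.P102

variable {K Y : Type}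
  [TopologicalSpace K] [MeasurableSpace K] [Nice K] [AddAction ℤ K] [ContinuousConstVAdd ℤ K]
  [TopologicalSpace Y] [MeasurableSpace Y] [Nice Y] [AddAction ℤ Y] [ContinuousConstVAdd ℤ Y]

theorem nu_eq_prod {ι : Type} [Fintype ι] {p : Ultrafilter (ι → ℤ)}
    (hp : (p : Filter (ι → ℤ)) ≤ sepF ι) {μY : PM Y} (hm : MixY μY) {π : C(K, Y)}
    {𝔪 : PM (PM K)} (hS : Setup p μY π 𝔪) {t₀ t₁ : ι} (ht : t₀ ≠ t₁)
    (h3 : ∃ c, c ≠ t₀ ∧ c ≠ t₁) {f : ι → Y → ℂ} (hf : ∀ l, BM (f l)) :
    ∫ y, ∏ l, f l (y l) ∂(nuLim p μY : Measure (ι → Y)) = ∏ l, ∫ y, f l y ∂(μY : Measure Y) := by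
  obtain ⟨R, hRb, hR⟩ := exists_R hS ht h3
  have hrel := fun l => rel_of_R hS ht h3 hRb hR (hf l)
  have hg : ∀ l, BM (R (f l)) := fun l => hRb _ (hf l)
  have hspan := fun l => inSpan_of_rel hS ht h3 (hg l) (hrel l)
  obtain ⟨κ, ⟨hκrel, hκspan⟩, ⟨κ', hi1, hi2⟩, hbase, htri⟩ :=
    (((ae_all_iff.2 hrel).and (ae_all_iff.2 hspan)).and ((exists_iso hS ht h3).and
      ((ae_slot_base hS).and (ae_tri hS ht h3)))).exists
  obtain ⟨G, _, r, σ, hG, hcor⟩ := exists_gdata hS.eqv htri hi1 hi2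
  have hπm : Measurable π := π.continuous.measurable
  have hev : Measurable fun w : ι → K => w t₁ := measurable_pi_apply t₁
  haveI : IsProbabilityMeasure ((κ : Measure (ι → K)).map fun w => w t₁) :=
    Measure.isProbabilityMeasure_map hev.aemeasurable
  have hlim := group_lemma hG hS.inv hm (hbase t₁) hg (fun l ε hε => by
    obtain ⟨n, c, χ, hχ, hlt⟩ := inSpan_corChar hπm htri (hg l) (hκspan l) ε hε
    choose a ha using fun j => hcor (χ j) (hχ j)
    refine ⟨n, c, fun j => r (a j), fun j => ⟨a j, rfl, ?_⟩, ?_⟩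
    · obtain ⟨hc, h, hh, hne⟩ := hχ j
      refine ⟨h, hh, ?_⟩
      have e1 : ∫ x, h (π x) * conj (r (a j) x) ∂((κ : Measure (ι → K)).map fun w => w t₁) =
          ∫ x, h (π x) * conj (χ j x) ∂((κ : Measure (ι → K)).map fun w => w t₁) :=
        integral_congr_ae ((ha j).mono fun x hx => by simp only [hx])
      rw [e1, integral_map hev.aemeasurable]
      · exact hne
      · exact ((hh.1.comp hπm).mul
          (Complex.continuous_conj.measurable.comp hc.1)).aestronglyMeasurable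
    · refine lt_of_eq_of_lt (integral_congr_ae ?_) hlt
      filter_upwards [ae_all_iff.2 ha] with x hx
      simp only [hx])
  have e1 := tendsto_nhds_unique (tendsto_nuLim p hS.inv hg) (hlim.mono_left hp)
  rw [nu_replace hS ht h3 hf hg hrel, e1]
  refine Finset.prod_congr rfl fun l _ => ?_
  have key : ∀ g : Y → ℂ, BM g → ∫ y, g y ∂(μY : Measure Y) =
      ∫ w, g (π (w t₁)) ∂(κ : Measure (ι → K)) := fun g hg => by
    rw [← (hbase t₁).map_eq, integral_map hπm.aemeasurable hg.1.aestronglyMeasurable,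
      integral_map hev.aemeasurable (hg.comp hπm).1.aestronglyMeasurable]
  rw [key _ (hg l), key _ (hf l)]
  exact (hκrel l).integral_eq

theorem mixK_all {μY : PM Y} (hY : Inv μY) (hm : MixY μY) (n : ℕ) :
    ∀ (ι : Type) [Fintype ι], Fintype.card ι = n → MixK μY ι := by
  classical
  induction n using Nat.strong_induction_on with
  | _ n ih =>
    intro ι _ hn
    by_cases h2 : Fintype.card ι ≤ 2
    · exact mixK_of_card_le_two hY hm ι h2
    obtain ⟨t₀, t₁, c, h01, h0c, h1c⟩ := Fintype.two_lt_card_iff.1 (not_le.1 h2)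
    intro f hf
    rw [tendsto_iff_ultrafilter]
    intro p hp
    obtain ⟨𝔪, hsys, hsat, hsatS⟩ := exists_tower p hY
    have hprop : PropInd p μY := fun S hS => by
      refine indOn_nuLim hp hY S (ih _ ?_ S rfl)
      obtain ⟨a, ha⟩ := (ne_univ_iff_exists_notMem S).1 hS
      rw [← hn]
      exact Fintype.card_subtype_lt (p := fun x => x ∈ S) ha
    have hS : Setup p μY (pY Y) 𝔪 := ⟨eqv_pY, hY, hsys, hsat, hsatS, hprop⟩
    rw [← nu_eq_prod hp hm hS h01 ⟨c, h0c.symm, h1c.symm⟩ hf]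
    exact tendsto_nuLim p hY hf

theorem mixK {μY : PM Y} (hY : Inv μY) (hm : MixY μY) (ι : Type) [Fintype ι] : MixK μY ι :=
  mixK_all hY hm _ ι rfl

end Vale.Agent.P102
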