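import Vale.Agent.P102.HB2

/-! The medial law. -/

open MeasureTheory ProbabilityTheory Filter Topology Set
open scoped ComplexConjugate

noncomputable section

namespace Vale.Agent.P102

variable {Ω : Type} {mΩ : MeasurableSpace Ω} {Θ : Measure Ω} [IsProbabilityMeasure Θ]
  {𝒜 : Fin 3 → Fin 3 → MeasurableSpace Ω} {𝒞 : Fin 3 → MeasurableSpace Ω}
  {x y z t u v : Fin 3}

theorem medial_pr {ℬ ℬ' : MeasurableSpace Ω} {mΩ : MeasurableSpace Ω} {Θ : Measure Ω}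
    [IsProbabilityMeasure Θ] (hi : Indep ℬ ℬ' Θ) (h : ℬ ≤ mΩ) (h' : ℬ' ≤ mΩ) (a : L2 Θ)
    {b c : L2 Θ} (hb : b ∈ XX Θ ℬ) (hc : c ∈ XX Θ ℬ') :
    pr a (mulL b c) = ∫ ω, a ω * (b ω * c ω) ∂Θ := by
  refine integral_congr_ae ?_
  filter_upwards [mulL_ae hi h h' hb hc] with ω hω
  rw [hω]

/-- Both sides equal `I = pr k (mulL (mulL b h₀) (mulL ψ h₂))`. Right side: `Star.pr_mulL` for row
`z` at column `t`. Left side: rewrite `I = pr (mulL b h₀) (mulL k (mulL ψ h₂))` (integrals of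
pointwise products), use `Star.pr_mulL` for the pair of rows `x, y` at column `u`, rewrite as
`pr (PP (𝒜 x t ⊔ 𝒜 y t) k) (mulL (mulL b ψ) (mulL h₀ h₂))`, and use `PP_mulL` for the independent
rows `x`, `y`. -/
theorem medial (hG : G33 Θ 𝒜 𝒞) (hr : Dist x y z) (hc : Dist t u v) {b ψ h₀ h₂ k : L2 Θ}
    (hb : b ∈ XX Θ (𝒜 x u)) (hψ : ψ ∈ XX Θ (𝒜 x v)) (h0 : h₀ ∈ XX Θ (𝒜 y u))
    (h2 : h₂ ∈ XX Θ (𝒜 y v)) (hk : k ∈ XX Θ (𝒜 z t)) :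
    pr k (mulL (BB (𝒜 x t) b ψ) (BB (𝒜 y t) h₀ h₂)) =
      pr k (mulL (BB (𝒜 z u) b h₀) (BB (𝒜 z v) ψ h₂)) := by
  have r := hG.one z
  have r2 := hG.two x y hr.xy
  have hg : mulL b h₀ ∈ XX Θ (𝒜 x u ⊔ 𝒜 y u) := mulL_mem hb h0
  have hg' : mulL ψ h₂ ∈ XX Θ (𝒜 x v ⊔ 𝒜 y v) := mulL_mem hψ h2
  have hgc : mulL b h₀ ∈ XX Θ (𝒞 u) := XX_mono (r2.le u) hg
  have hgc' : mulL ψ h₂ ∈ XX Θ (𝒞 v) := XX_mono (r2.le v) hg'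
  have hkc : k ∈ XX Θ (𝒞 t) := XX_mono (r.le t) hk
  have hA : ∀ s, 𝒜 x s ⊔ 𝒜 y s ≤ mΩ := fun s => (r2.le s).trans (r2.le' s)
  have hR : ∀ s, (⨆ w, 𝒜 s w) ≤ mΩ := fun s => iSup_le fun w => hG.le s w
  have hp : mulL b ψ ∈ XX Θ (⨆ w, 𝒜 x w) :=
    XX_mono (sup_le (le_iSup (𝒜 x) u) (le_iSup (𝒜 x) v)) (mulL_mem hb hψ)
  have hq : mulL h₀ h₂ ∈ XX Θ (⨆ w, 𝒜 y w) :=
    XX_mono (sup_le (le_iSup (𝒜 y) u) (le_iSup (𝒜 y) v)) (mulL_mem h0 h2)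
  have hk' : PP Θ (𝒜 x t ⊔ 𝒜 y t) k ∈ XX Θ (𝒜 x t ⊔ 𝒜 y t) := PP_mem k
  have e1 : pr k (mulL (mulL b h₀) (mulL ψ h₂)) =
      pr k (mulL (BB (𝒜 z u) b h₀) (BB (𝒜 z v) ψ h₂)) := r.pr_mulL hc hk hgc hgc'
  have e2 : pr k (mulL (mulL b h₀) (mulL ψ h₂)) = pr (mulL b h₀) (mulL k (mulL ψ h₂)) := by
    rw [medial_pr (r.ind u v hc.yz) (r.le' u) (r.le' v) k hgc hgc',
      medial_pr (r.ind t v hc.xz) (r.le' t) (r.le' v) _ hkc hgc']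
    exact integral_congr_ae (Eventually.of_forall fun ω => mul_left_comm _ _ _)
  have e3 : pr (mulL b h₀) (mulL k (mulL ψ h₂)) =
      pr (mulL b h₀) (mulL (PP Θ (𝒜 x t ⊔ 𝒜 y t) k) (mulL ψ h₂)) := by
    have := r2.pr_mulL hc.swap12 hg hkc hgc'
    rwa [PP_of_mem (hA v) hg'] at this
  have e4 : pr (mulL b h₀) (mulL (PP Θ (𝒜 x t ⊔ 𝒜 y t) k) (mulL ψ h₂)) =
      pr (PP Θ (𝒜 x t ⊔ 𝒜 y t) k) (mulL (mulL b ψ) (mulL h₀ h₂)) := by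
    rw [medial_pr (r.ind t v hc.xz) (r.le' t) (r.le' v) _ (XX_mono (r2.le t) hk') hgc',
      medial_pr (hG.row x y hr.xy) (hR x) (hR y) _ hp hq]
    refine integral_congr_ae ?_
    filter_upwards [mulL_ae (hG.ind_col hr.xy u u) (hG.le _ _) (hG.le _ _) hb h0,
      mulL_ae (hG.ind_col hr.xy v v) (hG.le _ _) (hG.le _ _) hψ h2,
      mulL_ae (hG.ind_row x hc.yz) (hG.le _ _) (hG.le _ _) hb hψ,
      mulL_ae (hG.ind_row y hc.yz) (hG.le _ _) (hG.le _ _) h0 h2] with ω a1 a2 a3 a4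
    rw [a1, a2, a3, a4]
    ring
  have e5 : PP Θ (𝒜 x t ⊔ 𝒜 y t) (mulL (mulL b ψ) (mulL h₀ h₂)) =
      mulL (BB (𝒜 x t) b ψ) (BB (𝒜 y t) h₀ h₂) :=
    PP_mulL (hG.row x y hr.xy) (hR x) (hR y) (le_iSup (𝒜 x) t) (le_iSup (𝒜 y) t) hp hq
  rw [← e1, e2, e3, e4, ← pr_PP (hA t) hk', e5, pr_comm (PP Θ _ k),
    pr_PP (hA t) (mulL_mem (BB_mem _ _) (BB_mem _ _)), pr_comm]

/-- Test against `ψ ∈ XX (𝒜 x v)` with `eq_of_pr`, `pr_BB_swap`, `pr_PP` and `medial`. -/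
theorem medial_one (hG : G33 Θ 𝒜 𝒞) (hr : Dist x y z) (hc : Dist t u v) {b h₀ h₂ k : L2 Θ}
    (hb : b ∈ XX Θ (𝒜 x u)) (h0 : h₀ ∈ XX Θ (𝒜 y u)) (h2 : h₂ ∈ XX Θ (𝒜 y v))
    (hk : k ∈ XX Θ (𝒜 z t)) :
    BB (𝒜 x v) b (BB (𝒜 x t) (BB (𝒜 y t) h₀ h₂) k) =
      BB (𝒜 x v) h₂ (BB (𝒜 z v) (BB (𝒜 z u) b h₀) k) := by
  refine eq_of_pr (BB_mem _ _) (BB_mem _ _) fun ψ hψ => ?_
  have e1 : pr ψ (BB (𝒜 x v) b (BB (𝒜 x t) (BB (𝒜 y t) h₀ h₂) k)) =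
      pr k (mulL (BB (𝒜 x t) b ψ) (BB (𝒜 y t) h₀ h₂)) := by
    rw [BB_comm b, pr_BB_swap (hG.tri_row x hc.swap23.swap12) hψ (BB_mem _ _) hb, pr_comm,
      pr_BB (hG.tri_col hr t) (BB_mem _ _) (BB_mem _ _) hk, BB_comm ψ,
      medial_pr (hG.ind_col hr.xy t t) (hG.le _ _) (hG.le _ _) k (BB_mem _ _) (BB_mem _ _)]
    exact integral_congr_ae (Eventually.of_forall fun ω => mul_comm _ _)
  have e2 : pr ψ (BB (𝒜 x v) h₂ (BB (𝒜 z v) (BB (𝒜 z u) b h₀) k)) =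
      pr k (mulL (BB (𝒜 z u) b h₀) (BB (𝒜 z v) ψ h₂)) := by
    rw [BB_comm h₂, pr_BB_swap (hG.tri_col hr.swap23 v) hψ (BB_mem _ _) h2, pr_comm,
      pr_BB (hG.tri_row z hc.swap13) (BB_mem _ _) (BB_mem _ _) hk,
      medial_pr (hG.ind_row z hc.yz) (hG.le _ _) (hG.le _ _) k (BB_mem _ _) (BB_mem _ _)]
    exact integral_congr_ae (Eventually.of_forall fun ω => by ring)
  rw [e1, e2, medial hG hr hc hb hψ h0 h2 hk]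


end Vale.Agent.P102
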