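import Vale.Agent.P102.Sig

/-! Mixing for bounded functions and the base cases. -/

open MeasureTheory ProbabilityTheory Filter Topology Set
open scoped ComplexConjugate

noncomputable section

namespace Vale.Agent.P102

variable {Y : Type}
  [TopologicalSpace Y] [MeasurableSpace Y] [Nice Y] [AddAction ℤ Y] [ContinuousConstVAdd ℤ Y]

theorem mixl2_ext {X I : Type} [MeasurableSpace X] {μ : Measure X} {F : Filter I} {T : I → X → X}
    (hT : ∀ n, MeasurePreserving (T n) μ μ) {h : I → X → ℂ} (hm : ∀ n, Measurable (h n)) {C : ℝ}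
    (hC : ∀ n y, ‖h n y‖ ≤ C) {c : ℂ} (H : ∀ B, MeasurableSet B → Tendsto
      (fun n => ∫ y, B.indicator (fun _ => (1 : ℂ)) (T n y) * h n y ∂μ) F (𝓝 (μ.real B * c)))
    {g : X → ℂ} (hg : Integrable g μ) :
    Tendsto (fun n => ∫ y, g (T n y) * h n y ∂μ) F (𝓝 ((∫ y, g y ∂μ) * c)) := by
  have h1 : ∀ n {g : X → ℂ}, Integrable g μ → Integrable (fun y => g (T n y) * h n y) μ :=
    fun n g hg => ((hT n).integrable_comp_of_integrable hg).mul_bdd
      (hm n).aestronglyMeasurable (.of_forall (hC n))
  refine hg.induction (P := fun g =>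
    Tendsto (fun n => ∫ y, g (T n y) * h n y ∂μ) F (𝓝 ((∫ y, g y ∂μ) * c))) ?_ ?_ ?_ ?_
  · intro a B hB _
    have h2 : ∀ y, B.indicator (fun _ => a) y = a * B.indicator (fun _ => (1 : ℂ)) y := fun y => by
      rw [← indicator_const_mul, mul_one]
    simpa only [h2, mul_assoc, integral_const_mul, integral_indicator_const _ hB,
      Complex.real_smul, mul_one] using (H B hB).const_mul a
  · intro f g _ hf hg a1 a2
    simpa only [Pi.add_apply, add_mul, integral_add hf hg, integral_add (h1 _ hf) (h1 _ hg)]
      using a1.add a2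
  · refine (LipschitzWith.uniformEquicontinuous (fun n (f : X →₁[μ] ℂ) =>
      ∫ y, f (T n y) * h n y ∂μ) C.toNNReal fun n => .of_dist_le_mul fun f g => ?_).equicontinuous
      |>.isClosed_setOfPred_tendsto (continuous_integral.mul continuous_const)
    have h2 := ((L1.integrable_coeFn f).sub (L1.integrable_coeFn g)).norm
    rw [dist_eq_norm, ← integral_sub (h1 n (L1.integrable_coeFn f)) (h1 n (L1.integrable_coeFn g)),
      L1.dist_eq_integral_dist, ← integral_const_mul]
    refine (norm_integral_le_of_norm_le (((hT n).integrable_comp_of_integrable h2).const_mul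
      C.toNNReal) (.of_forall fun y => ?_)).trans_eq ?_
    · rw [← sub_mul, norm_mul, mul_comm]
      exact mul_le_mul_of_nonneg_right ((hC n y).trans (Real.le_coe_toNNReal C)) (norm_nonneg _)
    · simp only [integral_const_mul, dist_eq_norm]
      exact congrArg _ ((integral_map (hT n).aemeasurable (by
        rw [(hT n).map_eq]; exact h2.aestronglyMeasurable)).symm.trans (by rw [(hT n).map_eq]))
  · intro f g e _ a1
    rw [← integral_congr_ae e]
    exact a1.congr fun n => integral_congr_ae
      (((hT n).quasiMeasurePreserving.ae e).mono fun y hy => by simp only [hy])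

theorem mixl2_inv {μY : PM Y} (hY : Inv μY) (n : ℤ) {f : Y → ℂ} (hf : BM f) :
    ∫ y, f (n +ᵥ y) ∂(μY : Measure Y) = ∫ y, f y ∂(μY : Measure Y) := by
  rw [← integral_map (hY.measurePreserving n).aemeasurable hf.1.aestronglyMeasurable,
    (hY.measurePreserving n).map_eq]

/-- Extend from indicators to simple functions and then to bounded measurable functions
(approximate in `L¹` or `L²`, using invariance). -/
theorem mix_BM {μY : PM Y} (hY : Inv μY) (hm : MixY μY) {f g : Y → ℂ} (hf : BM f) (hg : BM g) :
    Tendsto (fun n : ℤ => ∫ y, f y * g (n +ᵥ y) ∂(μY : Measure Y)) cofinite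
      (𝓝 ((∫ y, f y ∂(μY : Measure Y)) * ∫ y, g y ∂(μY : Measure Y))) := by
  obtain ⟨C, hC⟩ := hf.2
  simp only [mul_comm (f _), mul_comm (∫ y, f y ∂_)]
  refine mixl2_ext hY.measurePreserving (fun _ => hf.1) (fun _ => hC) (fun B hB => ?_)
    (hg.integrable _)
  simp only [mul_comm _ (f _), mul_comm _ (∫ y, f y ∂_)]
  refine mixl2_ext (C := 1) (fun _ => MeasurePreserving.id _) (fun n =>
    (measurable_const.indicator hB).comp (hY.measurePreserving n).measurable)
    (fun n y => by simpa using norm_indicator_le_norm_self (fun _ => (1 : ℂ)) (n +ᵥ y))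
    (fun A hA => ?_) (hf.integrable _)
  rw [← Complex.ofReal_mul]
  refine ((Complex.continuous_ofReal.tendsto _).comp (hm A B hA hB)).congr fun n => ?_
  have h1 := integral_indicator_const (μ := (μY : Measure Y)) (1 : ℂ)
    (hA.inter ((hY.measurePreserving n).measurable hB))
  rw [Complex.real_smul, mul_one] at h1
  refine h1.symm.trans (integral_congr_ae (.of_forall fun y => ?_))
  by_cases a1 : y ∈ A <;> by_cases a2 : n +ᵥ y ∈ B <;> simp [a1, a2]

theorem tendsto_sub_sepF {ι : Type} {i j : ι} (h : i ≠ j) :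
    Tendsto (fun e : ι → ℤ => e j - e i) (sepF ι) cofinite := by
  refine hasBasis_cofinite.tendsto_right_iff.2 fun S hS => ?_
  obtain ⟨G, hG⟩ := (hS.image Int.natAbs).bddAbove
  refine mem_iInf_of_mem (G + 1) (mem_principal.2 fun e he h1 => ?_)
  have h2 := he j i h.symm
  have h3 := hG (mem_image_of_mem _ h1)
  rw [Int.abs_eq_natAbs] at h2
  omega

theorem mixK_of_card_le_two {μY : PM Y} (hY : Inv μY) (hm : MixY μY) (ι : Type) [Fintype ι]
    (h : Fintype.card ι ≤ 2) : MixK μY ι := by
  classical
  intro f hf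
  rw [← Finset.card_univ] at h
  obtain h | h | h : (Finset.univ : Finset ι).card = 0 ∨ (Finset.univ : Finset ι).card = 1 ∨
    (Finset.univ : Finset ι).card = 2 := by omega
  · simp [Finset.card_eq_zero.1 h, tendsto_const_nhds]
  · obtain ⟨i, hi⟩ := Finset.card_eq_one.1 h
    simp [hi, mixl2_inv hY _ (hf i), tendsto_const_nhds]
  obtain ⟨i, j, hij, hi⟩ := Finset.card_eq_two.1 h
  simp only [hi, Finset.prod_pair hij]
  refine ((mix_BM hY hm (hf i) (hf j)).comp (tendsto_sub_sepF hij)).congr fun e => ?_
  simpa only [vadd_vadd, sub_add_cancel, Function.comp] using (mixl2_inv hY (e i)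
    ((hf i).mul ((hf j).comp (hY.measurePreserving (e j - e i)).measurable))).symm


end Vale.Agent.P102
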