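import Mathlib

/-! Compact metrizable Borel spaces and their spaces of probability measures. -/

open MeasureTheory ProbabilityTheory Filter Topology Set

noncomputable section

namespace Vale.Agent.P102

/-- Nonempty compact metrizable space with its Borel sigma-algebra. -/
class Nice (K : Type) [TopologicalSpace K] [MeasurableSpace K] : Prop where
  cpt : CompactSpace K
  met : TopologicalSpace.MetrizableSpace K
  bor : BorelSpace K
  ne : Nonempty K

attribute [instance 100] Nice.cpt Nice.met Nice.bor Nice.ne

section
variable {K : Type} [TopologicalSpace K] [MeasurableSpace K] [Nice K]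

instance (priority := 100) Nice.secondCountable : SecondCountableTopology K := by
  letI := TopologicalSpace.metrizableSpaceMetric K
  infer_instance

instance (priority := 100) Nice.polish : PolishSpace K := by
  letI := TopologicalSpace.metrizableSpaceMetric K
  infer_instance

example : StandardBorelSpace K := inferInstance
example : T2Space K := inferInstance
example : HasOuterApproxClosed K := inferInstance
example : SecondCountableTopology C(K, ℝ) := inferInstance
example : MeasurableSingletonClass K := inferInstance

instance Nice.pi {ι : Type} [Countable ι] : Nice (ι → K) where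
  cpt := inferInstance
  met := inferInstance
  bor := inferInstance
  ne := inferInstance

instance Nice.prod {L : Type} [TopologicalSpace L] [MeasurableSpace L] [Nice L] :
    Nice (K × L) where
  cpt := inferInstance
  met := inferInstance
  bor := inferInstance
  ne := inferInstance

/-- Integration of a continuous function, as a continuous function of the measure. -/
def ev (f : C(K, ℝ)) : C(ProbabilityMeasure K, ℝ) :=
  ⟨fun μ => ∫ x, f x ∂(μ : Measure K),
    ProbabilityMeasure.continuous_integral_boundedContinuousFunction
      (BoundedContinuousFunction.mkOfCompact f)⟩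

@[simp] theorem ev_apply (f : C(K, ℝ)) (μ : ProbabilityMeasure K) :
    ev f μ = ∫ x, f x ∂(μ : Measure K) := rfl

theorem integrable_cont (f : C(K, ℝ)) (μ : Measure K) [IsFiniteMeasure μ] : Integrable f μ :=
  (BoundedContinuousFunction.mkOfCompact f).integrable μ

theorem pm_ext {μ ν : ProbabilityMeasure K} (h : ∀ f : C(K, ℝ), ev f μ = ev f ν) : μ = ν := by
  apply ProbabilityMeasure.toMeasure_injective
  exact ext_of_forall_integral_eq_of_IsFiniteMeasure fun f => h f.toContinuousMap

theorem tendsto_pm_iff {I : Type*} {F : Filter I} {u : I → ProbabilityMeasure K}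
    {μ : ProbabilityMeasure K} :
    Tendsto u F (𝓝 μ) ↔ ∀ f : C(K, ℝ), Tendsto (fun i => ev f (u i)) F (𝓝 (ev f μ)) := by
  constructor
  · intro h f
    exact ((ev f).continuous.tendsto μ).comp h
  · intro h
    rw [ProbabilityMeasure.tendsto_iff_forall_integral_tendsto]
    exact fun f => h f.toContinuousMap

theorem abs_ev_sub_le (f g : C(K, ℝ)) (μ : ProbabilityMeasure K) :
    |ev f μ - ev g μ| ≤ ‖f - g‖ := by
  simp only [ev_apply]
  rw [← integral_sub (integrable_cont f _) (integrable_cont g _), ← Real.norm_eq_abs]
  have := norm_integral_le_of_norm_le_const (μ := (μ : Measure K)) (f := fun x => f x - g x)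
    (C := ‖f - g‖) (ae_of_all _ fun x => (f - g).norm_coe_le_norm x)
  simpa using this

theorem pm_ext_dense {D : Set C(K, ℝ)} (hD : Dense D) {μ ν : ProbabilityMeasure K}
    (h : ∀ f ∈ D, ev f μ = ev f ν) : μ = ν := by
  refine pm_ext fun f => ?_
  have hc : ∀ ρ : ProbabilityMeasure K, Continuous fun g : C(K, ℝ) => ev g ρ := fun ρ =>
    (LipschitzWith.of_dist_le_mul (K := 1) fun a b => by
      simpa [Real.dist_eq, dist_eq_norm] using abs_ev_sub_le a b ρ).continuous
  exact congrFun (Continuous.ext_on hD (hc μ) (hc ν) h) f

theorem borelSpace_pm : BorelSpace (ProbabilityMeasure K) := by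
  refine ⟨le_antisymm ?_ ?_⟩
  · letI : MeasurableSpace (ProbabilityMeasure K) := borel _
    haveI : BorelSpace (ProbabilityMeasure K) := ⟨rfl⟩
    have key : ∀ s : Set K, MeasurableSet s →
        Measurable fun μ : ProbabilityMeasure K => (μ : Measure K) s := by
      intro s hs
      induction s, hs using MeasurableSpace.induction_on_inter
        (h_eq := (BorelSpace.measurable_eq (α := K))) (h_inter := isPiSystem_isOpen) with
      | empty => simp
      | basic t ht =>
        refine LowerSemicontinuous.measurable fun μ y hy => ?_
        have := ProbabilityMeasure.le_liminf_measure_open_of_tendsto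
          (L := 𝓝 μ) (μs := fun ν : ProbabilityMeasure K => ν) tendsto_id ht
        exact eventually_lt_of_lt_liminf (hy.trans_le this)
      | compl t htm ht =>
        have : (fun μ : ProbabilityMeasure K => (μ : Measure K) tᶜ) =
            fun μ : ProbabilityMeasure K => 1 - (μ : Measure K) t := by
          ext μ; rw [prob_compl_eq_one_sub htm]
        rw [this]; exact measurable_const.sub ht
      | iUnion f hd hm ih =>
        have : (fun μ : ProbabilityMeasure K => (μ : Measure K) (⋃ i, f i)) =
            fun μ : ProbabilityMeasure K => ∑' i, (μ : Measure K) (f i) := by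
          ext μ; rw [measure_iUnion hd hm]
        rw [this]; exact Measurable.ennreal_tsum ih
    have h2 : Measurable fun μ : ProbabilityMeasure K => (μ : Measure K) :=
      Measure.measurable_of_measurable_coe _ key
    exact h2.comap_le
  · obtain ⟨D, hDc, hD⟩ := TopologicalSpace.exists_countable_dense C(K, ℝ)
    haveI := hDc.to_subtype
    let j : ProbabilityMeasure K → (D → ℝ) := fun μ f => ev f.1 μ
    have hj : Continuous j := continuous_pi fun f => (ev f.1).continuous
    have hinj : Function.Injective j := fun μ ν h =>
      pm_ext_dense hD fun f hf => congrFun h ⟨f, hf⟩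
    have hemb : IsInducing j := (hj.isClosedEmbedding hinj).isInducing
    have hm : Measurable j := by
      refine measurable_pi_lambda _ fun f => ?_
      have h1 : Measurable fun μ : ProbabilityMeasure K => (μ : Measure K) :=
        measurable_subtype_coe
      let κ : Kernel (ProbabilityMeasure K) K := ⟨fun μ => (μ : Measure K), h1⟩
      have : StronglyMeasurable fun μ => ∫ x, f.1 x ∂(κ μ) :=
        f.1.continuous.stronglyMeasurable.integral_kernel
      exact this.measurable
    have e1 : borel (ProbabilityMeasure K) = (borel (D → ℝ)).comap j := by
      exact (congrArg (@borel _) hemb.eq_induced).trans (borel_comap (f := j))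
    rw [e1, ← BorelSpace.measurable_eq (α := D → ℝ)]
    exact hm.comap_le

instance Nice.pm : Nice (ProbabilityMeasure K) where
  cpt := inferInstance
  met := inferInstance
  bor := borelSpace_pm
  ne := ⟨diracProba (Classical.arbitrary K)⟩

example : Nice (ProbabilityMeasure (ProbabilityMeasure K × ProbabilityMeasure (ℕ → K))) :=
  inferInstance

end

end Vale.Agent.P102
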