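import Vale.Agent.P102.Sig

/-! Almost-everywhere tools on compact metrizable spaces. -/

open MeasureTheory ProbabilityTheory Filter Topology Set
open scoped ComplexConjugate

noncomputable section

namespace Vale.Agent.P102

variable {K L : Type}
  [TopologicalSpace K] [MeasurableSpace K] [Nice K]
  [TopologicalSpace L] [MeasurableSpace L] [Nice L]

/-- Push an a.e. statement forward along a continuous map (no measurability of `P`).
Proof: the good set contains a measurable conull set, hence (inner regularity) a countable union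
of compact sets of full measure; its image is sigma-compact, measurable, conull, and `P` holds
there. -/
theorem ae_pmap_of_ae (f : C(K, L)) (μ : PM K) {P : L → Prop}
    (h : ∀ᵐ x ∂(μ : Measure K), P (f x)) : ∀ᵐ y ∂((pmap f μ : PM L) : Measure L), P y := by
  by_contra h0
  rw [ae_iff] at h h0
  obtain ⟨N, hN, hm, hz⟩ := exists_measurable_superset_of_null h
  obtain ⟨C, hC, hc, hl⟩ := hm.compl.exists_isCompact_sdiff_lt (μ := (μ : Measure K))
    (measure_ne_top _ _) h0
  have hI : MeasurableSet (f '' C)ᶜ := (hc.image f.continuous).isClosed.measurableSet.compl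
  refine absurd hl (not_lt.2 ?_)
  calc ((pmap f μ : PM L) : Measure L) {y | ¬P y}
      ≤ ((pmap f μ : PM L) : Measure L) (f '' C)ᶜ := by
        refine measure_mono fun y hy => ?_
        rintro ⟨x, hx, rfl⟩
        exact hC hx (hN hy)
    _ = (μ : Measure K) (f ⁻¹' (f '' C)ᶜ) := by
        rw [coe_pmap, Measure.map_apply f.continuous.measurable hI]
    _ ≤ (μ : Measure K) (N ∪ Nᶜ \ C) := by
        refine measure_mono fun x hx => ?_
        by_cases hxN : x ∈ N
        · exact Or.inl hxN
        · exact Or.inr ⟨hxN, fun hxC => hx ⟨x, hxC, rfl⟩⟩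
    _ ≤ _ := (measure_union_le _ _).trans (by rw [hz, zero_add])

/-- Exchange of quantifiers for closed conditions over a second countable space (take a countable
dense subset of `S`). -/
theorem ae_forall_of_closed {X Ω : Type*} [TopologicalSpace X] [SecondCountableTopology X]
    [MeasurableSpace Ω] {μ : Measure Ω} (S : Set X) (P : X → Ω → Prop)
    (hc : ∀ ω, IsClosed {x | P x ω}) (h : ∀ x ∈ S, ∀ᵐ ω ∂μ, P x ω) :
    ∀ᵐ ω ∂μ, ∀ x ∈ S, P x ω := by
  obtain ⟨D, hDc, hD⟩ := TopologicalSpace.exists_countable_dense S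
  filter_upwards [(ae_ball_iff hDc).2 fun x _ => h x.1 x.2] with ω hω x hx
  exact ((hc ω).preimage continuous_subtype_val).closure_subset_iff.2 hω (hD ⟨x, hx⟩)

/-- Portmanteau: being carried by a closed set is a closed condition. -/
theorem isClosed_ae {Z : Set K} (hZ : IsClosed Z) :
    IsClosed {ρ : PM K | ∀ᵐ x ∂(ρ : Measure K), x ∈ Z} := by
  refine isClosed_iff_ultrafilter.2 fun ρ u hu hm => ?_
  have h1 := ProbabilityMeasure.le_liminf_measure_open_of_tendsto
    (L := (u : Filter (PM K))) (μs := fun ν : PM K => ν) hu hZ.isOpen_compl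
  have h2 : (fun ν : PM K => (ν : Measure K) Zᶜ) =ᶠ[(u : Filter (PM K))] fun _ => 0 :=
    mem_of_superset hm fun ν hν => hν
  rw [liminf_congr h2, liminf_const] at h1
  exact nonpos_iff_eq_zero.1 h1

theorem ae_ulim {I : Type} (p : Ultrafilter I) (u : I → PM K) {Z : Set K} (hZ : IsClosed Z)
    (h : ∀ i, ∀ᵐ x ∂(u i : Measure K), x ∈ Z) :
    ∀ᵐ x ∂((ulim p u : PM K) : Measure K), x ∈ Z := by
  exact (isClosed_ae hZ).mem_of_tendsto (tendsto_ulim p u) (Eventually.of_forall h)

theorem continuous_ev_left (μ : PM K) : Continuous fun f : C(K, ℝ) => ev f μ := by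
  exact (LipschitzWith.of_dist_le_mul (K := 1) fun a b => by
    simpa [Real.dist_eq, dist_eq_norm] using abs_ev_sub_le a b μ).continuous

/-- Continuous functions are dense in `L²`. -/
theorem exists_cont_approx (μ : Measure K) [IsFiniteMeasure μ] {f : K → ℝ} (hf : MemLp f 2 μ)
    {ε : ℝ} (hε : 0 < ε) : ∃ g : C(K, ℝ), ∫ x, (f x - g x) ^ 2 ∂μ < ε := by
  obtain ⟨g, hg, -⟩ := MemLp.exists_boundedContinuous_integral_rpow_sub_le (μ := μ) (f := f)
    (p := 2) two_pos (by simpa using hf) (half_pos hε)
  refine ⟨g.toContinuousMap, lt_of_le_of_lt ?_ (half_lt_self hε)⟩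
  simpa using hg

/-- Continuous functions are dense in `L¹`. -/
theorem exists_cont_approx_one (μ : Measure K) [IsFiniteMeasure μ] {f : K → ℝ}
    (hf : Integrable f μ) {ε : ℝ} (hε : 0 < ε) :
    ∃ g : C(K, ℝ), ∫ x, |f x - g x| ∂μ < ε := by
  obtain ⟨g, hg, -⟩ := hf.exists_boundedContinuous_integral_sub_le (half_pos hε)
  exact ⟨g.toContinuousMap, lt_of_le_of_lt hg (half_lt_self hε)⟩

/-- compare the measures with densities `f⁺` and `f⁻` -/
theorem push_zero {μ : Measure K} [IsFiniteMeasure μ] {f : K → ℝ} (hf : Integrable f μ)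
    (h : ∀ (a b : Measure K) [IsFiniteMeasure a] [IsFiniteMeasure b],
      (∀ g : C(K, ℝ), ∫ x, g x * f x ∂μ = 0 → ∫ x, g x ∂a = ∫ x, g x ∂b) → a = b) :
    f =ᵐ[μ] 0 := by
  have := isFiniteMeasure_withDensity_ofReal hf.2
  have := isFiniteMeasure_withDensity_ofReal hf.neg.2
  have m1 : AEMeasurable (fun x => ENNReal.ofReal (f x)) μ := hf.1.aemeasurable.ennreal_ofReal
  have m2 : AEMeasurable (fun x => ENNReal.ofReal ((-f) x)) μ :=
    hf.neg.1.aemeasurable.ennreal_ofReal
  have key := h (μ.withDensity fun x => ENNReal.ofReal (f x))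
    (μ.withDensity fun x => ENNReal.ofReal ((-f) x)) fun g hg => by
      have hb : ∀ {u : K → ℝ}, Integrable u μ → Integrable (fun x => max (u x) 0 * g x) μ :=
        fun hu => hu.pos_part.mul_bdd g.continuous.aestronglyMeasurable
          (ae_of_all _ g.norm_coe_le_norm)
      rw [integral_withDensity_eq_integral_toReal_smul₀ m1 (by simp),
        integral_withDensity_eq_integral_toReal_smul₀ m2 (by simp)]
      simp only [ENNReal.toReal_ofReal', smul_eq_mul]
      rw [← sub_eq_zero, ← integral_sub (hb hf) (hb hf.neg)]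
      refine (integral_congr_ae (ae_of_all _ fun x => ?_)).trans hg
      simp only [Pi.neg_apply]
      rw [← sub_mul, max_zero_sub_max_neg_zero_eq_self, mul_comm]
  filter_upwards [(withDensity_eq_iff_of_sigmaFinite m1 m2).1 key] with x hx
  have h1 := congrArg ENNReal.toReal hx
  simp only [ENNReal.toReal_ofReal', Pi.neg_apply] at h1
  rw [← max_zero_sub_max_neg_zero_eq_self (f x), h1, sub_self]
  rfl

/-- An integrable function orthogonal to all continuous functions vanishes. -/
theorem ae_eq_zero_of_cont (μ : Measure K) [IsFiniteMeasure μ] {f : K → ℝ}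
    (hf : Integrable f μ) (h : ∀ g : C(K, ℝ), ∫ x, g x * f x ∂μ = 0) : f =ᵐ[μ] 0 := by
  refine push_zero hf fun a b _ _ hab =>
    ext_of_forall_integral_eq_of_IsFiniteMeasure fun g => ?_
  exact hab g.toContinuousMap (h _)

/-- An integrable function on a product orthogonal to all products of continuous functions
vanishes (Stone-Weierstrass, or compare the two finite measures `f⁺ μ`, `f⁻ μ` with
`Measure.ext_of_integral_mul_boundedContinuousFunction`). -/
theorem ae_eq_zero_of_cont_prod (μ : Measure (K × L)) [IsFiniteMeasure μ] {f : K × L → ℝ}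
    (hf : Integrable f μ)
    (h : ∀ (g : C(K, ℝ)) (g' : C(L, ℝ)), ∫ x, g x.1 * g' x.2 * f x ∂μ = 0) : f =ᵐ[μ] 0 := by
  refine push_zero hf fun a b _ _ hab =>
    Measure.ext_of_integral_mul_boundedContinuousFunction fun g g' => ?_
  exact hab ⟨fun x => g x.1 * g' x.2, by fun_prop⟩ (h g.toContinuousMap g'.toContinuousMap)

/-- Independence from continuous test functions (see `indepFun_of_bcf`). -/
theorem indepFun_of_cont {Ω : Type*} [MeasurableSpace Ω] (θ : Measure Ω) [IsProbabilityMeasure θ]
    {X : Ω → K} {Z : Ω → L} (hX : Measurable X) (hZ : Measurable Z)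
    (h : ∀ (f : C(K, ℝ)) (g : C(L, ℝ)),
      ∫ ω, f (X ω) * g (Z ω) ∂θ = (∫ ω, f (X ω) ∂θ) * ∫ ω, g (Z ω) ∂θ) :
    IndepFun X Z θ := by
  exact indepFun_of_bcf hX.aemeasurable hZ.aemeasurable fun f g =>
    h f.toContinuousMap g.toContinuousMap

/-- A Dirac push-forward makes the generated sigma-algebra trivial. -/
theorem triv_of_dirac (θ : PM K) (ψ : C(K, L)) {c : L} (h : pmap ψ θ = diracProba c) :
    Triv (θ : Measure K) (MeasurableSpace.comap ψ inferInstance) := by
  rintro _ ⟨B, hB, rfl⟩
  have e : ∀ B, MeasurableSet B → (θ : Measure K) (ψ ⁻¹' B) = Measure.dirac c B := fun B hB => by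
    rw [← Measure.map_apply ψ.continuous.measurable hB, ← coe_pmap, h]; rfl
  rw [← preimage_compl, e _ hB, e _ hB.compl]
  by_cases hc : c ∈ B <;> simp [hc]

theorem isClosed_range_dirac : IsClosed {ν : PM K | ∃ c, ν = diracProba c} := by
  have : {ν : PM K | ∃ c, ν = diracProba c} = range fun c : K => diracProba c := by
    ext ν; simp [eq_comm]
  rw [this]
  exact (isCompact_range continuous_diracProba).isClosed

theorem pmap_dirac (f : C(K, L)) (c : K) : pmap f (diracProba c) = diracProba (f c) := by
  apply ProbabilityMeasure.toMeasure_injective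
  exact Measure.map_dirac' f.continuous.measurable c


end Vale.Agent.P102
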