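import Vale.Agent.P102.Dis

/-! The relatively independent coupling over the base. -/

open MeasureTheory ProbabilityTheory Filter Topology Set
open scoped ComplexConjugate

noncomputable section

namespace Vale.Agent.P102

section gen
variable {X Y Z Z' : Type} [MeasurableSpace X] [MeasurableSpace Y] [MeasurableSpace Z]
  [MeasurableSpace Z']

theorem ri_shift {ν : Measure Y} [IsProbabilityMeasure ν] {S : Y → Y}
    (hS : MeasurePreserving S ν ν) {T : Z → Z'} (hT : Measurable T) {e : Kernel Y Z}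
    {f : Kernel Y Z'} [IsMarkovKernel e] [IsMarkovKernel f]
    (h : ∀ᵐ y ∂ν, f (S y) = (e y).map T) : ν ⊗ₘ f = (ν ⊗ₘ e).map (Prod.map S T) := by
  ext s hs
  have hm := hS.measurable.prodMap hT
  rw [Measure.map_apply hm hs, Measure.compProd_apply hs, Measure.compProd_apply (hm hs),
    ← hS.lintegral_comp (Kernel.measurable_kernel_prodMk_left hs)]
  refine lintegral_congr_ae ?_
  filter_upwards [h] with y hy
  rw [hy, Measure.map_apply hT (measurable_prodMk_left hs)]
  rfl

/-- a pair as a function on `Bool` -/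
def ri_pair (p : Y × (X × X)) : Bool → X := fun b => cond b p.2.2 p.2.1

theorem ri_pair_meas : Measurable (ri_pair : Y × (X × X) → Bool → X) :=
  measurable_pi_lambda _ fun b => by
    cases b
    · exact measurable_snd.fst
    · exact measurable_snd.snd

theorem ri_fst (ν : Measure Y) [IsProbabilityMeasure ν] (e e' : Kernel Y X) [IsMarkovKernel e]
    [IsMarkovKernel e'] : (ν ⊗ₘ (e ×ₖ e')).map (Prod.map id Prod.fst) = ν ⊗ₘ e :=
  (ri_shift (MeasurePreserving.id ν) measurable_fst
    (ae_of_all _ fun y => by simp [Kernel.prod_apply])).symm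

theorem ri_snd (ν : Measure Y) [IsProbabilityMeasure ν] (e e' : Kernel Y X) [IsMarkovKernel e]
    [IsMarkovKernel e'] : (ν ⊗ₘ (e ×ₖ e')).map (Prod.map id Prod.snd) = ν ⊗ₘ e' :=
  (ri_shift (MeasurePreserving.id ν) measurable_snd
    (ae_of_all _ fun y => by simp [Kernel.prod_apply])).symm

theorem ri_const {a b : Measure X} [IsProbabilityMeasure a] [IsProbabilityMeasure b]
    {F F' : X → ℂ} (h : ∀ᵐ q ∂a.prod b, F q.1 = F' q.2) :
    ∀ᵐ q ∂a.prod b, F q.1 = ∫ x, F x ∂a ∧ F' q.2 = ∫ x, F x ∂a := by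
  have h1 := Measure.ae_ae_of_ae_prod h
  obtain ⟨x₀, h0⟩ := h1.exists
  have h2 : ∀ᵐ x ∂a, F x = F x₀ := by
    filter_upwards [h1] with x hx
    obtain ⟨x', k1, k2⟩ := (hx.and h0).exists
    exact k1.trans k2.symm
  have h3 : ∫ x, F x ∂a = F x₀ := by rw [integral_congr_ae h2]; simp
  filter_upwards [h, Measure.quasiMeasurePreserving_fst.ae h2] with q k1 k2
  rw [h3, ← k1]
  exact ⟨k2, k2⟩

theorem ri_main [MeasurableEq Y] {π : X → Y} (hπ : Measurable π) {ν : Measure Y}
    [IsProbabilityMeasure ν] {μ μ' : Measure X} {e e' : Kernel Y X} [IsMarkovKernel e]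
    [IsMarkovKernel e'] (h : ν ⊗ₘ e = μ.map fun x => (π x, x))
    (h' : ν ⊗ₘ e' = μ'.map fun x => (π x, x)) :
    ((ν ⊗ₘ (e ×ₖ e')).map ri_pair).map (fun w => w false) = μ ∧
    ((ν ⊗ₘ (e ×ₖ e')).map ri_pair).map (fun w => w true) = μ' ∧
    (∀ᵐ w ∂(ν ⊗ₘ (e ×ₖ e')).map ri_pair, π (w false) = π (w true)) ∧
    RIProp π ((ν ⊗ₘ (e ×ₖ e')).map ri_pair) := by
  have hm : Measurable fun x => (π x, x) := hπ.prodMk measurable_id
  have m1 : Measurable (Prod.map id Prod.fst : Y × (X × X) → Y × X) :=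
    measurable_id.prodMap measurable_fst
  have m2 : Measurable (Prod.map id Prod.snd : Y × (X × X) → Y × X) :=
    measurable_id.prodMap measurable_snd
  have k1 := (ri_fst ν e e').trans h
  have k2 := (ri_snd ν e e').trans h'
  have hs : MeasurableSet {q : Y × X | π q.2 = q.1} :=
    measurableSet_eq_fun (hπ.comp measurable_snd) measurable_fst
  have a1 : ∀ᵐ p ∂ν ⊗ₘ (e ×ₖ e'), π p.2.1 = p.1 := by
    refine ae_of_ae_map (p := fun q : Y × X => π q.2 = q.1) m1.aemeasurable ?_
    rw [k1]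
    exact (ae_map_iff hm.aemeasurable hs).2 (ae_of_all _ fun _ => rfl)
  have a2 : ∀ᵐ p ∂ν ⊗ₘ (e ×ₖ e'), π p.2.2 = p.1 := by
    refine ae_of_ae_map (p := fun q : Y × X => π q.2 = q.1) m2.aemeasurable ?_
    rw [k2]
    exact (ae_map_iff hm.aemeasurable hs).2 (ae_of_all _ fun _ => rfl)
  have mf : Measurable fun w : Bool → X => w false := measurable_pi_apply _
  have mt : Measurable fun w : Bool → X => w true := measurable_pi_apply _
  refine ⟨?_, ?_, ?_, fun F F' hF hF' hw => ?_⟩
  · have := congrArg (Measure.map Prod.snd) k1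
    rw [Measure.map_map measurable_snd m1, Measure.map_map measurable_snd hm] at this
    rw [Measure.map_map mf ri_pair_meas]
    exact this.trans Measure.map_id
  · have := congrArg (Measure.map Prod.snd) k2
    rw [Measure.map_map measurable_snd m2, Measure.map_map measurable_snd hm] at this
    rw [Measure.map_map mt ri_pair_meas]
    exact this.trans Measure.map_id
  · refine (ae_map_iff ri_pair_meas.aemeasurable
      (measurableSet_eq_fun (hπ.comp mf) (hπ.comp mt))).2 ?_
    filter_upwards [a1, a2] with p h1 h2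
    exact h1.trans h2.symm
  · have hg : Measurable fun y => ∫ x, F x ∂e y :=
      (hF.1.stronglyMeasurable.integral_kernel (κ := e)).measurable
    obtain ⟨C, hC⟩ := hF.2
    refine ⟨fun y => ∫ x, F x ∂e y, ⟨hg, C, fun y => ?_⟩, ?_⟩
    · simpa using norm_integral_le_of_norm_le_const (μ := e y) (ae_of_all _ hC)
    have b1 := Measure.ae_ae_of_ae_compProd (ae_of_ae_map ri_pair_meas.aemeasurable hw)
    have b2 : ∀ᵐ p ∂ν ⊗ₘ (e ×ₖ e'),
        F p.2.1 = ∫ x, F x ∂e p.1 ∧ F' p.2.2 = ∫ x, F x ∂e p.1 := by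
      refine Measure.ae_compProd_of_ae_ae
        ((measurableSet_eq_fun (hF.1.comp measurable_snd.fst) (hg.comp measurable_fst)).inter
          (measurableSet_eq_fun (hF'.1.comp measurable_snd.snd) (hg.comp measurable_fst))) ?_
      filter_upwards [b1] with y hy
      rw [Kernel.prod_apply] at hy ⊢
      exact ri_const hy
    refine (ae_map_iff ri_pair_meas.aemeasurable
      ((measurableSet_eq_fun (hF.1.comp mf) (hg.comp (hπ.comp mf))).inter
        (measurableSet_eq_fun (hF'.1.comp mt) (hg.comp (hπ.comp mt))))).2 ?_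
    filter_upwards [a1, a2, b2] with p h1 h2 h3
    refine ⟨?_, ?_⟩
    · show F p.2.1 = ∫ x, F x ∂e (π p.2.1)
      rw [h1]; exact h3.1
    · show F' p.2.2 = ∫ x, F x ∂e (π p.2.2)
      rw [h2]; exact h3.2

end gen

variable {K Y : Type}
  [TopologicalSpace K] [MeasurableSpace K] [Nice K] [AddAction ℤ K] [ContinuousConstVAdd ℤ K]
  [TopologicalSpace Y] [MeasurableSpace Y] [Nice Y] [AddAction ℤ Y] [ContinuousConstVAdd ℤ Y]

omit [AddAction ℤ K] [ContinuousConstVAdd ℤ K] [AddAction ℤ Y] [ContinuousConstVAdd ℤ Y] in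
theorem ri_dis (π : C(K, Y)) : ∃ η : Kernel (PM K × Y) K, IsMarkovKernel η ∧
    ∀ μ : PM K, ((pmap π μ : PM Y) : Measure Y) ⊗ₘ η.sectR μ =
      (μ : Measure K).map fun x => (π x, x) := by
  have hm : Measurable fun x => (π x, x) := π.continuous.measurable.prodMk measurable_id
  let κ : Kernel (PM K) (Y × K) := (kerOf (fun μ : PM K => μ) measurable_id).map fun x => (π x, x)
  have : IsMarkovKernel κ := Kernel.IsMarkovKernel.map _ hm
  have e : ∀ μ : PM K, κ μ = (μ : Measure K).map fun x => (π x, x) := fun μ =>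
    Kernel.map_apply _ hm μ
  refine ⟨κ.condKernel, inferInstance, fun μ => ?_⟩
  have h := congrArg (fun k : Kernel (PM K) (Y × K) => k μ) (κ.disintegrate κ.condKernel)
  simp only [Kernel.compProd_apply_eq_compProd_sectR] at h
  rw [← e, ← h, Kernel.fst_apply, e, Measure.map_map measurable_fst hm]
  rfl

theorem ri_eqv {π : C(K, Y)} (hπ : Eqv π) {μY : PM Y} (hY : Inv μY) (n : ℤ) {μ : PM K}
    {e f : Kernel Y K} [IsMarkovKernel e] [IsMarkovKernel f]
    (he : (μY : Measure Y) ⊗ₘ e = (μ : Measure K).map fun x => (π x, x))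
    (hf : (μY : Measure Y) ⊗ₘ f = ((n +ᵥ μ : PM K) : Measure K).map fun x => (π x, x)) :
    ∀ᵐ y ∂(μY : Measure Y), f (n +ᵥ y) = (e y).map fun x => n +ᵥ x := by
  have hm : Measurable fun x => (π x, x) := π.continuous.measurable.prodMk measurable_id
  have hT : Measurable fun x : K => n +ᵥ x := (continuous_const_vadd n).measurable
  have hS := hY.measurePreserving n
  let f' : Kernel Y K := (e.comap _ (hY.measurePreserving (-n)).measurable).map fun x => n +ᵥ x
  have : IsMarkovKernel f' := Kernel.IsMarkovKernel.map _ hT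
  have h1 : ∀ y, f' (n +ᵥ y) = (e y).map fun x => n +ᵥ x := fun y => by
    rw [Kernel.map_apply _ hT, Kernel.comap_apply, neg_vadd_vadd]
  have h2 : (μY : Measure Y) ⊗ₘ f = (μY : Measure Y) ⊗ₘ f' := by
    rw [ri_shift hS hT (ae_of_all _ h1), hf, he, vadd_pm, coe_pmap,
      Measure.map_map hm (sh K n).continuous.measurable,
      Measure.map_map (hS.measurable.prodMap hT) hm]
    refine congrArg (fun g => Measure.map g (μ : Measure K)) (funext fun x => ?_)
    exact Prod.ext (hπ n x) rfl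
  filter_upwards [hS.quasiMeasurePreserving.ae (Kernel.ae_eq_of_compProd_eq h2)] with y hy
  rw [hy, h1]

theorem ri_inv {𝔪 : PM K} (h : Inv 𝔪) : Inv (𝔪.prod 𝔪) := fun n =>
  ProbabilityMeasure.toMeasure_injective
    ((h.measurePreserving n).prod (h.measurePreserving n)).map_eq

/-- Let `κ μ = μ.map (fun x => (π x, x))`, a Markov kernel from `PM K` to `Y × K`, and
`η = Kernel.condKernel κ : Kernel (PM K × Y) K`. Put `s (μ, μ') =` the image on `Bool → K` of
`μY.bind (fun y => (η (μ, y)).prod (η (μ', y)))` (measurable: build it as a kernel). If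
`pmap π μ = μY = pmap π μ'` (holds a.e.; `Kernel.disintegrate` holds for every `μ`), then the
marginals are `μ`, `μ'`, and `π x = y` for `η (μ, y)`-a.e. `x`, a.e. `y`. `RIProp`: if
`F x = F' x'` for a.e. pair under a product of probability measures then both are a.e. equal to
`g y = ∫ F ∂η (μ, y)`. Equivariance for all such pairs: `y ↦ n +ᵥ η (μ, -n +ᵥ y)` disintegrates
`κ (n +ᵥ μ)` over `μY`, so by a.e. uniqueness of disintegrations
`η (n +ᵥ μ, n +ᵥ y) = n +ᵥ η (μ, y)` for `μY`-a.e. `y`; then `inv_map`. -/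
theorem exists_RI {π : C(K, Y)} (hπ : Eqv π) {μY : PM Y} (hY : Inv μY) {𝔪 : PM (PM K)}
    (hs : Sys π μY 𝔪) :
    ∃ (s : PM K × PM K → PM (Bool → K)) (hs : Measurable s),
      Inv ((𝔪.prod 𝔪).map hs.aemeasurable) ∧
      ∀ᵐ b ∂(𝔪.prod 𝔪 : Measure (PM K × PM K)),
        pmap (cev K false) (s b) = b.1 ∧ pmap (cev K true) (s b) = b.2 ∧
        (∀ᵐ w ∂(s b : Measure (Bool → K)), π (w false) = π (w true)) ∧
        RIProp π (s b : Measure (Bool → K)) := by
  obtain ⟨η, hη, hd⟩ := ri_dis π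
  let ξ : Kernel ((PM K × PM K) × Y) (K × K) :=
    η.comap (fun p => (p.1.1, p.2)) (measurable_fst.fst.prodMk measurable_snd) ×ₖ
      η.comap (fun p => (p.1.2, p.2)) (measurable_fst.snd.prodMk measurable_snd)
  let σ : Kernel (PM K × PM K) (Bool → K) := (Kernel.const _ (μY : Measure Y) ⊗ₖ ξ).map ri_pair
  have : IsMarkovKernel σ := Kernel.IsMarkovKernel.map _ ri_pair_meas
  have hσ : ∀ b, σ b = ((μY : Measure Y) ⊗ₘ (η.sectR b.1 ×ₖ η.sectR b.2)).map ri_pair := by
    intro b
    have e : ξ.sectR b = η.sectR b.1 ×ₖ η.sectR b.2 := by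
      ext y : 1
      rw [Kernel.sectR_apply, Kernel.prod_apply, Kernel.prod_apply]
      rfl
    rw [Kernel.map_apply _ ri_pair_meas, Kernel.compProd_apply_eq_compProd_sectR, e,
      Kernel.const_apply]
  have hd' : ∀ μ : PM K, pmap π μ = μY → (μY : Measure Y) ⊗ₘ η.sectR μ =
      (μ : Measure K).map fun x => (π x, x) := fun μ hμ => hμ ▸ hd μ
  have hae : ∀ᵐ b ∂(𝔪.prod 𝔪 : Measure (PM K × PM K)), pmap π b.1 = μY ∧ pmap π b.2 = μY :=
    (Measure.quasiMeasurePreserving_fst.ae hs.2).and (Measure.quasiMeasurePreserving_snd.ae hs.2)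
  let s : PM K × PM K → PM (Bool → K) := fun b => ⟨σ b, inferInstance⟩
  have ms : Measurable s := σ.measurable.subtype_mk
  refine ⟨s, ms, inv_map _ (ri_inv hs.1) s ms fun n => ?_, ?_⟩
  · filter_upwards [hae] with b hb
    apply ProbabilityMeasure.toMeasure_injective
    have hT : Measurable fun x : K => n +ᵥ x := (continuous_const_vadd n).measurable
    have hS := hY.measurePreserving n
    have e1 := ri_eqv hπ hY n (hd' _ hb.1) (hd' _ (by rw [hπ.pmap, hb.1, hY n]))
    have e2 := ri_eqv hπ hY n (hd' _ hb.2) (hd' _ (by rw [hπ.pmap, hb.2, hY n]))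
    have e3 := ri_shift hS (hT.prodMap hT) (e := η.sectR b.1 ×ₖ η.sectR b.2)
      (f := η.sectR (n +ᵥ b.1) ×ₖ η.sectR (n +ᵥ b.2)) (by
        filter_upwards [e1, e2] with y h1 h2
        rw [Kernel.prod_apply, Kernel.prod_apply, h1, h2, Measure.map_prod_map _ _ hT hT])
    show σ (n +ᵥ b.1, n +ᵥ b.2) = (σ b).map (sh (Bool → K) n)
    rw [hσ, hσ, e3,
      Measure.map_map ri_pair_meas (hS.measurable.prodMap (hT.prodMap hT)),
      Measure.map_map (sh (Bool → K) n).continuous.measurable ri_pair_meas]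
    refine congrArg (fun g => Measure.map g _) (funext fun p => funext fun i => ?_)
    cases i <;> rfl
  · filter_upwards [hae] with b hb
    obtain ⟨k1, k2, k3, k4⟩ := ri_main π.continuous.measurable (hd' _ hb.1) (hd' _ hb.2)
    rw [← hσ] at k1 k2 k3 k4
    exact ⟨ProbabilityMeasure.toMeasure_injective k1, ProbabilityMeasure.toMeasure_injective k2,
      k3, k4⟩


end Vale.Agent.P102
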