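import Vale.Agent.P102.Main

/-! Reduction of the general statement to a symbolic factor. -/

open MeasureTheory ProbabilityTheory Filter Topology Set

noncomputable section

namespace Vale.Agent.P102

/-- The symbolic space. -/
def red_Y (k : ℕ) : Type := ℤ → Fin k → Bool

instance red_top (k : ℕ) : TopologicalSpace (red_Y k) :=
  inferInstanceAs (TopologicalSpace (ℤ → Fin k → Bool))

instance red_meas (k : ℕ) : MeasurableSpace (red_Y k) :=
  inferInstanceAs (MeasurableSpace (ℤ → Fin k → Bool))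

theorem red_nice_bool : Nice Bool where
  cpt := inferInstance
  met := inferInstance
  bor := inferInstance
  ne := inferInstance

instance red_nice (k : ℕ) : Nice (red_Y k) :=
  haveI := red_nice_bool
  inferInstanceAs (Nice (ℤ → Fin k → Bool))

instance red_act (k : ℕ) : AddAction ℤ (red_Y k) where
  vadd n y := fun m => y (m + n)
  zero_vadd y := funext fun m => congrArg y (add_zero m)
  add_vadd a b y := funext fun m => congrArg y (add_assoc m a b).symm

theorem red_vadd {k : ℕ} (n : ℤ) (y : red_Y k) (m : ℤ) : (n +ᵥ y) m = y (m + n) := rfl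

instance red_cont (k : ℕ) : ContinuousConstVAdd ℤ (red_Y k) :=
  ⟨fun n => continuous_pi fun m => continuous_apply (m + n)⟩

theorem red_mp {Ω : Type*} [MeasurableSpace Ω] {μ : Measure Ω} (T : Ω ≃ᵐ Ω)
    (hT : MeasurePreserving T μ μ) (n : ℤ) : MeasurePreserving ⇑(T.toEquiv ^ n) μ μ := by
  induction n using Int.induction_on with
  | zero => exact MeasurePreserving.id μ
  | succ n ih => rw [zpow_add_one]; exact ih.comp hT
  | pred n ih => rw [zpow_sub_one]; exact ih.comp (hT.symm T)

open Classical in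
/-- The coding map. -/
def red_code {Ω : Type*} (S : Equiv.Perm Ω) {k : ℕ} (A : Fin k → Set Ω) (ω : Ω) : red_Y k :=
  fun m i => decide ((S ^ m) ω ∈ A i)

theorem red_code_eqv {Ω : Type*} (S : Equiv.Perm Ω) {k : ℕ} (A : Fin k → Set Ω) (n : ℤ) (ω : Ω) :
    red_code S A ((S ^ n) ω) = n +ᵥ red_code S A ω := by
  funext m i
  rw [red_vadd, red_code, red_code, zpow_add, Equiv.Perm.mul_apply]

theorem red_code_true {Ω : Type*} (S : Equiv.Perm Ω) {k : ℕ} (A : Fin k → Set Ω) (ω : Ω) (m : ℤ)
    (i : Fin k) : red_code S A ω m i = true ↔ (S ^ m) ω ∈ A i := by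
  simp [red_code]

theorem red_code_meas {Ω : Type*} [MeasurableSpace Ω] {S : Equiv.Perm Ω}
    (hS : ∀ n : ℤ, Measurable ⇑(S ^ n)) {k : ℕ} {A : Fin k → Set Ω}
    (hA : ∀ i, MeasurableSet (A i)) : Measurable (red_code S A) := by
  refine measurable_pi_lambda _ fun m => measurable_pi_lambda _ fun i => ?_
  refine measurable_to_bool ?_
  have e : (fun ω => red_code S A ω m i) ⁻¹' {true} = ⇑(S ^ m) ⁻¹' A i :=
    Set.ext fun ω => red_code_true S A ω m i
  exact e ▸ hS m (hA i)

theorem red_cofinite_le : (cofinite : Filter ℤ) ≤ comap (fun n : ℤ => |n|) atTop := by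
  rw [Int.cofinite_eq]
  exact sup_le tendsto_abs_atBot_atTop.le_comap tendsto_abs_atTop_atTop.le_comap

theorem red_sepF {ι : Type} {U : Set (ι → ℤ)} (hU : U ∈ sepF ι) :
    ∃ G : ℕ, ∀ e : ι → ℤ, (∀ i j, i ≠ j → (G : ℤ) ≤ |e i - e j|) → e ∈ U := by
  have hd : Directed (· ≥ ·) fun G : ℕ =>
      𝓟 {e : ι → ℤ | ∀ i j, i ≠ j → (G : ℤ) ≤ |e i - e j|} := by
    refine directed_of_isDirected_le fun a b hab => principal_mono.2 fun e he i j hij => ?_
    exact (Int.ofNat_le.2 hab).trans (he i j hij)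
  obtain ⟨G, hG⟩ := (mem_iInf_of_directed hd U).1 hU
  exact ⟨G, fun e he => mem_principal.1 hG he⟩

theorem red_gap {k G : ℕ} {t : Fin k → ℤ} (ht : StrictMono t)
    (h : ∀ i j : Fin k, (j : ℕ) = i + 1 → (G : ℤ) ≤ t j - t i) (i j : Fin k) (hij : i ≠ j) :
    (G : ℤ) ≤ |t i - t j| := by
  have key : ∀ i j : Fin k, i < j → (G : ℤ) ≤ t j - t i := fun i j hlt => by
    have h1 : (i : ℕ) + 1 ≤ j := hlt
    have h2 := h i ⟨i + 1, h1.trans_lt j.2⟩ rfl
    have h3 : t ⟨i + 1, h1.trans_lt j.2⟩ ≤ t j := ht.monotone h1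
    linarith
  rcases lt_or_gt_of_ne hij with hlt | hlt
  · rw [abs_sub_comm]; exact (key i j hlt).trans (le_abs_self _)
  · exact (key j i hlt).trans (le_abs_self _)

theorem red_integral {Ω : Type*} [MeasurableSpace Ω] (μ : Measure Ω) {B : Set Ω}
    (hB : MeasurableSet B) : ∫ ω, B.indicator (fun _ => (1 : ℂ)) ω ∂μ = (μ.real B : ℂ) := by
  rw [integral_indicator_const _ hB]
  simp

/-- Let `Y` be a type synonym of `ℤ → Fin k → Bool` with the product topology and sigma-algebra
(`Nice`: `Bool` is a finite discrete space, then `Nice.pi` twice) and the shift action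
` (n +ᵥ y) m = y (m + n)`. The map `Φ ω m i = decide ((T ^ m) ω ∈ A i)` is measurable and
`Φ ((T ^ n) ω) = n +ᵥ Φ ω`. Each `T ^ n` is measurable and preserves `μ` (induction on `n : ℤ`).
So `μY = μ.map Φ` is `Inv` and `MixY` (on `ℤ`, `comap (|·|) atTop = cofinite`). Apply `mixK` to
the indicators of `{y | y 0 i = true}` and unfold `sepF` (`mem_iInf_of_directed` or
`Filter.HasBasis`); consecutive gaps at least `G` and monotonicity give all gaps at least `G`. -/
theorem multiple_mixing {Ω : Type*} [MeasurableSpace Ω] (μ : Measure Ω) [IsProbabilityMeasure μ]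
    (T : Ω ≃ᵐ Ω) (hT : MeasurePreserving T μ μ)
    (hmix : ∀ A B : Set Ω, MeasurableSet A → MeasurableSet B →
      Tendsto (fun n : ℤ => μ.real (A ∩ (T.toEquiv ^ n) ⁻¹' B))
        (comap (fun n : ℤ => |n|) atTop) (𝓝 (μ.real A * μ.real B)))
    (k : ℕ) (A : Fin k → Set Ω) (hA : ∀ i, MeasurableSet (A i)) (ε : ℝ) (hε : 0 < ε) :
    ∃ G : ℕ, ∀ t : Fin k → ℤ, StrictMono t →
      (∀ i j : Fin k, (j : ℕ) = i + 1 → (G : ℤ) ≤ t j - t i) →
      |μ.real (⋂ i, (T.toEquiv ^ t i) ⁻¹' A i) - ∏ i, μ.real (A i)| < ε := by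
  classical
  have hmp := red_mp T hT
  have hΦ : Measurable (red_code T.toEquiv A) := red_code_meas (fun n => (hmp n).measurable) hA
  have hsh : ∀ n : ℤ, Measurable fun y : red_Y k => n +ᵥ y := fun n =>
    (continuous_const_vadd n).measurable
  let μY : PM (red_Y k) :=
    ⟨μ.map (red_code T.toEquiv A), Measure.isProbabilityMeasure_map hΦ.aemeasurable⟩
  have eY : (μY : Measure (red_Y k)) = μ.map (red_code T.toEquiv A) := rfl
  have hI : Inv μY := fun n => by
    apply ProbabilityMeasure.toMeasure_injective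
    rw [vadd_pm, coe_pmap, eY, Measure.map_map (sh _ n).continuous.measurable hΦ]
    have e : ⇑(sh (red_Y k) n) ∘ red_code T.toEquiv A = red_code T.toEquiv A ∘ ⇑(T.toEquiv ^ n) :=
      funext fun ω => (red_code_eqv _ A n ω).symm
    rw [e, ← Measure.map_map hΦ (hmp n).measurable, (hmp n).map_eq]
  have hM : MixY μY := fun B C hB hC => by
    have h := (hmix _ _ (hΦ hB) (hΦ hC)).mono_left red_cofinite_le
    rw [eY, map_measureReal_apply hΦ hB, map_measureReal_apply hΦ hC]
    refine h.congr fun n => ?_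
    rw [map_measureReal_apply hΦ (hB.inter (hsh n hC))]
    refine congrArg μ.real (Set.ext fun ω => ?_)
    simp only [mem_inter_iff, mem_preimage, red_code_eqv]
  have hc : ∀ i : Fin k, MeasurableSet {y : red_Y k | y 0 i = true} := fun i =>
    ((measurable_pi_apply i).comp (measurable_pi_apply (X := fun _ : ℤ => Fin k → Bool) 0))
      (measurableSet_singleton true)
  have hf : ∀ i : Fin k, BM ({y : red_Y k | y 0 i = true}.indicator fun _ => (1 : ℂ)) := fun i =>
    ⟨measurable_const.indicator (hc i), 1, fun y => by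
      by_cases hy : y ∈ {y : red_Y k | y 0 i = true} <;> simp [hy]⟩
  have h := mixK hI hM (Fin k) _ hf
  have e1 : ∀ i : Fin k, ∫ y, {y : red_Y k | y 0 i = true}.indicator (fun _ => (1 : ℂ)) y
      ∂(μY : Measure (red_Y k)) = (μ.real (A i) : ℂ) := fun i => by
    rw [red_integral _ (hc i), eY, map_measureReal_apply hΦ (hc i)]
    refine congrArg (fun B => (μ.real B : ℂ)) (Set.ext fun ω => ?_)
    exact (red_code_true _ A ω 0 i).trans (by rw [zpow_zero]; rfl)
  have e2 : ∀ t : Fin k → ℤ, ∫ y, ∏ i, {y : red_Y k | y 0 i = true}.indicator (fun _ => (1 : ℂ))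
      (t i +ᵥ y) ∂(μY : Measure (red_Y k)) = (μ.real (⋂ i, (T.toEquiv ^ t i) ⁻¹' A i) : ℂ) := by
    intro t
    have hm : Measurable fun y : red_Y k =>
        ∏ i, {y : red_Y k | y 0 i = true}.indicator (fun _ => (1 : ℂ)) (t i +ᵥ y) :=
      Finset.measurable_prod _ fun i _ => (hf i).1.comp (hsh (t i))
    rw [eY, integral_map hΦ.aemeasurable hm.aestronglyMeasurable,
      ← red_integral μ (MeasurableSet.iInter fun i => (hmp (t i)).measurable (hA i))]
    refine integral_congr_ae (ae_of_all _ fun ω => ?_)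
    have hi : ∀ i, (t i +ᵥ red_code T.toEquiv A ω) ∈ {y : red_Y k | y 0 i = true} ↔
        ω ∈ (T.toEquiv ^ t i) ⁻¹' A i := fun i => by
      rw [mem_ofPred_eq, red_vadd, zero_add]
      exact red_code_true _ A ω _ i
    by_cases hω : ω ∈ ⋂ i, (T.toEquiv ^ t i) ⁻¹' A i
    · simp only [indicator_of_mem hω]
      exact Finset.prod_eq_one fun i _ => indicator_of_mem ((hi i).2 (mem_iInter.1 hω i)) _
    · simp only [indicator_of_notMem hω]
      obtain ⟨i, h0⟩ := not_forall.1 (mt mem_iInter.2 hω)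
      exact Finset.prod_eq_zero (Finset.mem_univ i) (indicator_of_notMem (mt (hi i).1 h0) _)
  simp only [e1, e2] at h
  obtain ⟨G, hG⟩ := red_sepF (Metric.tendsto_nhds.1 h ε hε)
  refine ⟨G, fun t ht hg => ?_⟩
  have h2 := hG t (red_gap ht hg)
  rwa [mem_ofPred_eq, ← Complex.ofReal_prod, Complex.isometry_ofReal.dist_eq, Real.dist_eq] at h2

end Vale.Agent.P102
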