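import Vale.Agent.P102.Defs

/-! Elementary identities for the coordinate sigma-algebras. -/

open MeasureTheory ProbabilityTheory Filter Topology Set

noncomputable section

namespace Vale.Agent.P102

variable {K : Type} [mK : MeasurableSpace K] {ι α : Type}

theorem cσ_le (D : Set ι) : cσ K D ≤ (MeasurableSpace.pi : MeasurableSpace (ι → K)) :=
  iSup₂_le fun i _ => (measurable_pi_apply i).comap_le

theorem gσ_le (D : Set ι) (S : Set α) :
    gσ K D S ≤ (MeasurableSpace.pi : MeasurableSpace (ι → α → K)) :=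
  iSup₂_le fun i _ => iSup₂_le fun s _ =>
    ((measurable_pi_apply s).comp (measurable_pi_apply (X := fun _ : ι => α → K) i)).comap_le

theorem cσ_singleton (i : ι) : cσ K {i} = mK.comap fun w : ι → K => w i := by simp [cσ]

theorem gσ_singleton (i : ι) (s : α) :
    gσ K {i} {s} = mK.comap fun w : ι → α → K => w i s := by simp [gσ]

theorem cσ_mono {D D' : Set ι} (h : D ⊆ D') : cσ K D ≤ cσ K D' :=
  biSup_mono h

theorem gσ_mono {D D' : Set ι} {S S' : Set α} (h : D ⊆ D') (h' : S ⊆ S') :
    gσ K D S ≤ gσ K D' S' :=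
  iSup₂_le fun i hi => le_iSup₂_of_le i (h hi) (biSup_mono h')

theorem cσ_union (D D' : Set ι) : cσ K (D ∪ D') = cσ K D ⊔ cσ K D' := iSup_union

theorem gσ_union_left (D D' : Set ι) (S : Set α) :
    gσ K (D ∪ D') S = gσ K D S ⊔ gσ K D' S := iSup_union

theorem gσ_union_right (D : Set ι) (S S' : Set α) :
    gσ K D (S ∪ S') = gσ K D S ⊔ gσ K D S' := by
  simp only [gσ, iSup_union, iSup_sup_eq]

theorem cσ_eq_iSup (D : Set ι) : cσ K D = ⨆ i ∈ D, cσ K {i} := by
  simp only [cσ_singleton]; rfl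

theorem gσ_eq_iSup_left (D : Set ι) (S : Set α) : gσ K D S = ⨆ i ∈ D, gσ K {i} S := by
  simp [gσ]

theorem gσ_eq_iSup_right (D : Set ι) (S : Set α) : gσ K D S = ⨆ s ∈ S, gσ K D {s} := by
  simp only [gσ, mem_singleton_iff, iSup_iSup_eq_left]
  exact iSup₂_comm _

@[simp] theorem cσ_empty : cσ K (∅ : Set ι) = ⊥ := by simp [cσ]

@[simp] theorem gσ_empty_left (S : Set α) : gσ K (∅ : Set ι) S = ⊥ := by simp [gσ]

@[simp] theorem gσ_empty_right (D : Set ι) : gσ K D (∅ : Set α) = ⊥ := by simp [gσ]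

theorem cσ_univ : cσ K (univ : Set ι) = (MeasurableSpace.pi : MeasurableSpace (ι → K)) := by
  simp [cσ, MeasurableSpace.pi]

/-- The entries of row `s` in the columns `D`. -/
theorem gσ_row (D : Set ι) (s : α) :
    gσ K D {s} = (cσ K D).comap fun (w : ι → α → K) (i : ι) => w i s := by
  simp [gσ, cσ, MeasurableSpace.comap_iSup, MeasurableSpace.comap_comp, Function.comp_def]

/-- The entries of column `i` in the rows `S`. -/
theorem gσ_col (i : ι) (S : Set α) :
    gσ K {i} S = (cσ K S).comap fun w : ι → α → K => w i := by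
  simp [gσ, cσ, MeasurableSpace.comap_iSup, MeasurableSpace.comap_comp, Function.comp_def]

theorem gσ_univ (D : Set ι) : gσ K D (univ : Set α) = cσ (α → K) D := by
  rw [gσ_eq_iSup_left, cσ]
  simp only [gσ_col, cσ_univ]

theorem comap_restrict (D : Set ι) :
    (MeasurableSpace.pi : MeasurableSpace (D → K)).comap
      (fun (w : ι → K) (i : D) => w i) = cσ K D := by
  simp [cσ, MeasurableSpace.pi, MeasurableSpace.comap_iSup, MeasurableSpace.comap_comp,
    Function.comp_def, iSup_subtype]

theorem comap_crs [TopologicalSpace K] (D : Set ι) :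
    (MeasurableSpace.pi : MeasurableSpace (D → K)).comap (crs K D) = cσ K D :=
  comap_restrict D

theorem comap_restrict_grid (D : Set ι) (S : Set α) :
    (MeasurableSpace.pi : MeasurableSpace (D → S → K)).comap
      (fun (w : ι → α → K) (i : D) (s : S) => w i s) = gσ K D S := by
  simp [gσ, MeasurableSpace.pi, MeasurableSpace.comap_iSup, MeasurableSpace.comap_comp,
    Function.comp_def, iSup_subtype]

theorem comap_restrict_row (D : Set ι) (s : α) :
    (MeasurableSpace.pi : MeasurableSpace (D → K)).comap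
      (fun (w : ι → α → K) (i : D) => w i s) = gσ K D {s} := by
  simp [gσ, MeasurableSpace.pi, MeasurableSpace.comap_iSup, MeasurableSpace.comap_comp,
    Function.comp_def, iSup_subtype]

theorem comap_restrict_rows (S : Set α) :
    (MeasurableSpace.pi : MeasurableSpace (ι → S → K)).comap
      (fun (w : ι → α → K) (i : ι) (s : S) => w i s) = gσ K univ S := by
  simp [gσ, MeasurableSpace.pi, MeasurableSpace.comap_iSup, MeasurableSpace.comap_comp,
    Function.comp_def, iSup_subtype]

theorem measurable_cσ {D : Set ι} {i : ι} (hi : i ∈ D) :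
    Measurable[cσ K D] fun w : ι → K => w i :=
  Measurable.of_comap_le (le_iSup₂_of_le (f := fun i (_ : i ∈ D) =>
    mK.comap fun w : ι → K => w i) i hi le_rfl)

theorem measurable_gσ {D : Set ι} {S : Set α} {i : ι} {s : α} (hi : i ∈ D) (hs : s ∈ S) :
    Measurable[gσ K D S] fun w : ι → α → K => w i s :=
  Measurable.of_comap_le ((gσ_singleton i s).symm.le.trans
    (gσ_mono (singleton_subset_iff.2 hi) (singleton_subset_iff.2 hs)))

@[simp] theorem blk_zero (a b : ι) : blk a b 0 = {a} := rfl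
@[simp] theorem blk_one (a b : ι) : blk a b 1 = {b} := rfl
@[simp] theorem blk_two (a b : ι) : blk a b 2 = {l | l ≠ a ∧ l ≠ b} := rfl

theorem blk_zero_union_two {a b : ι} (h : a ≠ b) :
    ({a} : Set ι) ∪ {l | l ≠ a ∧ l ≠ b} = {l | l ≠ b} := by
  ext l; by_cases hl : l = a <;> simp [hl, h]

theorem blk_one_union_two {a b : ι} (h : a ≠ b) :
    ({b} : Set ι) ∪ {l | l ≠ a ∧ l ≠ b} = {l | l ≠ a} := by
  ext l; by_cases hl : l = b <;> simp [hl, h.symm]

section BM
variable {X X' : Type} [MeasurableSpace X] [MeasurableSpace X']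

theorem BM.const (c : ℂ) : BM fun _ : X => c := ⟨measurable_const, ‖c‖, fun _ => le_rfl⟩

theorem BM.comp {f : X → ℂ} (hf : BM f) {g : X' → X} (hg : Measurable g) :
    BM fun x => f (g x) := ⟨hf.1.comp hg, hf.2.imp fun _ h _ => h _⟩

theorem BM.add {f g : X → ℂ} (hf : BM f) (hg : BM g) : BM fun x => f x + g x := by
  obtain ⟨h1, C, hC⟩ := hf
  obtain ⟨h2, D, hD⟩ := hg
  exact ⟨h1.add h2, C + D, fun x => (norm_add_le _ _).trans (add_le_add (hC x) (hD x))⟩

theorem BM.sub {f g : X → ℂ} (hf : BM f) (hg : BM g) : BM fun x => f x - g x := by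
  obtain ⟨h1, C, hC⟩ := hf
  obtain ⟨h2, D, hD⟩ := hg
  exact ⟨h1.sub h2, C + D, fun x => (norm_sub_le _ _).trans (add_le_add (hC x) (hD x))⟩

theorem BM.mul {f g : X → ℂ} (hf : BM f) (hg : BM g) : BM fun x => f x * g x := by
  obtain ⟨h1, C, hC⟩ := hf
  obtain ⟨h2, D, hD⟩ := hg
  refine ⟨h1.mul h2, C * D, fun x => ?_⟩
  rw [norm_mul]
  exact mul_le_mul (hC x) (hD x) (norm_nonneg _) ((norm_nonneg _).trans (hC x))

theorem BM.conj {f : X → ℂ} (hf : BM f) : BM fun x => (starRingEnd ℂ) (f x) := by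
  obtain ⟨h1, C, hC⟩ := hf
  exact ⟨Complex.continuous_conj.measurable.comp h1, C, fun x => by simpa using hC x⟩

theorem BM.prod {I : Type} (T : Finset I) {f : I → X → ℂ} (hf : ∀ i ∈ T, BM (f i)) :
    BM fun x => ∏ i ∈ T, f i x := by
  classical
  induction T using Finset.induction_on with
  | empty => simpa using BM.const 1
  | insert a T ha ih =>
    simp only [Finset.prod_insert ha]
    exact (hf a (by simp)).mul (ih fun i hi => hf i (by simp [hi]))

theorem BM.memLp {f : X → ℂ} (hf : BM f) (μ : Measure X) [IsFiniteMeasure μ] (p : ENNReal) :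
    MemLp f p μ := by
  obtain ⟨h1, C, hC⟩ := hf
  exact MemLp.of_bound h1.aestronglyMeasurable C (ae_of_all _ hC)

theorem BM.integrable {f : X → ℂ} (hf : BM f) (μ : Measure X) [IsFiniteMeasure μ] :
    Integrable f μ := memLp_one_iff_integrable.1 (hf.memLp μ 1)

end BM

end Vale.Agent.P102
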