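import Vale.Agent.P102.Ind
import Vale.Agent.P102.IndOn
import Vale.Agent.P102.Lim

/-! Independence of columns for base-sated systems. -/

open MeasureTheory ProbabilityTheory Filter Topology Set
open scoped ComplexConjugate

noncomputable section

namespace Vale.Agent.P102

variable {K Y : Type}
  [TopologicalSpace K] [MeasurableSpace K] [Nice K] [AddAction ℤ K] [ContinuousConstVAdd ℤ K]
  [TopologicalSpace Y] [MeasurableSpace Y] [Nice Y] [AddAction ℤ Y] [ContinuousConstVAdd ℤ Y]
variable {ι : Type} [Fintype ι] (p : Ultrafilter (ι → ℤ))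

open Classical in
/-- The mixed family of sigma-algebras. -/
def tprime_m (π : C(K, Y)) (T : Finset ι) (i : ι) : MeasurableSpace (ι → K) :=
  if i ∈ T then cσ K {i} else MeasurableSpace.comap (fun w : ι → K => π (w i)) inferInstance

/-- The map generating the mixed family on a set of indices. -/
def tprime_psi (π : C(K, Y)) (T : Finset ι) (J : Set ι) :
    C(ι → K, ({i | i ∈ J ∧ i ∉ T} → Y) × ({i | i ∈ J ∧ i ∈ T} → K)) :=
  ((cpi _ π).comp (crs K {i | i ∈ J ∧ i ∉ T})).prodMk (crs K {i | i ∈ J ∧ i ∈ T})

omit [AddAction ℤ K] [ContinuousConstVAdd ℤ K] [AddAction ℤ Y] [ContinuousConstVAdd ℤ Y]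
  [Fintype ι] in
theorem tprime_le (π : C(K, Y)) (T : Finset ι) (i : ι) :
    tprime_m π T i ≤ (MeasurableSpace.pi : MeasurableSpace (ι → K)) := by
  unfold tprime_m
  split_ifs
  · exact cσ_le _
  · exact (π.continuous.measurable.comp (measurable_pi_apply i)).comap_le

omit [AddAction ℤ K] [ContinuousConstVAdd ℤ K] [AddAction ℤ Y] [ContinuousConstVAdd ℤ Y]
  [Fintype ι] [Nice K] [Nice Y] in
theorem tprime_comap (π : C(K, Y)) (T : Finset ι) (J : Set ι) :
    MeasurableSpace.comap (tprime_psi π T J) inferInstance = ⨆ i ∈ J, tprime_m π T i := by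
  apply le_antisymm
  · refine Measurable.comap_le (m₁ := ⨆ i ∈ J, tprime_m π T i) ?_
    refine Measurable.prodMk (m := ⨆ i ∈ J, tprime_m π T i) ?_ ?_
    · refine @measurable_pi_lambda _ _ _ (⨆ i ∈ J, tprime_m π T i) _ _ fun i => ?_
      have h1 : tprime_m π T i ≤ ⨆ i ∈ J, tprime_m π T i :=
        le_iSup₂_of_le (f := fun i (_ : i ∈ J) => tprime_m π T i) i.1 i.2.1 le_rfl
      refine Measurable.of_comap_le (le_trans (le_of_eq ?_) h1)
      unfold tprime_m
      rw [if_neg i.2.2]
      rfl
    · refine @measurable_pi_lambda _ _ _ (⨆ i ∈ J, tprime_m π T i) _ _ fun i => ?_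
      have h1 : tprime_m π T i ≤ ⨆ i ∈ J, tprime_m π T i :=
        le_iSup₂_of_le (f := fun i (_ : i ∈ J) => tprime_m π T i) i.1 i.2.1 le_rfl
      refine Measurable.of_comap_le (le_trans (le_of_eq ?_) h1)
      unfold tprime_m
      rw [if_pos i.2.2, cσ_singleton]
      rfl
  · refine iSup₂_le fun i hi => ?_
    unfold tprime_m
    split_ifs with hT
    · rw [cσ_singleton]
      exact Measurable.comap_le (m₁ := MeasurableSpace.comap (tprime_psi π T J) inferInstance)
        (((measurable_pi_apply (⟨i, hi, hT⟩ : {i | i ∈ J ∧ i ∈ T})).comp measurable_snd).comp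
          (comap_measurable (tprime_psi π T J)))
    · exact Measurable.comap_le (m₁ := MeasurableSpace.comap (tprime_psi π T J) inferInstance)
        (((measurable_pi_apply (⟨i, hi, hT⟩ : {i | i ∈ J ∧ i ∉ T})).comp measurable_fst).comp
          (comap_measurable (tprime_psi π T J)))

omit [MeasurableSpace K] [Nice K] [ContinuousConstVAdd ℤ K] [MeasurableSpace Y] [Nice Y]
  [ContinuousConstVAdd ℤ Y] [Fintype ι] in
theorem tprime_eqv {π : C(K, Y)} (hπ : Eqv π) (T : Finset ι) (J : Set ι) :
    Eqv (tprime_psi π T J) := fun n w =>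
  Prod.ext (funext fun i => hπ n (w i)) rfl

theorem tprime_ind {π : C(K, Y)} (hπ : Eqv π) {μY : PM Y} {𝔪 : PM (PM K)} (hs : Sys π μY 𝔪)
    (hsat : Sated (baseF π) 𝔪) {S : Set ι}
    (hS : IndOn (nuLim p μY : Measure (ι → Y)) (fun i => cσ Y {i}) S) (T : Finset ι) :
    ∀ᵐ κ : PM (ι → K) ∂(rowLim p 𝔪 : Measure (PM (ι → K))),
      IndOn (κ : Measure (ι → K)) (tprime_m π T) S := by
  classical
  induction T using Finset.induction_on with
  | empty =>
    filter_upwards [rowLim_base p hπ hs.2] with κ hκ
    rw [← hκ, coe_pmap, indOn_map_iff _ (cpi ι π).continuous.measurable _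
      (fun i => cσ_le _)] at hS
    refine hS.mono_alg fun i _ => le_of_eq ?_
    unfold tprime_m
    rw [if_neg (Finset.notMem_empty i), cσ_singleton, MeasurableSpace.comap_comp]
    rfl
  | insert j T hj ih =>
    have hne : ∀ i, i ≠ j → tprime_m π (insert j T) i = tprime_m π T i := fun i hi => by
      unfold tprime_m
      simp only [Finset.mem_insert, hi, false_or]
    by_cases hjS : j ∈ S
    · have hsat' : Sated (baseF π) (pmap (pmap (cev K j)) (rowLim p 𝔪)) := by
        rw [rowLim_slot p hs.1 j]
        exact hsat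
      have key := ind_of_sated (rowLim p 𝔪) (rowLim_inv p hs.1) (cev K j) (eqv_cev j)
        (tprime_psi π T (S \ {j})) (tprime_eqv hπ T _) (baseF π) hsat' (by
          filter_upwards [ih] with κ hκ f hf
          obtain ⟨u, rfl⟩ := hf
          have h1 := hκ.indep_iSup (tprime_le π T) (J := {j}) (J' := S \ {j})
            (singleton_subset_iff.2 hjS) diff_subset disjoint_sdiff_right
          rw [IndepFun_iff_Indep, tprime_comap]
          refine indep_of_indep_of_le_left h1 ?_
          refine le_iSup₂_of_le (f := fun i (_ : i ∈ ({j} : Set ι)) => tprime_m π T i) j rfl ?_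
          unfold tprime_m
          rw [if_neg hj]
          exact Measurable.comap_le
            (m₁ := MeasurableSpace.comap (fun w : ι → K => π (w j)) inferInstance)
            (u.continuous.measurable.comp (comap_measurable fun w : ι → K => π (w j))))
      filter_upwards [ih, key] with κ hκ hk
      rw [IndepFun_iff_Indep, tprime_comap] at hk
      have h2 := hκ.update (tprime_le π T) j (cσ K {j}) (cσ_le _) (by
        rw [cσ_singleton]
        exact hk)
      refine h2.mono_alg fun i _ => le_of_eq ?_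
      by_cases hi : i = j
      · subst hi
        rw [Function.update_self]
        unfold tprime_m
        rw [if_pos (Finset.mem_insert_self _ _)]
      · rw [Function.update_of_ne hi, hne i hi]
    · filter_upwards [ih] with κ hκ
      exact hκ.mono_alg fun i hi => le_of_eq (hne i fun h => hjS (h ▸ hi))

/-- Induction on a finset `T`: a.e. `κ` has `IndOn κ (m T) S`, where `m T i = cσ K {i}` for `i ∈ T`
and `m T i = comap (fun w => π (w i))` otherwise. `T = ∅`: `rowLim_base`, `indOn_map_iff`.
Step, adding `j`: if `j ∉ S` nothing changes (`IndOn.mono_alg`); otherwise apply `ind_of_sated`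
with `𝔱 = rowLim p 𝔪`, `β = cev K j` (`rowLim_slot`), and `ψ` the pair of
`w ↦ (π (w i))` for `i ∈ S ∖ j`, `i ∉ T` and `w ↦ (w i)` for `i ∈ S ∖ j`, `i ∈ T` (values in a
product of two function spaces over subtypes), whose comap is `⨆ i ∈ S ∖ {j}, m T i`; then
`IndOn.update`. -/
theorem tprime {π : C(K, Y)} (hπ : Eqv π) {μY : PM Y} {𝔪 : PM (PM K)} (hs : Sys π μY 𝔪)
    (hsat : Sated (baseF π) 𝔪) {S : Set ι}
    (hS : IndOn (nuLim p μY : Measure (ι → Y)) (fun i => cσ Y {i}) S) :
    ∀ᵐ κ : PM (ι → K) ∂(rowLim p 𝔪 : Measure (PM (ι → K))),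
      IndOn (κ : Measure (ι → K)) (fun i => cσ K {i}) S := by
  filter_upwards [tprime_ind p hπ hs hsat hS Finset.univ] with κ hκ
  refine hκ.mono_alg fun i _ => le_of_eq ?_
  unfold tprime_m
  rw [if_pos (Finset.mem_univ i)]


end Vale.Agent.P102
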