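import Vale.Agent.P102.TowerA

/-! Existence of a sated system. -/

open MeasureTheory ProbabilityTheory Filter Topology Set
open scoped ComplexConjugate

noncomputable section

namespace Vale.Agent.P102

variable {Y : Type}
  [TopologicalSpace Y] [MeasurableSpace Y] [Nice Y] [AddAction ℤ Y] [ContinuousConstVAdd ℤ Y]
variable {ι : Type} [Fintype ι] (p : Ultrafilter (ι → ℤ))

theorem tower_cont {K : Type} [TopologicalSpace K] [MeasurableSpace K] [Nice K] [AddAction ℤ K]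
    [ContinuousConstVAdd ℤ K] (𝔪 : PM (PM K)) (i : ι) :
    Continuous fun h : C(K, ℝ) => val p 𝔪 h i := by
  refine continuous_iff_continuousAt.2 fun h => tendsto_sub_nhds_zero_iff.1
    (squeeze_zero_norm (fun h' => abs_val_sub_le p 𝔪 h' h i) ?_)
  have : Continuous fun h' : C(K, ℝ) => 2 * max ‖h'‖ ‖h‖ * ‖h' - h‖ := by fun_prop
  simpa using this.tendsto h

theorem tower_seq {μY : PM Y} (hY : Inv μY) (h : ℕ → C(KK Y, ℝ)) :
    ∃ 𝔪 : ℕ → PM (PM (KK Y)), ∀ k, Stage μY k (𝔪 k) ∧ pmap (pmap (res Y k)) (𝔪 (k + 1)) = 𝔪 k ∧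
      ∀ 𝔪', Extn μY k (𝔪 k) 𝔪' → ∑ j : Fin (k + 1), ∑ i, val p 𝔪' ((h j).comp (res Y k)) i ≤
        ∑ j : Fin (k + 1), ∑ i, val p (𝔪 (k + 1)) ((h j).comp (res Y k)) i + 1 / (k + 1 : ℝ) := by
  choose F hF using fun (k : ℕ) (𝔪 : {𝔪 // Stage μY k 𝔪}) => tower_step p 𝔪.2
    (fun j : Fin (k + 1) => (h j).comp (res Y k)) (ε := 1 / (k + 1 : ℝ)) (by positivity)
  obtain ⟨𝔪₀, h₀⟩ := tower_zero hY
  let G : ∀ k : ℕ, {𝔪 // Stage μY k 𝔪} := fun k =>
    Nat.rec ⟨𝔪₀, h₀⟩ (fun k 𝔪 => ⟨F k 𝔪, (hF k 𝔪).1⟩) k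
  exact ⟨fun k => (G k).1, fun k => ⟨(G k).2, (hF k (G k)).2⟩⟩

omit [AddAction ℤ Y] [ContinuousConstVAdd ℤ Y] in
theorem tower_res_res {k l : ℕ} (h : k ≤ l) (𝔪 : PM (PM (KK Y))) :
    pmap (pmap (res Y k)) (pmap (pmap (res Y l)) 𝔪) = pmap (pmap (res Y k)) 𝔪 := by
  rw [pmap_pmap, pmap_comp, res_res h]

theorem tower_lim {μY : PM Y} {𝔪 : ℕ → PM (PM (KK Y))} (h1 : ∀ k, Stage μY k (𝔪 k))
    (h2 : ∀ k, pmap (pmap (res Y k)) (𝔪 (k + 1)) = 𝔪 k) :
    ∃ 𝔫, Sys (pY Y) μY 𝔫 ∧ ∀ k, pmap (pmap (res Y k)) 𝔫 = 𝔪 k := by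
  have h3 : ∀ k l, k ≤ l → pmap (pmap (res Y k)) (𝔪 l) = 𝔪 k := fun k l hl => by
    induction l, hl using Nat.le_induction with
    | base =>
      refine (pmap_congr ((h1 k).2.2.mono fun μ hμ => ?_)).trans (pmap_id _)
      exact (pmap_congr hμ).trans (pmap_id μ)
    | succ l hl ih => rw [← tower_res_res hl, h2, ih]
  refine ⟨ulim (hyperfilter ℕ) 𝔪, ⟨fun n => ?_, ae_ulim _ _
    (isClosed_eq (pmap (pY Y)).continuous continuous_const) fun k => (h1 k).1.2⟩, fun k => ?_⟩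
  · rw [vadd_pm, map_ulim]
    exact congrArg _ (funext fun k => (h1 k).1.1 n)
  · rw [map_ulim]
    refine ulim_eq (tendsto_const_nhds.congr' (Nat.hyperfilter_le_atTop ?_))
    filter_upwards [eventually_ge_atTop k] with l hl using (h3 k l hl).symm

theorem tower_sated {𝔪 : ℕ → PM (PM (KK Y))} {𝔫 : PM (PM (KK Y))}
    (h1 : ∀ k, Sated (baseF (pY Y)) (𝔪 k)) (h2 : ∀ k, pmap (pmap (res Y k)) 𝔫 = 𝔪 k) :
    Sated (baseF (pY Y)) 𝔫 := by
  intro ρ hi hf hm hp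
  have h3 : ∀ k, ∀ᵐ q ∂(ρ : Measure (PM (KK Y) × PM (KK Y))),
      pmap (res Y k) q.2 = pmap (res Y k) q.1 := fun k => by
    refine ae_of_ae_pmap ((pmap (res Y k)).prodMap (pmap (res Y k))) ρ (P := fun q => q.2 = q.1)
      (h1 k _ (hi.pmap fun n q => Prod.ext ((eqv_res k).pmap n q.1) ((eqv_res k).pmap n q.2)) ?_
        (hm.map _) (ae_pmap_of_ae _ _ (hp.mono ?_)))
    · rw [← h2, ← hf, pfst, pfst, pmap_pmap, pmap_pmap]
      rfl
    · rintro q hq _ ⟨u, rfl⟩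
      change ev _ (pmap (res Y k) q.2) = ev _ (pmap (res Y k) q.1)
      rw [ev_pmap, ev_pmap, ContinuousMap.comp_assoc, pY_res]
      exact hq _ ⟨u, rfl⟩
  filter_upwards [ae_all_iff.2 h3] with q hq
  refine pm_ext fun f => tendsto_nhds_unique
    (((continuous_ev_left q.2).tendsto f).comp (tendsto_comp_res f))
    ((((continuous_ev_left q.1).tendsto f).comp (tendsto_comp_res f)).congr fun k => ?_)
  simp only [Function.comp_apply, ← ev_pmap, hq k]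

theorem tower_extn {μY : PM Y} {𝔫 : PM (PM (KK Y))} (h : Sys (pY Y) μY 𝔫) {α : Type} [Fintype α]
    {s : α} {𝔩 : PM (PM (α → KK Y))} (hi : Inv 𝔩) (hs : pmap (pmap (cev (KK Y) s)) 𝔩 = 𝔫) {k : ℕ}
    {g : C(α → KK Y, KK Y)} (hg : Eqv g)
    (h1 : (res Y k).comp g = (res Y k).comp (cev (KK Y) s)) (h2 : (res Y (k + 1)).comp g = g) :
    Extn μY k (pmap (pmap (res Y k)) 𝔫) (pmap (pmap g) 𝔩) := by
  subst hs
  refine ⟨⟨hi.pmap hg.pmap, ae_pmap_of_ae _ _ ((ae_of_ae_pmap _ _ h.2).mono fun μ hμ => ?_)⟩, ?_,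
    ae_pmap_of_ae _ _ (ae_of_all _ fun μ => ae_pmap_of_ae _ _ (ae_of_all _ fun w =>
      DFunLike.congr_fun h2 w))⟩
  · rw [pmap_pmap, ← pY_res k, ContinuousMap.comp_assoc] at hμ ⊢
    rwa [h1]
  · rw [pmap_pmap, pmap_pmap, pmap_comp, pmap_comp, h1]

theorem tower_single {A B : Type} [Fintype A] [Fintype B] {a b : A → B → ℝ} {ε : ℝ}
    (h : ∀ j i, b j i ≤ a j i) (h' : ∑ j, ∑ i, a j i ≤ ∑ j, ∑ i, b j i + ε) (j : A) (i : B) :
    a j i - b j i ≤ ε := by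
  have h0 : ∀ j i, 0 ≤ a j i - b j i := fun j i => sub_nonneg.2 (h j i)
  have h1 := (Finset.single_le_sum (fun i _ => h0 j i) (Finset.mem_univ i)).trans
    (Finset.single_le_sum (f := fun j => ∑ i, (a j i - b j i))
      (fun j _ => Finset.sum_nonneg fun i _ => h0 j i) (Finset.mem_univ j))
  simp only [Finset.sum_sub_distrib] at h1
  linarith

/-- Fix a dense sequence `h j` of `C(KK Y, ℝ)`. Build stages `𝔪 k` recursively with `tower_step`
for the functions ` (h j).comp (res Y k)`, `j : Fin (k + 1)`, and `ε = 1 / (k + 1)`. Let `𝔪` be the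
limit along `Filter.hyperfilter ℕ` (`ulim`); then `pmap (pmap (res Y k)) 𝔪 = 𝔪 k`. `Sys`: closed
conditions. `Sated`: project a refinement with `res k`, use `Sated` of `𝔪 k` and
`tendsto_comp_res`. `SatS`: by `satS_of_val`; for an extension `𝔩` and `g` from `exists_emb`,
`pmap (pmap g) 𝔩` is an `Extn μY k (𝔪 k)`, so with `f j = (h j).comp (res Y k)`:
`∑∑ val 𝔩 ((f j).comp (cev s)) ≤ ∑∑ val (pmap (pmap g) 𝔩) (f j) ≤ ∑∑ val (𝔪 (k+1)) (f j) + ε
≤ ∑∑ val 𝔪 (f j) + ε` (`val_emb`, `val_le_ext`, `res_res`); each term on the left dominates the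
corresponding term on the right (`val_le_ext`), so each difference is at most `ε`. Let `k → ∞`
(`abs_val_sub_le`, `tendsto_comp_res`) and use density. -/
theorem exists_tower {μY : PM Y} (hY : Inv μY) :
    ∃ 𝔪 : PM (PM (KK Y)), Sys (pY Y) μY 𝔪 ∧ Sated (baseF (pY Y)) 𝔪 ∧ SatS p 𝔪 := by
  obtain ⟨h, hd⟩ := TopologicalSpace.exists_dense_seq C(KK Y, ℝ)
  obtain ⟨𝔪, hm⟩ := tower_seq p hY h
  obtain ⟨𝔫, h1, h2⟩ := tower_lim (fun k => (hm k).1) fun k => (hm k).2.1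
  refine ⟨𝔫, h1, tower_sated (fun k => (hm k).1.2.1) h2,
    satS_of_val p fun α _ s 𝔩 hi hs f i => sub_nonpos.1 ?_⟩
  have hc : Continuous fun f : C(KK Y, ℝ) => val p 𝔩 (f.comp (cev (KK Y) s)) i - val p 𝔫 f i :=
    ((tower_cont p 𝔩 i).comp (ContinuousMap.continuous_precomp _)).sub (tower_cont p 𝔫 i)
  refine hd.induction_on f (isClosed_le hc continuous_const) fun j => ?_
  refine le_of_tendsto_of_tendsto ((hc.tendsto _).comp (tendsto_comp_res (h j)))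
    tendsto_one_div_add_atTop_nhds_zero_nat ?_
  filter_upwards [eventually_ge_atTop j] with k hk
  obtain ⟨g, d, hg, hgd, h3, h4⟩ := exists_emb (Y := Y) α s k
  have h5 := (hm k).2.2 _ (h2 k ▸ tower_extn h1 hi hs hg h3 h4)
  refine tower_single (a := fun (j : Fin (k + 1)) i =>
    val p 𝔩 (((h j).comp (res Y k)).comp (cev (KK Y) s)) i)
    (b := fun j i => val p 𝔫 ((h j).comp (res Y k)) i)
    (fun j i => hs ▸ val_le_ext p (eqv_cev s) 𝔩 _ i)
    (le_trans ?_ (h5.trans (add_le_add_left ?_ _))) ⟨j, Nat.lt_succ_of_le hk⟩ i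
  · refine Finset.sum_le_sum fun j _ => Finset.sum_le_sum fun i _ => ?_
    rw [ContinuousMap.comp_assoc, ← h3, ← ContinuousMap.comp_assoc]
    exact val_emb p hg d hgd 𝔩 _ i
  · refine Finset.sum_le_sum fun j _ => Finset.sum_le_sum fun i _ => ?_
    have := val_le_ext p (eqv_res (k + 1)) 𝔫 ((h j).comp (res Y k)) i
    rwa [h2, ContinuousMap.comp_assoc, res_res k.le_succ] at this


end Vale.Agent.P102
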