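import Vale.Agent.P102.TowerD

/-! One step of the tower, the embedding of extensions, uniform convergence. -/

open MeasureTheory ProbabilityTheory Filter Topology Set
open scoped ComplexConjugate

noncomputable section

namespace Vale.Agent.P102

variable {Y : Type}
  [TopologicalSpace Y] [MeasurableSpace Y] [Nice Y] [AddAction ℤ Y] [ContinuousConstVAdd ℤ Y]
variable {ι : Type} [Fintype ι] (p : Ultrafilter (ι → ℤ))

theorem towera_refine {μY : PM Y} {k : ℕ} {𝔪 : PM (PM (KK Y))} (h : Sys (pY Y) μY 𝔪)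
    (h' : ∀ᵐ μ : PM (KK Y) ∂(𝔪 : Measure (PM (KK Y))), ∀ᵐ w ∂(μ : Measure (KK Y)),
      res Y k w = w) :
    ∃ ρ : PM (PM (KK Y) × PM (KK Y)), Inv ρ ∧ pfst ρ = 𝔪 ∧ Mart ρ ∧ Pres (baseF (pY Y)) ρ ∧
      Stage μY k (psnd ρ) := by
  obtain ⟨ρ, h1, rfl, h3, h4, h5⟩ := exists_sated 𝔪 h.1 (baseF (pY Y))
  refine ⟨ρ, h1, rfl, h3, h4, ⟨h1.pmap eqv_snd, ae_pmap_of_ae _ ρ ?_⟩, h5,
    h3.ae_mem (isClosed_eq (res Y k).continuous continuous_id).measurableSet h'⟩
  filter_upwards [h4, ae_of_ae_pfst ρ h.2] with q q1 q2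
  rw [← q2]
  refine pm_ext fun u => ?_
  rw [ev_pmap, ev_pmap]
  exact q1 _ ⟨u, rfl⟩

/-- Choose `𝔪'` with `Extn μY k 𝔪 𝔪'` within `ε` of the supremum (the set contains `𝔪`, the
functional is bounded by `val_le_norm`), refine it by `exists_sated` for `baseF (pY Y)` and put
`𝔪'' = psnd ρ`. The pair ` (pmap (res k) q.1, pmap (res k) q.2)` is an invariant martingale pair
over `𝔪` preserving `baseF`, hence trivial, so `pmap (pmap (res k)) 𝔪'' = 𝔪`. Use `Mart.ae_mem`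
for the fixed set of `res (k + 1)` and `val_mart`. -/
theorem tower_step {μY : PM Y} {k : ℕ} {𝔪 : PM (PM (KK Y))} (h : Stage μY k 𝔪) {n : ℕ}
    (f : Fin n → C(KK Y, ℝ)) {ε : ℝ} (hε : 0 < ε) :
    ∃ 𝔪'', Stage μY (k + 1) 𝔪'' ∧ pmap (pmap (res Y k)) 𝔪'' = 𝔪 ∧
      ∀ 𝔪', Extn μY k 𝔪 𝔪' →
        ∑ j, ∑ i, val p 𝔪' (f j) i ≤ ∑ j, ∑ i, val p 𝔪'' (f j) i + ε := by
  have h0 : Extn μY k 𝔪 𝔪 := by
    refine ⟨h.1, (pmap_congr (g := ContinuousMap.id _) (h.2.2.mono fun μ hμ =>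
      (pmap_congr (g := ContinuousMap.id _) hμ).trans (pmap_id μ))).trans (pmap_id _),
      h.2.2.mono fun μ hμ => hμ.mono fun w hw => ?_⟩
    have h1 := DFunLike.congr_fun (res_res' (Y := Y) (Nat.le_succ k)) w
    rwa [ContinuousMap.comp_apply, hw] at h1
  set S := {x | ∃ 𝔪', Extn μY k 𝔪 𝔪' ∧ x = ∑ j, ∑ i, val p 𝔪' (f j) i}
  have hb : BddAbove S := ⟨∑ j, ∑ _i : ι, ‖f j‖ ^ 2, by
    rintro _ ⟨𝔪', -, rfl⟩
    exact Finset.sum_le_sum fun j _ => Finset.sum_le_sum fun i _ => val_le_norm p _ _ _⟩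
  obtain ⟨_, ⟨𝔪₁, e₁, rfl⟩, hx⟩ := exists_lt_of_lt_csSup (s := S) ⟨_, 𝔪, h0, rfl⟩
    (sub_lt_self (sSup S) hε)
  obtain ⟨ρ, h1, rfl, h3, h4, h5⟩ := towera_refine e₁.1 e₁.2.2
  refine ⟨psnd ρ, h5, ?_, fun 𝔪' e' => ?_⟩
  · have k1 : pfst (pmap ((pmap (res Y k)).prodMap (pmap (res Y k))) ρ) = 𝔪 :=
      (pmap_pmap _ _ _).trans
        ((pmap_pmap (pmap (res Y k)) ContinuousMap.fst ρ).symm.trans e₁.2.1)
    have k2 := h.2.1 _ (h1.pmap fun m q =>
      Prod.ext ((eqv_res k).pmap m q.1) ((eqv_res k).pmap m q.2)) k1 (h3.map _)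
      (ae_pmap_of_ae _ ρ (h4.mono fun q hq => by
        rintro _ ⟨u, rfl⟩
        change ev _ (pmap _ q.2) = ev _ (pmap _ q.1)
        rw [ev_pmap, ev_pmap, ContinuousMap.comp_assoc, pY_res]
        exact hq _ ⟨u, rfl⟩))
    exact (((pmap_pmap (pmap (res Y k)) ContinuousMap.snd ρ).trans (pmap_pmap ContinuousMap.snd
      ((pmap (res Y k)).prodMap (pmap (res Y k))) ρ).symm).trans
      (pmap_congr (f := ContinuousMap.snd) (g := ContinuousMap.fst) k2)).trans k1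
  · have k1 := le_csSup hb ⟨𝔪', e', rfl⟩
    have k2 : ∑ j, ∑ i, val p (pfst ρ) (f j) i ≤ ∑ j, ∑ i, val p (psnd ρ) (f j) i :=
      Finset.sum_le_sum fun j _ => Finset.sum_le_sum fun i _ => val_mart p h3 _ _
    linarith

/-- Refine the Dirac mass at the image of `μY` under the constant embedding. -/
theorem tower_zero {μY : PM Y} (hY : Inv μY) : ∃ 𝔪, Stage μY 0 𝔪 := by
  let c : C(Y, KK Y) := ⟨fun y _ => y, by fun_prop⟩
  have hc : Inv (pmap c μY) := hY.pmap fun _ _ => rfl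
  have ha : ∀ {P : PM (KK Y) → Prop}, P (pmap c μY) →
      ∀ᵐ μ ∂((diracProba (pmap c μY) : PM (PM (KK Y))) : Measure (PM (KK Y))), P μ := fun hP =>
    (ae_dirac_eq (pmap c μY)).le hP
  obtain ⟨ρ, -, -, -, -, h⟩ := towera_refine (μY := μY) (k := 0) (𝔪 := diracProba (pmap c μY))
    ⟨fun n => (pmap_dirac _ _).trans (congrArg _ (hc n)),
      ha ((pmap_pmap _ _ _).trans (pmap_id μY))⟩
    (ha (ae_pmap_of_ae c μY (ae_of_all _ fun y => funext fun j => ite_self y)))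
  exact ⟨_, h⟩

omit [MeasurableSpace Y] [Nice Y] [ContinuousConstVAdd ℤ Y] in
/-- Blocks up to `k` come from `w s`, block `k + 1` encodes all of `w` through an injection
`α × (ℕ × ℕ) → ℕ` (countable type), higher blocks are `w s (0, 0)`. -/
theorem exists_emb (α : Type) [Fintype α] (s : α) (k : ℕ) :
    ∃ (g : C(α → KK Y, KK Y)) (d : C(KK Y, α → KK Y)), Eqv g ∧ (∀ w, d (g w) = w) ∧
      (res Y k).comp g = (res Y k).comp (cev (KK Y) s) ∧ (res Y (k + 1)).comp g = g := by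
  obtain ⟨e, he⟩ := Countable.exists_injective_nat (α × (ℕ × ℕ))
  have : Nonempty α := ⟨s⟩
  let φ : ℕ × ℕ → α × (ℕ × ℕ) := fun j =>
    if j.1 ≤ k then (s, j) else if j.1 = k + 1 then Function.invFun e j.2 else (s, (0, 0))
  refine ⟨⟨fun w j => w (φ j).1 (φ j).2, by fun_prop⟩,
    ⟨fun v a j => v (k + 1, e (a, j)), by fun_prop⟩, fun _ _ => rfl, fun w => ?_, ?_, ?_⟩
  · funext a j
    simp [φ, Function.leftInverse_invFun he (a, j)]
  · ext w j
    by_cases hj : j.1 ≤ k <;> simp [res, φ, hj]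
  · ext w j
    by_cases hj : j.1 ≤ k + 1
    · simp [res, hj]
    · simp [res, φ, hj, show ¬ j.1 ≤ k by omega, show j.1 ≠ k + 1 by omega]

omit [AddAction ℤ Y] [ContinuousConstVAdd ℤ Y] in
/-- Cover the compact space by finitely many cylinder neighbourhoods on which `f` oscillates
less than `ε`; for large `k`, `res k` preserves each of them. -/
theorem tendsto_comp_res (f : C(KK Y, ℝ)) :
    Tendsto (fun k => f.comp (res Y k)) atTop (𝓝 f) := by
  let _ := TopologicalSpace.metrizableSpaceMetric Y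
  have h1 : TendstoUniformly (fun k w => res Y k w) id atTop := by
    rw [tendstoUniformly_iff_tendsto, Pi.uniformity, tendsto_iInf]
    intro j
    rw [tendsto_comap_iff]
    refine (tendsto_diag_uniformity (fun q : ℕ × KK Y => q.2 j) _).congr'
      (((eventually_ge_atTop j.1).prod_inl ⊤).mono fun q hq => ?_)
    simp [res, hq]
  exact ContinuousMap.tendsto_iff_tendstoUniformly.2
    ((CompactSpace.uniformContinuous_of_continuous f.continuous).comp_tendstoUniformly h1)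


end Vale.Agent.P102
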