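import Vale.Agent.P102.Val
import Vale.Agent.P102.Max

/-! The universal space for the tower. -/

open MeasureTheory ProbabilityTheory Filter Topology Set
open scoped ComplexConjugate

noncomputable section

namespace Vale.Agent.P102

variable {Y : Type}
  [TopologicalSpace Y] [MeasurableSpace Y] [Nice Y] [AddAction ℤ Y] [ContinuousConstVAdd ℤ Y]

/-- The universal space. -/
abbrev KK (Y : Type) : Type := ℕ × ℕ → Y

/-- The base map. -/
def pY (Y : Type) [TopologicalSpace Y] : C(KK Y, Y) := cev Y ((0 : ℕ), (0 : ℕ))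

/-- Forget the blocks above `k`. -/
def res (Y : Type) [TopologicalSpace Y] (k : ℕ) : C(KK Y, KK Y) :=
  ⟨fun w j => if j.1 ≤ k then w j else w (0, 0), by
    refine continuous_pi fun j => ?_
    split_ifs <;> exact continuous_apply _⟩

/-- A stage of the tower. -/
def Stage (μY : PM Y) (k : ℕ) (𝔪 : PM (PM (KK Y))) : Prop :=
  Sys (pY Y) μY 𝔪 ∧ Sated (baseF (pY Y)) 𝔪 ∧
    ∀ᵐ μ : PM (KK Y) ∂(𝔪 : Measure (PM (KK Y))), ∀ᵐ w ∂(μ : Measure (KK Y)), res Y k w = w

/-- An extension of stage `k` living on the blocks up to `k + 1`. -/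
def Extn (μY : PM Y) (k : ℕ) (𝔪 𝔪' : PM (PM (KK Y))) : Prop :=
  Sys (pY Y) μY 𝔪' ∧ pmap (pmap (res Y k)) 𝔪' = 𝔪 ∧
    ∀ᵐ μ : PM (KK Y) ∂(𝔪' : Measure (PM (KK Y))), ∀ᵐ w ∂(μ : Measure (KK Y)),
      res Y (k + 1) w = w

omit [MeasurableSpace Y] [Nice Y] [ContinuousConstVAdd ℤ Y] in
theorem eqv_pY : Eqv (pY Y) := fun _ _ => rfl

omit [MeasurableSpace Y] [Nice Y] [ContinuousConstVAdd ℤ Y] in
theorem eqv_res (k : ℕ) : Eqv (res Y k) := fun n w => funext fun j => by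
  change (if j.1 ≤ k then (n +ᵥ w) j else (n +ᵥ w) (0, 0)) =
    n +ᵥ (if j.1 ≤ k then w j else w (0, 0))
  split_ifs <;> rfl

omit [MeasurableSpace Y] [Nice Y] [AddAction ℤ Y] [ContinuousConstVAdd ℤ Y] in
theorem pY_res (k : ℕ) : (pY Y).comp (res Y k) = pY Y := by
  ext w; simp [pY, res]

omit [MeasurableSpace Y] [Nice Y] [AddAction ℤ Y] [ContinuousConstVAdd ℤ Y] in
theorem res_res {k l : ℕ} (h : k ≤ l) : (res Y k).comp (res Y l) = res Y k := by
  ext w j
  by_cases hj : j.1 ≤ k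
  · simp [res, hj, hj.trans h]
  · simp [res, hj]

omit [MeasurableSpace Y] [Nice Y] [AddAction ℤ Y] [ContinuousConstVAdd ℤ Y] in
theorem res_res' {k l : ℕ} (h : k ≤ l) : (res Y l).comp (res Y k) = res Y k := by
  ext w j
  by_cases hj : j.1 ≤ l
  · simp [res, hj]
  · have : ¬ j.1 ≤ k := fun h' => hj (h'.trans h)
    simp [res, hj, this]


end Vale.Agent.P102
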