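import Vale.Agent.P102.Group3
import Vale.Agent.P102.Tr

/-! Two coupled rows: deterministic part. -/

open MeasureTheory ProbabilityTheory Filter Topology Set
open scoped ComplexConjugate

noncomputable section

namespace Vale.Agent.P102

variable {K Y ι : Type} [MeasurableSpace K] [MeasurableSpace Y] {π : K → Y}
  {θ : Measure (ι → Bool → K)} [IsProbabilityMeasure θ] {t₀ t₁ : ι}

theorem twodet_meas (s : Bool) : Measurable fun (w : ι → Bool → K) (i : ι) => w i s :=
  measurable_pi_lambda _ fun i => (measurable_pi_apply s).comp (measurable_pi_apply i)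

theorem twodet_ent (t : ι) (s : Bool) : Measurable fun w : ι → Bool → K => w t s :=
  (measurable_pi_apply s).comp (measurable_pi_apply t)

theorem twodet_key (ht : t₀ ≠ t₁) (h3 : ∃ c, c ≠ t₀ ∧ c ≠ t₁) (hG : GH θ {S | ∃ s, S = {s}})
    (s : Bool) {v : K → ℂ} (hv : BM v) :
    θ[θ[fun w => v (w t₁ s) | gσ K {l | l ≠ t₁} univ] | gσ K {t₁} univ] =ᵐ[θ]
      θ[θ[fun w => v (w t₁ s) | gσ K {l | l ≠ t₁} {s}] | gσ K {t₁} {s}] := by
  have e1 := (hG.h1 {s} ⟨s, rfl⟩ t₁).condExp_eq (gσ_le _ _) (gσ_mono Subset.rfl (subset_univ _))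
    (gσ_le _ _) ((hv.comp (twodet_ent t₁ s)).integrable θ)
    (hv.1.comp (measurable_gσ (mem_singleton t₁) (mem_singleton s))).aestronglyMeasurable
  have c := (hG.star ⟨s, rfl⟩ ht h3).ci_rev (t := 1) (u := 0) (v := 2) (by decide) (by decide)
    (by decide)
  simp only [blk_zero, blk_one, blk_two] at c
  rw [← gσ_union_left, blk_zero_union_two ht] at c
  exact (condExp_congr_ae e1).trans (c.condExp_eq (gσ_le _ _)
    (gσ_mono Subset.rfl (subset_univ _)) (gσ_le _ _) integrable_condExp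
    stronglyMeasurable_condExp.aestronglyMeasurable)

theorem twodet_char (hπ : Measurable π) (ht : t₀ ≠ t₁) (h3 : ∃ c, c ≠ t₀ ∧ c ≠ t₁)
    (hG : GH θ {S | ∃ s, S = {s}}) {s s' : Bool} (hb : ∀ᵐ w ∂θ, π (w t₁ s) = π (w t₁ s'))
    {χ : K → ℂ} (hχ : CorChar π (θ.map fun w i => w i s) t₀ t₁ χ) :
    ∃ χ', IsChar (θ.map fun w i => w i s') t₀ t₁ χ' ∧ ∀ᵐ w ∂θ, χ (w t₁ s) = χ' (w t₁ s') := by
  obtain ⟨c1, h, hh, hne⟩ := hχ
  have c2 := c1.row.mono (gσ_mono Subset.rfl (subset_univ _)) (gσ_mono Subset.rfl (subset_univ _))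
    (gσ_mono Subset.rfl (subset_univ _))
  have m1 : Measurable fun w : ι → K => h (π (w t₁)) * conj (χ (w t₁)) :=
    (hh.1.comp (hπ.comp (measurable_pi_apply t₁))).mul
      (Complex.continuous_conj.measurable.comp (c1.1.comp (measurable_pi_apply t₁)))
  rw [integral_map (twodet_meas s).aemeasurable m1.aestronglyMeasurable] at hne
  have e : ∫ w, h (π (w t₁ s)) * conj (χ (w t₁ s)) ∂θ =
      ∫ w, h (π (w t₁ s')) * conj (χ (w t₁ s)) ∂θ := by
    refine integral_congr_ae ?_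
    filter_upwards [hb] with w hw
    rw [hw]
  obtain ⟨χ₁, d1, d2⟩ := eps_lemma (hG.star ⟨s', rfl⟩ ht h3) c2 (g := fun w => h (π (w t₁ s')))
    (((hh.comp hπ).comp (twodet_ent t₁ s')).memLp θ 2)
    ((hh.1.comp hπ).comp (measurable_gσ (mem_singleton t₁) (mem_singleton s'))).aestronglyMeasurable
    (e ▸ hne)
  obtain ⟨χ', d3, rfl⟩ := isChar_of_row d1
  exact ⟨χ', d3, d2⟩

/-- Let `v w = h (π (w t₁ false)) = h (π (w t₁ true))` a.e. and `Φ = θ[v | columns ≠ t₁]`. By
`hG.h1` and `CI.condExp_eq`, `Φ = θ[v | gσ {l ≠ t₁} {s}]` for both `s`. By `Star.ci_rev` for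
`GH.star` (with `blk_zero_union_two`), `θ[Φ | column t₁] = θ[Φ | gσ {t₁} {s}]` for both `s`.
Conclude with `JJ.row`. -/
theorem two_JJ (hπ : Measurable π) (ht : t₀ ≠ t₁) (h3 : ∃ c, c ≠ t₀ ∧ c ≠ t₁)
    (hG : GH θ {S | ∃ s, S = {s}}) (hb : ∀ᵐ w ∂θ, π (w t₁ false) = π (w t₁ true))
    {h : Y → ℂ} (hh : BM h) {F F' : K → ℂ}
    (h1 : JJ (θ.map fun w i => w i false) t₁ (fun x => h (π x)) F)
    (h2 : JJ (θ.map fun w i => w i true) t₁ (fun x => h (π x)) F') :
    ∀ᵐ w ∂θ, F (w t₁ false) = F' (w t₁ true) := by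
  have hv := hh.comp hπ
  have e : (fun w : ι → Bool → K => h (π (w t₁ false))) =ᵐ[θ] fun w => h (π (w t₁ true)) := by
    filter_upwards [hb] with w hw
    rw [hw]
  exact (h1.row hv).symm.trans ((twodet_key ht h3 hG false hv).symm.trans
    ((condExp_congr_ae (condExp_congr_ae e)).trans
      ((twodet_key ht h3 hG true hv).trans (h2.row hv))))

/-- The coupling is `θ.map (fun w => w t₁)`. A character of one row is a character for the columns
(`IsChar.row`, `ChO.mono`), correlates with `h (π (w t₁ s'))`, so `eps_lemma` for the other row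
and `isChar_of_row` apply. -/
theorem two_iso [MeasurableEq Y] (hπ : Measurable π) (ht : t₀ ≠ t₁) (h3 : ∃ c, c ≠ t₀ ∧ c ≠ t₁)
    (hG : GH θ {S | ∃ s, S = {s}}) (hb : ∀ᵐ w ∂θ, π (w t₁ false) = π (w t₁ true)) :
    IsoC π (θ.map fun w i => w i false) (θ.map fun w i => w i true) t₀ t₁ := by
  have m : Measurable fun w : ι → Bool → K => w t₁ := measurable_pi_apply t₁
  refine ⟨θ.map fun w => w t₁, Measure.isProbabilityMeasure_map m.aemeasurable, ?_, ?_, ?_,
    fun χ hχ => ?_, fun χ' hχ => ?_⟩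
  · rw [Measure.map_map (measurable_pi_apply _) m,
      Measure.map_map (measurable_pi_apply _) (twodet_meas _)]
    rfl
  · rw [Measure.map_map (measurable_pi_apply _) m,
      Measure.map_map (measurable_pi_apply _) (twodet_meas _)]
    rfl
  · exact (ae_map_iff m.aemeasurable (measurableSet_eq_fun (hπ.comp (measurable_pi_apply false))
      (hπ.comp (measurable_pi_apply true)))).2 hb
  · obtain ⟨χ', d1, d2⟩ := twodet_char hπ ht h3 hG hb hχ
    exact ⟨χ', d1, (ae_map_iff m.aemeasurable (measurableSet_eq_fun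
      (hχ.1.1.comp (measurable_pi_apply false)) (d1.1.comp (measurable_pi_apply true)))).2 d2⟩
  · obtain ⟨χ, d1, d2⟩ := twodet_char hπ ht h3 hG (hb.mono fun _ h => h.symm) hχ
    exact ⟨χ, d1, (ae_map_iff m.aemeasurable (measurableSet_eq_fun
      (d1.1.comp (measurable_pi_apply false)) (hχ.1.1.comp (measurable_pi_apply true)))).2
      (d2.mono fun _ h => h.symm)⟩


end Vale.Agent.P102
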