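import Vale.Agent.P102.GridB
import Vale.Agent.P102.RI
import Vale.Agent.P102.Cross
import Vale.Agent.P102.TwoDet

/-! Two independent copies. -/

open MeasureTheory ProbabilityTheory Filter Topology Set
open scoped ComplexConjugate

noncomputable section

namespace Vale.Agent.P102

variable {K Y : Type}
  [TopologicalSpace K] [MeasurableSpace K] [Nice K] [AddAction ℤ K] [ContinuousConstVAdd ℤ K]
  [TopologicalSpace Y] [MeasurableSpace Y] [Nice Y] [AddAction ℤ Y] [ContinuousConstVAdd ℤ Y]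
variable {ι : Type} [Fintype ι] {p : Ultrafilter (ι → ℤ)} {μY : PM Y} {π : C(K, Y)}
  {𝔪 : PM (PM K)} {t₀ t₁ : ι}

omit [AddAction ℤ K] [ContinuousConstVAdd ℤ K] in
theorem two_integral_pmap {L : Type} [TopologicalSpace L] [MeasurableSpace L] [Nice L]
    (f : C(K, L)) (μ : PM K) {G : L → ℝ} (hG : Measurable G) :
    ∫ y, G y ∂((pmap f μ : PM L) : Measure L) = ∫ x, G (f x) ∂(μ : Measure K) :=
  integral_map f.continuous.measurable.aemeasurable hG.aestronglyMeasurable

omit [AddAction ℤ K] [ContinuousConstVAdd ℤ K] in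
theorem two_mart {B : Type} [TopologicalSpace B] [MeasurableSpace B] [Nice B]
    {ρ : PM (PM K × PM K)} (hρ : Mart ρ) {g : C(PM K, B)} {s : B → PM K} (hs : Measurable s)
    (h1 : ∀ᵐ q ∂(ρ : Measure (PM K × PM K)), g q.2 = g q.1)
    (h2 : ∀ᵐ q ∂(ρ : Measure (PM K × PM K)), s (g q.1) = q.1) :
    MartS (pmap (g.prodMk (ContinuousMap.id _)) (psnd ρ)) s := by
  intro f Ψ
  have m1 : Measurable fun q : B × PM K => Ψ q.1 * ev f q.2 :=
    (Ψ.continuous.measurable.comp measurable_fst).mul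
      ((ev f).continuous.measurable.comp measurable_snd)
  have m2 : Measurable fun q : B × PM K => Ψ q.1 * ev f (s q.1) :=
    (Ψ.continuous.measurable.comp measurable_fst).mul
      ((ev f).continuous.measurable.comp (hs.comp measurable_fst))
  rw [psnd, pmap_pmap, two_integral_pmap _ _ m1, two_integral_pmap _ _ m2]
  refine Eq.trans (integral_congr_ae ?_) ((hρ f (Ψ.comp g)).trans (integral_congr_ae ?_))
  · filter_upwards [h1] with q hq
    change Ψ (g q.2) * ev f q.2 = Ψ (g q.1) * ev f q.2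
    rw [hq]
  · filter_upwards [h1, h2] with q hq hq'
    change Ψ (g q.1) * ev f q.1 = Ψ (g q.2) * ev f (s (g q.2))
    rw [hq, hq']

omit [AddAction ℤ K] [ContinuousConstVAdd ℤ K] in
theorem two_pmap_prod {L : Type} [TopologicalSpace L] [MeasurableSpace L] [Nice L]
    (f g : C(K, L)) (μ ν : PM K) :
    pmap (f.prodMap g) (μ.prod ν) = (pmap f μ).prod (pmap g ν) :=
  (ProbabilityMeasure.map_prod_map μ ν f.continuous.measurable g.continuous.measurable).symm

/-- The pair of marginals. -/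
def two_g (K : Type) [TopologicalSpace K] [MeasurableSpace K] [Nice K] :
    C(PM (Bool → K), PM K × PM K) := (pmap (cev K false)).prodMk (pmap (cev K true))

/-- The pair of row laws. -/
def two_rows (ι K : Type) [Fintype ι] [TopologicalSpace K] [MeasurableSpace K] [Nice K] :
    C(PM (ι → Bool → K), PM (ι → K) × PM (ι → K)) :=
  (pmap (cpi ι (cev K false))).prodMk (pmap (cpi ι (cev K true)))

/-- The property that is averaged. -/
def two_Q (π : C(K, Y)) (t₀ t₁ : ι) (q : (PM (ι → K) × PM (ι → K)) × PM (Bool → K)) : Prop :=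
  IsoC π (q.1.1 : Measure (ι → K)) (q.1.2 : Measure (ι → K)) t₀ t₁ ∧
    ∀ h, BM h → ∀ F F' : K → ℂ, JJ (q.1.1 : Measure (ι → K)) t₁ (fun x => h (π x)) F →
      JJ (q.1.2 : Measure (ι → K)) t₁ (fun x => h (π x)) F' →
      ∀ᵐ w ∂(q.2 : Measure (Bool → K)), F (w false) = F' (w true)

omit [AddAction ℤ K] [ContinuousConstVAdd ℤ K] [AddAction ℤ Y] [ContinuousConstVAdd ℤ Y] in
theorem two_end {d : PM (ι → K) × PM (ι → K)} {ς : PM (Bool → K)} {ξ : PM (PM (Bool → K))}
    (hb : IsBary ξ ς) (hQ : ∀ᵐ ν ∂(ξ : Measure (PM (Bool → K))), two_Q π t₀ t₁ (d, ν))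
    (h1 : pmap (cev K false) ς = pmap (cev K t₁) d.1)
    (h2 : pmap (cev K true) ς = pmap (cev K t₁) d.2) (hR : RIProp π (ς : Measure (Bool → K))) :
    (∀ h, BM h → ∃ g, BM g ∧
        JJ (d.1 : Measure (ι → K)) t₁ (fun x => h (π x)) (fun x => g (π x)) ∧
        JJ (d.2 : Measure (ι → K)) t₁ (fun x => h (π x)) (fun x => g (π x))) ∧
      IsoC π (d.1 : Measure (ι → K)) (d.2 : Measure (ι → K)) t₀ t₁ := by
  refine ⟨fun h hh => ?_, hQ.exists.choose_spec.1⟩
  have hv : BM fun x : K => h (π x) := hh.comp π.continuous.measurable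
  obtain ⟨F, hF, jF⟩ := exists_JJ (d.1 : Measure (ι → K)) t₁ hv
  obtain ⟨F', hF', jF'⟩ := exists_JJ (d.2 : Measure (ι → K)) t₁ hv
  have hZ : MeasurableSet {w : Bool → K | F (w false) = F' (w true)} :=
    measurableSet_eq_fun (hF.1.comp (measurable_pi_apply false))
      (hF'.1.comp (measurable_pi_apply true))
  obtain ⟨g, hg, he⟩ := hR F F' hF hF'
    (hb.ae_of hZ (hQ.mono fun ν hν => hν.2 h hh F F' jF jF'))
  have e1 := ae_pmap_of_ae (cev K false) ς (P := fun x => F x = g (π x)) (he.mono fun _ h => h.1)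
  have e2 := ae_pmap_of_ae (cev K true) ς (P := fun x => F' x = g (π x)) (he.mono fun _ h => h.2)
  rw [h1] at e1
  rw [h2] at e2
  exact ⟨g, hg, jF.trans (ae_of_ae_pmap _ _ e1), jF'.trans (ae_of_ae_pmap _ _ e2)⟩

/-- Take `s` from `exists_RI`, `𝔰 = (𝔪.prod 𝔪).map s`, and `ρ` from `exists_refine` with
`𝒮 = {S | ∃ s, S = {s}}` (`indOn_of_subsingleton`), `𝔩 = psnd ρ`. With
`g = (pmap (cev K false)).prodMk (pmap (cev K true))` one has `pmap g 𝔩 = 𝔪.prod 𝔪` and
`MartS (pmap (g.prodMk id) 𝔩) s`. Apply `cross` with `φ e = prodMap (pmap (rmap K e)) (same)`,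
`Φ` the pair of row laws, `γ = prodMap (pmap (cev K t₁)) (same)`; the law of `Φ` is
` (rowLim p 𝔪).prod (rowLim p 𝔪)` (`rowLim_pair`, `rowLim2_prod`). For a.e. `θ`: `GH` and
`π (w t₁ false) = π (w t₁ true)` a.e. (`Mart.ae_mem`, `rowLim_slot`), so `two_JJ`, `two_iso` hold;
push with `ae_pmap_of_ae` to the triple (row laws, column law), average with `MartS.avg` and
`IsBary.ae_of`, and use `exists_JJ` and `RIProp`. -/
theorem two_copies (hS : Setup p μY π 𝔪) (ht : t₀ ≠ t₁) (h3 : ∃ c, c ≠ t₀ ∧ c ≠ t₁) :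
    ∀ᵐ q : PM (ι → K) × PM (ι → K) ∂((rowLim p 𝔪).prod (rowLim p 𝔪) :
        Measure (PM (ι → K) × PM (ι → K))),
      (∀ h, BM h → ∃ g, BM g ∧
        JJ (q.1 : Measure (ι → K)) t₁ (fun x => h (π x)) (fun x => g (π x)) ∧
        JJ (q.2 : Measure (ι → K)) t₁ (fun x => h (π x)) (fun x => g (π x))) ∧
      IsoC π (q.1 : Measure (ι → K)) (q.2 : Measure (ι → K)) t₀ t₁ := by
  obtain ⟨s, hs, hinv, hRI⟩ := exists_RI hS.eqv hS.inv hS.sys
  have hgs : ∀ᵐ b ∂(𝔪.prod 𝔪 : Measure (PM K × PM K)), two_g K (s b) = b :=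
    hRI.mono fun b hb => Prod.ext hb.1 hb.2.1
  have hg𝔰 : pmap (two_g K) ((𝔪.prod 𝔪).map hs.aemeasurable) = 𝔪.prod 𝔪 := by
    apply ProbabilityMeasure.toMeasure_injective
    rw [coe_pmap, ProbabilityMeasure.toMeasure_map,
      Measure.map_map (two_g K).continuous.measurable hs]
    exact (Measure.map_congr hgs).trans Measure.map_id
  have hm : ∀ c : Bool, pmap (pmap (cev K c)) ((𝔪.prod 𝔪).map hs.aemeasurable) = 𝔪 := by
    intro c
    cases c
    · have := congrArg (pmap ContinuousMap.fst) hg𝔰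
      rw [pmap_pmap] at this
      exact this.trans (ProbabilityMeasure.map_fst_prod 𝔪 𝔪)
    · have := congrArg (pmap ContinuousMap.snd) hg𝔰
      rw [pmap_pmap] at this
      exact this.trans (ProbabilityMeasure.map_snd_prod 𝔪 𝔪)
  obtain ⟨ρ, hρ, hfst, hmart, hagree, -, hGH⟩ := exists_refine hS {S : Set Bool | ∃ s, S = {s}}
    (fun c => ⟨{c}, ⟨c, rfl⟩, rfl⟩) hinv hm (by
      rintro S ⟨c, rfl⟩
      exact ae_of_all _ fun μ => indOn_of_subsingleton subsingleton_singleton)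
  have hl : Inv (psnd ρ) := hρ.pmap eqv_snd
  have h1 : ∀ᵐ q ∂(ρ : Measure (PM (Bool → K) × PM (Bool → K))), two_g K q.2 = two_g K q.1 :=
    hagree.mono fun q hq => Prod.ext (hq false) (hq true)
  have h2 : ∀ᵐ q ∂(ρ : Measure (PM (Bool → K) × PM (Bool → K))), s (two_g K q.1) = q.1 := by
    refine ae_of_ae_pfst ρ (P := fun μ => s (two_g K μ) = μ) ?_
    rw [hfst, ProbabilityMeasure.toMeasure_map]
    exact (ae_map_iff hs.aemeasurable
      (measurableSet_eq_fun (hs.comp (two_g K).continuous.measurable) measurable_id)).2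
      (hgs.mono fun b hb => congrArg s hb)
  have hgl : pmap (two_g K) (psnd ρ) = 𝔪.prod 𝔪 := by
    rw [← hg𝔰, ← hfst, psnd, pfst, pmap_pmap, pmap_pmap]
    exact pmap_congr h1
  have hcross := cross p hl (g := two_g K)
    (fun n μ => Prod.ext ((eqv_cev false).pmap n μ) ((eqv_cev true).pmap n μ)) hs
    (two_mart hmart hs h1 h2) (fun e => (pmap (rmap K e)).prodMap (pmap (rmap K e)))
    (two_rows ι K) (fun e μ => Prod.ext
      ((pmap_pmap _ _ μ).trans (pmap_pmap (rmap K e) (cev K false) μ).symm)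
      ((pmap_pmap _ _ μ).trans (pmap_pmap (rmap K e) (cev K true) μ).symm))
    ((pmap (cev K t₁)).prodMap (pmap (cev K t₁))) t₁
    (fun e b => Prod.ext (pmap_pmap _ _ b.1) (pmap_pmap _ _ b.2))
  have hZc : IsClosed {w : Bool → K | π (w false) = π (w true)} :=
    isClosed_eq (by fun_prop) (by fun_prop)
  have hZ : ∀ᵐ ν : PM (Bool → K) ∂(psnd ρ : Measure (PM (Bool → K))),
      ∀ᵐ w ∂(ν : Measure (Bool → K)), w ∈ {w : Bool → K | π (w false) = π (w true)} := by
    refine hmart.ae_mem hZc.measurableSet ?_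
    rw [hfst, ProbabilityMeasure.toMeasure_map,
      ae_map_iff hs.aemeasurable (isClosed_ae hZc).measurableSet]
    exact hRI.mono fun b hb => hb.2.2.1
  rw [← rowLim_slot p hl t₁] at hZ
  have hQ := ae_pmap_of_ae ((two_rows ι K).prodMk (pmap (cev (Bool → K) t₁))) (rowLim p (psnd ρ))
    (P := two_Q π t₀ t₁) (by
      filter_upwards [hGH, ae_of_ae_pmap _ _ hZ] with θ hθ hθ'
      have hb : ∀ᵐ w ∂(θ : Measure (ι → Bool → K)), π (w t₁ false) = π (w t₁ true) :=
        ae_of_ae_pmap _ _ hθ'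
      refine ⟨two_iso π.continuous.measurable ht h3 hθ hb, fun h hh F F' j j' => ?_⟩
      exact ae_pmap_of_ae (cev (Bool → K) t₁) θ (P := fun w => F (w false) = F' (w true))
        (two_JJ π.continuous.measurable ht h3 hθ hb hh j j'))
  have havg := hcross.avg
    (hs.comp ((pmap (cev K t₁)).prodMap (pmap (cev K t₁))).continuous.measurable) hQ
  have hlaw : pfst (pmap ((two_rows ι K).prodMk (pmap (cev (Bool → K) t₁))) (rowLim p (psnd ρ))) =
      (rowLim p 𝔪).prod (rowLim p 𝔪) := by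
    rw [pfst, pmap_pmap, ← rowLim2_prod, ← hgl]
    exact rowLim_pair p (eqv_cev false) (eqv_cev true) (psnd ρ)
  have hγ : pmap ((pmap (cev K t₁)).prodMap (pmap (cev K t₁)))
      ((rowLim p 𝔪).prod (rowLim p 𝔪)) = 𝔪.prod 𝔪 := by
    rw [two_pmap_prod, rowLim_slot p hS.sys.1]
  rw [hlaw] at havg
  rw [← hγ] at hRI
  filter_upwards [havg, ae_of_ae_pmap _ _ hRI] with d ⟨ξ, hb, hξ⟩ hd
  exact two_end hb hξ hd.1 hd.2.1 hd.2.2.2


end Vale.Agent.P102
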