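import Vale.Agent.P102.Bary

/-! The variational functional `VV`. -/

open MeasureTheory ProbabilityTheory Filter Topology Set
open scoped ComplexConjugate

noncomputable section

namespace Vale.Agent.P102

section Gen
variable {Ω : Type} {m mΩ : MeasurableSpace Ω} {μ : Measure Ω} [IsFiniteMeasure μ]

theorem vv1_memLp {h : Ω → ℝ} (hm : Measurable h) {C : ℝ} (hC : ∀ w, |h w| ≤ C) :
    MemLp h 2 μ :=
  MemLp.of_bound hm.aestronglyMeasurable C (ae_of_all _ fun w => by simpa using hC w)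

omit [IsFiniteMeasure μ] in
theorem vv1_int_mul {a b : Ω → ℝ} (ha : MemLp a 2 μ) (hb : MemLp b 2 μ) :
    Integrable (fun w => a w * b w) μ := ha.integrable_mul hb

theorem vv1_mul (hm : m ≤ mΩ) {h G : Ω → ℝ} (hh : MemLp h 2 μ) (hG : MemLp G 2 μ)
    (hGm : AEStronglyMeasurable[m] G μ) :
    ∫ w, h w * G w ∂μ = ∫ w, μ[h | m] w * G w ∂μ := by
  have h1 := condExp_mul_of_aestronglyMeasurable_right (m := m) hGm (hh.integrable_mul hG)
    (hh.integrable one_le_two)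
  have h2 := integral_condExp (μ := μ) (f := h * G) hm
  rw [integral_congr_ae h1] at h2
  exact h2.symm

omit [IsFiniteMeasure μ] in
theorem vv1_sq {a b : Ω → ℝ} (ha : MemLp a 2 μ) (hb : MemLp b 2 μ) :
    ∫ w, (a w - b w) ^ 2 ∂μ = ∫ w, a w ^ 2 ∂μ - 2 * ∫ w, a w * b w ∂μ + ∫ w, b w ^ 2 ∂μ := by
  have e : (fun w => (a w - b w) ^ 2) = fun w => (a w ^ 2 - 2 * (a w * b w)) + b w ^ 2 := by
    funext w; ring
  have h1 : Integrable (fun w => a w ^ 2 - 2 * (a w * b w)) μ :=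
    ha.integrable_sq.sub ((vv1_int_mul ha hb).const_mul 2)
  rw [e, integral_add h1 hb.integrable_sq,
    integral_sub ha.integrable_sq ((vv1_int_mul ha hb).const_mul 2), integral_const_mul]

theorem vv1_key (hm : m ≤ mΩ) {h G : Ω → ℝ} (hh : MemLp h 2 μ) (hG : MemLp G 2 μ)
    (hGm : AEStronglyMeasurable[m] G μ) :
    2 * ∫ w, h w * G w ∂μ - ∫ w, G w ^ 2 ∂μ =
      ∫ w, (μ[h | m] w) ^ 2 ∂μ - ∫ w, (μ[h | m] w - G w) ^ 2 ∂μ := by
  rw [vv1_sq (hh.condExp one_le_two) hG, vv1_mul hm hh hG hGm]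
  ring

/-- Pythagoras. -/
theorem vv1_pyth (hm : m ≤ mΩ) {h : Ω → ℝ} (hh : MemLp h 2 μ) :
    ∫ w, (h w - μ[h | m] w) ^ 2 ∂μ = ∫ w, h w ^ 2 ∂μ - ∫ w, (μ[h | m] w) ^ 2 ∂μ := by
  have hP : MemLp (μ[h | m]) 2 μ := hh.condExp one_le_two
  rw [vv1_sq hh hP, vv1_mul hm hh hP stronglyMeasurable_condExp.aestronglyMeasurable]
  simp only [← sq]
  ring

end Gen

variable {K L N : Type}
  [TopologicalSpace K] [MeasurableSpace K] [Nice K]
  [TopologicalSpace L] [MeasurableSpace L] [Nice L]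
  [TopologicalSpace N] [MeasurableSpace N] [Nice N]

theorem vv1_le (ψ : C(K, L)) :
    MeasurableSpace.comap ψ inferInstance ≤ (inferInstance : MeasurableSpace K) :=
  ψ.continuous.measurable.comap_le

theorem vv1_memLp_cont (μ : Measure K) [IsFiniteMeasure μ] (g : C(K, ℝ)) : MemLp g 2 μ :=
  vv1_memLp g.continuous.measurable (C := ‖g‖) fun w => g.norm_coe_le_norm w

omit [MeasurableSpace L] [Nice L] in
theorem vv1_memLp_comp (μ : Measure K) [IsFiniteMeasure μ] (G : C(L, ℝ)) (ψ : C(K, L)) :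
    MemLp (fun w => G (ψ w)) 2 μ := vv1_memLp_cont μ (G.comp ψ)

omit [Nice K] in
theorem vv1_aesm_comp (μ : Measure K) (G : C(L, ℝ)) (ψ : C(K, L)) :
    AEStronglyMeasurable[MeasurableSpace.comap ψ inferInstance] (fun w => G (ψ w)) μ := by
  have h1 : Measurable[MeasurableSpace.comap ψ inferInstance] ψ := comap_measurable ψ
  exact (G.continuous.measurable.comp h1).stronglyMeasurable.aestronglyMeasurable

theorem vv1_term_le (θ : PM K) {h : K → ℝ} (hm : Measurable h) {C : ℝ} (hC : ∀ w, |h w| ≤ C)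
    (ψ : C(K, L)) (G : C(L, ℝ)) :
    2 * ∫ w, h w * G (ψ w) ∂(θ : Measure K) - ∫ w, G (ψ w) ^ 2 ∂(θ : Measure K) ≤
      ∫ w, ((θ : Measure K)[h | MeasurableSpace.comap ψ inferInstance] w) ^ 2
        ∂(θ : Measure K) := by
  rw [vv1_key (vv1_le ψ) (vv1_memLp hm hC) (vv1_memLp_comp _ G ψ) (vv1_aesm_comp _ G ψ)]
  exact sub_le_self _ (integral_nonneg fun w => sq_nonneg _)

theorem vv1_bdd (θ : PM K) {h : K → ℝ} (hm : Measurable h) {C : ℝ} (hC : ∀ w, |h w| ≤ C)
    (ψ : C(K, L)) : BddAbove (range fun G : C(L, ℝ) =>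
      2 * ∫ w, h w * G (ψ w) ∂(θ : Measure K) - ∫ w, G (ψ w) ^ 2 ∂(θ : Measure K)) :=
  ⟨_, by rintro _ ⟨G, rfl⟩; exact vv1_term_le θ hm hC ψ G⟩

/-- Upper bound: `2 h G - G² = P² - (P - G)²` after conditioning, `P = θ[h | comap ψ]`.
Lower bound: `P = P' ∘ ψ` (Doob-Dynkin) and `exists_cont_approx` for `P'` and `pmap ψ θ`. -/
theorem VV_eq (θ : PM K) {h : K → ℝ} (hm : Measurable h) {C : ℝ} (hC : ∀ w, |h w| ≤ C)
    (ψ : C(K, L)) :
    VV θ h ψ = ∫ w, ((θ : Measure K)[h | MeasurableSpace.comap ψ inferInstance] w) ^ 2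
      ∂(θ : Measure K) := by
  refine le_antisymm (ciSup_le fun G => vv1_term_le θ hm hC ψ G) ?_
  refine le_of_forall_pos_le_add fun ε hε => ?_
  have hh : MemLp h 2 (θ : Measure K) := vv1_memLp hm hC
  obtain ⟨P', hP'm, hP'⟩ := (stronglyMeasurable_condExp (μ := (θ : Measure K)) (f := h)
    (m := MeasurableSpace.comap ψ inferInstance)).exists_eq_measurable_comp
  have hψ : AEMeasurable ψ (θ : Measure K) := ψ.continuous.measurable.aemeasurable
  have hP : MemLp P' 2 ((θ : Measure K).map ψ) := by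
    rw [memLp_map_measure_iff hP'm.aestronglyMeasurable hψ, ← hP']
    exact hh.condExp one_le_two
  obtain ⟨G, hG⟩ := exists_cont_approx ((θ : Measure K).map ψ) hP hε
  have hPG : Measurable fun x => (P' x - G x) ^ 2 :=
    (hP'm.measurable.sub G.continuous.measurable).pow_const 2
  rw [integral_map hψ hPG.aestronglyMeasurable] at hG
  have h1 := le_ciSup (vv1_bdd θ hm hC ψ) G
  have h2 := vv1_key (vv1_le ψ) hh (vv1_memLp_comp _ G ψ) (vv1_aesm_comp _ G ψ)
  have h3 : ∫ w, ((θ : Measure K)[h | MeasurableSpace.comap ψ inferInstance] w - G (ψ w)) ^ 2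
      ∂(θ : Measure K) < ε := by
    rw [hP']; exact hG
  unfold VV
  linarith

theorem VV_bdd (θ : PM K) {h : K → ℝ} (hm : Measurable h) {C : ℝ} (hC : ∀ w, |h w| ≤ C)
    (ψ : C(K, L)) : BddAbove (range fun G : C(L, ℝ) =>
      2 * ∫ w, h w * G (ψ w) ∂(θ : Measure K) - ∫ w, G (ψ w) ^ 2 ∂(θ : Measure K)) := by
  exact vv1_bdd θ hm hC ψ

theorem VV_nonneg (θ : PM K) {h : K → ℝ} (hm : Measurable h) {C : ℝ} (hC : ∀ w, |h w| ≤ C)
    (ψ : C(K, L)) : 0 ≤ VV θ h ψ := by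
  rw [VV_eq θ hm hC ψ]
  exact integral_nonneg fun w => sq_nonneg _

theorem VV_le (θ : PM K) {h : K → ℝ} (hm : Measurable h) {C : ℝ} (hC : ∀ w, |h w| ≤ C)
    (ψ : C(K, L)) : VV θ h ψ ≤ ∫ w, h w ^ 2 ∂(θ : Measure K) := by
  rw [VV_eq θ hm hC ψ]
  have h1 := vv1_pyth (vv1_le ψ) (vv1_memLp (μ := (θ : Measure K)) hm hC)
  have h2 : 0 ≤ ∫ w, (h w - (θ : Measure K)[h | MeasurableSpace.comap ψ inferInstance] w) ^ 2
      ∂(θ : Measure K) := integral_nonneg fun w => sq_nonneg _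
  linarith

theorem abs_VV_le (θ : PM K) {h : K → ℝ} (hm : Measurable h) {C : ℝ} (hC : ∀ w, |h w| ≤ C)
    (ψ : C(K, L)) : |VV θ h ψ| ≤ C ^ 2 := by
  rw [abs_of_nonneg (VV_nonneg θ hm hC ψ)]
  refine (VV_le θ hm hC ψ).trans ?_
  have h1 : ∫ w, h w ^ 2 ∂(θ : Measure K) ≤ ∫ _, C ^ 2 ∂(θ : Measure K) :=
    integral_mono (vv1_memLp hm hC).integrable_sq (integrable_const _) fun w =>
      sq_le_sq' (abs_le.1 (hC w)).1 (abs_le.1 (hC w)).2
  simpa using h1

theorem vv1_cont (θ : PM K) {h : K → ℝ} (hm : Measurable h) {C : ℝ} (hC : ∀ w, |h w| ≤ C)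
    (ψ : C(K, L)) : Continuous fun G : C(L, ℝ) =>
      2 * ∫ w, h w * G (ψ w) ∂(θ : Measure K) - ∫ w, G (ψ w) ^ 2 ∂(θ : Measure K) := by
  refine (continuous_const.mul ?_).sub ?_
  · have hC0 : 0 ≤ C := (abs_nonneg _).trans (hC (Classical.arbitrary K))
    refine (LipschitzWith.of_dist_le_mul (K := C.toNNReal) fun a b => ?_).continuous
    rw [Real.coe_toNNReal C hC0, dist_eq_norm, dist_eq_norm, ← integral_sub
      (vv1_int_mul (vv1_memLp hm hC) (vv1_memLp_comp _ a ψ))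
      (vv1_int_mul (vv1_memLp hm hC) (vv1_memLp_comp _ b ψ))]
    have key := norm_integral_le_of_norm_le_const (μ := (θ : Measure K)) (C := C * ‖a - b‖)
      (f := fun w => h w * a (ψ w) - h w * b (ψ w)) (ae_of_all _ fun w => by
        rw [← mul_sub, norm_mul]
        exact mul_le_mul (hC w) ((a - b).norm_coe_le_norm (ψ w)) (norm_nonneg _) hC0)
    simpa using key
  · have h1 : Continuous fun G : C(L, ℝ) => (G.comp ψ) ^ 2 :=
      (ContinuousMap.continuous_precomp ψ).pow 2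
    exact (continuous_ev_left θ).comp h1

/-- The supremum can be taken over a dense sequence of `C(L, ℝ)`; `measurable_integral_pm`. -/
theorem measurable_VV {h : K → ℝ} (hm : Measurable h) {C : ℝ} (hC : ∀ w, |h w| ≤ C)
    (ψ : C(K, L)) : Measurable fun θ : PM K => VV θ h ψ := by
  obtain ⟨D, hDc, hD⟩ := TopologicalSpace.exists_countable_dense C(L, ℝ)
  have := hDc.to_subtype
  have e : (fun θ : PM K => VV θ h ψ) = fun θ : PM K => ⨆ G : D,
      (2 * ∫ w, h w * G.1 (ψ w) ∂(θ : Measure K) - ∫ w, G.1 (ψ w) ^ 2 ∂(θ : Measure K)) := by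
    funext θ
    exact (hD.ciSup' (vv1_cont θ hm hC ψ)).symm
  rw [e]
  refine Measurable.iSup fun G => ?_
  have hG : Measurable fun w => G.1 (ψ w) := (G.1.comp ψ).continuous.measurable
  exact ((measurable_integral_pm (hm.mul hG)).const_mul 2).sub
    (measurable_integral_pm (hG.pow_const 2))

theorem VV_comp_le (θ : PM K) {h : K → ℝ} (hm : Measurable h) {C : ℝ} (hC : ∀ w, |h w| ≤ C)
    (ψ : C(K, L)) (χ : C(L, N)) : VV θ h (χ.comp ψ) ≤ VV θ h ψ := by
  exact ciSup_le fun G => le_ciSup (VV_bdd θ hm hC ψ) (G.comp χ)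

theorem VV_pmap (θ : PM K) (g : C(K, N)) {h : N → ℝ} (hm : Measurable h) (ψ : C(N, L)) :
    VV (pmap g θ) h ψ = VV θ (fun w => h (g w)) (ψ.comp g) := by
  unfold VV
  congr 1
  funext G
  have hG : Measurable fun w => G (ψ w) := (G.comp ψ).continuous.measurable
  have hg : AEMeasurable g (θ : Measure K) := g.continuous.measurable.aemeasurable
  have hhG : Measurable fun w => h w * G (ψ w) := hm.mul hG
  rw [coe_pmap, integral_map hg hhG.aestronglyMeasurable,
    integral_map hg (hG.pow_const 2).aestronglyMeasurable]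
  rfl

/-- Convexity. -/
theorem VV_bary {ξ : PM (PM K)} {μ : PM K} (hb : IsBary ξ μ) {h : K → ℝ} (hm : Measurable h)
    {C : ℝ} (hC : ∀ w, |h w| ≤ C) (ψ : C(K, L)) :
    VV μ h ψ ≤ ∫ ν, VV ν h ψ ∂(ξ : Measure (PM K)) := by
  refine ciSup_le fun G => ?_
  have hG : Measurable fun w => G (ψ w) := (G.comp ψ).continuous.measurable
  have e : ∀ ν : PM K, 2 * ∫ w, h w * G (ψ w) ∂(ν : Measure K) - ∫ w, G (ψ w) ^ 2 ∂(ν : Measure K)
      = ∫ w, (2 * (h w * G (ψ w)) - G (ψ w) ^ 2) ∂(ν : Measure K) := fun ν => by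
    rw [integral_sub ((vv1_int_mul (vv1_memLp hm hC) (vv1_memLp_comp _ G ψ)).const_mul 2)
      (vv1_memLp_comp _ G ψ).integrable_sq, integral_const_mul]
  have hk : Measurable fun w => 2 * (h w * G (ψ w)) - G (ψ w) ^ 2 :=
    ((hm.mul hG).const_mul 2).sub (hG.pow_const 2)
  have hkb : ∀ w, ‖2 * (h w * G (ψ w)) - G (ψ w) ^ 2‖ ≤ 2 * (C * ‖G‖) + ‖G‖ ^ 2 := fun w => by
    have h1 : |G (ψ w)| ≤ ‖G‖ := G.norm_coe_le_norm _
    refine (norm_sub_le _ _).trans (add_le_add ?_ ?_)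
    · rw [Real.norm_eq_abs, abs_mul, abs_mul, abs_two]
      exact mul_le_mul_of_nonneg_left
        (mul_le_mul (hC w) h1 (abs_nonneg _) ((abs_nonneg _).trans (hC w))) zero_le_two
    · rw [Real.norm_eq_abs, abs_pow]
      exact pow_le_pow_left₀ (abs_nonneg _) h1 2
  rw [e μ, hb.integral (Integrable.of_bound hk.aestronglyMeasurable _ (ae_of_all _ hkb))]
  refine integral_mono ?_ ?_ fun ν => ?_
  · refine Integrable.of_bound (measurable_integral_pm hk).aestronglyMeasurable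
      (2 * (C * ‖G‖) + ‖G‖ ^ 2) (ae_of_all _ fun ν => ?_)
    simpa using norm_integral_le_of_norm_le_const (μ := (ν : Measure K)) (ae_of_all _ hkb)
  · exact Integrable.of_bound (measurable_VV hm hC ψ).aestronglyMeasurable (C ^ 2)
      (ae_of_all _ fun ν => abs_VV_le ν hm hC ψ)
  · simp only
    rw [← e ν]
    exact le_ciSup (VV_bdd ν hm hC ψ) G

/-- `|P² - P'²| = |P - P'| * |P + P'|` with `VV_eq`. -/
theorem abs_VV_sub_le (θ : PM K) {h h' : K → ℝ} (hm : Measurable h) (hm' : Measurable h')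
    {C δ : ℝ} (hC : ∀ w, |h w| ≤ C) (hC' : ∀ w, |h' w| ≤ C) (hδ : ∀ w, |h w - h' w| ≤ δ)
    (ψ : C(K, L)) : |VV θ h ψ - VV θ h' ψ| ≤ 2 * C * δ := by
  have hh : MemLp h 2 (θ : Measure K) := vv1_memLp hm hC
  have hh' : MemLp h' 2 (θ : Measure K) := vv1_memLp hm' hC'
  rw [VV_eq θ hm hC ψ, VV_eq θ hm' hC' ψ, ← integral_sub (hh.condExp one_le_two).integrable_sq
    (hh'.condExp one_le_two).integrable_sq, ← Real.norm_eq_abs]
  have h1 := ae_bdd_abs_condExp_of_ae_bdd_abs (m := MeasurableSpace.comap ψ inferInstance)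
    (μ := (θ : Measure K)) (ae_of_all _ hC)
  have h2 := ae_bdd_abs_condExp_of_ae_bdd_abs (m := MeasurableSpace.comap ψ inferInstance)
    (μ := (θ : Measure K)) (ae_of_all _ hC')
  have h3 := ae_bdd_abs_condExp_of_ae_bdd_abs (m := MeasurableSpace.comap ψ inferInstance)
    (μ := (θ : Measure K)) (f := h - h') (ae_of_all _ hδ)
  have h4 := condExp_sub (hh.integrable one_le_two) (hh'.integrable one_le_two)
    (MeasurableSpace.comap ψ inferInstance)
  have key := norm_integral_le_of_norm_le_const (μ := (θ : Measure K)) (C := 2 * C * δ)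
    (f := fun w => ((θ : Measure K)[h | MeasurableSpace.comap ψ inferInstance] w) ^ 2 -
      ((θ : Measure K)[h' | MeasurableSpace.comap ψ inferInstance] w) ^ 2) (by
    filter_upwards [h1, h2, h3, h4] with w a1 a2 a3 a4
    rw [a4, Pi.sub_apply] at a3
    rw [sq_sub_sq, Real.norm_eq_abs, abs_mul]
    refine mul_le_mul ((abs_add_le _ _).trans (by linarith)) a3 (abs_nonneg _) ?_
    linarith [abs_nonneg ((θ : Measure K)[h | MeasurableSpace.comap ψ inferInstance] w)])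
  simpa using key


end Vale.Agent.P102
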