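import Vale.Agent.P102.VV2
import Vale.Agent.P102.Lim

/-! Monotonicity and continuity of `val`. -/

open MeasureTheory ProbabilityTheory Filter Topology Set
open scoped ComplexConjugate

noncomputable section

namespace Vale.Agent.P102

variable {K L : Type}
  [TopologicalSpace K] [MeasurableSpace K] [Nice K] [AddAction ℤ K] [ContinuousConstVAdd ℤ K]
  [TopologicalSpace L] [MeasurableSpace L] [Nice L] [AddAction ℤ L] [ContinuousConstVAdd ℤ L]
variable {ι : Type} [Fintype ι] (p : Ultrafilter (ι → ℤ))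

section Aux
omit [AddAction ℤ K] [ContinuousConstVAdd ℤ K] [AddAction ℤ L] [ContinuousConstVAdd ℤ L]

omit [Fintype ι] in
theorem val_meas (h : C(K, ℝ)) (i : ι) : Measurable fun w : ι → K => h (w i) :=
  h.continuous.measurable.comp (measurable_pi_apply i)

omit [Fintype ι] in
theorem val_bd (h : C(K, ℝ)) (i : ι) (w : ι → K) : |h (w i)| ≤ ‖h‖ :=
  h.norm_coe_le_norm (w i)

theorem val_int (h : C(K, ℝ)) (i : ι) (ψ : C(ι → K, L)) (ξ : PM (PM (ι → K))) :
    Integrable (fun κ => VV κ (fun w => h (w i)) ψ) (ξ : Measure (PM (ι → K))) :=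
  Integrable.of_bound (measurable_VV (val_meas h i) (val_bd h i) ψ).aestronglyMeasurable
    (‖h‖ ^ 2) (ae_of_all _ fun κ => abs_VV_le κ (val_meas h i) (val_bd h i) ψ)

end Aux

theorem val_map {g : C(L, K)} (hg : Eqv g) (𝔩 : PM (PM L)) (h : C(K, ℝ)) (i : ι) :
    val p (pmap (pmap g) 𝔩) h i = ∫ κ, VV κ (fun w => h.comp g (w i))
      ((cpi {l | l ≠ i} g).comp (crs L {l | l ≠ i})) ∂(rowLim p 𝔩 : Measure (PM (ι → L))) := by
  rw [val, ← rowLim_map p hg, coe_pmap, integral_map (pmap _).continuous.measurable.aemeasurable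
    (measurable_VV (val_meas h i) (val_bd h i) _).aestronglyMeasurable]
  exact integral_congr_ae (ae_of_all _ fun κ => VV_pmap κ _ (val_meas h i) _)

/-- `rowLim_map`, `VV_pmap`, `VV_comp_le`: `crs K D ∘ cpi ι g = cpi D g ∘ crs L D`. -/
theorem val_le_ext {g : C(L, K)} (hg : Eqv g) (𝔩 : PM (PM L)) (h : C(K, ℝ)) (i : ι) :
    val p (pmap (pmap g) 𝔩) h i ≤ val p 𝔩 (h.comp g) i := by
  rw [val_map p hg]
  exact integral_mono (val_int _ i _ _) (val_int _ i _ _) fun κ =>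
    VV_comp_le κ (val_meas _ i) (val_bd _ i) _ _

/-- As above, with `crs L D = cpi D d ∘ crs K D ∘ cpi ι g`. -/
theorem val_emb {g : C(L, K)} (hg : Eqv g) (d : C(K, L)) (hd : ∀ w, d (g w) = w)
    (𝔩 : PM (PM L)) (h : C(K, ℝ)) (i : ι) :
    val p 𝔩 (h.comp g) i ≤ val p (pmap (pmap g) 𝔩) h i := by
  rw [val_map p hg]
  refine integral_mono (val_int _ i _ _) (val_int _ i _ _) fun κ => ?_
  have e : crs L {l | l ≠ i} =
      (cpi {l | l ≠ i} d).comp ((cpi {l | l ≠ i} g).comp (crs L {l | l ≠ i})) := by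
    ext w l
    exact (hd _).symm
  have h1 := VV_comp_le κ (val_meas (h.comp g) i) (val_bd _ i)
    ((cpi {l | l ≠ i} g).comp (crs L {l | l ≠ i})) (cpi {l | l ≠ i} d)
  rwa [← e] at h1

/-- `Mart.jensen` for `rowLim2 p ρ` with `VV_bary`. -/
theorem val_mart {ρ : PM (PM K × PM K)} (hρ : Mart ρ) (h : C(K, ℝ)) (i : ι) :
    val p (pfst ρ) h i ≤ val p (psnd ρ) h i := by
  rw [val, val, ← rowLim2_fst, ← rowLim2_snd]
  exact (rowLim2_mart p hρ).jensen (measurable_VV (val_meas h i) (val_bd h i) _)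
    (fun κ => abs_VV_le κ (val_meas h i) (val_bd h i) _)
    fun _ _ hb => VV_bary hb (val_meas h i) (val_bd h i) _

theorem val_le_norm (𝔪 : PM (PM K)) (h : C(K, ℝ)) (i : ι) : val p 𝔪 h i ≤ ‖h‖ ^ 2 := by
  refine (integral_mono (val_int h i _ _) (integrable_const (‖h‖ ^ 2)) fun κ =>
    (le_abs_self _).trans (abs_VV_le κ (val_meas h i) (val_bd h i) _)).trans_eq ?_
  simp

theorem abs_val_sub_le (𝔪 : PM (PM K)) (h h' : C(K, ℝ)) (i : ι) :
    |val p 𝔪 h i - val p 𝔪 h' i| ≤ 2 * max ‖h‖ ‖h'‖ * ‖h - h'‖ := by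
  rw [val, val, ← integral_sub (val_int h i _ _) (val_int h' i _ _), ← Real.norm_eq_abs]
  refine (norm_integral_le_of_norm_le_const (C := 2 * max ‖h‖ ‖h'‖ * ‖h - h'‖)
    (ae_of_all _ fun κ => abs_VV_sub_le κ (val_meas h i) (val_meas h' i)
      (fun w => (val_bd h i w).trans (le_max_left _ _))
      (fun w => (val_bd h' i w).trans (le_max_right _ _)) (val_bd (h - h') i) _)).trans_eq ?_
  simp

/-- Pointwise `VV Θ (h (w i s)) (crs) ≥ VV Θ (h (w i s)) (cpi _ (cev K s) ∘ crs)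
= VV (row s law) (h (w i)) crs`, and the integral of the right side is `val p 𝔪 h i`
(`rowLim_map`). So equality holds a.e., simultaneously for `h` in a countable dense set; then
`CI_of_VV` with `β = (cev K s).comp (cev _ i)`, `ψ = crs (α → K) {l | l ≠ i}`,
`χ = cpi _ (cev K s)`; identify the sigma-algebras with `gσ_singleton`, `comap_restrict_row`,
`comap_crs`, `gσ_univ`. -/
theorem satS_of_val {𝔪 : PM (PM K)}
    (h : ∀ (α : Type) [Fintype α] (s : α) (𝔩 : PM (PM (α → K))), Inv 𝔩 →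
      pmap (pmap (cev K s)) 𝔩 = 𝔪 → ∀ (h : C(K, ℝ)) (i : ι),
        val p 𝔩 (h.comp (cev K s)) i ≤ val p 𝔪 h i) : SatS p 𝔪 := by
  intro α _ s 𝔩 h𝔩 hm i
  obtain ⟨D, hDc, hD⟩ := TopologicalSpace.exists_countable_dense C(K, ℝ)
  have key : ∀ f ∈ D, ∀ᵐ Θ : PM (ι → α → K) ∂(rowLim p 𝔩 : Measure (PM (ι → α → K))),
      VV Θ (fun w => f.comp (cev K s) (w i))
        ((cpi {l | l ≠ i} (cev K s)).comp (crs (α → K) {l | l ≠ i})) =
      VV Θ (fun w => f.comp (cev K s) (w i)) (crs (α → K) {l | l ≠ i}) := by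
    intro f _
    have h1 := h α s 𝔩 h𝔩 hm f i
    rw [← hm, val_map p (eqv_cev s)] at h1
    have h2 : ∀ Θ : PM (ι → α → K), VV Θ (fun w => f.comp (cev K s) (w i))
        ((cpi {l | l ≠ i} (cev K s)).comp (crs (α → K) {l | l ≠ i})) ≤
        VV Θ (fun w => f.comp (cev K s) (w i)) (crs (α → K) {l | l ≠ i}) := fun Θ =>
      VV_comp_le Θ (val_meas _ i) (val_bd _ i) _ _
    exact (integral_eq_iff_of_ae_le (val_int _ i _ _) (val_int _ i _ _) (ae_of_all _ h2)).1
      (le_antisymm (integral_mono (val_int _ i _ _) (val_int _ i _ _) h2) h1)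
  filter_upwards [(ae_ball_iff hDc).2 key] with Θ hΘ
  have h3 := CI_of_VV Θ ((cev K s).comp (cev (α → K) i)) (crs (α → K) {l | l ≠ i})
    (cpi {l | l ≠ i} (cev K s)) hD fun f hf => (hΘ f hf).ge
  rw [gσ_singleton, ← comap_restrict_row, gσ_univ, ← comap_crs]
  exact h3


end Vale.Agent.P102
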