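import Vale.Agent.P102.MixL2

/-! Nilpotent characters are uncorrelated with a mixing base. -/

open MeasureTheory ProbabilityTheory Filter Topology Set
open scoped ComplexConjugate

noncomputable section

namespace Vale.Agent.P102

variable {Y : Type} [TopologicalSpace Y] [MeasurableSpace Y] [Nice Y] [AddAction ℤ Y]
  [ContinuousConstVAdd ℤ Y] {X G : Type} [MeasurableSpace X] [CommGroup G] {μ : Measure X}
  [IsProbabilityMeasure μ] {π : X → Y} {r : G → X → ℂ} {σ : MulAut G} {μY : PM Y}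

omit [TopologicalSpace Y] [Nice Y] [ContinuousConstVAdd ℤ Y] [IsProbabilityMeasure μ] in
theorem vdc_one (h : GData μ π G r σ) : ∀ᵐ x ∂μ, r 1 x = 1 := by
  filter_upwards [h.mul 1 1] with x hx
  rw [mul_one] at hx
  have h0 : r 1 x ≠ 0 := by
    intro h1
    have := h.norm 1 x
    rw [h1, norm_zero] at this
    exact zero_ne_one this
  exact (mul_eq_left₀ h0).1 hx.symm

omit [TopologicalSpace Y] [Nice Y] [ContinuousConstVAdd ℤ Y] [IsProbabilityMeasure μ] in
theorem vdc_inv (h : GData μ π G r σ) (a : G) : ∀ᵐ x ∂μ, r a⁻¹ x = conj (r a x) := by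
  filter_upwards [h.mul a a⁻¹, vdc_one h] with x hx h1
  rw [mul_inv_cancel, h1] at hx
  rw [← Complex.inv_eq_conj (h.norm a x)]
  exact eq_inv_of_mul_eq_one_right hx.symm

/-- The subgroup of constants. -/
def GData.C (h : GData μ π G r σ) : Subgroup G where
  carrier := {a | ∃ z : ℂ, ∀ᵐ x ∂μ, r a x = z}
  mul_mem' := by
    rintro a b ⟨z, hz⟩ ⟨w, hw⟩
    refine ⟨z * w, ?_⟩
    filter_upwards [h.mul a b, hz, hw] with x h1 h2 h3
    rw [h1, h2, h3]
  one_mem' := ⟨1, vdc_one h⟩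
  inv_mem' := by
    rintro a ⟨z, hz⟩
    refine ⟨conj z, ?_⟩
    filter_upwards [vdc_inv h a, hz] with x h1 h2
    rw [h1, h2]

theorem GData.mem_C (h : GData μ π G r σ) {a : G} : a ∈ h.C ↔ ∃ z : ℂ, ∀ᵐ x ∂μ, r a x = z :=
  Iff.rfl

theorem GData.one (h : GData μ π G r σ) : ∀ᵐ x ∂μ, r 1 x = 1 := vdc_one h

theorem GData.inv (h : GData μ π G r σ) (a : G) : ∀ᵐ x ∂μ, r a⁻¹ x = conj (r a x) :=
  vdc_inv h a

theorem GData.prod (h : GData μ π G r σ) {I : Type} (T : Finset I) (a : I → G) :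
    ∀ᵐ x ∂μ, r (∏ i ∈ T, a i) x = ∏ i ∈ T, r (a i) x := by
  classical
  induction T using Finset.induction_on with
  | empty => simpa using h.one
  | insert i T hi ih =>
    filter_upwards [ih, h.mul (a i) (∏ i ∈ T, a i)] with x h1 h2
    rw [Finset.prod_insert hi, Finset.prod_insert hi, h2, h1]

theorem vdc_bm_sh {f : Y → ℂ} (hf : BM f) (n : ℤ) : BM fun y => f (n +ᵥ y) :=
  hf.comp (continuous_const_vadd n).measurable

theorem vdc_step (h : GData μ π G r σ) (n : ℤ) (a : G) {f : Y → ℂ} (hf : BM f) :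
    ∫ x, f ((n + 1) +ᵥ π x) * conj (r ((σ ^ (n + 1)) a) x) ∂μ =
      ∫ x, f (n +ᵥ π x) * conj (r ((σ ^ n) a) x) ∂μ := by
  have h1 := h.aut ((σ ^ n) a) _ (vdc_bm_sh hf n)
  have h2 : (σ ^ (n + 1)) a = σ ((σ ^ n) a) := by
    rw [add_comm, zpow_one_add]; rfl
  simp only [h2, add_vadd]
  exact h1

theorem GData.aut_zpow (h : GData μ π G r σ) (n : ℤ) (a : G) {f : Y → ℂ} (hf : BM f) :
    ∫ x, f (n +ᵥ π x) * conj (r ((σ ^ n) a) x) ∂μ = ∫ x, f (π x) * conj (r a x) ∂μ := by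
  induction n using Int.induction_on with
  | zero => simp
  | succ n ih => rw [vdc_step h _ a hf, ih]
  | pred n ih =>
    have := vdc_step h (-(n : ℤ) - 1) a hf
    rw [sub_add_cancel] at this
    rw [← this, ih]

theorem GData.integral_zpow (h : GData μ π G r σ) (n : ℤ) (a : G) :
    ∫ x, r ((σ ^ n) a) x ∂μ = ∫ x, r a x ∂μ := by
  have := h.aut_zpow n a (BM.const (X := Y) 1)
  simp only [one_mul, integral_conj] at this
  exact (starRingEnd ℂ).injective this

theorem GData.integral_eq_zero (h : GData μ π G r σ) {a : G} (ha : a ∉ h.C) :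
    ∫ x, r a x ∂μ = 0 := (h.dich a).resolve_right ha

theorem vdc_mem_C (h : GData μ π G r σ) {a : G} : a ∈ h.C ↔ ∫ x, r a x ∂μ ≠ 0 := by
  refine ⟨?_, fun ha => by_contra fun hc => ha (h.integral_eq_zero hc)⟩
  rintro ⟨z, hz⟩
  rw [integral_congr_ae hz]
  obtain ⟨x, hx⟩ := hz.exists
  have := h.norm a x
  rw [hx] at this
  simp only [integral_const, probReal_univ, one_smul]
  intro h0
  rw [h0, norm_zero] at this
  exact zero_ne_one this

theorem GData.zpow_mem_C (h : GData μ π G r σ) (n : ℤ) (a : G) : (σ ^ n) a ∈ h.C ↔ a ∈ h.C := by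
  rw [vdc_mem_C, vdc_mem_C, h.integral_zpow]

theorem vdc_sq {S : X → ℂ} (hS : BM S) : ‖∫ x, S x ∂μ‖ ^ 2 ≤ ‖∫ x, S x * conj (S x) ∂μ‖ := by
  have h1 : ∫ x, S x * conj (S x) ∂μ = ((∫ x, ‖S x‖ ^ 2 ∂μ : ℝ) : ℂ) := by
    rw [← integral_complex_ofReal]
    refine integral_congr_ae (ae_of_all _ fun x => ?_)
    simp only [Complex.mul_conj, Complex.normSq_eq_norm_sq]
  have h2 := variance_nonneg (fun x => ‖S x‖) μ
  rw [variance_eq_sub (hS.memLp μ 2).norm] at h2
  have h3 := norm_integral_le_integral_norm (μ := μ) S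
  rw [h1, Complex.norm_real]
  refine le_trans ?_ (le_abs_self _)
  have h4 : ‖∫ x, S x ∂μ‖ ^ 2 ≤ (∫ x, ‖S x‖ ∂μ) ^ 2 := by gcongr
  have h5 : ∫ x, ((fun x => ‖S x‖) ^ 2) x ∂μ = ∫ x, ‖S x‖ ^ 2 ∂μ := rfl
  linarith

theorem vdc_bm_sum {v : ℕ → X → ℂ} (hv : ∀ i, BM (v i)) (N : ℕ) :
    BM fun x => ∑ i ∈ Finset.range N, v i x := by
  induction N with
  | zero => simpa using BM.const 0
  | succ N ih => simpa only [Finset.sum_range_succ] using ih.add (hv N)

theorem vdc_key {v : ℕ → X → ℂ} (hv : ∀ i, BM (v i)) {c : ℂ} (hc : ∀ i, ∫ x, v i x ∂μ = c)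
    {C ε : ℝ} (hε0 : 0 ≤ ε) (hC : ∀ i, ‖∫ x, v i x * conj (v i x) ∂μ‖ ≤ C)
    (hε : ∀ i j, i ≠ j → ‖∫ x, v i x * conj (v j x) ∂μ‖ ≤ ε) : ‖c‖ ^ 2 ≤ ε := by
  have key : ∀ N : ℕ, (N * ‖c‖) ^ 2 ≤ N * (C + N * ε) := by
    intro N
    have h1 := vdc_sq (μ := μ) (vdc_bm_sum hv N)
    rw [integral_finsetSum _ fun i _ => (hv i).integrable μ] at h1
    simp only [hc, Finset.sum_const, Finset.card_range, nsmul_eq_mul, norm_mul,
      Complex.norm_natCast, map_sum, Finset.sum_mul_sum] at h1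
    refine h1.trans ?_
    rw [integral_finsetSum _ fun i _ => integrable_finsetSum _ fun j _ =>
      ((hv i).mul (hv j).conj).integrable μ]
    refine (norm_sum_le _ _).trans ?_
    have h2 : ∀ i ∈ Finset.range N,
        ‖∫ x, ∑ j ∈ Finset.range N, v i x * conj (v j x) ∂μ‖ ≤ C + N * ε := by
      intro i hi
      rw [integral_finsetSum _ fun j _ => ((hv i).mul (hv j).conj).integrable μ]
      refine (norm_sum_le _ _).trans ?_
      calc ∑ j ∈ Finset.range N, ‖∫ x, v i x * conj (v j x) ∂μ‖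
          ≤ ∑ j ∈ Finset.range N, ((if i = j then C else 0) + ε) := by
            refine Finset.sum_le_sum fun j _ => ?_
            split_ifs with hij
            · subst hij
              linarith [hC i]
            · linarith [hε i j hij]
        _ = C + N * ε := by
            rw [Finset.sum_add_distrib, Finset.sum_ite_eq, if_pos hi]
            simp
    refine (Finset.sum_le_sum h2).trans ?_
    simp [mul_add]
  by_contra hlt
  push Not at hlt
  obtain ⟨N, hN⟩ := exists_nat_gt (|C| / (‖c‖ ^ 2 - ε))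
  have hp : 0 < ‖c‖ ^ 2 - ε := by linarith
  have hN0 : (0 : ℝ) < N := lt_of_le_of_lt (by positivity) hN
  rw [div_lt_iff₀ hp] at hN
  have h1 := key N
  have h2 : (N : ℝ) * (N * ‖c‖ ^ 2) ≤ N * (C + N * ε) := by
    calc (N : ℝ) * (N * ‖c‖ ^ 2) = (N * ‖c‖) ^ 2 := by ring
      _ ≤ _ := h1
  have h3 := le_of_mul_le_mul_left h2 hN0
  nlinarith [le_abs_self C]

/-- The difference operator. -/
def vdc_D (τ : MulAut G) : G →* G where
  toFun b := τ b / b
  map_one' := by simp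
  map_mul' a b := by rw [map_mul, mul_div_mul_comm]

theorem vdc_comm (τ : MulAut G) (s : ℕ) (b : G) :
    (vdc_D τ)^[s] (τ b) = τ ((vdc_D τ)^[s] b) := by
  induction s generalizing b with
  | zero => rfl
  | succ s ih =>
    rw [Function.iterate_succ_apply, Function.iterate_succ_apply, ← ih]
    congr 1
    change τ (τ b) / τ b = τ (τ b / b)
    rw [map_div]

theorem vdc_nil (h : GData μ π G r σ) (q s : ℕ) {a : G}
    (ha : (vdc_D (σ ^ q))^[s + 1] a ∈ h.C) (n : ℕ) :
    (vdc_D (σ ^ q))^[s] ((σ ^ ((q * n : ℕ) : ℤ)) a / a) ∈ h.C := by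
  induction n with
  | zero => simpa [iterate_map_one] using h.C.one_mem
  | succ n ih =>
    have e : (σ ^ ((q * (n + 1) : ℕ) : ℤ)) a / a =
        (σ ^ q) ((σ ^ ((q * n : ℕ) : ℤ)) a / a) * vdc_D (σ ^ q) a := by
      change _ = _ * ((σ ^ q) a / a)
      rw [map_div, div_mul_div_cancel, zpow_natCast, zpow_natCast, mul_add, mul_one, add_comm,
        pow_add]
      rfl
    rw [e, iterate_map_mul, vdc_comm]
    refine h.C.mul_mem ?_ ha
    have := (h.zpow_mem_C (q : ℤ) _).2 ih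
    rwa [zpow_natCast] at this

theorem vdc_nil2 (h : GData μ π G r σ) (q s : ℕ) {a : G}
    (ha : (vdc_D (σ ^ q))^[s + 1] a ∈ h.C) (n m : ℕ) :
    (vdc_D (σ ^ q))^[s] ((σ ^ ((q * n : ℕ) : ℤ)) a / (σ ^ ((q * m : ℕ) : ℤ)) a) ∈ h.C := by
  rw [← div_div_div_cancel_right _ _ a, iterate_map_div]
  exact h.C.div_mem (vdc_nil h q s ha n) (vdc_nil h q s ha m)

theorem vdc_div (h : GData μ π G r σ) (a b : G) :
    ∀ᵐ x ∂μ, conj (r (a / b) x) = conj (r a x) * r b x := by
  filter_upwards [h.mul a b⁻¹, h.inv b] with x h1 h2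
  rw [div_eq_mul_inv, h1, h2, map_mul, Complex.conj_conj]

theorem vdc_bm (h : GData μ π G r σ) (a : G) : BM (r a) :=
  ⟨h.meas a, 1, fun x => (h.norm a x).le⟩

theorem vdc_norm_le (h : GData μ π G r σ) (a : G) : ‖∫ x, r a x ∂μ‖ ≤ 1 := by
  simpa using norm_integral_le_of_norm_le_const (μ := μ) (f := r a) (C := 1)
    (ae_of_all _ fun x => (h.norm a x).le)

theorem vdc_shift (hY : Inv μY) {f : Y → ℂ} (hf : BM f) (n : ℤ) :
    ∫ y, f (n +ᵥ y) ∂(μY : Measure Y) = ∫ y, f y ∂(μY : Measure Y) := by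
  have h := hY.measurePreserving n
  conv_rhs => rw [← h.map_eq]
  rw [integral_map h.measurable.aemeasurable hf.1.aestronglyMeasurable]

/-- Induction on `s`, for all `a` and `f`. Subtract the mean of `f`. With `τ = σ ^ q` put
`v n x = f (q n +ᵥ π x) * conj (r (τ ^ n a) x)`; each has integral `c` (`aut_zpow`), and
`∫ v n * conj (v m)` is the correlation of `f (q n +ᵥ ·) * conj (f (q m +ᵥ ·))` with
`τ ^ n a / τ ^ m a`, which is nilpotent of order `s - 1` (the nilpotent elements of a given order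
form a `τ`-stable subgroup). By induction and `mix_BM` its norm tends to zero with `|n - m|`, so
`‖c‖² ≤ ‖average of v n‖² → 0`. -/
theorem GData.vdc (h : GData μ π G r σ) (hY : Inv μY) (hm : MixY μY)
    (hπ : MeasurePreserving π μ (μY : Measure Y)) {q : ℕ} (hq : 1 ≤ q) (s : ℕ) (a : G)
    (ha : (fun b => (σ ^ q) b / b)^[s] a ∈ h.C) {f : Y → ℂ} (hf : BM f) :
    ∫ x, f (π x) * conj (r a x) ∂μ =
      (∫ y, f y ∂(μY : Measure Y)) * conj (∫ x, r a x ∂μ) := by
  change (vdc_D (σ ^ q))^[s] a ∈ h.C at ha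
  have hI : ∀ {g : Y → ℂ}, BM g → ∫ x, g (π x) ∂μ = ∫ y, g y ∂(μY : Measure Y) := fun hg => by
    rw [← hπ.map_eq, integral_map hπ.measurable.aemeasurable hg.1.aestronglyMeasurable]
  induction s generalizing a f with
  | zero =>
    obtain ⟨z, hz⟩ := ha
    have hz : ∀ᵐ x ∂μ, r a x = z := hz
    rw [integral_congr_ae hz, ← hI hf, integral_congr_ae (g := fun x => f (π x) * conj z)
      (hz.mono fun x hx => by rw [hx]), integral_mul_const]
    simp
  | succ s ih =>
    set m := ∫ y, f y ∂(μY : Measure Y) with hm0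
    have hg : BM fun y => f y - m := hf.sub (BM.const m)
    set g : Y → ℂ := fun y => f y - m with hg0
    have g0 : ∫ y, g y ∂(μY : Measure Y) = 0 := by
      rw [hg0, integral_sub (hf.integrable _) (integrable_const _)]
      simp [hm0]
    have hc : ∫ x, g (π x) * conj (r a x) ∂μ = 0 := by
      have hφ := mix_BM hY hm hg.conj hg
      rw [g0, mul_zero] at hφ
      set φ : ℤ → ℂ := fun n => ∫ y, conj (g y) * g (n +ᵥ y) ∂(μY : Measure Y) with hφ0
      have hb : ∀ n k : ℕ, ‖∫ x, (g (((q * n : ℕ) : ℤ) +ᵥ π x) *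
          conj (r ((σ ^ ((q * n : ℕ) : ℤ)) a) x)) * conj (g (((q * k : ℕ) : ℤ) +ᵥ π x) *
          conj (r ((σ ^ ((q * k : ℕ) : ℤ)) a) x)) ∂μ‖ ≤
          ‖φ (((q * n : ℕ) : ℤ) - ((q * k : ℕ) : ℤ))‖ := by
        intro n k
        have h1 := ih _
          ((vdc_bm_sh hg ((q * n : ℕ) : ℤ)).mul (vdc_bm_sh hg ((q * k : ℕ) : ℤ)).conj)
          (vdc_nil2 h q s ha n k)
        have h2 := vdc_shift hY (hg.conj.mul
          (vdc_bm_sh hg (((q * n : ℕ) : ℤ) - ((q * k : ℕ) : ℤ)))) ((q * k : ℕ) : ℤ)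
        simp only [← add_vadd, sub_add_cancel] at h2
        have h3 : ∫ y, g (((q * n : ℕ) : ℤ) +ᵥ y) * conj (g (((q * k : ℕ) : ℤ) +ᵥ y))
            ∂(μY : Measure Y) = φ (((q * n : ℕ) : ℤ) - ((q * k : ℕ) : ℤ)) := by
          rw [hφ0]
          simp only
          rw [← h2]
          simp only [mul_comm]
        rw [h3] at h1
        rw [integral_congr_ae (g := fun x => g (((q * n : ℕ) : ℤ) +ᵥ π x) *
          conj (g (((q * k : ℕ) : ℤ) +ᵥ π x)) * conj (r ((σ ^ ((q * n : ℕ) : ℤ)) a /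
            (σ ^ ((q * k : ℕ) : ℤ)) a) x)) ((vdc_div h ((σ ^ ((q * n : ℕ) : ℤ)) a)
              ((σ ^ ((q * k : ℕ) : ℤ)) a)).mono fun x hx => by
              simp only [hx, map_mul, Complex.conj_conj]; ring), h1, norm_mul, RCLike.norm_conj]
        exact mul_le_of_le_one_right (norm_nonneg _) (vdc_norm_le h _)
      have hsm : ∀ ε : ℝ, 0 < ε → ‖∫ x, g (π x) * conj (r a x) ∂μ‖ ^ 2 ≤ ε := by
        intro ε hε
        have h1 : ∀ᶠ n in cofinite, ‖φ n‖ < ε :=
          (tendsto_zero_iff_norm_tendsto_zero.1 hφ).eventually (gt_mem_nhds hε)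
        obtain ⟨L, hL⟩ : ∃ L : ℕ, ∀ n : ℤ, (L : ℤ) < |n| → ‖φ n‖ < ε := by
          obtain ⟨B, hB⟩ := ((eventually_cofinite.1 h1).image fun n => |n|).bddAbove
          refine ⟨B.toNat, fun n hn => by_contra fun hc => ?_⟩
          have := hB ⟨n, hc, rfl⟩
          have h2 := Int.self_le_toNat B
          simp only at this
          omega
        refine vdc_key (μ := μ) (C := ‖φ 0‖)
          (v := fun i x => g (((q * ((L + 1) * i) : ℕ) : ℤ) +ᵥ π x) *
            conj (r ((σ ^ ((q * ((L + 1) * i) : ℕ) : ℤ)) a) x))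
          (fun i => ((vdc_bm_sh hg _).comp hπ.measurable).mul (vdc_bm h _).conj)
          (fun i => h.aut_zpow _ a hg) hε.le (fun i => ?_) (fun i j hij => ?_)
        · simpa only [sub_self] using hb ((L + 1) * i) ((L + 1) * i)
        · refine (hb _ _).trans (hL _ ?_).le
          have e : ((q * ((L + 1) * i) : ℕ) : ℤ) - ((q * ((L + 1) * j) : ℕ) : ℤ) =
              (q * (L + 1) : ℤ) * ((i : ℤ) - j) := by push_cast; ring
          have h2 : (1 : ℤ) ≤ |(i : ℤ) - j| :=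
            Int.one_le_abs (sub_ne_zero.2 (by exact_mod_cast hij))
          have h3 : (1 : ℤ) ≤ q := by exact_mod_cast hq
          have h4 : (0 : ℤ) ≤ L := by positivity
          rw [e, abs_mul, abs_of_nonneg (by positivity : (0 : ℤ) ≤ q * (L + 1))]
          have h5 : (L + 1 : ℤ) ≤ q * (L + 1) := by nlinarith
          nlinarith
      have h0 : ‖∫ x, g (π x) * conj (r a x) ∂μ‖ ^ 2 ≤ 0 :=
        le_of_forall_pos_le_add fun ε hε => by simpa using hsm ε hε
      exact norm_eq_zero.1 (pow_eq_zero_iff two_ne_zero |>.1 (le_antisymm h0 (sq_nonneg _)))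
    have e : ∫ x, g (π x) * conj (r a x) ∂μ =
        ∫ x, f (π x) * conj (r a x) ∂μ - m * conj (∫ x, r a x ∂μ) := by
      rw [← integral_conj, ← integral_const_mul, ← integral_sub
        (((hf.comp hπ.measurable).mul (vdc_bm h a).conj).integrable μ)
        (((BM.const m).mul (vdc_bm h a).conj).integrable μ)]
      simp only [hg0, sub_mul]
    rw [e] at hc
    exact sub_eq_zero.1 hc


end Vale.Agent.P102
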